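import Vale.Agent.P028W.Defs
import Vale.Agent.P028EV.Weights
import Vale.Agent.P028EV.Sieve

/-!
Module A1: the sets `AT`; adapt Vale/Agent/P028EV/{Local,Intv,Diag,Gdc,Result}.lean, where the same facts are proved
for `AS γ ψ q` with `B = bq γ q`, `A = aq γ q` (only `gcd(A,B) = 1` is used there).
-/

namespace Vale.Agent.P028W

open Finset MeasureTheory
open Vale.Agent.P028EV (q1 r1 Del hh Ts Bd Ad Nd)
open Vale.Agent.P028KM (w mu Dm Bl FF MN Sb ex cl OK KO th Th)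

theorem AT_isOpen (γ : ℝ) (B : ℕ) (A : ℤ) (ψ : ℕ → ℝ) (q : ℕ) : IsOpen (AT γ B A ψ q) := by
  have h : AT γ B A ψ q = ⋃ a : ℤ, ⋃ _ : GT B A q a, {x : ℝ | |(q : ℝ) * x - a - γ| < ψ q} := by
    ext x
    simp [AT]
  rw [h]
  refine isOpen_iUnion fun a => isOpen_iUnion fun _ => ?_
  exact isOpen_lt (by fun_prop) continuous_const

theorem AT_mono {γ : ℝ} {B : ℕ} {A : ℤ} {ψ ψ' : ℕ → ℝ} {q : ℕ} (h : ψ' q ≤ ψ q) :
    AT γ B A ψ' q ⊆ AT γ B A ψ q := by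
  rintro x ⟨a, ha, hx⟩
  exact ⟨a, ha, hx.trans_le h⟩

private theorem A1_GT_add (B : ℕ) (A : ℤ) (q : ℕ) (a j : ℤ) :
    GT B A q (a + j * q) ↔ GT B A q a := by
  have key : ∀ p : ℕ, p ∣ q → (((p : ℤ) ∣ (B : ℤ) * (a + j * q) + A) ↔
      ((p : ℤ) ∣ (B : ℤ) * a + A)) := by
    intro p hpq
    have hpq' : (p : ℤ) ∣ (q : ℤ) := Int.natCast_dvd_natCast.mpr hpq
    have e : (B : ℤ) * (a + j * q) + A = ((B : ℤ) * j) * q + ((B : ℤ) * a + A) := by ring
    rw [e]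
    exact dvd_add_right (hpq'.mul_left _)
  constructor
  · intro h p hpp hpq hdiv
    exact h p hpp hpq ((key p hpq).mpr hdiv)
  · intro h p hpp hpq hdiv
    exact h p hpp hpq ((key p hpq).mp hdiv)

theorem AT_per (γ : ℝ) (B : ℕ) (A : ℤ) (ψ : ℕ → ℝ) (q : ℕ) (x : ℝ) :
    x ∈ AT γ B A ψ q ↔ x + 1 ∈ AT γ B A ψ q := by
  constructor
  · rintro ⟨a, ha, h⟩
    refine ⟨a + 1 * q, (A1_GT_add B A q a 1).2 ha, ?_⟩
    have e : (q : ℝ) * (x + 1) - ((a + 1 * q : ℤ) : ℝ) - γ = (q : ℝ) * x - a - γ := by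
      push_cast
      ring
    rw [e]
    exact h
  · rintro ⟨a, ha, h⟩
    refine ⟨a + (-1) * q, (A1_GT_add B A q a (-1)).2 ha, ?_⟩
    have e : (q : ℝ) * x - ((a + (-1) * q : ℤ) : ℝ) - γ = (q : ℝ) * (x + 1) - a - γ := by
      push_cast
      ring
    rw [e]
    exact h

theorem AT_sub (γ : ℝ) (B : ℕ) (A : ℤ) (ψ : ℕ → ℝ) (q : ℕ) :
    AT γ B A ψ q ⊆ Vale.Agent.P028KM.AF γ ψ q := by
  rintro x ⟨a, -, hx⟩
  exact ⟨a, hx⟩

private theorem A1_fac {p : ℕ} (hp : p.Prime) :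
    (1 / 2 : ℝ) ≤ 1 - 1 / (p : ℝ) ∧ 1 - 1 / (p : ℝ) ≤ 1 := by
  have h2 : (2 : ℝ) ≤ (p : ℝ) := by exact_mod_cast hp.two_le
  have h3 : 1 / (p : ℝ) ≤ 1 / 2 := one_div_le_one_div_of_le (by norm_num) h2
  have h4 : 0 ≤ 1 / (p : ℝ) := by positivity
  constructor <;> linarith

theorem WT_pos (B q : ℕ) : 0 < WT B q := by
  unfold WT
  refine Finset.prod_pos fun p hp => ?_
  have := (A1_fac (Nat.prime_of_mem_primeFactors (Finset.mem_filter.1 hp).1)).1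
  linarith

private theorem A1_ww_le (B q : ℕ) : Vale.Agent.P028EV.ww q ≤ WT B q := by
  have h1 := Finset.prod_filter_mul_prod_filter_not q.primeFactors (fun p => ¬ p ∣ B)
    (fun p => 1 - 1 / (p : ℝ))
  have h2 : ∏ p ∈ q.primeFactors with ¬ ¬ p ∣ B, (1 - 1 / (p : ℝ)) ≤ 1 := by
    refine Finset.prod_le_one (fun p hp => ?_) fun p hp => ?_
    · have := (A1_fac (Nat.prime_of_mem_primeFactors (Finset.mem_filter.1 hp).1)).1
      linarith
    · exact (A1_fac (Nat.prime_of_mem_primeFactors (Finset.mem_filter.1 hp).1)).2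
  have h3 := WT_pos B q
  unfold Vale.Agent.P028EV.ww
  rw [← h1]
  unfold WT at h3 ⊢
  exact mul_le_of_le_one_right h3.le h2

theorem vt_mul (B q : ℕ) : vt B q * WT B q = w q := by
  unfold vt
  exact div_mul_cancel₀ _ (WT_pos B q).ne'

theorem vt_nonneg (B q : ℕ) : 0 ≤ vt B q := by
  unfold vt w
  exact div_nonneg (by positivity) (WT_pos B q).le

theorem vt_le_one (B q : ℕ) : vt B q ≤ 1 := by
  unfold vt
  rw [div_le_one (WT_pos B q)]
  rcases Nat.eq_zero_or_pos q with h | h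
  · subst h
    have := (WT_pos B 0).le
    simpa [w] using this
  · have h1 : w q = Vale.Agent.P028EV.ww q := Vale.Agent.P028EV.ww_eq h
    rw [h1]
    exact A1_ww_le B q

private theorem A1_WT_ge (B q : ℕ) : ((2 : ℝ) ^ q.primeFactors.card)⁻¹ ≤ WT B q := by
  refine le_trans ?_ (A1_ww_le B q)
  unfold Vale.Agent.P028EV.ww
  have h1 : ((2 : ℝ) ^ q.primeFactors.card)⁻¹ = ∏ _p ∈ q.primeFactors, (1 / 2 : ℝ) := by
    rw [Finset.prod_const, one_div, inv_pow]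
  rw [h1]
  exact Finset.prod_le_prod (fun p _ => by norm_num) fun p hp =>
    (A1_fac (Nat.prime_of_mem_primeFactors hp)).1

private theorem A1_GT_iff {B : ℕ} {A : ℤ} (hco : IsCoprime A (B : ℤ)) {q : ℕ} (hq : 0 < q)
    (a : ℤ) : GT B A q a ↔ ∀ p ∈ q.primeFactors.filter (fun p => ¬ p ∣ B),
      ¬ ((p : ℤ) ∣ (B : ℤ) * a + A) := by
  constructor
  · intro h p hp
    rw [Finset.mem_filter, Nat.mem_primeFactors] at hp
    exact h p hp.1.1 hp.1.2.1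
  · intro h p hpp hpq hdiv
    by_cases hb : p ∣ B
    · have hb' : (p : ℤ) ∣ (B : ℤ) := Int.natCast_dvd_natCast.mpr hb
      have ha' : (p : ℤ) ∣ A := (dvd_add_right (hb'.mul_right a)).mp hdiv
      have hu : IsUnit (p : ℤ) := hco.isUnit_of_dvd' ha' hb'
      exact (Nat.prime_iff_prime_int.mp hpp).not_isUnit hu
    · refine h p ?_ hdiv
      rw [Finset.mem_filter, Nat.mem_primeFactors]
      exact ⟨⟨hpp, hpq, hq.ne'⟩, hb⟩

open Classical in
/-- admissible numerators in `[u, v)` -/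
private noncomputable def A1_intS (B : ℕ) (A : ℤ) (q : ℕ) (u v : ℝ) : Finset ℤ :=
  (Finset.Ico ⌈u⌉ ⌈v⌉).filter (fun a => GT B A q a)

private theorem A1_int_mem {B : ℕ} {A : ℤ} {q : ℕ} {u v : ℝ} {a : ℤ} :
    a ∈ A1_intS B A q u v ↔ (u ≤ a ∧ (a : ℝ) < v) ∧ GT B A q a := by
  classical
  unfold A1_intS
  rw [Finset.mem_filter, Finset.mem_Ico, Int.ceil_le, Int.lt_ceil]

private theorem A1_int_count {B : ℕ} {A : ℤ} (hco : IsCoprime A (B : ℤ)) (q : ℕ) (hq : 0 < q)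
    (u v : ℝ) (huv : u ≤ v) :
    |((A1_intS B A q u v).card : ℝ) - (v - u) * WT B q| ≤ 2 ^ q.primeFactors.card := by
  classical
  set P := q.primeFactors.filter (fun p => ¬ p ∣ B) with hP
  have hPp : ∀ p ∈ P, p.Prime := by
    intro p hp
    rw [hP, Finset.mem_filter] at hp
    exact Nat.prime_of_mem_primeFactors hp.1
  have hPa : ∀ p ∈ P, ¬ ((p : ℤ) ∣ (B : ℤ)) := by
    intro p hp h
    rw [hP, Finset.mem_filter] at hp
    exact hp.2 (Int.natCast_dvd_natCast.mp h)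
  have h := Vale.Agent.P028EV.count_interval P hPp (B : ℤ) A hPa u v huv
  have hS : A1_intS B A q u v = (Finset.Ico ⌈u⌉ ⌈v⌉).filter
      (fun k => ∀ p ∈ P, ¬ ((p : ℤ) ∣ (B : ℤ) * k + A)) := by
    ext a
    unfold A1_intS
    rw [Finset.mem_filter, Finset.mem_filter, A1_GT_iff hco hq]
  have hW : WT B q = ∏ p ∈ P, (1 - 1 / (p : ℝ)) := rfl
  rw [hS, hW]
  refine h.trans ?_
  have hcard : P.card ≤ q.primeFactors.card := Finset.card_filter_le _ _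
  exact pow_le_pow_right₀ (by norm_num) hcard

/-- the interval attached to the numerator `a` -/
private def A1_intI (γ ψ : ℝ) (q : ℕ) (a : ℤ) : Set ℝ :=
  Set.Ioo ((a + γ - ψ) / q) ((a + γ + ψ) / q)

private theorem A1_int_memI {γ ψ : ℝ} {q : ℕ} (hq : 0 < q) {a : ℤ} {x : ℝ} :
    x ∈ A1_intI γ ψ q a ↔ |(q : ℝ) * x - a - γ| < ψ := by
  have hq' : (0 : ℝ) < q := by exact_mod_cast hq
  unfold A1_intI
  rw [Set.mem_Ioo, div_lt_iff₀ hq', lt_div_iff₀ hq', abs_lt]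
  constructor
  · rintro ⟨h1, h2⟩
    constructor <;> linarith
  · rintro ⟨h1, h2⟩
    constructor <;> linarith

private theorem A1_int_volI (γ ψ : ℝ) (q : ℕ) (a : ℤ) :
    volume (A1_intI γ ψ q a) = ENNReal.ofReal (2 * ψ / q) := by
  unfold A1_intI
  rw [Real.volume_Ioo]
  congr 1
  ring

private theorem A1_interval_le (γ : ℝ) {B : ℕ} {A : ℤ} (hco : IsCoprime A (B : ℤ)) (ψ : ℕ → ℝ)
    (q : ℕ) (hq : 0 < q) (h0 : 0 ≤ ψ q) (h1 : ψ q < 1 / 2) (x1 x2 : ℝ) (hx : x1 ≤ x2) :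
    (volume (AT γ B A ψ q ∩ Set.Ico x1 x2)).toReal
      ≤ ((q * (x2 - x1) + 1) * WT B q + 2 ^ q.primeFactors.card) * (2 * ψ q / q) := by
  have hq' : (0 : ℝ) < q := by exact_mod_cast hq
  set u : ℝ := q * x1 - ψ q - γ with hu
  set v : ℝ := q * x2 + ψ q - γ with hv
  have hqx : (q : ℝ) * x1 ≤ q * x2 := mul_le_mul_of_nonneg_left hx hq'.le
  have huv : u ≤ v := by rw [hu, hv]; linarith
  have hsub : AT γ B A ψ q ∩ Set.Ico x1 x2 ⊆ ⋃ a ∈ A1_intS B A q u v, A1_intI γ (ψ q) q a := by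
    rintro x ⟨⟨a, ha, hax⟩, hxI⟩
    have hax' := hax
    rw [abs_lt] at hax
    have hx1 : (q : ℝ) * x1 ≤ q * x := mul_le_mul_of_nonneg_left hxI.1 hq'.le
    have hx2 : (q : ℝ) * x < q * x2 := mul_lt_mul_of_pos_left hxI.2 hq'
    refine Set.mem_biUnion (x := a) ?_ ((A1_int_memI hq).mpr hax')
    rw [SetLike.mem_coe, A1_int_mem]
    refine ⟨⟨?_, ?_⟩, ha⟩
    · rw [hu]; linarith [hax.2]
    · rw [hv]; linarith [hax.1]
  have hψq : 0 ≤ 2 * ψ q / q := by positivity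
  have hvol : volume (AT γ B A ψ q ∩ Set.Ico x1 x2)
      ≤ ENNReal.ofReal ((A1_intS B A q u v).card * (2 * ψ q / q)) := by
    refine (measure_mono hsub).trans ((measure_biUnion_finset_le _ _).trans (le_of_eq ?_))
    rw [Finset.sum_congr rfl (fun a _ => A1_int_volI γ (ψ q) q a), Finset.sum_const, nsmul_eq_mul,
      ENNReal.ofReal_mul (Nat.cast_nonneg _), ENNReal.ofReal_natCast]
  have hreal : (volume (AT γ B A ψ q ∩ Set.Ico x1 x2)).toReal
      ≤ (A1_intS B A q u v).card * (2 * ψ q / q) := by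
    have h2 := ENNReal.toReal_mono ENNReal.ofReal_ne_top hvol
    rwa [ENNReal.toReal_ofReal (by positivity)] at h2
  refine hreal.trans (mul_le_mul_of_nonneg_right ?_ hψq)
  have hc := (abs_le.mp (A1_int_count hco q hq u v huv)).2
  have hW := (WT_pos B q).le
  have hlen : v - u ≤ q * (x2 - x1) + 1 := by
    rw [hu, hv, mul_sub]
    linarith
  have h3 := mul_le_mul_of_nonneg_right hlen hW
  linarith

private theorem A1_interval_ge (γ : ℝ) {B : ℕ} {A : ℤ} (hco : IsCoprime A (B : ℤ)) (ψ : ℕ → ℝ)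
    (q : ℕ) (hq : 0 < q) (h0 : 0 ≤ ψ q) (h1 : ψ q < 1 / 2) (x1 x2 : ℝ) (hx : x1 ≤ x2) :
    ((q * (x2 - x1) - 1) * WT B q - 2 ^ q.primeFactors.card) * (2 * ψ q / q)
      ≤ (volume (AT γ B A ψ q ∩ Set.Ico x1 x2)).toReal := by
  have hq' : (0 : ℝ) < q := by exact_mod_cast hq
  set u : ℝ := q * x1 + ψ q - γ with hu
  set v : ℝ := q * x2 - ψ q - γ with hv
  have hψq : 0 ≤ 2 * ψ q / q := by positivity
  have hW := (WT_pos B q).le
  have hpow : (0 : ℝ) ≤ 2 ^ q.primeFactors.card := by positivity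
  rcases le_or_gt u v with huv | huv
  · have hsub : (⋃ a ∈ A1_intS B A q u v, A1_intI γ (ψ q) q a) ⊆
        AT γ B A ψ q ∩ Set.Ico x1 x2 := by
      intro x hxU
      rw [Set.mem_iUnion₂] at hxU
      obtain ⟨a, ha, hxa⟩ := hxU
      rw [A1_int_mem] at ha
      rw [A1_int_memI hq] at hxa
      refine ⟨⟨a, ha.2, hxa⟩, ?_⟩
      rw [abs_lt] at hxa
      have hua := ha.1.1
      have hva := ha.1.2
      rw [hu] at hua
      rw [hv] at hva
      constructor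
      · have h2 : (q : ℝ) * x1 < q * x := by linarith [hxa.1]
        exact (lt_of_mul_lt_mul_left h2 hq'.le).le
      · have h2 : (q : ℝ) * x < q * x2 := by linarith [hxa.2]
        exact lt_of_mul_lt_mul_left h2 hq'.le
    have hdisj : (↑(A1_intS B A q u v) : Set ℤ).PairwiseDisjoint
        (fun a => A1_intI γ (ψ q) q a) := by
      intro a _ b _ hab
      rw [Function.onFun, Set.disjoint_left]
      intro x hxa hxb
      rw [A1_int_memI hq, abs_lt] at hxa hxb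
      have h2 : (a : ℝ) - b < 1 := by linarith [hxa.1, hxb.2]
      have h3 : (b : ℝ) - a < 1 := by linarith [hxa.2, hxb.1]
      have h2' : a - b < 1 := by exact_mod_cast h2
      have h3' : b - a < 1 := by exact_mod_cast h3
      exact hab (by omega)
    have hmeas : ∀ a ∈ A1_intS B A q u v, MeasurableSet (A1_intI γ (ψ q) q a) :=
      fun a _ => measurableSet_Ioo
    have hvolU : volume (⋃ a ∈ A1_intS B A q u v, A1_intI γ (ψ q) q a)
        = ENNReal.ofReal ((A1_intS B A q u v).card * (2 * ψ q / q)) := by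
      rw [measure_biUnion_finset hdisj hmeas,
        Finset.sum_congr rfl (fun a _ => A1_int_volI γ (ψ q) q a), Finset.sum_const, nsmul_eq_mul,
        ENNReal.ofReal_mul (Nat.cast_nonneg _), ENNReal.ofReal_natCast]
    have hfin : volume (AT γ B A ψ q ∩ Set.Ico x1 x2) ≠ ⊤ := by
      refine ne_top_of_le_ne_top ?_ (measure_mono Set.inter_subset_right)
      rw [Real.volume_Ico]
      exact ENNReal.ofReal_ne_top
    have hreal : ((A1_intS B A q u v).card : ℝ) * (2 * ψ q / q)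
        ≤ (volume (AT γ B A ψ q ∩ Set.Ico x1 x2)).toReal := by
      have h2 := ENNReal.toReal_mono hfin (measure_mono hsub)
      rwa [hvolU, ENNReal.toReal_ofReal (by positivity)] at h2
    refine le_trans (mul_le_mul_of_nonneg_right ?_ hψq) hreal
    have hc := (abs_le.mp (A1_int_count hco q hq u v huv)).1
    have hlen : q * (x2 - x1) - 1 ≤ v - u := by
      rw [hu, hv, mul_sub]
      linarith
    have h3 := mul_le_mul_of_nonneg_right hlen hW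
    linarith
  · refine le_trans ?_ ENNReal.toReal_nonneg
    refine mul_nonpos_of_nonpos_of_nonneg ?_ hψq
    have hlen : q * (x2 - x1) - 1 ≤ 0 := by
      rw [hu, hv] at huv
      rw [mul_sub]
      linarith
    have h3 := mul_nonpos_of_nonpos_of_nonneg hlen hW
    linarith

private theorem A1_large_q (ℓ : ℝ) (hℓ : 0 < ℓ) : ∃ Q : ℕ, 0 < Q ∧ ∀ q : ℕ, Q ≤ q → ∀ B : ℕ,
    WT B q + 2 ^ q.primeFactors.card ≤ (ℓ * (q : ℝ) ^ ((3 / 8 : ℝ)) / 2) * WT B q := by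
  obtain ⟨K, hK, hKq⟩ := Vale.Agent.P028EV.omega_bound
  obtain ⟨Q, hQ⟩ := exists_nat_ge ((2 * (1 + K) / ℓ) ^ 4)
  refine ⟨Q + 1, Nat.succ_pos _, fun q hq B => ?_⟩
  have hq0 : 0 < q := by omega
  have hq1 : (1 : ℝ) ≤ q := by exact_mod_cast hq0
  have hqp : (0 : ℝ) < q := by linarith
  have hW := WT_pos B q
  have h1 := A1_WT_ge B q
  have h2 := hKq q hq0
  set ω := q.primeFactors.card with hω
  have h3 : (2 : ℝ) ^ ω ≤ 4 ^ ω * WT B q := by
    have h4 : (4 : ℝ) ^ ω = 2 ^ ω * 2 ^ ω := by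
      rw [← mul_pow]; norm_num
    have h5 : (0 : ℝ) < 2 ^ ω := by positivity
    calc (2 : ℝ) ^ ω = 2 ^ ω * (2 ^ ω * (2 ^ ω)⁻¹) := by
          rw [mul_inv_cancel₀ h5.ne', mul_one]
      _ ≤ 2 ^ ω * (2 ^ ω * WT B q) := by gcongr
      _ = 4 ^ ω * WT B q := by rw [h4]; ring
  have hq8 : (1 : ℝ) ≤ (q : ℝ) ^ ((1 / 8 : ℝ)) := Real.one_le_rpow hq1 (by norm_num)
  have h6 : 2 * (1 + K) / ℓ ≤ (q : ℝ) ^ ((1 / 4 : ℝ)) := by
    have h7 : (2 * (1 + K) / ℓ) ^ 4 ≤ (q : ℝ) := by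
      refine hQ.trans ?_
      have : (Q : ℝ) + 1 ≤ q := by exact_mod_cast hq
      linarith
    have h8 : 0 ≤ 2 * (1 + K) / ℓ := by positivity
    calc 2 * (1 + K) / ℓ = ((2 * (1 + K) / ℓ) ^ (4 : ℕ)) ^ ((1 / 4 : ℝ)) := by
          rw [← Real.rpow_natCast, ← Real.rpow_mul h8]
          norm_num
      _ ≤ (q : ℝ) ^ ((1 / 4 : ℝ)) := Real.rpow_le_rpow (by positivity) h7 (by norm_num)
  have h9 : (q : ℝ) ^ ((3 / 8 : ℝ)) = (q : ℝ) ^ ((1 / 4 : ℝ)) * (q : ℝ) ^ ((1 / 8 : ℝ)) := by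
    rw [← Real.rpow_add hqp]
    norm_num
  have h10 : (1 + K) * (q : ℝ) ^ ((1 / 8 : ℝ)) ≤ ℓ * (q : ℝ) ^ ((3 / 8 : ℝ)) / 2 := by
    rw [div_le_iff₀ hℓ] at h6
    rw [h9]
    nlinarith
  calc WT B q + 2 ^ ω ≤ WT B q + 4 ^ ω * WT B q := by linarith
    _ ≤ WT B q + K * (q : ℝ) ^ ((1 / 8 : ℝ)) * WT B q := by gcongr
    _ = (1 + K * (q : ℝ) ^ ((1 / 8 : ℝ))) * WT B q := by ring
    _ ≤ ((1 + K) * (q : ℝ) ^ ((1 / 8 : ℝ))) * WT B q := by
        refine mul_le_mul_of_nonneg_right ?_ hW.le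
        nlinarith
    _ ≤ _ := mul_le_mul_of_nonneg_right h10 hW.le

theorem AT_bounds (ℓ : ℝ) (hℓ : 0 < ℓ) : ∃ Q : ℕ, 0 < Q ∧ ∀ q : ℕ, Q ≤ q →
    ∀ (γ : ℝ) (B : ℕ) (A : ℤ) (ψ : ℕ → ℝ) (x0 : ℝ), 0 < B → IsCoprime A (B : ℤ) → 0 ≤ ψ q →
      ψ q < 1 / 2 →
      ℓ * (WT B q * ψ q) ≤ (volume (AT γ B A ψ q ∩ Set.Ico x0 (x0 + ℓ))).toReal ∧
      (volume (AT γ B A ψ q ∩ Set.Ico x0 (x0 + ℓ))).toReal ≤ 4 * ℓ * (WT B q * ψ q) := by
  obtain ⟨Q, hQ, h⟩ := A1_large_q ℓ hℓ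
  refine ⟨Q, hQ, fun q hq γ B A ψ x0 _ hco h0 h1 => ?_⟩
  have hq0 : 0 < q := lt_of_lt_of_le hQ hq
  have hq1 : (1 : ℝ) ≤ q := by exact_mod_cast hq0
  have hqp : (0 : ℝ) < q := by linarith
  have hW := WT_pos B q
  have h2 := h q hq B
  have h3 : (q : ℝ) ^ ((3 / 8 : ℝ)) ≤ q := by
    calc (q : ℝ) ^ ((3 / 8 : ℝ)) ≤ (q : ℝ) ^ (1 : ℝ) :=
          Real.rpow_le_rpow_of_exponent_le hq1 (by norm_num)
      _ = q := Real.rpow_one _
  have h4 : WT B q + 2 ^ q.primeFactors.card ≤ (ℓ * q / 2) * WT B q := by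
    refine h2.trans (mul_le_mul_of_nonneg_right ?_ hW.le)
    have := mul_le_mul_of_nonneg_left h3 hℓ.le
    linarith
  have hc : 0 ≤ 2 * ψ q / q := by positivity
  have hle := A1_interval_le γ hco ψ q hq0 h0 h1 x0 (x0 + ℓ) (by linarith)
  have hge := A1_interval_ge γ hco ψ q hq0 h0 h1 x0 (x0 + ℓ) (by linarith)
  have hx : x0 + ℓ - x0 = ℓ := by ring
  rw [hx] at hle hge
  constructor
  · refine le_trans (le_trans (le_of_eq ?_) (mul_le_mul_of_nonneg_right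
      (show ℓ * q / 2 * WT B q ≤ (q * ℓ - 1) * WT B q - 2 ^ q.primeFactors.card by
        linarith [(by ring : (q * ℓ - 1) * WT B q = ℓ * q * WT B q - WT B q)]) hc)) hge
    field_simp
  · refine hle.trans (le_trans (mul_le_mul_of_nonneg_right
      (show (q * ℓ + 1) * WT B q + 2 ^ q.primeFactors.card ≤ 3 / 2 * (ℓ * q * WT B q) by
        linarith [(by ring : (q * ℓ + 1) * WT B q = ℓ * q * WT B q + WT B q)]) hc) ?_)
    have h5 : 3 / 2 * (ℓ * q * WT B q) * (2 * ψ q / q) = 3 * (ℓ * (WT B q * ψ q)) := by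
      field_simp
    rw [h5]
    have h6 : 0 ≤ ℓ * (WT B q * ψ q) := by positivity
    linarith [(by ring : 4 * ℓ * (WT B q * ψ q) = 4 * (ℓ * (WT B q * ψ q)))]

end Vale.Agent.P028W
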