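import Vale.Agent.P028W.Defs3
import Vale.Agent.P028KM.BX

/-!
Module E0: box bounds for the kernel `K0`; same proofs as `bx1, bx2, bx3` in Vale/Agent/P028KM/BX.lean with `s = 1/δ`
(`Dm ≤ δ` gives `ψ q ≤ δ g/r`, `ψ r ≤ δ g/q`).
-/

namespace Vale.Agent.P028W

open Finset MeasureTheory
open Vale.Agent.P028EV (q1 r1 Del hh Ts Bd Ad Nd)
open Vale.Agent.P028KM (w mu Dm Bl FF MN Sb ex cl OK KO th Th MV MW)

open Vale.Agent.P028KM (BX_w_nonneg BX_mu_nonneg BX_mur BX_muq BX_MW BX_MV BX_card)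

private theorem E0_one {x δ : ℝ} (h : x ≤ δ) : x ≤ 1 / (1 / δ) := by
  rwa [one_div_one_div]

private theorem E0_K {ψ : ℕ → ℝ} {ε X δ : ℝ} {q r : ℕ} {R : ℝ} (hR : 0 ≤ R)
    (h : Dm ψ q r ≤ δ → mu ψ q * mu ψ r ≤ R) : K0 ψ ε X δ q r ≤ R := by
  rw [K0]
  split_ifs with h1
  · exact h h1.2.2.2
  · exact hR

private theorem E0_bij {K : ℕ → ℕ → ℝ} {V W : Finset ℕ} {a b i j : ℕ} (f h : ℕ → ℝ)
    (hf : ∀ q, 0 ≤ f q) (hh' : ∀ r, 0 ≤ h r)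
    (H : ∀ q ∈ V, Nat.log 2 q = i → ∀ r ∈ W, Nat.log 2 r = j → Nat.gcd q r = Nat.gcd a b →
      K q r ≤ f q * h r) :
    bij K V W a b i j ≤
      (∑ q ∈ V with Nat.log 2 q = i, f q) * (∑ r ∈ W with Nat.log 2 r = j, h r) := by
  rw [bij, Finset.sum_mul]
  apply Finset.sum_le_sum
  intro q hq
  rw [Finset.mem_filter] at hq
  rw [Finset.mul_sum]
  calc ∑ r ∈ W with Nat.log 2 r = j ∧ Nat.gcd q r = Nat.gcd a b, K q r
      ≤ ∑ r ∈ W with Nat.log 2 r = j ∧ Nat.gcd q r = Nat.gcd a b, f q * h r := by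
        apply Finset.sum_le_sum
        intro r hr
        rw [Finset.mem_filter] at hr
        exact H q hq.1 hq.2 r hr.1 hr.2.1 hr.2.2
    _ ≤ ∑ r ∈ W with Nat.log 2 r = j, f q * h r := by
        apply Finset.sum_le_sum_of_subset_of_nonneg
        · intro r hr
          rw [Finset.mem_filter] at hr ⊢
          exact ⟨hr.1, hr.2.1⟩
        · intro r _ _
          exact mul_nonneg (hf q) (hh' r)

theorem e0_1 (ψ : ℕ → ℝ) (hψ : ∀ q, 0 ≤ ψ q) (ε X δ : ℝ) (V W : Finset ℕ) (a b i j : ℕ) :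
    bij (K0 ψ ε X δ) V W a b i j ≤ (∑ q ∈ V with Nat.log 2 q = i, mu ψ q) *
      (∑ r ∈ W with Nat.log 2 r = j, mu ψ r) :=
  E0_bij (mu ψ) (mu ψ) (BX_mu_nonneg hψ) (BX_mu_nonneg hψ) fun q _ _ r _ _ _ =>
    E0_K (mul_nonneg (BX_mu_nonneg hψ q) (BX_mu_nonneg hψ r)) fun _ => le_rfl

theorem e0_2 (ψ : ℕ → ℝ) (hψ : ∀ q, 0 ≤ ψ q) (ε X δ : ℝ) (hδ : 0 < δ) (V W : Finset ℕ)
    (a b i j : ℕ) (ha : 0 < a) (hb : 0 < b) (hV : ∀ q ∈ V, 0 < q ∧ a ∣ q)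
    (hW : ∀ r ∈ W, 0 < r ∧ b ∣ r) :
    bij (K0 ψ ε X δ) V W a b i j ≤ (∑ q ∈ V with Nat.log 2 q = i, mu ψ q) * MW a b (1 / δ) *
      (2 : ℝ) ^ ((j : ℝ) - (i : ℝ)) := by
  have hs : 0 < 1 / δ := one_div_pos.2 hδ
  have hY : 0 ≤ w b * ((Nat.gcd a b : ℝ) / (1 / δ * 2 ^ i)) :=
    mul_nonneg (BX_w_nonneg b) (by positivity)
  refine le_trans (E0_bij (mu ψ) (fun _ => w b * ((Nat.gcd a b : ℝ) / (1 / δ * 2 ^ i)))
    (BX_mu_nonneg hψ) (fun _ => hY) ?_) ?_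
  · intro q hq hi r hr hj hg
    exact E0_K (mul_nonneg (BX_mu_nonneg hψ q) hY) fun hD =>
      mul_le_mul_of_nonneg_left
        (BX_mur hψ hs (hW r hr).1 (hW r hr).2 (hV q hq).1 hi hg (E0_one hD))
        (BX_mu_nonneg hψ q)
  · rw [Finset.sum_const, nsmul_eq_mul, mul_assoc, ← BX_MW ha hb (1 / δ) hs i j]
    exact mul_le_mul_of_nonneg_left (mul_le_mul_of_nonneg_right (BX_card hb hW) hY)
      (Finset.sum_nonneg fun q _ => BX_mu_nonneg hψ q)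

theorem e0_3 (ψ : ℕ → ℝ) (hψ : ∀ q, 0 ≤ ψ q) (ε X δ : ℝ) (hδ : 0 < δ) (V W : Finset ℕ)
    (a b i j : ℕ) (ha : 0 < a) (hb : 0 < b) (hV : ∀ q ∈ V, 0 < q ∧ a ∣ q)
    (hW : ∀ r ∈ W, 0 < r ∧ b ∣ r) :
    bij (K0 ψ ε X δ) V W a b i j ≤ (∑ r ∈ W with Nat.log 2 r = j, mu ψ r) * MV a b (1 / δ) *
      (2 : ℝ) ^ ((i : ℝ) - (j : ℝ)) := by
  have hs : 0 < 1 / δ := one_div_pos.2 hδ
  have hX : 0 ≤ w a * ((Nat.gcd a b : ℝ) / (1 / δ * 2 ^ j)) :=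
    mul_nonneg (BX_w_nonneg a) (by positivity)
  refine le_trans (E0_bij (fun _ => w a * ((Nat.gcd a b : ℝ) / (1 / δ * 2 ^ j))) (mu ψ)
    (fun _ => hX) (BX_mu_nonneg hψ) ?_) ?_
  · intro q hq hi r hr hj hg
    exact E0_K (mul_nonneg hX (BX_mu_nonneg hψ r)) fun hD =>
      mul_le_mul_of_nonneg_right
        (BX_muq hψ hs (hV q hq).1 (hV q hq).2 (hW r hr).1 hj hg (E0_one hD))
        (BX_mu_nonneg hψ r)
  · rw [Finset.sum_const, nsmul_eq_mul, mul_assoc (∑ r ∈ W with Nat.log 2 r = j, mu ψ r),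
      ← BX_MV ha (1 / δ) hs i j, mul_comm]
    exact mul_le_mul_of_nonneg_left (mul_le_mul_of_nonneg_right (BX_card ha hV) hX)
      (Finset.sum_nonneg fun q _ => BX_mu_nonneg hψ q)

end Vale.Agent.P028W
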