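import Vale.Agent.P028W.Defs


/-!
Module EQR: residue count. The map `(x,y) ↦ be*y - al*x` on `(Z/B)^2` is onto (`gcd(al,be)=1`), so each value
is taken exactly `B` times; each residue class mod `B` has at most `P/B + 1 ≤ 2P/B` elements in `[P,2P]`.
-/

namespace Vale.Agent.P028W

open Finset MeasureTheory
open Vale.Agent.P028EV (q1 r1 Del hh Ts Bd Ad Nd)
open Vale.Agent.P028KM (w mu Dm Bl FF MN Sb ex cl OK KO th Th)

/-- integers in an interval of length `L`, pairwise congruent mod `b` -/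
theorem EQR_ap (S : Finset ℤ) (b : ℕ) (hb : 0 < b) (lo L : ℝ) (hL : 0 ≤ L)
    (h1 : ∀ x ∈ S, lo ≤ (x : ℝ) ∧ (x : ℝ) ≤ lo + L) (h2 : ∀ x ∈ S, ∀ y ∈ S, (b : ℤ) ∣ x - y) :
    (S.card : ℝ) ≤ L / b + 1 := by
  have hb' : (0 : ℝ) < b := by exact_mod_cast hb
  rcases S.eq_empty_or_nonempty with h | h
  · rw [h]
    simp only [Finset.card_empty, Nat.cast_zero]
    positivity
  · obtain ⟨m, hm⟩ : ∃ m, m = S.min' h := ⟨_, rfl⟩
    have hmS : m ∈ S := by rw [hm]; exact S.min'_mem h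
    have hmle : ∀ x ∈ S, m ≤ x := fun x hx => by rw [hm]; exact S.min'_le x hx
    have hcard : S.card ≤ (Finset.range (⌊L / b⌋₊ + 1)).card := by
      refine Finset.card_le_card_of_injOn (fun x => ((x - m) / (b : ℤ)).toNat) ?_ ?_
      · intro x hx
        have hx' : x ∈ S := hx
        have h3 := h1 x hx'
        have h4 := h1 m hmS
        obtain ⟨j, hj⟩ := h2 x hx' m hmS
        have hj0 : 0 ≤ j := by
          have h5 := hmle x hx'
          by_contra hneg
          rw [not_le] at hneg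
          have h6 : (b : ℤ) * j < 0 := mul_neg_of_pos_of_neg (by exact_mod_cast hb) hneg
          omega
        have hdiv : (x - m) / (b : ℤ) = j := by
          rw [hj]
          exact Int.mul_ediv_cancel_left j (by exact_mod_cast hb.ne')
        show ((x - m) / (b : ℤ)).toNat ∈ ((Finset.range (⌊L / b⌋₊ + 1) : Finset ℕ) : Set ℕ)
        rw [Finset.mem_coe, Finset.mem_range, hdiv, Nat.lt_succ_iff]
        refine Nat.le_floor ?_
        rw [le_div_iff₀ hb']
        have h7 : (((j.toNat : ℕ) : ℤ) : ℝ) = (j : ℝ) := by rw [Int.toNat_of_nonneg hj0]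
        have h8 : ((j.toNat : ℕ) : ℝ) = (j : ℝ) := by exact_mod_cast h7
        rw [h8]
        have h9 : (x : ℝ) - m = b * j := by exact_mod_cast hj
        nlinarith [h3.2, h4.1]
      · intro x hx y hy hxy
        have hx' : x ∈ S := hx
        have hy' : y ∈ S := hy
        obtain ⟨i, hi⟩ := h2 x hx' m hmS
        obtain ⟨j, hj⟩ := h2 y hy' m hmS
        have hb0 : (0 : ℤ) < b := by exact_mod_cast hb
        have hi0 : 0 ≤ i := by
          by_contra hneg
          rw [not_le] at hneg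
          have h6 : (b : ℤ) * i < 0 := mul_neg_of_pos_of_neg hb0 hneg
          have := hmle x hx'
          omega
        have hj0 : 0 ≤ j := by
          by_contra hneg
          rw [not_le] at hneg
          have h6 : (b : ℤ) * j < 0 := mul_neg_of_pos_of_neg hb0 hneg
          have := hmle y hy'
          omega
        have e : ((x - m) / (b : ℤ)).toNat = ((y - m) / (b : ℤ)).toNat := hxy
        rw [hi, hj, Int.mul_ediv_cancel_left i hb0.ne', Int.mul_ediv_cancel_left j hb0.ne'] at e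
        have e2 : i = j := by omega
        rw [e2] at hi
        omega
    rw [Finset.card_range] at hcard
    have h5 : ((⌊L / b⌋₊ : ℕ) : ℝ) ≤ L / b := Nat.floor_le (by positivity)
    have h6 : (S.card : ℝ) ≤ ((⌊L / b⌋₊ + 1 : ℕ) : ℝ) := by exact_mod_cast hcard
    push_cast at h6
    linarith

theorem EQR_apN (S : Finset ℕ) (b : ℕ) (hb : 0 < b) (lo L : ℝ) (hL : 0 ≤ L)
    (h1 : ∀ x ∈ S, lo ≤ (x : ℝ) ∧ (x : ℝ) ≤ lo + L)
    (h2 : ∀ x ∈ S, ∀ y ∈ S, (b : ℤ) ∣ (x : ℤ) - y) :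
    (S.card : ℝ) ≤ L / b + 1 := by
  have h3 : S.card = (S.image fun x : ℕ => (x : ℤ)).card := by
    rw [Finset.card_image_of_injective _ Nat.cast_injective]
  rw [h3]
  refine EQR_ap _ b hb lo L hL ?_ ?_
  · intro x hx
    obtain ⟨y, hy, rfl⟩ := Finset.mem_image.1 hx
    exact_mod_cast h1 y hy
  · intro x hx y hy
    obtain ⟨x', hx', rfl⟩ := Finset.mem_image.1 hx
    obtain ⟨y', hy', rfl⟩ := Finset.mem_image.1 hy
    exact h2 x' hx' y' hy'

theorem EQR_fib {α β : Type*} [DecidableEq β] (T : Finset α) (f : α → β) (C : ℝ)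
    (hC : ∀ b ∈ T.image f, ((T.filter fun x => f x = b).card : ℝ) ≤ C) :
    (T.card : ℝ) ≤ C * (T.image f).card := by
  rw [Finset.card_eq_sum_card_image f T, Nat.cast_sum, mul_comm, ← nsmul_eq_mul,
    ← Finset.sum_const]
  exact Finset.sum_le_sum hC

theorem eqr (al be B : ℕ) (hB : 0 < B) (hco : Nat.Coprime al be) (P Q : ℝ) (hP : (B : ℝ) ≤ P)
    (hQ : (B : ℝ) ≤ Q) (c : ℤ) (T : Finset (ℕ × ℕ))
    (hT : ∀ z ∈ T, P ≤ (z.1 : ℝ) ∧ (z.1 : ℝ) ≤ 2 * P ∧ Q ≤ (z.2 : ℝ) ∧ (z.2 : ℝ) ≤ 2 * Q ∧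
      (B : ℤ) ∣ ((be : ℤ) * z.2 - (al : ℤ) * z.1 - c)) :
    (T.card : ℝ) ≤ 4 * P * Q / B := by
  classical
  have hB' : (0 : ℝ) < B := by exact_mod_cast hB
  have hP0 : 0 < P := lt_of_lt_of_le hB' hP
  have hQ0 : 0 < Q := lt_of_lt_of_le hB' hQ
  have : NeZero B := ⟨hB.ne'⟩
  obtain ⟨s, t, hst⟩ : ∃ s t : ℤ, s * al + t * be = 1 := by
    have h : IsCoprime (al : ℤ) (be : ℤ) := Nat.isCoprime_iff_coprime.2 hco
    obtain ⟨s, t, h⟩ := h
    exact ⟨s, t, h⟩
  have h1 := EQR_fib T (fun z : ℕ × ℕ => ((t * z.1 + s * z.2 : ℤ) : ZMod B))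
    ((2 * P / B) * (2 * Q / B)) ?_
  · have h2 : ((T.image fun z : ℕ × ℕ => ((t * z.1 + s * z.2 : ℤ) : ZMod B)).card : ℝ) ≤ B := by
      have h3 : (T.image fun z : ℕ × ℕ => ((t * z.1 + s * z.2 : ℤ) : ZMod B)).card ≤
          Fintype.card (ZMod B) := Finset.card_le_univ _
      rw [ZMod.card] at h3
      exact_mod_cast h3
    refine h1.trans ((mul_le_mul_of_nonneg_left h2 (by positivity)).trans (le_of_eq ?_))
    field_simp
    ring
  · intro κ _
    set U := T.filter fun z : ℕ × ℕ => ((t * z.1 + s * z.2 : ℤ) : ZMod B) = κ with hU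
    have hcong : ∀ z ∈ U, ∀ z' ∈ U, (B : ℤ) ∣ ((z.1 : ℤ) - z'.1) ∧ (B : ℤ) ∣ ((z.2 : ℤ) - z'.2) := by
      intro z hz z' hz'
      rw [hU, Finset.mem_filter] at hz hz'
      obtain ⟨a1, ha1⟩ := (hT z hz.1).2.2.2.2
      obtain ⟨a2, ha2⟩ := (hT z' hz'.1).2.2.2.2
      have h3 : ((t * z.1 + s * z.2 : ℤ) : ZMod B) = ((t * z'.1 + s * z'.2 : ℤ) : ZMod B) :=
        hz.2.trans hz'.2.symm
      have h4 := (ZMod.intCast_eq_intCast_iff_dvd_sub _ _ _).1 h3.symm
      obtain ⟨a3, ha3⟩ := h4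
      have e1 : (be : ℤ) * (z.2 - z'.2) - al * (z.1 - z'.1) = B * (a1 - a2) := by
        linear_combination ha1 - ha2
      have e2 : t * ((z.1 : ℤ) - z'.1) + s * (z.2 - z'.2) = B * a3 := by
        linear_combination ha3
      constructor
      · refine ⟨be * a3 - s * (a1 - a2), ?_⟩
        linear_combination (-((z.1 : ℤ) - z'.1)) * hst - s * e1 + be * e2
      · refine ⟨al * a3 + t * (a1 - a2), ?_⟩
        linear_combination (-((z.2 : ℤ) - z'.2)) * hst + t * e1 + al * e2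
    have h5 : U.card ≤ (U.image Prod.fst).card * (U.image Prod.snd).card := by
      rw [← Finset.card_product]
      refine Finset.card_le_card fun z hz => ?_
      rw [Finset.mem_product]
      exact ⟨Finset.mem_image_of_mem _ hz, Finset.mem_image_of_mem _ hz⟩
    have h6 : ((U.image Prod.fst).card : ℝ) ≤ 2 * P / B := by
      refine (EQR_apN _ B hB P P hP0.le ?_ ?_).trans ?_
      · intro x hx
        obtain ⟨z, hz, rfl⟩ := Finset.mem_image.1 hx
        have := hT z (Finset.mem_filter.1 hz).1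
        exact ⟨this.1, by linarith [this.2.1]⟩
      · intro x hx y hy
        obtain ⟨z, hz, rfl⟩ := Finset.mem_image.1 hx
        obtain ⟨z', hz', rfl⟩ := Finset.mem_image.1 hy
        exact (hcong z hz z' hz').1
      · rw [mul_div_assoc, two_mul]
        have : 1 ≤ P / B := by rwa [le_div_iff₀ hB', one_mul]
        linarith
    have h7 : ((U.image Prod.snd).card : ℝ) ≤ 2 * Q / B := by
      refine (EQR_apN _ B hB Q Q hQ0.le ?_ ?_).trans ?_
      · intro x hx
        obtain ⟨z, hz, rfl⟩ := Finset.mem_image.1 hx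
        have := hT z (Finset.mem_filter.1 hz).1
        exact ⟨this.2.2.1, by linarith [this.2.2.2.1]⟩
      · intro x hx y hy
        obtain ⟨z, hz, rfl⟩ := Finset.mem_image.1 hx
        obtain ⟨z', hz', rfl⟩ := Finset.mem_image.1 hy
        exact (hcong z hz z' hz').2
      · rw [mul_div_assoc, two_mul]
        have : 1 ≤ Q / B := by rwa [le_div_iff₀ hB', one_mul]
        linarith
    have h8 : (U.card : ℝ) ≤ ((U.image Prod.fst).card : ℝ) * ((U.image Prod.snd).card : ℝ) := by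
      exact_mod_cast h5
    exact h8.trans (mul_le_mul h6 h7 (Nat.cast_nonneg _) (by positivity))

end Vale.Agent.P028W
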