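import Vale.Agent.P028W.Defs
import Vale.Agent.P028W.EQR

/-!
Module EQ: equidistribution of `n = m A + t B`, `m = be*y - al*x`. Put `θ0 = |Bγ-A| ≤ 1/N`,
`M = 2 (al P + be Q) ≥ |m|`. `n = B(t+γm) - (Bγ-A)m`, `n ≡ mA mod B`; `(x,y,n)` determines `t`.
Case 1, `θ0 M ≤ B Δ`: `0 < |n| ≤ 2BΔ`, `d ∣ n`: at most `4BΔ/d` values of `n`; for each, `m` is fixed mod `B`
(`A` invertible), `eqr` gives `≤ 4PQ/B`. Total `16 Δ P Q/d`.
Case 2, `θ0 M > B Δ`: `0 < |n| ≤ 2 θ0 M`: at most `4 θ0 M/d` values of `n`; given `n`, `m` lies in an interval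
of length `2BΔ/θ0` and is fixed mod `B`. If `al P ≥ be Q` (so `M ≤ 4 al P`), `e0 = gcd(al,B)`: `y` lies in one
class mod `e0` (`be` is invertible mod `e0`): `≤ Q/e0+1 ≤ 2Q/e0` values (`Q ≥ B ≥ e0`); given `y`, `x` lies in
an interval of length `2BΔ/(θ0 al)` and in one class mod `B/e0`: `≤ 2 e0 Δ/(θ0 al) + 1 ≤ 3 e0 Δ/(θ0 al)`
because `Δ/(θ0 al) ≥ NΔ/al ≥ 1`. Total `(16 θ0 al P/d)(2Q/e0)(3 e0 Δ/(θ0 al)) = 96 Δ P Q/d`. The case
`be Q > al P` is symmetric.
-/

namespace Vale.Agent.P028W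

open Finset MeasureTheory
open Vale.Agent.P028EV (q1 r1 Del hh Ts Bd Ad Nd)
open Vale.Agent.P028KM (w mu Dm Bl FF MN Sb ex cl OK KO th Th)

/-- nonzero multiples of `d` in `[-R, R]` -/
theorem EQ_div (S : Finset ℤ) (d : ℕ) (hd : 0 < d) (R : ℝ)
    (h : ∀ n ∈ S, n ≠ 0 ∧ (d : ℤ) ∣ n ∧ |(n : ℝ)| ≤ R) (hR : 0 ≤ R) : (S.card : ℝ) ≤ 2 * R / d := by
  have hd' : (0 : ℝ) < d := by exact_mod_cast hd
  have h1 : S ⊆ ((Finset.Icc (-(⌊R / d⌋₊ : ℤ)) ⌊R / d⌋₊).erase 0).image fun j => (d : ℤ) * j := by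
    intro n hn
    obtain ⟨h0, ⟨j, hj⟩, hle⟩ := h n hn
    refine Finset.mem_image.2 ⟨j, Finset.mem_erase.2 ⟨?_, ?_⟩, hj.symm⟩
    · rintro rfl
      exact h0 (by rw [hj, mul_zero])
    · have h2 : |(j : ℝ)| ≤ R / d := by
        rw [le_div_iff₀ hd']
        have e : (n : ℝ) = d * j := by exact_mod_cast hj
        rw [e, abs_mul, abs_of_pos hd'] at hle
        linarith
      have h3 : j.natAbs ≤ ⌊R / d⌋₊ := by
        refine Nat.le_floor ?_
        have e : ((j.natAbs : ℕ) : ℝ) = |(j : ℝ)| := by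
          rw [Nat.cast_natAbs, Int.cast_abs]
        rw [e]
        exact h2
      rw [Finset.mem_Icc]
      omega
  have h2 := Finset.card_le_card h1
  have h3 := h2.trans Finset.card_image_le
  rw [Finset.card_erase_of_mem (by rw [Finset.mem_Icc]; omega), Int.card_Icc] at h3
  have h4 : S.card ≤ 2 * ⌊R / d⌋₊ := by omega
  have h5 : ((⌊R / d⌋₊ : ℕ) : ℝ) ≤ R / d := Nat.floor_le (by positivity)
  have h6 : (S.card : ℝ) ≤ 2 * (⌊R / d⌋₊ : ℝ) := by exact_mod_cast h4
  rw [mul_div_assoc]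
  linarith

/-- pairs `(x, y)` with `a x - b y` in one class mod `B` and in an interval -/
theorem EQ_line (a b B : ℕ) (hB : 0 < B) (ha : 0 < a) (hco : Nat.Coprime a b) (V : ℝ)
    (hV : (B : ℝ) ≤ V) (lo L : ℝ) (hL : 0 ≤ L) (c : ℤ) (T : Finset (ℕ × ℕ))
    (hT : ∀ z ∈ T, V ≤ (z.2 : ℝ) ∧ (z.2 : ℝ) ≤ 2 * V ∧
      lo ≤ (a : ℝ) * z.1 - b * z.2 ∧ (a : ℝ) * z.1 - b * z.2 ≤ lo + L ∧
      (B : ℤ) ∣ ((a : ℤ) * z.1 - (b : ℤ) * z.2 - c)) :
    (T.card : ℝ) ≤ 2 * V * (L / (a * B) + 1 / (Nat.gcd a B : ℝ)) := by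
  classical
  have hB' : (0 : ℝ) < B := by exact_mod_cast hB
  have ha' : (0 : ℝ) < a := by exact_mod_cast ha
  have hV0 : 0 < V := lt_of_lt_of_le hB' hV
  obtain ⟨e, he⟩ : ∃ e, e = Nat.gcd a B := ⟨_, rfl⟩
  have hepos : 0 < e := by rw [he]; exact Nat.gcd_pos_of_pos_left B ha
  have he' : (0 : ℝ) < e := by exact_mod_cast hepos
  obtain ⟨a1, ha1⟩ : e ∣ a := by rw [he]; exact Nat.gcd_dvd_left a B
  obtain ⟨B1, hB1⟩ : e ∣ B := by rw [he]; exact Nat.gcd_dvd_right a B
  have hB1pos : 0 < B1 := Nat.pos_of_ne_zero (by rintro rfl; rw [mul_zero] at hB1; omega)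
  have hB1' : (0 : ℝ) < B1 := by exact_mod_cast hB1pos
  have hcop1 : IsCoprime (a1 : ℤ) (B1 : ℤ) := by
    refine Nat.isCoprime_iff_coprime.2 ?_
    have h1 : Nat.gcd a B = e * Nat.gcd a1 B1 := by
      conv_lhs => rw [ha1, hB1]
      exact Nat.gcd_mul_left e a1 B1
    rw [← he] at h1
    exact Nat.eq_of_mul_eq_mul_left hepos (by rw [mul_one]; exact h1.symm)
  have hcop2 : IsCoprime (e : ℤ) (b : ℤ) := by
    refine Nat.isCoprime_iff_coprime.2 ?_
    exact Nat.Coprime.coprime_dvd_left ⟨a1, ha1⟩ hco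
  rw [← he]
  have h1 := EQR_fib T Prod.snd (L / (a * B1) + 1) ?_
  · have h2 : ((T.image Prod.snd).card : ℝ) ≤ 2 * V / e := by
      refine (EQR_apN _ e hepos V V hV0.le ?_ ?_).trans ?_
      · intro y hy
        obtain ⟨z, hz, rfl⟩ := Finset.mem_image.1 hy
        exact ⟨(hT z hz).1, by linarith [(hT z hz).2.1]⟩
      · intro y hy y' hy'
        obtain ⟨z, hz, rfl⟩ := Finset.mem_image.1 hy
        obtain ⟨z', hz', rfl⟩ := Finset.mem_image.1 hy'
        obtain ⟨k, hk⟩ := (hT z hz).2.2.2.2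
        obtain ⟨k', hk'⟩ := (hT z' hz').2.2.2.2
        have h3 : (e : ℤ) ∣ (b : ℤ) * ((z.2 : ℤ) - z'.2) := by
          refine ⟨a1 * (z.1 - z'.1) - B1 * (k - k'), ?_⟩
          have e1 : (a : ℤ) = e * a1 := by exact_mod_cast ha1
          have e2 : (B : ℤ) = e * B1 := by exact_mod_cast hB1
          rw [e2] at hk hk'
          rw [e1] at hk hk'
          linear_combination hk' - hk
        exact hcop2.dvd_of_dvd_mul_left h3
      · have h5 : 1 ≤ V / e := by
          rw [le_div_iff₀ he', one_mul]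
          refine le_trans ?_ hV
          exact_mod_cast Nat.le_of_dvd hB ⟨B1, hB1⟩
        rw [mul_div_assoc, two_mul]
        linarith
    have h3 : 0 ≤ L / (a * B1) + 1 := by positivity
    refine h1.trans ((mul_le_mul_of_nonneg_left h2 h3).trans (le_of_eq ?_))
    have e2 : (B : ℝ) = e * B1 := by exact_mod_cast hB1
    rw [e2]
    field_simp
  · intro y _
    have h5 : (T.filter fun z => z.2 = y).card =
        ((T.filter fun z => z.2 = y).image Prod.fst).card := by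
      rw [Finset.card_image_of_injOn]
      intro z hz z' hz' hzz
      have h6 := (Finset.mem_filter.1 (Finset.mem_coe.1 hz)).2
      have h7 := (Finset.mem_filter.1 (Finset.mem_coe.1 hz')).2
      exact Prod.ext hzz (h6.trans h7.symm)
    rw [h5]
    have h6 := EQR_apN ((T.filter fun z => z.2 = y).image Prod.fst) B1 hB1pos ((lo + b * y) / a)
      (L / a) (by positivity) ?_ ?_
    · rw [div_div] at h6
      exact h6
    · intro x hx
      obtain ⟨z, hz, rfl⟩ := Finset.mem_image.1 hx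
      obtain ⟨hz1, hz2⟩ := Finset.mem_filter.1 hz
      have h7 := hT z hz1
      rw [hz2] at h7
      rw [← add_div]
      constructor
      · rw [div_le_iff₀ ha']
        linarith [h7.2.2.1]
      · rw [le_div_iff₀ ha']
        linarith [h7.2.2.2.1]
    · intro x hx x' hx'
      obtain ⟨z, hz, rfl⟩ := Finset.mem_image.1 hx
      obtain ⟨z', hz', rfl⟩ := Finset.mem_image.1 hx'
      obtain ⟨hz1, hz2⟩ := Finset.mem_filter.1 hz
      obtain ⟨hz1', hz2'⟩ := Finset.mem_filter.1 hz'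
      obtain ⟨k, hk⟩ := (hT z hz1).2.2.2.2
      obtain ⟨k', hk'⟩ := (hT z' hz1').2.2.2.2
      rw [hz2] at hk
      rw [hz2'] at hk'
      have e1 : (a : ℤ) = e * a1 := by exact_mod_cast ha1
      have e2 : (B : ℤ) = e * B1 := by exact_mod_cast hB1
      have h8 : (e : ℤ) * (a1 * ((z.1 : ℤ) - z'.1)) = e * (B1 * (k - k')) := by
        rw [e2] at hk hk'
        rw [e1] at hk hk'
        linear_combination hk - hk'
      have h9 := mul_left_cancel₀ (by exact_mod_cast hepos.ne' : (e : ℤ) ≠ 0) h8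
      exact hcop1.symm.dvd_of_dvd_mul_left ⟨k - k', h9⟩

/-- final estimate of a fibre in case 2 -/
theorem EQ_num {a B g : ℕ} (ha : 0 < a) (hB : 0 < B) (hg : 0 < g) {V Δ θ0 : ℝ} (hV : 0 < V)
    (hθ : 0 < θ0) (h : θ0 * a ≤ Δ) :
    2 * V * (2 * B * Δ / θ0 / (a * B) + 1 / (g : ℝ)) ≤ 6 * V * Δ / (θ0 * a) := by
  have ha' : (0 : ℝ) < a := by exact_mod_cast ha
  have hB' : (0 : ℝ) < B := by exact_mod_cast hB
  have hg' : (1 : ℝ) ≤ g := by exact_mod_cast hg
  have h1 : 1 / (g : ℝ) ≤ Δ / (θ0 * a) := by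
    have h2 : 1 / (g : ℝ) ≤ 1 := by
      rw [div_le_one (by linarith)]
      exact hg'
    have h3 : 1 ≤ Δ / (θ0 * a) := by
      rw [le_div_iff₀ (by positivity), one_mul]
      exact h
    linarith
  have h4 : 2 * B * Δ / θ0 / (a * B) = 2 * (Δ / (θ0 * a)) := by
    field_simp
  have h5 : 6 * V * Δ / (θ0 * a) = 2 * V * (3 * (Δ / (θ0 * a))) := by ring
  rw [h4, h5]
  refine mul_le_mul_of_nonneg_left ?_ (by positivity)
  linarith

theorem eqd (γ : ℝ) (B : ℕ) (A : ℤ) (hB : 0 < B) (hco : IsCoprime A (B : ℤ)) (N : ℝ) (hN : 0 < N)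
    (hap : |(B : ℝ) * γ - A| ≤ 1 / N) (al be : ℕ) (hal : 0 < al) (hbe : 0 < be)
    (hcop : Nat.Coprime al be) (P Q Δ : ℝ) (hP : (B : ℝ) ≤ P) (hQ : (B : ℝ) ≤ Q) (hΔ : 0 < Δ)
    (h1 : (al : ℝ) ≤ N * Δ) (h2 : (be : ℝ) ≤ N * Δ) (d : ℕ) (hd : 0 < d)
    (T : Finset (ℕ × ℕ × ℤ))
    (hT : ∀ z ∈ T, P ≤ (z.1 : ℝ) ∧ (z.1 : ℝ) ≤ 2 * P ∧ Q ≤ (z.2.1 : ℝ) ∧ (z.2.1 : ℝ) ≤ 2 * Q ∧
      |(z.2.2 : ℝ) + γ * ((be : ℝ) * z.2.1 - (al : ℝ) * z.1)| < Δ ∧
      ((be : ℤ) * z.2.1 - (al : ℤ) * z.1) * A + z.2.2 * B ≠ 0 ∧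
      (d : ℤ) ∣ ((be : ℤ) * z.2.1 - (al : ℤ) * z.1) * A + z.2.2 * B) :
    (T.card : ℝ) ≤ 100 * Δ * P * Q / d := by
  classical
  have hB' : (0 : ℝ) < B := by exact_mod_cast hB
  have hd' : (0 : ℝ) < d := by exact_mod_cast hd
  have hal' : (0 : ℝ) < al := by exact_mod_cast hal
  have hbe' : (0 : ℝ) < be := by exact_mod_cast hbe
  have hP0 : 0 < P := lt_of_lt_of_le hB' hP
  have hQ0 : 0 < Q := lt_of_lt_of_le hB' hQ
  obtain ⟨A', b', hA'⟩ := hco
  obtain ⟨nn, hnn⟩ : ∃ nn : ℕ × ℕ × ℤ → ℤ, ∀ z, nn z =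
      ((be : ℤ) * z.2.1 - (al : ℤ) * z.1) * A + z.2.2 * B := ⟨_, fun _ => rfl⟩
  obtain ⟨β, hβ⟩ : ∃ β : ℝ, β = (B : ℝ) * γ - A := ⟨_, rfl⟩
  obtain ⟨M, hM⟩ : ∃ M : ℝ, M = 2 * (al * P + be * Q) := ⟨_, rfl⟩
  rw [← hβ] at hap
  have hM0 : 0 < M := by rw [hM]; positivity
  -- the real number `n`
  have hnR : ∀ z, ((nn z : ℤ) : ℝ) = B * ((z.2.2 : ℝ) + γ * ((be : ℝ) * z.2.1 - (al : ℝ) * z.1)) -
      β * ((be : ℝ) * z.2.1 - (al : ℝ) * z.1) := by
    intro z
    rw [hnn, hβ]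
    push_cast
    ring
  have hm : ∀ z ∈ T, |(be : ℝ) * z.2.1 - (al : ℝ) * z.1| ≤ M := by
    intro z hz
    obtain ⟨k1, k2, k3, k4, -⟩ := hT z hz
    have j1 : (be : ℝ) * z.2.1 ≤ be * (2 * Q) := mul_le_mul_of_nonneg_left k4 hbe'.le
    have j2 : (al : ℝ) * z.1 ≤ al * (2 * P) := mul_le_mul_of_nonneg_left k2 hal'.le
    have j3 : 0 ≤ (be : ℝ) * z.2.1 := by positivity
    have j4 : 0 ≤ (al : ℝ) * z.1 := by positivity
    have j5 : 0 < al * P := by positivity
    have j6 : 0 < be * Q := by positivity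
    rw [abs_le, hM]
    constructor <;> nlinarith
  have hnle : ∀ z ∈ T, |((nn z : ℤ) : ℝ)| ≤ B * Δ + |β| * M := by
    intro z hz
    have k5 := (hT z hz).2.2.2.2.1
    rw [hnR]
    refine (abs_sub _ _).trans (add_le_add ?_ ?_)
    · rw [abs_mul, abs_of_pos hB']
      exact mul_le_mul_of_nonneg_left k5.le hB'.le
    · rw [abs_mul]
      exact mul_le_mul_of_nonneg_left (hm z hz) (abs_nonneg _)
  have himg : ∀ R : ℝ, B * Δ + |β| * M ≤ R → ((T.image nn).card : ℝ) ≤ 2 * R / d := by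
    intro R hR
    refine EQ_div _ d hd R ?_ ((by positivity : 0 ≤ B * Δ + |β| * M).trans hR)
    intro n hn
    obtain ⟨z, hz, rfl⟩ := Finset.mem_image.1 hn
    obtain ⟨-, -, -, -, -, k6, k7⟩ := hT z hz
    refine ⟨by rw [hnn]; exact k6, by rw [hnn]; exact k7, (hnle z hz).trans hR⟩
  -- divisibility
  have hdvd : ∀ z, (B : ℤ) ∣ ((be : ℤ) * z.2.1 - (al : ℤ) * z.1 - nn z * A') := by
    intro z
    refine ⟨b' * ((be : ℤ) * z.2.1 - (al : ℤ) * z.1) - A' * z.2.2, ?_⟩
    rw [hnn]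
    linear_combination (-((be : ℤ) * z.2.1 - (al : ℤ) * z.1)) * hA'
  -- `(x, y)` determines `z` in a fibre
  have hinj : ∀ z z' : ℕ × ℕ × ℤ, nn z = nn z' → z.1 = z'.1 → z.2.1 = z'.2.1 → z = z' := by
    intro z z' e1 e2 e3
    rw [hnn, hnn, e2, e3] at e1
    have e4 : z.2.2 * (B : ℤ) = z'.2.2 * B := by linarith
    have e5 : z.2.2 = z'.2.2 := mul_right_cancel₀ (by exact_mod_cast hB.ne' : (B : ℤ) ≠ 0) e4
    exact Prod.ext e2 (Prod.ext e3 e5)
  rcases le_or_gt (|β| * M) (B * Δ) with hc | hc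
  · have k1 := himg (2 * (B * Δ)) (by linarith)
    have k2 := EQR_fib T nn (4 * P * Q / B) ?_
    · refine k2.trans ((mul_le_mul_of_nonneg_left k1 (by positivity)).trans ?_)
      have e : 4 * P * Q / B * (2 * (2 * (B * Δ)) / d) = 16 * Δ * P * Q / d := by
        field_simp
        ring
      rw [e]
      have : 16 * Δ * P * Q ≤ 100 * Δ * P * Q := by
        have : 0 < Δ * P * Q := by positivity
        nlinarith
      exact div_le_div_of_nonneg_right this hd'.le
    · intro n hn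
      have h5 : (T.filter fun z => nn z = n).card =
          ((T.filter fun z => nn z = n).image fun z => (z.1, z.2.1)).card := by
        rw [Finset.card_image_of_injOn]
        intro z hz z' hz' hzz
        have h6 := (Finset.mem_filter.1 (Finset.mem_coe.1 hz)).2
        have h7 := (Finset.mem_filter.1 (Finset.mem_coe.1 hz')).2
        have h8 : (z.1, z.2.1) = (z'.1, z'.2.1) := hzz
        rw [Prod.mk.injEq] at h8
        exact hinj z z' (h6.trans h7.symm) h8.1 h8.2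
      rw [h5]
      refine eqr al be B hB hcop P Q hP hQ (n * A') _ ?_
      intro w hw
      obtain ⟨z, hz, rfl⟩ := Finset.mem_image.1 hw
      obtain ⟨hz1, hz2⟩ := Finset.mem_filter.1 hz
      obtain ⟨k1, k2, k3, k4, -⟩ := hT z hz1
      refine ⟨k1, k2, k3, k4, ?_⟩
      rw [← hz2]
      exact hdvd z
  · have hβ0 : 0 < |β| := by
      by_contra h
      have h0 : |β| = 0 := le_antisymm (not_lt.1 h) (abs_nonneg _)
      rw [h0, zero_mul] at hc
      have : 0 < B * Δ := by positivity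
      linarith
    have hβne : β ≠ 0 := abs_pos.1 hβ0
    have k1 := himg (2 * (|β| * M)) (by linarith)
    have hcen : ∀ z ∈ T, |((be : ℝ) * z.2.1 - (al : ℝ) * z.1) + (nn z : ℝ) / β| ≤ B * Δ / |β| := by
      intro z hz
      have k5 := (hT z hz).2.2.2.2.1
      have e1 : ((be : ℝ) * z.2.1 - (al : ℝ) * z.1) + (nn z : ℝ) / β =
          B * ((z.2.2 : ℝ) + γ * ((be : ℝ) * z.2.1 - (al : ℝ) * z.1)) / β := by
        rw [hnR]
        field_simp
        ring
      rw [e1, abs_div, abs_mul, abs_of_pos hB']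
      exact div_le_div_of_nonneg_right (mul_le_mul_of_nonneg_left k5.le hB'.le) hβ0.le
    have hsmall : ∀ a : ℝ, 0 ≤ a → a ≤ N * Δ → |β| * a ≤ Δ := by
      intro a ha ha2
      calc |β| * a ≤ 1 / N * (N * Δ) := mul_le_mul hap ha2 ha (by positivity)
        _ = Δ := by field_simp
    have hLL : (0 : ℝ) ≤ 2 * B * Δ / |β| := by positivity
    rcases le_total ((be : ℝ) * Q) (al * P) with hpq | hpq
    · have k2 := EQR_fib T nn (6 * Q * Δ / (|β| * al)) ?_
      · refine k2.trans ((mul_le_mul_of_nonneg_left k1 (by positivity)).trans ?_)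
        have hM4 : M ≤ 4 * (al * P) := by rw [hM]; linarith
        have e : 6 * Q * Δ / (|β| * al) * (2 * (2 * (|β| * M)) / d) =
            24 * Q * Δ / (al * d) * M := by
          field_simp
          ring
        rw [e]
        refine (mul_le_mul_of_nonneg_left hM4 (by positivity)).trans ?_
        have e2 : 24 * Q * Δ / (al * d) * (4 * (al * P)) = 96 * Δ * P * Q / d := by
          field_simp
          ring
        rw [e2]
        have : 96 * Δ * P * Q ≤ 100 * Δ * P * Q := by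
          have : 0 < Δ * P * Q := by positivity
          nlinarith
        exact div_le_div_of_nonneg_right this hd'.le
      · intro n hn
        have h5 : (T.filter fun z => nn z = n).card =
            ((T.filter fun z => nn z = n).image fun z => (z.1, z.2.1)).card := by
          rw [Finset.card_image_of_injOn]
          intro z hz z' hz' hzz
          have h6 := (Finset.mem_filter.1 (Finset.mem_coe.1 hz)).2
          have h7 := (Finset.mem_filter.1 (Finset.mem_coe.1 hz')).2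
          have h8 : (z.1, z.2.1) = (z'.1, z'.2.1) := hzz
          rw [Prod.mk.injEq] at h8
          exact hinj z z' (h6.trans h7.symm) h8.1 h8.2
        rw [h5]
        have k3 := EQ_line al be B hB hal hcop Q hQ ((n : ℝ) / β - B * Δ / |β|)
          (2 * B * Δ / |β|) hLL (-(n * A'))
          ((T.filter fun z => nn z = n).image fun z => (z.1, z.2.1)) ?_
        · exact k3.trans (EQ_num hal hB (Nat.gcd_pos_of_pos_left B hal) hQ0 hβ0
            (hsmall al hal'.le h1))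
        · intro w hw
          obtain ⟨z, hz, rfl⟩ := Finset.mem_image.1 hw
          obtain ⟨hz1, hz2⟩ := Finset.mem_filter.1 hz
          obtain ⟨j1, j2, j3, j4, -⟩ := hT z hz1
          have j5 := abs_le.1 (hcen z hz1)
          rw [hz2] at j5
          have e3 : 2 * B * Δ / |β| = B * Δ / |β| + B * Δ / |β| := by ring
          refine ⟨j3, j4, ?_, ?_, ?_⟩
          · show (n : ℝ) / β - B * Δ / |β| ≤ (al : ℝ) * z.1 - be * z.2.1
            linarith [j5.2]
          · show (al : ℝ) * z.1 - be * z.2.1 ≤ (n : ℝ) / β - B * Δ / |β| + 2 * B * Δ / |β|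
            rw [e3]
            linarith [j5.1]
          · obtain ⟨q, hq⟩ := hdvd z
            rw [hz2] at hq
            exact ⟨-q, by linear_combination -hq⟩
    · have k2 := EQR_fib T nn (6 * P * Δ / (|β| * be)) ?_
      · refine k2.trans ((mul_le_mul_of_nonneg_left k1 (by positivity)).trans ?_)
        have hM4 : M ≤ 4 * (be * Q) := by rw [hM]; linarith
        have e : 6 * P * Δ / (|β| * be) * (2 * (2 * (|β| * M)) / d) =
            24 * P * Δ / (be * d) * M := by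
          field_simp
          ring
        rw [e]
        refine (mul_le_mul_of_nonneg_left hM4 (by positivity)).trans ?_
        have e2 : 24 * P * Δ / (be * d) * (4 * (be * Q)) = 96 * Δ * P * Q / d := by
          field_simp
          ring
        rw [e2]
        have : 96 * Δ * P * Q ≤ 100 * Δ * P * Q := by
          have : 0 < Δ * P * Q := by positivity
          nlinarith
        exact div_le_div_of_nonneg_right this hd'.le
      · intro n hn
        have h5 : (T.filter fun z => nn z = n).card =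
            ((T.filter fun z => nn z = n).image fun z => (z.2.1, z.1)).card := by
          rw [Finset.card_image_of_injOn]
          intro z hz z' hz' hzz
          have h6 := (Finset.mem_filter.1 (Finset.mem_coe.1 hz)).2
          have h7 := (Finset.mem_filter.1 (Finset.mem_coe.1 hz')).2
          have h8 : (z.2.1, z.1) = (z'.2.1, z'.1) := hzz
          rw [Prod.mk.injEq] at h8
          exact hinj z z' (h6.trans h7.symm) h8.2 h8.1
        rw [h5]
        have k3 := EQ_line be al B hB hbe hcop.symm P hP (-((n : ℝ) / β) - B * Δ / |β|)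
          (2 * B * Δ / |β|) hLL (n * A')
          ((T.filter fun z => nn z = n).image fun z => (z.2.1, z.1)) ?_
        · exact k3.trans (EQ_num hbe hB (Nat.gcd_pos_of_pos_left B hbe) hP0 hβ0
            (hsmall be hbe'.le h2))
        · intro w hw
          obtain ⟨z, hz, rfl⟩ := Finset.mem_image.1 hw
          obtain ⟨hz1, hz2⟩ := Finset.mem_filter.1 hz
          obtain ⟨j1, j2, j3, j4, -⟩ := hT z hz1
          have j5 := abs_le.1 (hcen z hz1)
          rw [hz2] at j5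
          have e3 : 2 * B * Δ / |β| = B * Δ / |β| + B * Δ / |β| := by ring
          refine ⟨j1, j2, ?_, ?_, ?_⟩
          · show -((n : ℝ) / β) - B * Δ / |β| ≤ (be : ℝ) * z.2.1 - al * z.1
            linarith [j5.1]
          · show (be : ℝ) * z.2.1 - al * z.1 ≤ -((n : ℝ) / β) - B * Δ / |β| + 2 * B * Δ / |β|
            rw [e3]
            linarith [j5.2]
          · have := hdvd z
            rw [hz2] at this
            exact this

end Vale.Agent.P028W
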