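import Vale.Agent.P028W.Defs


/-!
Module SL: elementary bounds for `sL` (sum of reciprocals of prime factors `> z`). `sL_triv`: the `i`-th
prime factor is `≥ i+1`, `ω(n) ≤ log n/log 2 ≤ 2 log n`, `∑_{i=1}^{k} 1/(i+1) ≤ log (k+1)`. `sL_big`: at most
`log n/log z` prime factors `> z`.
-/

namespace Vale.Agent.P028W

open Finset MeasureTheory
open Vale.Agent.P028EV (q1 r1 Del hh Ts Bd Ad Nd)
open Vale.Agent.P028KM (w mu Dm Bl FF MN Sb ex cl OK KO th Th)

theorem sL_nonneg (z : ℝ) (n : ℕ) : 0 ≤ sL z n :=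
  Finset.sum_nonneg fun p _ => by positivity

theorem sL_anti {z z' : ℝ} (h : z ≤ z') (n : ℕ) : sL z' n ≤ sL z n := by
  apply Finset.sum_le_sum_of_subset_of_nonneg
  · intro p hp
    rw [Finset.mem_filter] at hp ⊢
    exact ⟨hp.1, lt_of_le_of_lt h hp.2⟩
  · intro p _ _
    positivity

theorem sL_mul (z : ℝ) (m n : ℕ) : sL z (m * n) ≤ sL z m + sL z n := by
  have h1 : (m * n).primeFactors.filter (fun p : ℕ => z < (p : ℝ)) ⊆
      m.primeFactors.filter (fun p : ℕ => z < (p : ℝ)) ∪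
        n.primeFactors.filter (fun p : ℕ => z < (p : ℝ)) := by
    intro p hp
    rw [Finset.mem_filter, Nat.mem_primeFactors] at hp
    obtain ⟨⟨hp1, hp2, hp3⟩, hp4⟩ := hp
    rw [Finset.mem_union, Finset.mem_filter, Finset.mem_filter, Nat.mem_primeFactors,
      Nat.mem_primeFactors]
    have hm : m ≠ 0 := fun h => hp3 (by rw [h, zero_mul])
    have hn : n ≠ 0 := fun h => hp3 (by rw [h, mul_zero])
    rcases hp1.dvd_mul.mp hp2 with h | h
    · exact Or.inl ⟨⟨hp1, h, hm⟩, hp4⟩
    · exact Or.inr ⟨⟨hp1, h, hn⟩, hp4⟩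
  have h2 : sL z (m * n) ≤ ∑ p ∈ m.primeFactors.filter (fun p : ℕ => z < (p : ℝ)) ∪
        n.primeFactors.filter (fun p : ℕ => z < (p : ℝ)), 1 / (p : ℝ) :=
    Finset.sum_le_sum_of_subset_of_nonneg h1 fun p _ _ => by positivity
  have h3 := Finset.sum_union_inter (s₁ := m.primeFactors.filter (fun p : ℕ => z < (p : ℝ)))
    (s₂ := n.primeFactors.filter (fun p : ℕ => z < (p : ℝ))) (f := fun p : ℕ => 1 / (p : ℝ))
  have h4 : 0 ≤ ∑ p ∈ m.primeFactors.filter (fun p : ℕ => z < (p : ℝ)) ∩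
        n.primeFactors.filter (fun p : ℕ => z < (p : ℝ)), 1 / (p : ℝ) :=
    Finset.sum_nonneg fun p _ => by positivity
  unfold sL at h2 ⊢
  linarith

theorem SL_card (s : Finset ℕ) : (∀ p ∈ s, 2 ≤ p) →
    ∑ p ∈ s, 1 / (p : ℝ) ≤ Real.log ((s.card : ℝ) + 1) := by
  induction s using Finset.induction_on_max with
  | empty => simp
  | insert a s ha ih =>
    intro hs
    have has : a ∉ s := fun h => lt_irrefl a (ha a h)
    have h1 := ih fun p hp => hs p (Finset.mem_insert_of_mem hp)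
    have h2 : s ⊆ Finset.Ico 2 a := by
      intro p hp
      rw [Finset.mem_Ico]
      exact ⟨hs p (Finset.mem_insert_of_mem hp), ha p hp⟩
    have h3 := Finset.card_le_card h2
    rw [Nat.card_Ico] at h3
    have ha2 := hs a (Finset.mem_insert_self a s)
    have h4 : s.card + 2 ≤ a := by omega
    rw [Finset.sum_insert has, Finset.card_insert_of_notMem has]
    push_cast
    have h5 : (s.card : ℝ) + 2 ≤ a := by exact_mod_cast h4
    have h6 : 1 / (a : ℝ) ≤ 1 / ((s.card : ℝ) + 2) :=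
      one_div_le_one_div_of_le (by positivity) h5
    have h7 : (0 : ℝ) < (s.card : ℝ) + 1 := by positivity
    have h8 : (0 : ℝ) < (s.card : ℝ) + 2 := by positivity
    have h9 := Real.log_le_sub_one_of_pos (div_pos h7 h8)
    rw [Real.log_div h7.ne' h8.ne'] at h9
    have h10 : ((s.card : ℝ) + 1) / ((s.card : ℝ) + 2) - 1 = -(1 / ((s.card : ℝ) + 2)) := by
      field_simp
      ring
    rw [h10] at h9
    have h11 : (s.card : ℝ) + 1 + 1 = (s.card : ℝ) + 2 := by ring
    rw [h11]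
    linarith

theorem SL_log (n : ℕ) (hn : 0 < n) : ∑ p ∈ n.primeFactors, Real.log p ≤ Real.log n := by
  have h1 : ∑ p ∈ n.primeFactors, Real.log p = Real.log ((∏ p ∈ n.primeFactors, p : ℕ) : ℝ) := by
    rw [Nat.cast_prod, Real.log_prod]
    intro p hp
    have := (Nat.prime_of_mem_primeFactors hp).pos
    positivity
  rw [h1]
  have h2 : 0 < ∏ p ∈ n.primeFactors, p :=
    Finset.prod_pos fun p hp => (Nat.prime_of_mem_primeFactors hp).pos
  apply Real.log_le_log (by exact_mod_cast h2)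
  exact_mod_cast Nat.le_of_dvd hn (Nat.prod_primeFactors_dvd n)

theorem sL_triv (z : ℝ) (n : ℕ) (hn : 0 < n) : sL z n ≤ Real.log (1 + 2 * Real.log n) := by
  have h1 : sL z n ≤ ∑ p ∈ n.primeFactors, 1 / (p : ℝ) :=
    Finset.sum_le_sum_of_subset_of_nonneg (Finset.filter_subset _ _) fun p _ _ => by positivity
  have h2 := SL_card n.primeFactors fun p hp => (Nat.prime_of_mem_primeFactors hp).two_le
  have h3 : (n.primeFactors.card : ℝ) * Real.log 2 ≤ Real.log n := by
    refine le_trans ?_ (SL_log n hn)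
    rw [← nsmul_eq_mul]
    apply Finset.card_nsmul_le_sum
    intro p hp
    apply Real.log_le_log (by norm_num)
    exact_mod_cast (Nat.prime_of_mem_primeFactors hp).two_le
  have h4 : (1 : ℝ) / 2 ≤ Real.log 2 := by
    have := Real.log_two_gt_d9
    linarith
  have h5 : (n.primeFactors.card : ℝ) * (1 / 2) ≤ (n.primeFactors.card : ℝ) * Real.log 2 :=
    mul_le_mul_of_nonneg_left h4 (Nat.cast_nonneg _)
  refine h1.trans (h2.trans ?_)
  apply Real.log_le_log (by positivity)
  linarith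

theorem sL_big (z : ℝ) (hz : 1 < z) (n : ℕ) (hn : 0 < n) :
    sL z n ≤ Real.log n / (z * Real.log z) := by
  have hz0 : 0 < z := by linarith
  have hl : 0 < Real.log z := Real.log_pos hz
  have h1 : sL z n ≤ ∑ p ∈ n.primeFactors.filter (fun p : ℕ => z < (p : ℝ)),
      Real.log p / (z * Real.log z) := by
    apply Finset.sum_le_sum
    intro p hp
    rw [Finset.mem_filter] at hp
    have h2 : 1 / (p : ℝ) ≤ 1 / z := one_div_le_one_div_of_le hz0 hp.2.le
    refine h2.trans ?_
    rw [div_le_div_iff₀ hz0 (mul_pos hz0 hl), one_mul, mul_comm z]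
    exact mul_le_mul_of_nonneg_right (Real.log_le_log hz0 hp.2.le) hz0.le
  have h2 : ∑ p ∈ n.primeFactors.filter (fun p : ℕ => z < (p : ℝ)),
      Real.log p / (z * Real.log z) ≤ ∑ p ∈ n.primeFactors, Real.log p / (z * Real.log z) := by
    apply Finset.sum_le_sum_of_subset_of_nonneg (Finset.filter_subset _ _)
    intro p _ _
    exact div_nonneg (Real.log_natCast_nonneg p) (mul_pos hz0 hl).le
  refine h1.trans (h2.trans ?_)
  rw [← Finset.sum_div]
  exact div_le_div_of_nonneg_right (SL_log n hn) (mul_pos hz0 hl).le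

theorem exp_sL (θ z : ℝ) (n : ℕ) :
    Real.exp (θ * sL z n) = ∏ p ∈ n.primeFactors, (if z < (p : ℝ) then Real.exp (θ / p) else 1) := by
  rw [sL, Finset.mul_sum, Real.exp_sum, Finset.prod_filter]
  refine Finset.prod_congr rfl fun p _ => ?_
  rw [mul_one_div]

end Vale.Agent.P028W
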