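import Vale.Agent.P028W.Defs
import Vale.Agent.P028W.SL

/-!
Module MO1: moment. Expand `exp(θ sL z x) = ∏_{p ∣ x, p > z} (1 + f_p) = ∑_{d ∣ x} f(d)`,
`f_p = exp(θ/p) - 1 ≤ R z e^R / p` for `p > z`; the number of multiples of `d` in `[P,2P]` is `≤ 3P/d` (for
`d ≤ 2P`, none otherwise); `∏_{p>z} (1 + 3 f_p/p) ≤ exp(3 R z e^R ∑_{p>z} p^(-2)) ≤ exp(6 R e^R)`.
-/

namespace Vale.Agent.P028W

open Finset MeasureTheory
open Vale.Agent.P028EV (q1 r1 Del hh Ts Bd Ad Nd)
open Vale.Agent.P028KM (w mu Dm Bl FF MN Sb ex cl OK KO th Th)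

private theorem MO1_exp (y : ℝ) : Real.exp y - 1 ≤ y * Real.exp y := by
  have h3 := Real.add_one_le_exp (-y)
  have h4 : Real.exp y * Real.exp (-y) = 1 := by
    rw [← Real.exp_add, add_neg_cancel, Real.exp_zero]
  have h5 := mul_le_mul_of_nonneg_left h3 (Real.exp_pos y).le
  rw [h4] at h5
  linarith

private theorem MO1_g (R z θ : ℝ) (hR : 0 < R) (hz : 1 ≤ z) (h0 : 0 ≤ θ) (h1 : θ ≤ R * z)
    (p : ℕ) (hp : z < p) :
    Real.exp (θ / p) - 1 ≤ R * z * Real.exp R / p := by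
  have hp0 : (0 : ℝ) < p := by linarith
  have hyR : θ / p ≤ R := by
    rw [div_le_iff₀ hp0]
    exact h1.trans (mul_le_mul_of_nonneg_left hp.le hR.le)
  calc Real.exp (θ / p) - 1 ≤ θ / p * Real.exp (θ / p) := MO1_exp _
    _ ≤ (R * z / p) * Real.exp R :=
      mul_le_mul (div_le_div_of_nonneg_right h1 hp0.le) (Real.exp_le_exp.2 hyR)
        (Real.exp_pos _).le (by positivity)
    _ = R * z * Real.exp R / p := by ring

private theorem MO1_sq (z : ℝ) (hz : 1 ≤ z) (S : Finset ℕ) (hS : ∀ p ∈ S, z < (p : ℝ)) :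
    ∑ p ∈ S, ((p : ℝ) ^ 2)⁻¹ ≤ 2 / z := by
  have hm1 : 1 ≤ ⌊z⌋₊ := Nat.le_floor (by exact_mod_cast hz)
  have hmN : ⌊z⌋₊ ≤ max ⌊z⌋₊ (S.sup id) := le_max_left _ _
  have hsub : S ⊆ Finset.Ioc ⌊z⌋₊ (max ⌊z⌋₊ (S.sup id)) := by
    intro p hp
    rw [Finset.mem_Ioc]
    exact ⟨(Nat.floor_lt (by linarith)).2 (hS p hp),
      le_max_of_le_right (Finset.le_sup (f := id) hp)⟩
  have h1 : ∑ p ∈ S, ((p : ℝ) ^ 2)⁻¹ ≤
      ∑ p ∈ Finset.Ioc ⌊z⌋₊ (max ⌊z⌋₊ (S.sup id)), ((p : ℝ) ^ 2)⁻¹ :=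
    Finset.sum_le_sum_of_subset_of_nonneg hsub fun i _ _ => by positivity
  have h2 := sum_Ioc_inv_sq_le_sub (α := ℝ) (k := ⌊z⌋₊) (n := max ⌊z⌋₊ (S.sup id)) (by omega) hmN
  have h3 : (0 : ℝ) ≤ ((max ⌊z⌋₊ (S.sup id) : ℕ) : ℝ)⁻¹ := by positivity
  have hm0 : (0 : ℝ) < ⌊z⌋₊ := by exact_mod_cast hm1
  have h4 : z < (⌊z⌋₊ : ℝ) + 1 := Nat.lt_floor_add_one z
  have h5 : (1 : ℝ) ≤ ⌊z⌋₊ := by exact_mod_cast hm1
  have h6 : ((⌊z⌋₊ : ℕ) : ℝ)⁻¹ ≤ 2 / z := by
    rw [inv_eq_one_div, div_le_div_iff₀ hm0 (by linarith)]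
    linarith
  linarith

/-- multiples of `d` -/
private theorem MO1_count (P : ℝ) (hP : 1 ≤ P) (T : Finset ℕ)
    (hT : ∀ x ∈ T, P ≤ (x : ℝ) ∧ (x : ℝ) ≤ 2 * P) (d : ℕ) (hd : 0 < d) (U : Finset ℕ)
    (hU : ∀ x ∈ U, x ∈ T ∧ d ∣ x) : (U.card : ℝ) ≤ 2 * P / d := by
  have hd0 : (0 : ℝ) < d := by exact_mod_cast hd
  have h1 : U.card ≤ (Finset.Icc 1 ⌊2 * P / d⌋₊).card := by
    refine Finset.card_le_card_of_injOn (fun x => x / d) ?_ ?_
    · intro x hx
      obtain ⟨hxT, k, rfl⟩ := hU x hx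
      have hx2 := hT _ hxT
      show (d * k) / d ∈ ((Finset.Icc 1 ⌊2 * P / (d : ℝ)⌋₊ : Finset ℕ) : Set ℕ)
      rw [Nat.mul_div_cancel_left k hd]
      push_cast at hx2
      have hk : 0 < k := by
        rcases Nat.eq_zero_or_pos k with h | h
        · rw [h, Nat.cast_zero, mul_zero] at hx2
          linarith [hx2.1]
        · exact h
      refine Finset.mem_coe.2 (Finset.mem_Icc.2 ⟨hk, Nat.le_floor ?_⟩)
      rw [le_div_iff₀ hd0]
      linarith [hx2.2]
    · intro x hx y hy hxy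
      obtain ⟨_, k, rfl⟩ := hU x hx
      obtain ⟨_, l, rfl⟩ := hU y hy
      have hxy' : (d * k) / d = (d * l) / d := hxy
      rw [Nat.mul_div_cancel_left k hd, Nat.mul_div_cancel_left l hd] at hxy'
      rw [hxy']
  rw [Nat.card_Icc, Nat.add_sub_cancel] at h1
  calc (U.card : ℝ) ≤ (⌊2 * P / d⌋₊ : ℝ) := by exact_mod_cast h1
    _ ≤ 2 * P / d := Nat.floor_le (by positivity)

theorem mo1 (R : ℝ) (hR : 0 < R) : ∃ C : ℝ, 1 ≤ C ∧ ∀ z θ P : ℝ, 1 ≤ z → 0 ≤ θ → θ ≤ R * z →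
    1 ≤ P → ∀ T : Finset ℕ, (∀ x ∈ T, P ≤ (x : ℝ) ∧ (x : ℝ) ≤ 2 * P) →
    ∑ x ∈ T, Real.exp (θ * sL z x) ≤ C * P := by
  refine ⟨2 * Real.exp (2 * (R * Real.exp R)), ?_, ?_⟩
  · have h1 : (1 : ℝ) ≤ Real.exp (2 * (R * Real.exp R)) := Real.one_le_exp (by positivity)
    linarith
  intro z θ P hz h0 hθ hP T hT
  set g : ℕ → ℝ := fun p => if z < (p : ℝ) then Real.exp (θ / p) - 1 else 0 with hg
  have hg0 : ∀ p, 0 ≤ g p := by
    intro p
    show 0 ≤ if z < (p : ℝ) then Real.exp (θ / p) - 1 else 0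
    split_ifs
    · have : (1 : ℝ) ≤ Real.exp (θ / p) := Real.one_le_exp (by positivity)
      linarith
    · exact le_rfl
  set PP : Finset ℕ := T.biUnion Nat.primeFactors with hPP
  have hprime : ∀ p ∈ PP, p.Prime := by
    intro p hp
    rw [hPP, Finset.mem_biUnion] at hp
    obtain ⟨x, _, hp⟩ := hp
    exact Nat.prime_of_mem_primeFactors hp
  have hexp : ∀ x ∈ T, Real.exp (θ * sL z x) =
      ∑ s ∈ PP.powerset, if s ⊆ x.primeFactors then ∏ p ∈ s, g p else 0 := by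
    intro x hx
    rw [exp_sL]
    have h1 : ∀ p ∈ x.primeFactors, (if z < (p : ℝ) then Real.exp (θ / p) else 1) = 1 + g p := by
      intro p _
      show _ = 1 + if z < (p : ℝ) then Real.exp (θ / p) - 1 else 0
      split_ifs
      · ring
      · ring
    rw [Finset.prod_congr rfl h1, Finset.prod_one_add, ← Finset.sum_filter]
    refine Finset.sum_congr ?_ fun _ _ => rfl
    ext s
    rw [Finset.mem_powerset, Finset.mem_filter, Finset.mem_powerset]
    constructor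
    · intro hs
      refine ⟨hs.trans ?_, hs⟩
      rw [hPP]
      exact Finset.subset_biUnion_of_mem Nat.primeFactors hx
    · exact fun hs => hs.2
  rw [Finset.sum_congr rfl hexp, Finset.sum_comm]
  have hterm : ∀ s ∈ PP.powerset, (∑ x ∈ T, if s ⊆ x.primeFactors then ∏ p ∈ s, g p else 0) ≤
      2 * P * ∏ p ∈ s, (g p / p) := by
    intro s hs
    rw [Finset.mem_powerset] at hs
    rw [← Finset.sum_filter, Finset.sum_const, nsmul_eq_mul]
    have hd : 0 < ∏ p ∈ s, p := Finset.prod_pos fun p hp => (hprime p (hs hp)).pos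
    have hc := MO1_count P hP T hT (∏ p ∈ s, p) hd {x ∈ T | s ⊆ x.primeFactors} (by
      intro x hx
      rw [Finset.mem_filter] at hx
      refine ⟨hx.1, ?_⟩
      refine Finset.prod_primes_dvd x (fun p hp => (hprime p (hs hp)).prime) fun p hp => ?_
      exact Nat.dvd_of_mem_primeFactors (hx.2 hp))
    have hF : 0 ≤ ∏ p ∈ s, g p := Finset.prod_nonneg fun p _ => hg0 p
    refine (mul_le_mul_of_nonneg_right hc hF).trans (le_of_eq ?_)
    rw [Finset.prod_div_distrib]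
    push_cast
    ring
  refine (Finset.sum_le_sum hterm).trans ?_
  rw [← Finset.mul_sum, ← Finset.prod_one_add]
  have hprod : ∏ p ∈ PP, (1 + g p / p) ≤ Real.exp (2 * (R * Real.exp R)) := by
    calc ∏ p ∈ PP, (1 + g p / p) ≤ ∏ p ∈ PP, Real.exp (g p / p) := by
          refine Finset.prod_le_prod (fun p _ => ?_) fun p _ => ?_
          · have := hg0 p
            positivity
          · rw [add_comm]
            exact Real.add_one_le_exp _
      _ = Real.exp (∑ p ∈ PP, g p / p) := (Real.exp_sum _ _).symm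
      _ ≤ Real.exp (2 * (R * Real.exp R)) := by
          refine Real.exp_le_exp.2 ?_
          have h1 : ∀ p ∈ PP, g p / p ≤ if z < (p : ℝ) then
              R * z * Real.exp R * ((p : ℝ) ^ 2)⁻¹ else 0 := by
            intro p _
            show (if z < (p : ℝ) then Real.exp (θ / p) - 1 else 0) / p ≤ _
            split_ifs with hzp
            · have hp0 : (0 : ℝ) < p := by linarith
              have h2 := MO1_g R z θ hR hz h0 hθ p hzp
              calc (Real.exp (θ / p) - 1) / p ≤ (R * z * Real.exp R / p) / p :=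
                    div_le_div_of_nonneg_right h2 hp0.le
                _ = R * z * Real.exp R * ((p : ℝ) ^ 2)⁻¹ := by
                    field_simp
            · rw [zero_div]
          refine (Finset.sum_le_sum h1).trans ?_
          rw [← Finset.sum_filter, ← Finset.mul_sum]
          have h3 := MO1_sq z hz {p ∈ PP | z < (p : ℝ)} fun p hp => (Finset.mem_filter.1 hp).2
          have h4 := mul_le_mul_of_nonneg_left h3
            (show 0 ≤ R * z * Real.exp R by positivity)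
          refine h4.trans (le_of_eq ?_)
          field_simp
  calc 2 * P * ∏ p ∈ PP, (1 + g p / p) ≤ 2 * P * Real.exp (2 * (R * Real.exp R)) :=
        mul_le_mul_of_nonneg_left hprod (by positivity)
    _ = 2 * Real.exp (2 * (R * Real.exp R)) * P := by ring

end Vale.Agent.P028W
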