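import Vale.Agent.P028W.Defs
import Vale.Agent.P028W.SL
import Vale.Agent.P028W.EQ

/-!
Module MO2: moment of the prime factors of `n` over the coincidences: same expansion as in MO1, the number of
elements of `T` with `d ∣ n` is `≤ 100 Δ P Q/d` by `eqd` (valid for every `d ≥ 1`; only finitely many
primes occur).
-/

namespace Vale.Agent.P028W

open Finset MeasureTheory
open Vale.Agent.P028EV (q1 r1 Del hh Ts Bd Ad Nd)
open Vale.Agent.P028KM (w mu Dm Bl FF MN Sb ex cl OK KO th Th)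

theorem MO2_exp {x R : ℝ} (hx : 0 ≤ x) (hxR : x ≤ R) : Real.exp x - 1 ≤ x * Real.exp R := by
  have h1 := Real.add_one_le_exp (-x)
  have h2 : Real.exp (-x) * Real.exp x = 1 := by rw [← Real.exp_add]; simp
  have h3 : Real.exp x ≤ Real.exp R := Real.exp_le_exp.2 hxR
  have h4 := Real.exp_pos x
  have h5 := mul_le_mul_of_nonneg_right h1 h4.le
  have h6 := mul_le_mul_of_nonneg_left h3 hx
  linarith

theorem MO2_sum {R z θ : ℝ} (hR : 0 < R) (hz : 1 ≤ z) (hθ : 0 ≤ θ) (hθR : θ ≤ R * z)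
    (PP : Finset ℕ) (hPP : ∀ p ∈ PP, z < (p : ℝ)) :
    ∑ p ∈ PP, (Real.exp (θ / p) - 1) / p ≤ 2 * R * Real.exp R := by
  have hz0 : 0 < z := by linarith
  have h1 : ∀ p ∈ PP, (Real.exp (θ / p) - 1) / p ≤ θ * Real.exp R * ((p : ℝ) ^ 2)⁻¹ := by
    intro p hp
    have hpz := hPP p hp
    have hp0 : 0 < (p : ℝ) := by linarith
    have hx : θ / p ≤ R := by
      rw [div_le_iff₀ hp0]
      exact hθR.trans (mul_le_mul_of_nonneg_left hpz.le hR.le)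
    have h2 := MO2_exp (div_nonneg hθ hp0.le) hx
    calc (Real.exp (θ / p) - 1) / p ≤ θ / p * Real.exp R / p :=
          div_le_div_of_nonneg_right h2 hp0.le
      _ = θ * Real.exp R * ((p : ℝ) ^ 2)⁻¹ := by
          field_simp
  have hfl : 1 ≤ ⌊z⌋₊ := Nat.le_floor (by exact_mod_cast hz)
  have hfl2 : z / 2 ≤ (⌊z⌋₊ : ℝ) := by
    have h3 := Nat.lt_floor_add_one z
    have h4 : (1 : ℝ) ≤ ⌊z⌋₊ := by exact_mod_cast hfl
    linarith
  obtain ⟨m, hm⟩ : ∃ m : ℕ, ∀ p ∈ PP, p ≤ m := ⟨PP.sup id, fun p hp => Finset.le_sup (f := id) hp⟩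
  have hsub : PP ⊆ Finset.Ioc ⌊z⌋₊ (max m ⌊z⌋₊) := by
    intro p hp
    rw [Finset.mem_Ioc]
    refine ⟨?_, (hm p hp).trans (le_max_left _ _)⟩
    rw [Nat.floor_lt hz0.le]
    exact hPP p hp
  have h5 : ∑ p ∈ PP, ((p : ℝ) ^ 2)⁻¹ ≤ 2 / z := by
    calc ∑ p ∈ PP, ((p : ℝ) ^ 2)⁻¹ ≤ ∑ p ∈ Finset.Ioc ⌊z⌋₊ (max m ⌊z⌋₊), ((p : ℝ) ^ 2)⁻¹ :=
          Finset.sum_le_sum_of_subset_of_nonneg hsub fun p _ _ => by positivity
      _ ≤ ((⌊z⌋₊ : ℕ) : ℝ)⁻¹ - ((max m ⌊z⌋₊ : ℕ) : ℝ)⁻¹ :=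
          sum_Ioc_inv_sq_le_sub (by omega) (le_max_right _ _)
      _ ≤ ((⌊z⌋₊ : ℕ) : ℝ)⁻¹ := by
          have : 0 ≤ ((max m ⌊z⌋₊ : ℕ) : ℝ)⁻¹ := by positivity
          linarith
      _ ≤ (z / 2)⁻¹ := inv_anti₀ (by positivity) hfl2
      _ = 2 / z := by rw [inv_div]
  calc ∑ p ∈ PP, (Real.exp (θ / p) - 1) / p ≤ ∑ p ∈ PP, θ * Real.exp R * ((p : ℝ) ^ 2)⁻¹ :=
        Finset.sum_le_sum h1
    _ = θ * Real.exp R * ∑ p ∈ PP, ((p : ℝ) ^ 2)⁻¹ := by rw [Finset.mul_sum]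
    _ ≤ θ * Real.exp R * (2 / z) := mul_le_mul_of_nonneg_left h5 (by positivity)
    _ ≤ R * z * Real.exp R * (2 / z) := by
        refine mul_le_mul_of_nonneg_right (mul_le_mul_of_nonneg_right hθR (Real.exp_pos R).le) ?_
        positivity
    _ = 2 * R * Real.exp R := by field_simp

theorem MO2_expand {ι : Type} (T : Finset ι) (n : ι → ℕ) (hn : ∀ i ∈ T, n i ≠ 0) {R z θ M : ℝ}
    (hR : 0 < R) (hz : 1 ≤ z) (hθ : 0 ≤ θ) (hθR : θ ≤ R * z) (hM : 0 ≤ M)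
    (hcount : ∀ d : ℕ, 0 < d → ((T.filter (fun i => d ∣ n i)).card : ℝ) ≤ M / d) :
    ∑ i ∈ T, Real.exp (θ * sL z (n i)) ≤ M * Real.exp (2 * R * Real.exp R) := by
  classical
  set PP : Finset ℕ := (T.biUnion fun i => (n i).primeFactors).filter (fun p : ℕ => z < (p : ℝ))
    with hPP
  set g : ℕ → ℝ := fun p => Real.exp (θ / p) - 1 with hg
  have hg0 : ∀ p, 0 ≤ g p := by
    intro p
    have : 1 ≤ Real.exp (θ / p) := Real.one_le_exp (by positivity)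
    simp only [hg]
    linarith
  have hprime : ∀ p ∈ PP, p.Prime := by
    intro p hp
    obtain ⟨hp1, -⟩ := Finset.mem_filter.1 hp
    obtain ⟨i, -, hi⟩ := Finset.mem_biUnion.1 hp1
    exact Nat.prime_of_mem_primeFactors hi
  have hpz : ∀ p ∈ PP, z < (p : ℝ) := fun p hp => (Finset.mem_filter.1 hp).2
  have hterm : ∀ i ∈ T, Real.exp (θ * sL z (n i)) =
      ∑ D ∈ PP.powerset, ∏ p ∈ D, (if p ∣ n i then g p else 0) := by
    intro i hi
    rw [exp_sL, ← Finset.prod_one_add]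
    have e1 : ∏ p ∈ (n i).primeFactors, (if z < (p : ℝ) then Real.exp (θ / p) else 1) =
        ∏ p ∈ (n i).primeFactors.filter (fun p : ℕ => z < (p : ℝ)), Real.exp (θ / p) := by
      rw [Finset.prod_filter]
    have e2 : ∏ p ∈ PP, (1 + (if p ∣ n i then g p else 0)) =
        ∏ p ∈ PP.filter (fun p => p ∣ n i), Real.exp (θ / p) := by
      refine Eq.trans ?_ (Finset.prod_filter (s := PP) (fun p => p ∣ n i)
        (fun p : ℕ => Real.exp (θ / p))).symm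
      refine Finset.prod_congr rfl fun p _ => ?_
      split_ifs
      · simp only [hg]
        ring
      · ring
    rw [e1, e2]
    refine Finset.prod_congr ?_ fun p _ => rfl
    ext p
    simp only [Finset.mem_filter, hPP, Finset.mem_biUnion]
    constructor
    · rintro ⟨h1, h2⟩
      exact ⟨⟨⟨i, hi, h1⟩, h2⟩, Nat.dvd_of_mem_primeFactors h1⟩
    · rintro ⟨⟨⟨j, _, h1⟩, h2⟩, h3⟩
      exact ⟨Nat.mem_primeFactors.2 ⟨Nat.prime_of_mem_primeFactors h1, h3, hn i hi⟩, h2⟩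
  rw [Finset.sum_congr rfl hterm, Finset.sum_comm]
  have hD : ∀ D ∈ PP.powerset, ∑ i ∈ T, ∏ p ∈ D, (if p ∣ n i then g p else 0) ≤
      M * ∏ p ∈ D, (g p / p) := by
    intro D hD
    have hDP := Finset.mem_powerset.1 hD
    have e1 : ∀ i ∈ T, ∏ p ∈ D, (if p ∣ n i then g p else 0) =
        if (∏ p ∈ D, p) ∣ n i then ∏ p ∈ D, g p else 0 := by
      intro i _
      rw [Finset.prod_ite_zero]
      have hiff : (∀ p ∈ D, p ∣ n i) ↔ (∏ p ∈ D, p) ∣ n i := by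
        constructor
        · intro h
          exact Finset.prod_primes_dvd (n i) (fun p hp => (hprime p (hDP hp)).prime) h
        · intro h p hp
          exact (Finset.dvd_prod_of_mem (fun p => p) hp).trans h
      by_cases h : ∀ p ∈ D, p ∣ n i
      · rw [if_pos h, if_pos (hiff.1 h)]
      · rw [if_neg h, if_neg (fun h' => h (hiff.2 h'))]
    rw [Finset.sum_congr rfl e1, ← Finset.sum_filter, Finset.sum_const, nsmul_eq_mul]
    have hd0 : 0 < ∏ p ∈ D, p := Finset.prod_pos fun p hp => (hprime p (hDP hp)).pos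
    have h1 := hcount _ hd0
    have h2 : 0 ≤ ∏ p ∈ D, g p := Finset.prod_nonneg fun p _ => hg0 p
    calc ((T.filter (fun i => (∏ p ∈ D, p) ∣ n i)).card : ℝ) * ∏ p ∈ D, g p
        ≤ M / ((∏ p ∈ D, p : ℕ) : ℝ) * ∏ p ∈ D, g p := mul_le_mul_of_nonneg_right h1 h2
      _ = M * ∏ p ∈ D, (g p / p) := by
          rw [Finset.prod_div_distrib, Nat.cast_prod]
          ring
  refine (Finset.sum_le_sum hD).trans ?_
  rw [← Finset.mul_sum, ← Finset.prod_one_add]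
  refine mul_le_mul_of_nonneg_left ?_ hM
  calc ∏ p ∈ PP, (1 + g p / p) ≤ ∏ p ∈ PP, Real.exp (g p / p) := by
        refine Finset.prod_le_prod (fun p _ => ?_) fun p _ => ?_
        · have := hg0 p
          positivity
        · have := Real.add_one_le_exp (g p / p)
          linarith
    _ = Real.exp (∑ p ∈ PP, g p / p) := (Real.exp_sum _ _).symm
    _ ≤ Real.exp (2 * R * Real.exp R) := Real.exp_le_exp.2 (MO2_sum hR hz hθ hθR PP hpz)

theorem mo2 (R : ℝ) (hR : 0 < R) : ∃ C : ℝ, 1 ≤ C ∧ ∀ z θ : ℝ, 1 ≤ z → 0 ≤ θ → θ ≤ R * z →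
    ∀ (γ : ℝ) (B : ℕ) (A : ℤ), 0 < B → IsCoprime A (B : ℤ) → ∀ N : ℝ, 0 < N →
    |(B : ℝ) * γ - A| ≤ 1 / N → ∀ al be : ℕ, 0 < al → 0 < be → Nat.Coprime al be →
    ∀ P Q Δ : ℝ, (B : ℝ) ≤ P → (B : ℝ) ≤ Q → 0 < Δ → (al : ℝ) ≤ N * Δ → (be : ℝ) ≤ N * Δ →
    ∀ T : Finset (ℕ × ℕ × ℤ),
    (∀ z ∈ T, P ≤ (z.1 : ℝ) ∧ (z.1 : ℝ) ≤ 2 * P ∧ Q ≤ (z.2.1 : ℝ) ∧ (z.2.1 : ℝ) ≤ 2 * Q ∧
      |(z.2.2 : ℝ) + γ * ((be : ℝ) * z.2.1 - (al : ℝ) * z.1)| < Δ ∧
      ((be : ℤ) * z.2.1 - (al : ℤ) * z.1) * A + z.2.2 * B ≠ 0) →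
    ∑ z' ∈ T, Real.exp (θ * sL z (((be : ℤ) * z'.2.1 - (al : ℤ) * z'.1) * A + z'.2.2 * B).natAbs)
      ≤ C * Δ * P * Q := by
  refine ⟨100 * Real.exp (2 * R * Real.exp R), ?_, ?_⟩
  · have h1 : 1 ≤ Real.exp (2 * R * Real.exp R) := Real.one_le_exp (by positivity)
    linarith
  intro z θ hz hθ hθR γ B A hB hco N hN hap al be hal hbe hcop P Q Δ hP hQ hΔ h1 h2 T hT
  have hB0 : 0 < (B : ℝ) := by exact_mod_cast hB
  have hP0 : 0 < P := by linarith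
  have hQ0 : 0 < Q := by linarith
  have h := MO2_expand T
    (fun z' => (((be : ℤ) * z'.2.1 - (al : ℤ) * z'.1) * A + z'.2.2 * B).natAbs)
    (fun z' hz' => Int.natAbs_ne_zero.2 (hT z' hz').2.2.2.2.2) hR hz hθ hθR
    (M := 100 * Δ * P * Q) (by positivity) (fun d hd => ?_)
  · refine h.trans (le_of_eq ?_)
    ring
  · refine eqd γ B A hB hco N hN hap al be hal hbe hcop P Q Δ hP hQ hΔ h1 h2 d hd _ ?_
    intro z' hz'
    obtain ⟨hz1, hz2⟩ := Finset.mem_filter.1 hz'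
    obtain ⟨a1, a2, a3, a4, a5, a6⟩ := hT z' hz1
    exact ⟨a1, a2, a3, a4, a5, a6, Int.natCast_dvd.2 hz2⟩

end Vale.Agent.P028W
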