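import Vale.Agent.P028W.Defs3
import Vale.Agent.P028W.SL
import Vale.Agent.P028W.MO1
import Vale.Agent.P028W.MO2
import Vale.Agent.P028W.EQ

/-! E1G part A: the Hölder core. -/

namespace Vale.Agent.P028W

open Finset

theorem E1G_holder {ι : Type} (D : Finset ι) (f : ι → ℝ) (hf : ∀ i ∈ D, 0 ≤ f i) (a b : ℝ)
    (ha : 0 ≤ a) (hb : 0 ≤ b) (h1 : (D.card : ℝ) ≤ a) (h2 : ∑ i ∈ D, f i ^ (10 : ℝ) ≤ b) :
    ∑ i ∈ D, f i ≤ a ^ (9 / 10 : ℝ) * b ^ (1 / 10 : ℝ) := by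
  have h3 := Real.rpow_sum_le_const_mul_sum_rpow_of_nonneg D (f := f) (p := 10) (by norm_num) hf
  have h0 : 0 ≤ ∑ i ∈ D, f i := Finset.sum_nonneg hf
  have h4 : (∑ i ∈ D, f i) ^ (10 : ℝ) ≤ a ^ (9 : ℝ) * b := by
    refine h3.trans ?_
    refine mul_le_mul ?_ h2 (Finset.sum_nonneg fun i hi => Real.rpow_nonneg (hf i hi) _)
      (Real.rpow_nonneg ha _)
    have : (10 - 1 : ℝ) = 9 := by norm_num
    rw [this]
    exact Real.rpow_le_rpow (Nat.cast_nonneg _) h1 (by norm_num)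
  have h5 := Real.rpow_le_rpow (Real.rpow_nonneg h0 _) h4 (by norm_num : (0 : ℝ) ≤ 1 / 10)
  rw [← Real.rpow_mul h0, Real.mul_rpow (Real.rpow_nonneg ha _) hb, ← Real.rpow_mul ha] at h5
  norm_num at h5
  norm_num
  exact h5

theorem E1G_exp3 (u v t : ℝ) :
    Real.exp (u + v + t) ≤ Real.exp (3 * u) + Real.exp (3 * v) + Real.exp (3 * t) := by
  have h1 := Real.exp_pos (3 * u)
  have h2 := Real.exp_pos (3 * v)
  have h3 := Real.exp_pos (3 * t)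
  rcases le_total u v with h | h
  · rcases le_total v t with h' | h'
    · have : Real.exp (u + v + t) ≤ Real.exp (3 * t) := Real.exp_le_exp.2 (by linarith)
      linarith
    · have : Real.exp (u + v + t) ≤ Real.exp (3 * v) := Real.exp_le_exp.2 (by linarith)
      linarith
  · rcases le_total u t with h' | h'
    · have : Real.exp (u + v + t) ≤ Real.exp (3 * t) := Real.exp_le_exp.2 (by linarith)
      linarith
    · have : Real.exp (u + v + t) ≤ Real.exp (3 * u) := Real.exp_le_exp.2 (by linarith)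
      linarith

theorem E1G_card (T : Finset ℤ) (c Δ : ℝ) (hΔ : 0 < Δ) (hT : ∀ t ∈ T, |(t : ℝ) + c| < Δ) :
    (T.card : ℝ) ≤ 2 * Δ + 1 := by
  have h1 : T ⊆ Finset.Icc ⌈-c - Δ⌉ ⌊-c + Δ⌋ := by
    intro t ht
    have := abs_lt.1 (hT t ht)
    rw [Finset.mem_Icc, Int.ceil_le, Int.le_floor]
    constructor <;> linarith [this.1, this.2]
  have h2 : ((T.card : ℕ) : ℝ) ≤ ((⌊-c + Δ⌋ + 1 - ⌈-c - Δ⌉).toNat : ℝ) := by
    have := Finset.card_le_card h1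
    rw [Int.card_Icc] at this
    exact_mod_cast this
  refine h2.trans ?_
  have h3 : (⌊-c + Δ⌋ : ℝ) ≤ -c + Δ := Int.floor_le _
  have h4 : -c - Δ ≤ (⌈-c - Δ⌉ : ℝ) := Int.le_ceil _
  rcases le_total 0 (⌊-c + Δ⌋ + 1 - ⌈-c - Δ⌉) with h | h
  · have h5 : (((⌊-c + Δ⌋ + 1 - ⌈-c - Δ⌉).toNat : ℤ) : ℝ) = ((⌊-c + Δ⌋ + 1 - ⌈-c - Δ⌉ : ℤ) : ℝ) := by
      rw [Int.toNat_of_nonneg h]
    have h6 : (((⌊-c + Δ⌋ + 1 - ⌈-c - Δ⌉).toNat : ℕ) : ℝ) = ((⌊-c + Δ⌋ + 1 - ⌈-c - Δ⌉ : ℤ) : ℝ) := by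
      rw [← h5]; norm_cast
    rw [h6]
    push_cast
    linarith
  · rw [Int.toNat_of_nonpos h]
    push_cast
    linarith

theorem E1G_card1 (T : Finset ℤ) (c Δ : ℝ) (hΔ : Δ ≤ 1 / 2) (hT : ∀ t ∈ T, |(t : ℝ) + c| < Δ) :
    (T.card : ℝ) ≤ 1 := by
  have : T.card ≤ 1 := by
    rw [Finset.card_le_one]
    intro s hs t ht
    have h1 := abs_lt.1 (hT s hs)
    have h2 := abs_lt.1 (hT t ht)
    have h3 : ((s - t : ℤ) : ℝ) < 1 := by push_cast; linarith [h1.1, h1.2, h2.1, h2.2]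
    have h4 : (-1 : ℝ) < ((s - t : ℤ) : ℝ) := by push_cast; linarith [h1.1, h1.2, h2.1, h2.2]
    have h5 : s - t < 1 := by exact_mod_cast h3
    have h6 : -1 < s - t := by exact_mod_cast h4
    omega
  exact_mod_cast this

theorem E1G_cardN (Y : Finset ℕ) (Q : ℝ) (hQ : 0 < Q) (hY : ∀ y ∈ Y, Q ≤ (y : ℝ) ∧ (y : ℝ) ≤ 2 * Q) :
    (Y.card : ℝ) ≤ 2 * Q := by
  have h1 : Y ⊆ Finset.Icc 1 ⌊2 * Q⌋₊ := by
    intro y hy
    have h2 := hY y hy
    rw [Finset.mem_Icc]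
    constructor
    · have : (0 : ℝ) < y := by linarith [h2.1]
      exact_mod_cast this
    · exact Nat.le_floor h2.2
  have h2 := Finset.card_le_card h1
  rw [Nat.card_Icc, Nat.add_sub_cancel] at h2
  calc (Y.card : ℝ) ≤ (⌊2 * Q⌋₊ : ℝ) := by exact_mod_cast h2
    _ ≤ 2 * Q := Nat.floor_le (by linarith)

/-- the triples -/
def E1G_D (E : Finset (ℕ × ℕ)) (T : ℕ × ℕ → Finset ℤ) : Finset (ℕ × ℕ × ℤ) :=
  (E.sigma T).map ⟨fun s => (s.1.1, s.1.2, s.2), by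
    rintro ⟨⟨x, y⟩, t⟩ ⟨⟨x', y'⟩, t'⟩ h
    simp only [Prod.mk.injEq] at h
    obtain ⟨rfl, rfl, rfl⟩ := h
    rfl⟩

theorem E1G_sum (E : Finset (ℕ × ℕ)) (T : ℕ × ℕ → Finset ℤ) (f : ℕ × ℕ × ℤ → ℝ) :
    ∑ d ∈ E1G_D E T, f d = ∑ e ∈ E, ∑ t ∈ T e, f (e.1, e.2, t) := by
  rw [E1G_D, Finset.sum_map, Finset.sum_sigma]
  rfl

theorem E1G_mem (E : Finset (ℕ × ℕ)) (T : ℕ × ℕ → Finset ℤ) (d : ℕ × ℕ × ℤ) :
    d ∈ E1G_D E T ↔ (d.1, d.2.1) ∈ E ∧ d.2.2 ∈ T (d.1, d.2.1) := by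
  rw [E1G_D, Finset.mem_map]
  constructor
  · rintro ⟨⟨⟨x, y⟩, t⟩, h, rfl⟩
    rw [Finset.mem_sigma] at h
    exact h
  · rintro ⟨h1, h2⟩
    exact ⟨⟨(d.1, d.2.1), d.2.2⟩, Finset.mem_sigma.2 ⟨h1, h2⟩, rfl⟩

theorem E1G_sumx (E : Finset (ℕ × ℕ)) (T : ℕ × ℕ → Finset ℤ) (M : ℝ) (hM : 0 ≤ M)
    (hT : ∀ e ∈ E, ((T e).card : ℝ) ≤ M) (f : ℕ → ℝ) (hf : ∀ x, 0 ≤ f x) (Q K : ℝ) (hQ : 0 < Q)
    (hE : ∀ e ∈ E, Q ≤ (e.2 : ℝ) ∧ (e.2 : ℝ) ≤ 2 * Q)
    (hK : ∑ x ∈ E.image Prod.fst, f x ≤ K) :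
    ∑ d ∈ E1G_D E T, f d.1 ≤ M * (2 * Q * K) := by
  rw [E1G_sum]
  have h1 : ∑ e ∈ E, ∑ t ∈ T e, f e.1 ≤ ∑ e ∈ E, M * f e.1 := by
    refine Finset.sum_le_sum fun e he => ?_
    rw [Finset.sum_const, nsmul_eq_mul]
    exact mul_le_mul_of_nonneg_right (hT e he) (hf _)
  refine h1.trans ?_
  rw [← Finset.mul_sum]
  refine mul_le_mul_of_nonneg_left ?_ hM
  have h2 : ∑ e ∈ E, f e.1 ≤ ∑ e ∈ (E.image Prod.fst) ×ˢ (E.image Prod.snd), f e.1 := by
    refine Finset.sum_le_sum_of_subset_of_nonneg ?_ fun e _ _ => hf _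
    intro e he
    rw [Finset.mem_product]
    exact ⟨Finset.mem_image_of_mem _ he, Finset.mem_image_of_mem _ he⟩
  refine h2.trans ?_
  rw [Finset.sum_product, ]
  have h3 : ∑ x ∈ E.image Prod.fst, ∑ y ∈ E.image Prod.snd, f x
      = ((E.image Prod.snd).card : ℝ) * ∑ x ∈ E.image Prod.fst, f x := by
    rw [Finset.mul_sum]
    refine Finset.sum_congr rfl fun x _ => ?_
    rw [Finset.sum_const, nsmul_eq_mul]
  rw [h3]
  refine mul_le_mul ?_ hK (Finset.sum_nonneg fun x _ => hf _) (by linarith)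
  refine E1G_cardN _ Q hQ ?_
  intro y hy
  rw [Finset.mem_image] at hy
  obtain ⟨e, he, rfl⟩ := hy
  exact hE e he

theorem E1G_sumy (E : Finset (ℕ × ℕ)) (T : ℕ × ℕ → Finset ℤ) (M : ℝ) (hM : 0 ≤ M)
    (hT : ∀ e ∈ E, ((T e).card : ℝ) ≤ M) (f : ℕ → ℝ) (hf : ∀ x, 0 ≤ f x) (P K : ℝ) (hP : 0 < P)
    (hE : ∀ e ∈ E, P ≤ (e.1 : ℝ) ∧ (e.1 : ℝ) ≤ 2 * P)
    (hK : ∑ y ∈ E.image Prod.snd, f y ≤ K) :
    ∑ d ∈ E1G_D E T, f d.2.1 ≤ M * (2 * P * K) := by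
  rw [E1G_sum]
  have h1 : ∑ e ∈ E, ∑ t ∈ T e, f e.2 ≤ ∑ e ∈ E, M * f e.2 := by
    refine Finset.sum_le_sum fun e he => ?_
    rw [Finset.sum_const, nsmul_eq_mul]
    exact mul_le_mul_of_nonneg_right (hT e he) (hf _)
  refine h1.trans ?_
  rw [← Finset.mul_sum]
  refine mul_le_mul_of_nonneg_left ?_ hM
  have h2 : ∑ e ∈ E, f e.2 ≤ ∑ e ∈ (E.image Prod.fst) ×ˢ (E.image Prod.snd), f e.2 := by
    refine Finset.sum_le_sum_of_subset_of_nonneg ?_ fun e _ _ => hf _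
    intro e he
    rw [Finset.mem_product]
    exact ⟨Finset.mem_image_of_mem _ he, Finset.mem_image_of_mem _ he⟩
  refine h2.trans ?_
  rw [Finset.sum_product]
  have h3 : ∑ x ∈ E.image Prod.fst, ∑ y ∈ E.image Prod.snd, f y
      = ((E.image Prod.fst).card : ℝ) * ∑ x ∈ E.image Prod.snd, f x := by
    rw [Finset.sum_const, nsmul_eq_mul]
  rw [h3]
  refine mul_le_mul ?_ hK (Finset.sum_nonneg fun x _ => hf _) (by linarith)
  refine E1G_cardN _ P hP ?_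
  intro y hy
  rw [Finset.mem_image] at hy
  obtain ⟨e, he, rfl⟩ := hy
  exact hE e he

/-- the `n` of a triple -/
def E1G_n (B : ℕ) (A : ℤ) (al be : ℕ) (d : ℕ × ℕ × ℤ) : ℤ :=
  ((be : ℤ) * d.2.1 - (al : ℤ) * d.1) * A + d.2.2 * B

theorem E1G_core : ∃ C : ℝ, 1 ≤ C ∧ ∀ (γ : ℝ) (B : ℕ) (A : ℤ), 0 < B → IsCoprime A (B : ℤ) →
    ∀ N : ℝ, 0 < N → |(B : ℝ) * γ - A| ≤ 1 / N → ∀ al be : ℕ, 0 < al → 0 < be →
    Nat.Coprime al be → ∀ P Q δ : ℝ, (B : ℝ) ≤ P → (B : ℝ) ≤ Q → 0 < δ →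
    (al : ℝ) ≤ N * (2 * δ) → (be : ℝ) ≤ N * (2 * δ) → ∀ z : ℝ, 1 ≤ z →
    ∀ (E : Finset (ℕ × ℕ)) (T : ℕ × ℕ → Finset ℤ),
    (∀ e ∈ E, P ≤ (e.1 : ℝ) ∧ (e.1 : ℝ) ≤ 2 * P) → (∀ e ∈ E, Q ≤ (e.2 : ℝ) ∧ (e.2 : ℝ) ≤ 2 * Q) →
    (∀ e ∈ E, ∀ t ∈ T e, |(t : ℝ) + γ * ((be : ℝ) * e.2 - (al : ℝ) * e.1)| < 2 * δ ∧
      E1G_n B A al be (e.1, e.2, t) ≠ 0) →
    ∑ e ∈ E, (∑ t ∈ T e, Real.exp ((4 + 8 * z) * (sL z e.1 + sL z e.2 +
      sL z (E1G_n B A al be (e.1, e.2, t)).natAbs))) ^ (20 / 7 : ℝ) ≤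
      C * (min 1 δ) ^ (9 / 10 : ℝ) * (max 1 δ) ^ (20 / 7 : ℝ) * (P * Q) := by
  obtain ⟨C1, hC1, H1⟩ := mo1 1100 (by norm_num)
  obtain ⟨C2, hC2, H2⟩ := mo2 1100 (by norm_num)
  refine ⟨500 * (4 * C1 + C2), by linarith, ?_⟩
  intro γ B A hB hco N hN hap al be hal hbe hcop P Q δ hBP hBQ hδ h1 h2 z hz E T hP hQ hT
  have hB1 : (1 : ℝ) ≤ B := by exact_mod_cast hB
  have hP1 : 1 ≤ P := hB1.trans hBP
  have hQ1 : 1 ≤ Q := hB1.trans hBQ
  have hP0 : 0 < P := by linarith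
  have hQ0 : 0 < Q := by linarith
  have hPQ : 0 < P * Q := mul_pos hP0 hQ0
  set D := E1G_D E T with hDdef
  set K : ℝ := 4 * C1 + C2 with hK
  have hK0 : 0 < K := by linarith
  have hDT : ∀ d ∈ D, P ≤ (d.1 : ℝ) ∧ (d.1 : ℝ) ≤ 2 * P ∧ Q ≤ (d.2.1 : ℝ) ∧
      (d.2.1 : ℝ) ≤ 2 * Q ∧ |(d.2.2 : ℝ) + γ * ((be : ℝ) * d.2.1 - (al : ℝ) * d.1)| < 2 * δ ∧
      ((be : ℤ) * d.2.1 - (al : ℤ) * d.1) * A + d.2.2 * B ≠ 0 := by
    intro d hd
    rw [hDdef, E1G_mem] at hd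
    have a1 := hP _ hd.1
    have a2 := hQ _ hd.1
    have a3 := hT _ hd.1 _ hd.2
    exact ⟨a1.1, a1.2, a2.1, a2.2, a3.1, a3.2⟩
  -- the three sums
  have key : ∀ M : ℝ, 0 ≤ M → 2 * δ ≤ M → (∀ e ∈ E, ((T e).card : ℝ) ≤ M) → ∀ c : ℝ, 0 ≤ c →
      c ≤ 1100 * z → ∑ d ∈ D, Real.exp ((c / 3) * (sL z d.1 + sL z d.2.1 +
        sL z (E1G_n B A al be d).natAbs)) ≤ M * K * (P * Q) := by
    intro M hM hδM hcard c hc hcz
    have s1 : ∑ d ∈ D, Real.exp (c * sL z d.1) ≤ M * (2 * Q * (C1 * P)) :=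
      E1G_sumx E T M hM hcard (fun x => Real.exp (c * sL z x)) (fun x => (Real.exp_pos _).le)
        Q (C1 * P) hQ0 hQ (H1 z c P hz hc hcz hP1 _ (by
          intro x hx
          rw [Finset.mem_image] at hx
          obtain ⟨e, he, rfl⟩ := hx
          exact hP e he))
    have s2 : ∑ d ∈ D, Real.exp (c * sL z d.2.1) ≤ M * (2 * P * (C1 * Q)) :=
      E1G_sumy E T M hM hcard (fun x => Real.exp (c * sL z x)) (fun x => (Real.exp_pos _).le)
        P (C1 * Q) hP0 hP (H1 z c Q hz hc hcz hQ1 _ (by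
          intro x hx
          rw [Finset.mem_image] at hx
          obtain ⟨e, he, rfl⟩ := hx
          exact hQ e he))
    have s3 : ∑ d ∈ D, Real.exp (c * sL z (E1G_n B A al be d).natAbs) ≤ C2 * (2 * δ) * P * Q :=
      H2 z c hz hc hcz γ B A hB hco N hN hap al be hal hbe hcop P Q (2 * δ) hBP hBQ (by linarith)
        h1 h2 D hDT
    calc ∑ d ∈ D, Real.exp ((c / 3) * (sL z d.1 + sL z d.2.1 + sL z (E1G_n B A al be d).natAbs))
        ≤ ∑ d ∈ D, (Real.exp (c * sL z d.1) + Real.exp (c * sL z d.2.1) +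
          Real.exp (c * sL z (E1G_n B A al be d).natAbs)) := by
          refine Finset.sum_le_sum fun d _ => ?_
          have := E1G_exp3 (c / 3 * sL z d.1) (c / 3 * sL z d.2.1)
            (c / 3 * sL z (E1G_n B A al be d).natAbs)
          have e1 : c / 3 * sL z d.1 + c / 3 * sL z d.2.1 +
            c / 3 * sL z (E1G_n B A al be d).natAbs = (c / 3) * (sL z d.1 + sL z d.2.1 +
              sL z (E1G_n B A al be d).natAbs) := by ring
          rw [e1] at this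
          refine this.trans (le_of_eq ?_)
          congr 1
          · congr 1
            · congr 1; ring
            · congr 1; ring
          · congr 1; ring
      _ = ∑ d ∈ D, Real.exp (c * sL z d.1) + ∑ d ∈ D, Real.exp (c * sL z d.2.1) +
          ∑ d ∈ D, Real.exp (c * sL z (E1G_n B A al be d).natAbs) := by
          rw [Finset.sum_add_distrib, Finset.sum_add_distrib]
      _ ≤ M * (2 * Q * (C1 * P)) + M * (2 * P * (C1 * Q)) + C2 * (2 * δ) * P * Q := by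
          linarith
      _ ≤ M * K * (P * Q) := by
          have e2 : C2 * (2 * δ) * P * Q ≤ C2 * M * P * Q := by
            have : 0 ≤ C2 * P * Q := by positivity
            nlinarith
          rw [hK]
          nlinarith
  -- power mean
  have pm : ∀ M : ℝ, 0 ≤ M → (∀ e ∈ E, ((T e).card : ℝ) ≤ M) →
      ∑ e ∈ E, (∑ t ∈ T e, Real.exp ((4 + 8 * z) * (sL z e.1 + sL z e.2 +
      sL z (E1G_n B A al be (e.1, e.2, t)).natAbs))) ^ (20 / 7 : ℝ) ≤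
      M ^ (13 / 7 : ℝ) * ∑ d ∈ D, Real.exp ((20 / 7 * (4 + 8 * z)) * (sL z d.1 + sL z d.2.1 +
        sL z (E1G_n B A al be d).natAbs)) := by
    intro M hM hcard
    rw [hDdef, E1G_sum, Finset.mul_sum]
    refine Finset.sum_le_sum fun e he => ?_
    have h3 := Real.rpow_sum_le_const_mul_sum_rpow_of_nonneg (T e)
      (f := fun t => Real.exp ((4 + 8 * z) * (sL z e.1 + sL z e.2 +
      sL z (E1G_n B A al be (e.1, e.2, t)).natAbs))) (p := 20 / 7) (by norm_num)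
      (fun t _ => (Real.exp_pos _).le)
    refine h3.trans ?_
    have h4 : (20 / 7 - 1 : ℝ) = 13 / 7 := by norm_num
    rw [h4]
    refine mul_le_mul (Real.rpow_le_rpow (Nat.cast_nonneg _) (hcard e he) (by norm_num)) ?_
      (Finset.sum_nonneg fun t _ => Real.rpow_nonneg (Real.exp_pos _).le _)
      (Real.rpow_nonneg hM _)
    refine le_of_eq (Finset.sum_congr rfl fun t _ => ?_)
    rw [← Real.exp_mul]
    congr 1
    ring
  have hz12 : 4 + 8 * z ≤ 12 * z := by linarith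
  by_cases hd : δ < 1 / 4
  · have hc1 : ∀ e ∈ E, ((T e).card : ℝ) ≤ 1 := fun e he =>
      E1G_card1 (T e) _ (2 * δ) (by linarith) fun t ht => (hT e he t ht).1
    have p1 := pm 1 zero_le_one hc1
    rw [Real.one_rpow, one_mul] at p1
    have p2 := key 1 zero_le_one (by linarith) hc1 (600 / 7 * (4 + 8 * z)) (by positivity)
      (by linarith)
    have p3 : (D.card : ℝ) ≤ 200 * δ * (P * Q) := by
      have := eqd γ B A hB hco N hN hap al be hal hbe hcop P Q (2 * δ) hBP hBQ (by linarith) h1 h2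
        1 Nat.one_pos D (fun d hd' => by
          have := hDT d hd'
          exact ⟨this.1, this.2.1, this.2.2.1, this.2.2.2.1, this.2.2.2.2.1, this.2.2.2.2.2,
            by simp⟩)
      calc (D.card : ℝ) ≤ 100 * (2 * δ) * P * Q / (1 : ℕ) := this
        _ = 200 * δ * (P * Q) := by push_cast; ring
    have p4 := E1G_holder D (fun d => Real.exp ((20 / 7 * (4 + 8 * z)) * (sL z d.1 + sL z d.2.1 +
        sL z (E1G_n B A al be d).natAbs))) (fun d _ => (Real.exp_pos _).le)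
        (200 * δ * (P * Q)) (1 * K * (P * Q)) (by positivity) (by positivity) p3 (by
          refine le_trans (le_of_eq (Finset.sum_congr rfl fun d _ => ?_)) p2
          rw [← Real.exp_mul]
          congr 1
          ring)
    refine p1.trans (p4.trans ?_)
    have e1 : min 1 δ = δ := min_eq_right (by linarith)
    have e2 : max 1 δ = 1 := max_eq_left (by linarith)
    rw [e1, e2, Real.one_rpow, mul_one]
    have e3 : (200 * δ * (P * Q)) ^ (9 / 10 : ℝ) * (1 * K * (P * Q)) ^ (1 / 10 : ℝ) =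
        (200 ^ (9 / 10 : ℝ) * K ^ (1 / 10 : ℝ)) * δ ^ (9 / 10 : ℝ) * (P * Q) := by
      rw [Real.mul_rpow (by positivity) hPQ.le, Real.mul_rpow (by norm_num) hδ.le,
        Real.mul_rpow (by positivity) hPQ.le, one_mul]
      have : (P * Q) ^ (9 / 10 : ℝ) * (P * Q) ^ (1 / 10 : ℝ) = P * Q := by
        rw [← Real.rpow_add hPQ]
        norm_num
      calc (200 : ℝ) ^ (9 / 10 : ℝ) * δ ^ (9 / 10 : ℝ) * (P * Q) ^ (9 / 10 : ℝ) *
            (K ^ (1 / 10 : ℝ) * (P * Q) ^ (1 / 10 : ℝ))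
          = 200 ^ (9 / 10 : ℝ) * K ^ (1 / 10 : ℝ) * δ ^ (9 / 10 : ℝ) *
            ((P * Q) ^ (9 / 10 : ℝ) * (P * Q) ^ (1 / 10 : ℝ)) := by ring
        _ = _ := by rw [this]
    rw [e3]
    have e4 : (200 : ℝ) ^ (9 / 10 : ℝ) ≤ 200 := by
      calc (200 : ℝ) ^ (9 / 10 : ℝ) ≤ 200 ^ (1 : ℝ) :=
            Real.rpow_le_rpow_of_exponent_le (by norm_num) (by norm_num)
        _ = 200 := Real.rpow_one _
    have e5 : K ^ (1 / 10 : ℝ) ≤ K := by
      calc K ^ (1 / 10 : ℝ) ≤ K ^ (1 : ℝ) :=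
            Real.rpow_le_rpow_of_exponent_le (by linarith) (by norm_num)
        _ = K := Real.rpow_one _
    have e6 : (200 : ℝ) ^ (9 / 10 : ℝ) * K ^ (1 / 10 : ℝ) ≤ 500 * K := by
      have : (200 : ℝ) ^ (9 / 10 : ℝ) * K ^ (1 / 10 : ℝ) ≤ 200 * K :=
        mul_le_mul e4 e5 (Real.rpow_nonneg hK0.le _) (by norm_num)
      linarith
    exact mul_le_mul_of_nonneg_right (mul_le_mul_of_nonneg_right e6 (Real.rpow_nonneg hδ.le _))
      hPQ.le
  · push Not at hd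
    have hc1 : ∀ e ∈ E, ((T e).card : ℝ) ≤ 4 * δ + 1 := fun e he => by
      have := E1G_card (T e) _ (2 * δ) (by linarith) fun t ht => (hT e he t ht).1
      linarith
    have p1 := pm (4 * δ + 1) (by linarith) hc1
    have p2 := key (4 * δ + 1) (by linarith) (by linarith) hc1 (60 / 7 * (4 + 8 * z))
      (by positivity) (by linarith)
    have p3 : ∑ d ∈ D, Real.exp ((20 / 7 * (4 + 8 * z)) * (sL z d.1 + sL z d.2.1 +
        sL z (E1G_n B A al be d).natAbs)) ≤ (4 * δ + 1) * K * (P * Q) := by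
      refine le_trans (le_of_eq (Finset.sum_congr rfl fun d _ => ?_)) p2
      congr 1
      ring
    refine p1.trans ?_
    have hM : 0 < 4 * δ + 1 := by linarith
    have p4 : (4 * δ + 1) ^ (13 / 7 : ℝ) * ((4 * δ + 1) * K * (P * Q)) =
        (4 * δ + 1) ^ (20 / 7 : ℝ) * (K * (P * Q)) := by
      have : (4 * δ + 1) ^ (20 / 7 : ℝ) = (4 * δ + 1) ^ (13 / 7 : ℝ) * (4 * δ + 1) := by
        rw [← Real.rpow_add_one hM.ne']
        norm_num
      rw [this]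
      ring
    refine (mul_le_mul_of_nonneg_left p3 (Real.rpow_nonneg hM.le _)).trans ?_
    rw [p4]
    have hm : 4 * δ + 1 ≤ 5 * max 1 δ := by
      have a1 : 1 ≤ max 1 δ := le_max_left _ _
      have a2 : δ ≤ max 1 δ := le_max_right _ _
      linarith
    have hmx : 0 ≤ max 1 δ := by
      have a1 : 1 ≤ max 1 δ := le_max_left _ _
      linarith
    have p5 : (4 * δ + 1) ^ (20 / 7 : ℝ) ≤ 125 * (max 1 δ) ^ (20 / 7 : ℝ) := by
      refine (Real.rpow_le_rpow hM.le hm (by norm_num)).trans ?_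
      rw [Real.mul_rpow (by norm_num) hmx]
      refine mul_le_mul_of_nonneg_right ?_ (Real.rpow_nonneg hmx _)
      calc (5 : ℝ) ^ (20 / 7 : ℝ) ≤ 5 ^ (3 : ℝ) :=
            Real.rpow_le_rpow_of_exponent_le (by norm_num) (by norm_num)
        _ = 125 := by
            rw [show (3 : ℝ) = ((3 : ℕ) : ℝ) by norm_num, Real.rpow_natCast]; norm_num
    have hmn : 1 / 4 ≤ (min 1 δ) ^ (9 / 10 : ℝ) := by
      have a1 : (1 / 4 : ℝ) ≤ min 1 δ := le_min (by norm_num) hd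
      calc (1 / 4 : ℝ) = (1 / 4 : ℝ) ^ (1 : ℝ) := (Real.rpow_one _).symm
        _ ≤ (1 / 4 : ℝ) ^ (9 / 10 : ℝ) :=
            Real.rpow_le_rpow_of_exponent_ge (by norm_num) (by norm_num) (by norm_num)
        _ ≤ _ := Real.rpow_le_rpow (by norm_num) a1 (by norm_num)
    have hx : 0 ≤ (max 1 δ) ^ (20 / 7 : ℝ) := Real.rpow_nonneg hmx _
    calc (4 * δ + 1) ^ (20 / 7 : ℝ) * (K * (P * Q)) ≤
        125 * (max 1 δ) ^ (20 / 7 : ℝ) * (K * (P * Q)) :=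
          mul_le_mul_of_nonneg_right p5 (by positivity)
      _ = 500 * K * (1 / 4) * (max 1 δ) ^ (20 / 7 : ℝ) * (P * Q) := by ring
      _ ≤ 500 * K * (min 1 δ) ^ (9 / 10 : ℝ) * (max 1 δ) ^ (20 / 7 : ℝ) * (P * Q) := by
          refine mul_le_mul_of_nonneg_right (mul_le_mul_of_nonneg_right
            (mul_le_mul_of_nonneg_left hmn (by positivity)) hx) hPQ.le

/-! ### the term estimate (helper64's E1GA) -/

open Vale.Agent.P028EV (q1 r1 Del hh Ts Bd Ad Nd)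
open Vale.Agent.P028KM (w mu Dm Bl FF MN Sb ex cl OK KO th Th MV MW)

theorem e1g_q1 {a b x y : ℕ} (ha : 0 < a) (hb : 0 < b) (hg : Nat.gcd (a * x) (b * y) = Nat.gcd a b) :
    q1 (a * x) (b * y) = q1 a b * x ∧ r1 (a * x) (b * y) = r1 a b * y := by
  unfold q1 r1
  rw [hg]
  constructor
  · rw [Nat.mul_comm a x, Nat.mul_div_assoc x (Nat.gcd_dvd_left a b), Nat.mul_comm]
  · rw [Nat.mul_comm b y, Nat.mul_div_assoc y (Nat.gcd_dvd_right a b), Nat.mul_comm]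

theorem e1g_term (γ : ℝ) (B : ℕ) (A : ℤ) (ψ : ℕ → ℝ) (θ z δ : ℝ) (hθ : 0 ≤ θ) (hδ : 0 < δ)
    (a b x y : ℕ) (ha : 0 < a) (hb : 0 < b) (hx : 0 < x) (hy : 0 < y)
    (hg : Nat.gcd (a * x) (b * y) = Nat.gcd a b) (hD : Dm ψ (a * x) (b * y) ≤ δ) :
    (EX γ B A ψ θ z (a * x) (b * y) * Real.exp (-(θ * sL z (q1 a b * r1 a b)))) ^ (20 / 7 : ℝ) ≤
      (4 * δ + 1) ^ (13 / 7 : ℝ) *
        ∑ t ∈ Ts γ (hh (a * x) (b * y)) (Del ψ (a * x) (b * y)) with nt B A (a * x) (b * y) t ≠ 0,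
        Real.exp ((20 / 7) * θ * (sL z x + sL z y + sL z (nt B A (a * x) (b * y) t).natAbs)) := by
  obtain ⟨hq, hr⟩ := e1g_q1 ha hb hg
  set T : Finset ℤ := (Ts γ (hh (a * x) (b * y)) (Del ψ (a * x) (b * y))).filter
    (fun t => nt B A (a * x) (b * y) t ≠ 0) with hTdef
  have hcard : (T.card : ℝ) ≤ 4 * δ + 1 := by
    have h := E1G_card T (γ * ((hh (a * x) (b * y) : ℤ) : ℝ)) (2 * δ) (by linarith) (by
      intro t ht
      have h1 := (Finset.mem_filter.mp (Finset.mem_filter.mp ht).1).2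
      refine lt_of_lt_of_le h1 ?_
      have h2 : Del ψ (a * x) (b * y) ≤ 2 * Dm ψ (a * x) (b * y) := by
        unfold Del Dm
        have e1 := le_max_left ((r1 (a * x) (b * y) : ℝ) * ψ (a * x))
          ((q1 (a * x) (b * y) : ℝ) * ψ (b * y))
        have e2 := le_max_right ((r1 (a * x) (b * y) : ℝ) * ψ (a * x))
          ((q1 (a * x) (b * y) : ℝ) * ψ (b * y))
        linarith
      linarith)
    linarith
  have hsl : sL z (q1 (a * x) (b * y) * r1 (a * x) (b * y)) ≤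
      sL z (q1 a b * r1 a b) + sL z x + sL z y := by
    rw [hq, hr]
    have e : q1 a b * x * (r1 a b * y) = (q1 a b * r1 a b) * (x * y) := by ring
    rw [e]
    have h1 := sL_mul z (q1 a b * r1 a b) (x * y)
    have h2 := sL_mul z x y
    linarith
  have hle : EX γ B A ψ θ z (a * x) (b * y) * Real.exp (-(θ * sL z (q1 a b * r1 a b))) ≤
      ∑ t ∈ T, Real.exp (θ * (sL z x + sL z y + sL z (nt B A (a * x) (b * y) t).natAbs)) := by
    unfold EX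
    rw [Finset.sum_mul]
    refine Finset.sum_le_sum fun t _ => ?_
    rw [← Real.exp_add]
    refine Real.exp_le_exp.mpr ?_
    have h3 := mul_le_mul_of_nonneg_left hsl hθ
    linarith
  have hEX : 0 ≤ EX γ B A ψ θ z (a * x) (b * y) := by
    unfold EX
    exact Finset.sum_nonneg fun t _ => (Real.exp_pos _).le
  have h0 : 0 ≤ EX γ B A ψ θ z (a * x) (b * y) * Real.exp (-(θ * sL z (q1 a b * r1 a b))) :=
    mul_nonneg hEX (Real.exp_pos _).le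
  refine (Real.rpow_le_rpow h0 hle (by norm_num)).trans ?_
  have h3 := Real.rpow_sum_le_const_mul_sum_rpow_of_nonneg T
    (f := fun t => Real.exp (θ * (sL z x + sL z y + sL z (nt B A (a * x) (b * y) t).natAbs)))
    (p := 20 / 7) (by norm_num) (fun t _ => (Real.exp_pos _).le)
  refine h3.trans ?_
  have h4 : (20 / 7 - 1 : ℝ) = 13 / 7 := by norm_num
  rw [h4]
  refine mul_le_mul (Real.rpow_le_rpow (Nat.cast_nonneg _) hcard (by norm_num)) ?_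
    (Finset.sum_nonneg fun t _ => Real.rpow_nonneg (Real.exp_pos _).le _)
    (Real.rpow_nonneg (by linarith) _)
  refine le_of_eq (Finset.sum_congr rfl fun t _ => ?_)
  rw [← Real.exp_mul]
  congr 1
  ring

end Vale.Agent.P028W
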