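import Vale.Agent.P028W.Defs3
import Vale.Agent.P028W.SL
import Vale.Agent.P028W.MO1
import Vale.Agent.P028W.MO2

/-!
Module E1GB (part of E1G). Let `m = 4δ+1`, `s = (20/7) θ (sL x + sL y + sL |n|)`. Hölder:
`∑_T exp s ≤ (#T)^(9/10) (∑_T exp (10 s))^(1/10)`, `#T ≤ 100 (2δ) P Q` (`eqd`, `d = 1`), and
`∑_T exp (10 s) ≤ (∑_T exp(30 (20/7) θ sL x))^(1/3) (∑_T exp(30 (20/7) θ sL y))^(1/3) (∑_T exp(30 (20/7) θ sL |n|))^(1/3)`
`≤ C m P Q`: the first sum is `≤ 2Q (4δ+1) ∑_x exp(..) ≤ 2Q m C P` (for given `x`, at most `Q+1 ≤ 2Q` values of `y`,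
for given `x, y` at most `4δ+1` values of `t`) by `mo1`, the second is symmetric, the third by `mo2` (`R = 1100`:
`(600/7) * 12 z ≤ 1100 z`).
-/

namespace Vale.Agent.P028W

open Finset MeasureTheory
open Vale.Agent.P028EV (q1 r1 Del hh Ts Bd Ad Nd)
open Vale.Agent.P028KM (w mu Dm Bl FF MN Sb ex cl OK KO th Th MV MW)

theorem e1g_cntt (c δ : ℝ) (hδ : 0 < δ) (S : Finset ℤ) (h : ∀ t ∈ S, |(t : ℝ) + c| < 2 * δ) :
    (S.card : ℝ) ≤ 4 * δ + 1 := by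
  rcases S.eq_empty_or_nonempty with rfl | hne
  · rw [Finset.card_empty, Nat.cast_zero]
    linarith
  · have ha := h _ (S.min'_mem hne)
    have hb := h _ (S.max'_mem hne)
    have hsub : S ⊆ Finset.Icc (S.min' hne) (S.max' hne) := fun t ht =>
      Finset.mem_Icc.2 ⟨S.min'_le t ht, S.le_max' t ht⟩
    have hc := Finset.card_le_card hsub
    rw [Int.card_Icc] at hc
    have hab : S.min' hne ≤ S.max' hne := S.min'_le _ (S.max'_mem hne)
    have h1 : ((S.card : ℤ)) ≤ S.max' hne + 1 - S.min' hne := by omega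
    have h2 : ((S.card : ℝ)) ≤ (S.max' hne : ℝ) + 1 - (S.min' hne : ℝ) := by exact_mod_cast h1
    rw [abs_lt] at ha hb
    linarith [ha.1, hb.2]

theorem e1g_cnty0 (Q : ℝ) (hQ : 1 ≤ Q) (S : Finset ℕ)
    (h : ∀ y ∈ S, Q ≤ (y : ℝ) ∧ (y : ℝ) ≤ 2 * Q) : (S.card : ℝ) ≤ 2 * Q := by
  rcases S.eq_empty_or_nonempty with rfl | hne
  · rw [Finset.card_empty, Nat.cast_zero]
    linarith
  · have ha := h _ (S.min'_mem hne)
    have hb := h _ (S.max'_mem hne)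
    have hsub : S ⊆ Finset.Icc (S.min' hne) (S.max' hne) := fun t ht =>
      Finset.mem_Icc.2 ⟨S.min'_le t ht, S.le_max' t ht⟩
    have hc := Finset.card_le_card hsub
    rw [Nat.card_Icc] at hc
    have hab : S.min' hne ≤ S.max' hne := S.min'_le _ (S.max'_mem hne)
    have h1 : S.card + S.min' hne ≤ S.max' hne + 1 := by omega
    have h2 : (S.card : ℝ) + (S.min' hne : ℝ) ≤ (S.max' hne : ℝ) + 1 := by exact_mod_cast h1
    linarith [ha.1, hb.2]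

theorem e1g_cnt (c : ℕ → ℕ → ℝ) (key oth : ℕ × ℕ × ℤ → ℕ) (Q δ : ℝ) (hQ : 1 ≤ Q) (hδ : 0 < δ)
    (T : Finset (ℕ × ℕ × ℤ))
    (hT : ∀ z' ∈ T, Q ≤ (oth z' : ℝ) ∧ (oth z' : ℝ) ≤ 2 * Q ∧
      |(z'.2.2 : ℝ) + c (key z') (oth z')| < 2 * δ)
    (hinj : ∀ z' z'' : ℕ × ℕ × ℤ, key z' = key z'' → oth z' = oth z'' → z'.2.2 = z''.2.2 →
      z' = z'')
    (f : ℕ → ℝ) (hf : ∀ x, 0 ≤ f x) :
    ∑ z' ∈ T, f (key z') ≤ 2 * Q * (4 * δ + 1) * ∑ x ∈ T.image key, f x := by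
  classical
  have hcard : ∀ x : ℕ, ((T.filter (fun z' => key z' = x)).card : ℝ) ≤ 2 * Q * (4 * δ + 1) := by
    intro x
    have h1 : (T.filter (fun z' => key z' = x)).card =
        ∑ y ∈ (T.filter (fun z' => key z' = x)).image oth,
          ((T.filter (fun z' => key z' = x)).filter (fun z' => oth z' = y)).card :=
      Finset.card_eq_sum_card_image oth _
    rw [h1]
    push_cast
    have h2 : ∀ y ∈ (T.filter (fun z' => key z' = x)).image oth,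
        (((T.filter (fun z' => key z' = x)).filter (fun z' => oth z' = y)).card : ℝ) ≤
          4 * δ + 1 := by
      intro y _
      have h3 : ((T.filter (fun z' => key z' = x)).filter (fun z' => oth z' = y)).card =
          (((T.filter (fun z' => key z' = x)).filter (fun z' => oth z' = y)).image
            (fun z' => z'.2.2)).card := by
        rw [Finset.card_image_of_injOn]
        intro z1 hz1 z2 hz2 he
        simp only [Finset.coe_filter, Finset.mem_filter, Set.mem_setOf_eq] at hz1 hz2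
        exact hinj z1 z2 (by rw [hz1.1.2, hz2.1.2]) (by rw [hz1.2, hz2.2]) he
      rw [h3]
      refine e1g_cntt (c x y) δ hδ _ fun t ht => ?_
      rw [Finset.mem_image] at ht
      obtain ⟨z1, hz1, rfl⟩ := ht
      rw [Finset.mem_filter, Finset.mem_filter] at hz1
      have h4 := (hT z1 hz1.1.1).2.2
      rw [hz1.1.2, hz1.2] at h4
      exact h4
    have h5 : (((T.filter (fun z' => key z' = x)).image oth).card : ℝ) ≤ 2 * Q := by
      refine e1g_cnty0 Q hQ _ fun y hy => ?_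
      rw [Finset.mem_image] at hy
      obtain ⟨z1, hz1, rfl⟩ := hy
      have h6 := hT z1 (Finset.mem_filter.1 hz1).1
      exact ⟨h6.1, h6.2.1⟩
    calc ∑ y ∈ (T.filter (fun z' => key z' = x)).image oth,
          (((T.filter (fun z' => key z' = x)).filter (fun z' => oth z' = y)).card : ℝ)
        ≤ ∑ y ∈ (T.filter (fun z' => key z' = x)).image oth, (4 * δ + 1) :=
          Finset.sum_le_sum h2
      _ = (((T.filter (fun z' => key z' = x)).image oth).card : ℝ) * (4 * δ + 1) := by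
          rw [Finset.sum_const, nsmul_eq_mul]
      _ ≤ 2 * Q * (4 * δ + 1) := mul_le_mul_of_nonneg_right h5 (by linarith)
  have h7 : ∑ z' ∈ T, f (key z') =
      ∑ x ∈ T.image key, ∑ z' ∈ T.filter (fun z' => key z' = x), f (key z') :=
    (Finset.sum_fiberwise_of_maps_to (fun z' hz' => Finset.mem_image_of_mem key hz') _).symm
  rw [h7, Finset.mul_sum]
  refine Finset.sum_le_sum fun x _ => ?_
  calc ∑ z' ∈ T.filter (fun z' => key z' = x), f (key z')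
      = ∑ z' ∈ T.filter (fun z' => key z' = x), f x :=
        Finset.sum_congr rfl fun z' hz' => by rw [(Finset.mem_filter.1 hz').2]
    _ = ((T.filter (fun z' => key z' = x)).card : ℝ) * f x := by
        rw [Finset.sum_const, nsmul_eq_mul]
    _ ≤ 2 * Q * (4 * δ + 1) * f x := mul_le_mul_of_nonneg_right (hcard x) (hf x)

/-- E1GB1: number of triples with given `x` -/
theorem e1g_cntx (γ : ℝ) (al be : ℕ) (P Q δ : ℝ) (hQ : 1 ≤ Q) (hδ : 0 < δ)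
    (T : Finset (ℕ × ℕ × ℤ))
    (hT : ∀ z' ∈ T, P ≤ (z'.1 : ℝ) ∧ (z'.1 : ℝ) ≤ 2 * P ∧ Q ≤ (z'.2.1 : ℝ) ∧ (z'.2.1 : ℝ) ≤ 2 * Q ∧
      |(z'.2.2 : ℝ) + γ * ((be : ℝ) * z'.2.1 - (al : ℝ) * z'.1)| < 2 * δ)
    (f : ℕ → ℝ) (hf : ∀ x, 0 ≤ f x) :
    ∑ z' ∈ T, f z'.1 ≤ 2 * Q * (4 * δ + 1) * ∑ x ∈ T.image (fun z' => z'.1), f x :=
  e1g_cnt (fun x y => γ * ((be : ℝ) * y - (al : ℝ) * x)) (fun z' => z'.1) (fun z' => z'.2.1)
    Q δ hQ hδ T (fun z' hz' => (hT z' hz').2.2)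
    (fun _ _ h1 h2 h3 => Prod.ext h1 (Prod.ext h2 h3)) f hf

/-- E1GB1: number of triples with given `y` -/
theorem e1g_cnty (γ : ℝ) (al be : ℕ) (P Q δ : ℝ) (hP : 1 ≤ P) (hδ : 0 < δ)
    (T : Finset (ℕ × ℕ × ℤ))
    (hT : ∀ z' ∈ T, P ≤ (z'.1 : ℝ) ∧ (z'.1 : ℝ) ≤ 2 * P ∧ Q ≤ (z'.2.1 : ℝ) ∧ (z'.2.1 : ℝ) ≤ 2 * Q ∧
      |(z'.2.2 : ℝ) + γ * ((be : ℝ) * z'.2.1 - (al : ℝ) * z'.1)| < 2 * δ)
    (f : ℕ → ℝ) (hf : ∀ x, 0 ≤ f x) :
    ∑ z' ∈ T, f z'.2.1 ≤ 2 * P * (4 * δ + 1) * ∑ y ∈ T.image (fun z' => z'.2.1), f y :=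
  e1g_cnt (fun y x => γ * ((be : ℝ) * y - (al : ℝ) * x)) (fun z' => z'.2.1) (fun z' => z'.1)
    P δ hP hδ T (fun z' hz' => ⟨(hT z' hz').1, (hT z' hz').2.1, (hT z' hz').2.2.2.2⟩)
    (fun _ _ h1 h2 h3 => Prod.ext h2 (Prod.ext h1 h3)) f hf

/-- E1GB2 -/
theorem e1g_hold (T : Finset (ℕ × ℕ × ℤ)) (u v s : ℕ × ℕ × ℤ → ℝ) (M K : ℝ) (hM : 0 ≤ M) (hK : 0 ≤ K)
    (hT : (T.card : ℝ) ≤ M) (h1 : ∑ z' ∈ T, Real.exp (30 * u z') ≤ K)
    (h2 : ∑ z' ∈ T, Real.exp (30 * v z') ≤ K) (h3 : ∑ z' ∈ T, Real.exp (30 * s z') ≤ K) :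
    ∑ z' ∈ T, Real.exp (u z' + v z' + s z') ≤ M ^ (9 / 10 : ℝ) * K ^ (1 / 10 : ℝ) := by
  have hpt : ∀ z' : ℕ × ℕ × ℤ, Real.exp (u z' + v z' + s z') ^ 10 ≤
      (Real.exp (30 * u z') + Real.exp (30 * v z') + Real.exp (30 * s z')) / 3 := by
    intro z'
    have e0 : Real.exp (u z' + v z' + s z') ^ 10 =
        Real.exp (10 * u z') * Real.exp (10 * v z') * Real.exp (10 * s z') := by
      rw [← Real.exp_nat_mul, ← Real.exp_add, ← Real.exp_add]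
      congr 1
      push_cast
      ring
    have e1 : ∀ t : ℝ, Real.exp (30 * t) = Real.exp (10 * t) ^ 3 := fun t => by
      rw [← Real.exp_nat_mul]
      congr 1
      push_cast
      ring
    rw [e0, e1, e1, e1]
    have hx := Real.exp_pos (10 * u z')
    have hy := Real.exp_pos (10 * v z')
    have hz := Real.exp_pos (10 * s z')
    generalize Real.exp (10 * u z') = x at hx ⊢
    generalize Real.exp (10 * v z') = y at hy ⊢
    generalize Real.exp (10 * s z') = z at hz ⊢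
    nlinarith [mul_nonneg (add_pos (add_pos hx hy) hz).le
      (add_nonneg (add_nonneg (sq_nonneg (x - y)) (sq_nonneg (y - z))) (sq_nonneg (z - x)))]
  have hsum : ∑ z' ∈ T, Real.exp (u z' + v z' + s z') ^ 10 ≤ K := by
    refine (Finset.sum_le_sum fun z' _ => hpt z').trans ?_
    rw [← Finset.sum_div, Finset.sum_add_distrib, Finset.sum_add_distrib]
    linarith
  have hS0 : 0 ≤ ∑ z' ∈ T, Real.exp (u z' + v z' + s z') :=
    Finset.sum_nonneg fun z' _ => Real.exp_nonneg _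
  have hpow : (∑ z' ∈ T, Real.exp (u z' + v z' + s z')) ^ 10 ≤ M ^ 9 * K := by
    rcases T.eq_empty_or_nonempty with h | h
    · subst h
      rw [Finset.sum_empty, zero_pow (by norm_num)]
      exact mul_nonneg (pow_nonneg hM 9) hK
    · have hc : (0 : ℝ) < (T.card : ℝ) := Nat.cast_pos.2 h.card_pos
      have hp := pow_sum_div_card_le_sum_pow (s := T)
        (f := fun z' => Real.exp (u z' + v z' + s z')) (fun z' _ => Real.exp_nonneg _) 9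
      rw [div_le_iff₀ (by positivity)] at hp
      calc (∑ z' ∈ T, Real.exp (u z' + v z' + s z')) ^ 10
          ≤ (∑ z' ∈ T, Real.exp (u z' + v z' + s z') ^ 10) * (T.card : ℝ) ^ 9 := hp
        _ ≤ K * M ^ 9 := mul_le_mul hsum (pow_le_pow_left₀ hc.le hT 9) (by positivity) hK
        _ = M ^ 9 * K := mul_comm _ _
  generalize ∑ z' ∈ T, Real.exp (u z' + v z' + s z') = S at hS0 hpow ⊢
  have h10 : S = (S ^ 10) ^ (1 / 10 : ℝ) := by
    rw [← Real.rpow_natCast, ← Real.rpow_mul hS0]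
    norm_num
  have h11 : (S ^ 10) ^ (1 / 10 : ℝ) ≤ (M ^ 9 * K) ^ (1 / 10 : ℝ) :=
    Real.rpow_le_rpow (pow_nonneg hS0 10) hpow (by norm_num)
  have h12 : (M ^ 9 * K) ^ (1 / 10 : ℝ) = M ^ (9 / 10 : ℝ) * K ^ (1 / 10 : ℝ) := by
    rw [Real.mul_rpow (pow_nonneg hM 9) hK, ← Real.rpow_natCast M 9, ← Real.rpow_mul hM]
    norm_num
  rw [h12] at h11
  exact h10.le.trans h11

theorem E1GB3_pow (a b c δ m : ℝ) (ha : 1 ≤ a) (hb : 1 ≤ b) (hc : 0 < c) (hδ : 0 < δ)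
    (hm : 0 < m) :
    (a * δ * c) ^ (9 / 10 : ℝ) * (b * m * c) ^ (1 / 10 : ℝ) ≤
      a * b * δ ^ (9 / 10 : ℝ) * m ^ (1 / 10 : ℝ) * c := by
  rw [Real.mul_rpow (by positivity) hc.le, Real.mul_rpow (by positivity) hδ.le,
    Real.mul_rpow (by positivity) hc.le, Real.mul_rpow (by positivity) hm.le]
  have h1 : c ^ (9 / 10 : ℝ) * c ^ (1 / 10 : ℝ) = c := by
    rw [← Real.rpow_add hc]
    norm_num
  have h2 : a ^ (9 / 10 : ℝ) ≤ a := by
    calc a ^ (9 / 10 : ℝ) ≤ a ^ (1 : ℝ) := Real.rpow_le_rpow_of_exponent_le ha (by norm_num)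
      _ = a := Real.rpow_one a
  have h3 : b ^ (1 / 10 : ℝ) ≤ b := by
    calc b ^ (1 / 10 : ℝ) ≤ b ^ (1 : ℝ) := Real.rpow_le_rpow_of_exponent_le hb (by norm_num)
      _ = b := Real.rpow_one b
  have h4 : 0 ≤ δ ^ (9 / 10 : ℝ) * m ^ (1 / 10 : ℝ) := by positivity
  calc a ^ (9 / 10 : ℝ) * δ ^ (9 / 10 : ℝ) * c ^ (9 / 10 : ℝ) *
        (b ^ (1 / 10 : ℝ) * m ^ (1 / 10 : ℝ) * c ^ (1 / 10 : ℝ))
      = (a ^ (9 / 10 : ℝ) * b ^ (1 / 10 : ℝ)) * ((δ ^ (9 / 10 : ℝ) * m ^ (1 / 10 : ℝ)) *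
          (c ^ (9 / 10 : ℝ) * c ^ (1 / 10 : ℝ))) := by ring
    _ = (a ^ (9 / 10 : ℝ) * b ^ (1 / 10 : ℝ)) * ((δ ^ (9 / 10 : ℝ) * m ^ (1 / 10 : ℝ)) * c) := by
        rw [h1]
    _ ≤ (a * b) * ((δ ^ (9 / 10 : ℝ) * m ^ (1 / 10 : ℝ)) * c) := by
        refine mul_le_mul_of_nonneg_right ?_ (mul_nonneg h4 hc.le)
        exact mul_le_mul h2 h3 (by positivity) (by linarith)
    _ = _ := by ring

/-- E1GB3: from the above -/
theorem e1g_sum : ∃ C : ℝ, 1 ≤ C ∧ ∀ z θ : ℝ, 1 ≤ z → 0 ≤ θ → θ ≤ 12 * z →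
    ∀ (γ : ℝ) (B : ℕ) (A : ℤ), 0 < B → IsCoprime A (B : ℤ) → ∀ N : ℝ, 0 < N →
    |(B : ℝ) * γ - A| ≤ 1 / N → ∀ al be : ℕ, 0 < al → 0 < be → Nat.Coprime al be →
    ∀ P Q δ : ℝ, (B : ℝ) ≤ P → (B : ℝ) ≤ Q → 0 < δ → (al : ℝ) ≤ N * (2 * δ) →
    (be : ℝ) ≤ N * (2 * δ) → ∀ T : Finset (ℕ × ℕ × ℤ),
    (∀ z' ∈ T, P ≤ (z'.1 : ℝ) ∧ (z'.1 : ℝ) ≤ 2 * P ∧ Q ≤ (z'.2.1 : ℝ) ∧ (z'.2.1 : ℝ) ≤ 2 * Q ∧
      |(z'.2.2 : ℝ) + γ * ((be : ℝ) * z'.2.1 - (al : ℝ) * z'.1)| < 2 * δ ∧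
      ((be : ℤ) * z'.2.1 - (al : ℤ) * z'.1) * A + z'.2.2 * B ≠ 0) →
    ∑ z' ∈ T, Real.exp ((20 / 7) * θ * (sL z z'.1 + sL z z'.2.1 +
        sL z (((be : ℤ) * z'.2.1 - (al : ℤ) * z'.1) * A + z'.2.2 * B).natAbs))
      ≤ C * δ ^ (9 / 10 : ℝ) * (4 * δ + 1) ^ (1 / 10 : ℝ) * (P * Q) := by
  obtain ⟨C1, hC1, H1⟩ := mo1 1100 (by norm_num)
  obtain ⟨C2, hC2, H2⟩ := mo2 1100 (by norm_num)
  refine ⟨200 * (2 * C1 + 2 * C2), by linarith, ?_⟩
  intro z θ hz hθ hθ12 γ B A hB hco N hN hap al be hal hbe hcop P Q δ hP hQ hδ h1 h2 T hT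
  have hB1 : (1 : ℝ) ≤ B := by exact_mod_cast hB
  have hP1 : 1 ≤ P := hB1.trans hP
  have hQ1 : 1 ≤ Q := hB1.trans hQ
  have hPQ : 0 < P * Q := by positivity
  set θ' : ℝ := 30 * ((20 / 7) * θ) with hθ'
  have hθ0 : 0 ≤ θ' := by positivity
  have hθ1 : θ' ≤ 1100 * z := by rw [hθ']; linarith
  have hT' : ∀ z' ∈ T, P ≤ (z'.1 : ℝ) ∧ (z'.1 : ℝ) ≤ 2 * P ∧ Q ≤ (z'.2.1 : ℝ) ∧
      (z'.2.1 : ℝ) ≤ 2 * Q ∧
      |(z'.2.2 : ℝ) + γ * ((be : ℝ) * z'.2.1 - (al : ℝ) * z'.1)| < 2 * δ := fun z' h =>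
    ⟨(hT z' h).1, (hT z' h).2.1, (hT z' h).2.2.1, (hT z' h).2.2.2.1, (hT z' h).2.2.2.2.1⟩
  -- cardinality
  have hcard : (T.card : ℝ) ≤ 200 * δ * (P * Q) := by
    have h := eqd γ B A hB hco N hN hap al be hal hbe hcop P Q (2 * δ) hP hQ (by positivity)
      h1 h2 1 one_pos T (fun z' h => ⟨(hT z' h).1, (hT z' h).2.1, (hT z' h).2.2.1,
        (hT z' h).2.2.2.1, (hT z' h).2.2.2.2.1, (hT z' h).2.2.2.2.2,
        by rw [Nat.cast_one]; exact one_dvd _⟩)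
    rw [Nat.cast_one, div_one] at h
    linarith
  have hm0 : 0 < 4 * δ + 1 := by linarith
  have hK0 : (0 : ℝ) ≤ (2 * C1 + 2 * C2) * (4 * δ + 1) * (P * Q) := by positivity
  have hu : ∑ z' ∈ T, Real.exp (30 * ((20 / 7) * θ * sL z z'.1)) ≤
      (2 * C1 + 2 * C2) * (4 * δ + 1) * (P * Q) := by
    have e1 : ∀ z' ∈ T, Real.exp (30 * ((20 / 7) * θ * sL z z'.1)) =
        (fun x : ℕ => Real.exp (θ' * sL z x)) z'.1 := by
      intro z' _
      change _ = Real.exp (θ' * sL z z'.1)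
      congr 1
      rw [hθ']
      ring
    rw [sum_congr rfl e1]
    have a1 := e1g_cntx γ al be P Q δ hQ1 hδ T hT' (fun x : ℕ => Real.exp (θ' * sL z x))
      (fun x => (Real.exp_pos _).le)
    have a2 := H1 z θ' P hz hθ0 hθ1 hP1 (T.image (fun z' => z'.1)) (by
      intro x hx
      obtain ⟨z', hz', rfl⟩ := mem_image.mp hx
      exact ⟨(hT z' hz').1, (hT z' hz').2.1⟩)
    refine a1.trans ?_
    calc _ ≤ 2 * Q * (4 * δ + 1) * (C1 * P) :=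
          mul_le_mul_of_nonneg_left a2 (by positivity)
      _ = (2 * C1) * ((4 * δ + 1) * (P * Q)) := by ring
      _ ≤ (2 * C1 + 2 * C2) * ((4 * δ + 1) * (P * Q)) :=
          mul_le_mul_of_nonneg_right (by linarith) (by positivity)
      _ = _ := by ring
  have hv : ∑ z' ∈ T, Real.exp (30 * ((20 / 7) * θ * sL z z'.2.1)) ≤
      (2 * C1 + 2 * C2) * (4 * δ + 1) * (P * Q) := by
    have e1 : ∀ z' ∈ T, Real.exp (30 * ((20 / 7) * θ * sL z z'.2.1)) =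
        (fun x : ℕ => Real.exp (θ' * sL z x)) z'.2.1 := by
      intro z' _
      change _ = Real.exp (θ' * sL z z'.2.1)
      congr 1
      rw [hθ']
      ring
    rw [sum_congr rfl e1]
    have a1 := e1g_cnty γ al be P Q δ hP1 hδ T hT' (fun x : ℕ => Real.exp (θ' * sL z x))
      (fun x => (Real.exp_pos _).le)
    have a2 := H1 z θ' Q hz hθ0 hθ1 hQ1 (T.image (fun z' => z'.2.1)) (by
      intro x hx
      obtain ⟨z', hz', rfl⟩ := mem_image.mp hx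
      exact ⟨(hT z' hz').2.2.1, (hT z' hz').2.2.2.1⟩)
    refine a1.trans ?_
    calc _ ≤ 2 * P * (4 * δ + 1) * (C1 * Q) :=
          mul_le_mul_of_nonneg_left a2 (by positivity)
      _ = (2 * C1) * ((4 * δ + 1) * (P * Q)) := by ring
      _ ≤ (2 * C1 + 2 * C2) * ((4 * δ + 1) * (P * Q)) :=
          mul_le_mul_of_nonneg_right (by linarith) (by positivity)
      _ = _ := by ring
  have hs : ∑ z' ∈ T, Real.exp (30 * ((20 / 7) * θ *
      sL z (((be : ℤ) * z'.2.1 - (al : ℤ) * z'.1) * A + z'.2.2 * B).natAbs)) ≤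
      (2 * C1 + 2 * C2) * (4 * δ + 1) * (P * Q) := by
    have e1 : ∀ z' ∈ T, Real.exp (30 * ((20 / 7) * θ *
        sL z (((be : ℤ) * z'.2.1 - (al : ℤ) * z'.1) * A + z'.2.2 * B).natAbs)) =
        Real.exp (θ' * sL z (((be : ℤ) * z'.2.1 - (al : ℤ) * z'.1) * A +
          z'.2.2 * B).natAbs) := by
      intro z' _
      congr 1
      rw [hθ']
      ring
    rw [sum_congr rfl e1]
    have a1 := H2 z θ' hz hθ0 hθ1 γ B A hB hco N hN hap al be hal hbe hcop P Q (2 * δ) hP hQ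
      (by positivity) h1 h2 T hT
    refine a1.trans ?_
    calc C2 * (2 * δ) * P * Q = (2 * C2) * (δ * (P * Q)) := by ring
      _ ≤ (2 * C2) * ((4 * δ + 1) * (P * Q)) := by
          refine mul_le_mul_of_nonneg_left ?_ (by linarith)
          exact mul_le_mul_of_nonneg_right (by linarith) hPQ.le
      _ ≤ (2 * C1 + 2 * C2) * ((4 * δ + 1) * (P * Q)) :=
          mul_le_mul_of_nonneg_right (by linarith) (by positivity)
      _ = _ := by ring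
  have h := e1g_hold T (fun z' => (20 / 7) * θ * sL z z'.1)
    (fun z' => (20 / 7) * θ * sL z z'.2.1)
    (fun z' => (20 / 7) * θ * sL z (((be : ℤ) * z'.2.1 - (al : ℤ) * z'.1) * A +
      z'.2.2 * B).natAbs) (200 * δ * (P * Q)) ((2 * C1 + 2 * C2) * (4 * δ + 1) * (P * Q))
    (by positivity) hK0 hcard hu hv hs
  calc _ = ∑ z' ∈ T, Real.exp ((20 / 7) * θ * sL z z'.1 + (20 / 7) * θ * sL z z'.2.1 +
        (20 / 7) * θ * sL z (((be : ℤ) * z'.2.1 - (al : ℤ) * z'.1) * A +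
          z'.2.2 * B).natAbs) := by
        refine sum_congr rfl fun z' _ => ?_
        congr 1
        ring
    _ ≤ _ := h
    _ ≤ _ := by
        have := E1GB3_pow 200 (2 * C1 + 2 * C2) (P * Q) δ (4 * δ + 1) (by norm_num)
          (by linarith) hPQ hδ hm0
        exact this

end Vale.Agent.P028W
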