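import Vale.Agent.P028W.Defs3
import Vale.Agent.P028KM.BX
import Vale.Agent.P028W.SL
import Vale.Agent.P028W.MO1
import Vale.Agent.P028W.MO2
import Vale.Agent.P028W.E1GA
import Vale.Agent.P028W.E1GB

/-!
Module E1G: bound with saving. `g = gcd a b`, `al = q1 a b`, `be = r1 a b`, `q = a x`, `r = b y`, `q1 q r = al x`,
`r1 q r = be y`, `P = 2^i/a`, `Q = 2^j/b`, `x ∈ [P,2P]`, `y ∈ [Q,2Q]`. If the box has an edge then
`X^(-cS)/2 ≤ δ/2 < Dm ≤ q1 X^(-ε)`, so `q1 ≥ X^(ε-cS)/2`, `r1 > q1 X^(-ε/4)`, hence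
`P, Q ≥ X^(3ε/4-cS-cA)/4 ≥ X^(ε/8) ≥ B`; `N = X^(ε/8)/2`, `N * 2δ ≥ X^cA ≥ al, be`.
The sum over the box is bounded by `e1g_term` and `e1g_sum`.
-/

namespace Vale.Agent.P028W

open Finset MeasureTheory
open Vale.Agent.P028EV (q1 r1 Del hh Ts Bd Ad Nd)
open Vale.Agent.P028KM (w mu Dm Bl FF MN Sb ex cl OK KO th Th MV MW)

/-- powers of `X` -/
theorem E1G_pow {ε X : ℝ} (hε : 0 < ε) (hX : max 2 ((4 : ℝ) ^ (2 / ε)) ≤ X) {u v : ℝ}
    (h : v + ε / 2 ≤ u) : 4 * X ^ v ≤ X ^ u := by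
  have hX2 : 2 ≤ X := (le_max_left _ _).trans hX
  have hX4 : (4 : ℝ) ^ (2 / ε) ≤ X := (le_max_right _ _).trans hX
  have h1 : (4 : ℝ) ≤ X ^ (ε / 2) := by
    calc (4 : ℝ) = ((4 : ℝ) ^ (2 / ε)) ^ (ε / 2) := by
          rw [← Real.rpow_mul (by norm_num)]
          have : 2 / ε * (ε / 2) = 1 := by field_simp
          rw [this, Real.rpow_one]
      _ ≤ X ^ (ε / 2) := Real.rpow_le_rpow (by positivity) hX4 (by positivity)
  calc 4 * X ^ v ≤ X ^ (ε / 2) * X ^ v := mul_le_mul_of_nonneg_right h1 (by positivity)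
    _ = X ^ (v + ε / 2) := by rw [← Real.rpow_add (by linarith), add_comm]
    _ ≤ X ^ u := Real.rpow_le_rpow_of_exponent_le (by linarith) h

theorem E1G_edge {ε X γ : ℝ} {B : ℕ} {A : ℤ} {ψ : ℕ → ℝ} {S : Finset ℕ} (hε : 0 < ε)
    (hX : max 2 ((4 : ℝ) ^ (2 / ε)) ≤ X) (hB : Blk2 ε X γ B A ψ S) {δ : ℝ}
    (hδ : X ^ (-cS ε) ≤ δ) {q r al be x y : ℕ} (hq : q ∈ S) (hr : r ∈ S)
    (hE : ED ψ ε X δ q r) (hx : q1 q r = al * x) (hy : r1 q r = be * y)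
    (hal : (al : ℝ) ≤ X ^ cA ε) (hbe : (be : ℝ) ≤ X ^ cA ε) :
    2 * X ^ (ε / 8) ≤ (x : ℝ) ∧ 2 * X ^ (ε / 8) ≤ (y : ℝ) := by
  have hX2 : 2 ≤ X := (le_max_left _ _).trans hX
  have hX0 : 0 < X := by linarith
  obtain ⟨hrq, hE1, hE2, _⟩ := hE
  have hψ : ∀ n ∈ S, ψ n ≤ X ^ (-ε) := by
    intro n hn
    refine (hB.psi1 n hn).trans ?_
    exact Real.rpow_le_rpow_of_nonpos hX0 (hB.lo n hn) (by linarith)
  have hg : 0 < Nat.gcd q r := Nat.gcd_pos_of_pos_left _ (by omega)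
  have h1 : (r1 q r : ℝ) ≤ q1 q r := by
    have h2 := Vale.Agent.P028EV.q1_mul q r
    have h3 := Vale.Agent.P028EV.r1_mul q r
    have : r1 q r ≤ q1 q r := by
      by_contra h4
      have h5 : q1 q r * Nat.gcd q r ≤ r1 q r * Nat.gcd q r := Nat.mul_le_mul_right _ (by omega)
      omega
    exact_mod_cast this
  have hpX : (0 : ℝ) < X ^ (-ε) := by positivity
  have hDm : Dm ψ q r ≤ (q1 q r : ℝ) * X ^ (-ε) := by
    unfold Dm
    apply max_le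
    · exact mul_le_mul h1 (hψ q hq) (hB.psi0 q) (by positivity)
    · exact mul_le_mul_of_nonneg_left (hψ r hr) (by positivity)
  have h2 : X ^ (-cS ε) / 2 ≤ (q1 q r : ℝ) * X ^ (-ε) := by linarith
  have h3 : X ^ (ε - cS ε) ≤ 2 * (q1 q r : ℝ) := by
    have e1 : X ^ (ε - cS ε) = X ^ (-cS ε) * X ^ ε := by
      rw [← Real.rpow_add hX0]
      congr 1
      ring
    have e2 : X ^ (-ε) * X ^ ε = 1 := by
      rw [← Real.rpow_add hX0]
      simp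
    have e3 : 0 < X ^ ε := by positivity
    have e4 := mul_le_mul_of_nonneg_right h2 e3.le
    rw [e1]
    have e5 : (q1 q r : ℝ) * X ^ (-ε) * X ^ ε = q1 q r := by rw [mul_assoc, e2, mul_one]
    rw [e5] at e4
    linarith
  have h4 : X ^ (3 * ε / 4 - cS ε) ≤ 2 * (r1 q r : ℝ) := by
    have e1 : X ^ (ε - cS ε) = X ^ (3 * ε / 4 - cS ε) * X ^ (ε / 4) := by
      rw [← Real.rpow_add hX0]
      congr 1
      ring
    have e2 : X ^ (3 * ε / 4 - cS ε) * X ^ (ε / 4) ≤ (2 * (r1 q r : ℝ)) * X ^ (ε / 4) := by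
      rw [← e1]
      linarith
    exact le_of_mul_le_mul_right e2 (by positivity)
  have h5 : X ^ (3 * ε / 4 - cS ε) ≤ X ^ (ε - cS ε) :=
    Real.rpow_le_rpow_of_exponent_le (by linarith) (by linarith)
  have key : ∀ c n : ℕ, (c : ℝ) ≤ X ^ cA ε → X ^ (3 * ε / 4 - cS ε) ≤ 2 * ((c * n : ℕ) : ℝ) →
      2 * X ^ (ε / 8) ≤ (n : ℝ) := by
    intro c n hc hn
    push_cast at hn
    have e1 : 4 * X ^ (ε / 8) ≤ X ^ (3 * ε / 4 - cS ε - cA ε) := by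
      apply E1G_pow hε hX
      unfold cS cA
      linarith
    have e2 : X ^ (3 * ε / 4 - cS ε) = X ^ (3 * ε / 4 - cS ε - cA ε) * X ^ cA ε := by
      rw [← Real.rpow_add hX0]
      congr 1
      ring
    have e3 : X ^ (3 * ε / 4 - cS ε - cA ε) * X ^ cA ε ≤ (2 * (n : ℝ)) * X ^ cA ε := by
      rw [← e2]
      refine hn.trans ?_
      have : (c : ℝ) * n ≤ X ^ cA ε * n := mul_le_mul_of_nonneg_right hc (by positivity)
      linarith
    have e4 := le_of_mul_le_mul_right e3 (by positivity)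
    linarith
  constructor
  · apply key al x hal
    rw [← hx]
    linarith
  · apply key be y hbe
    rw [← hy]
    exact h4

/-- the final comparison of constants -/
theorem E1G_const {δ : ℝ} (hδ : 0 < δ) :
    (4 * δ + 1) ^ (13 / 7 : ℝ) * (δ ^ (9 / 10 : ℝ) * (4 * δ + 1) ^ (1 / 10 : ℝ)) ≤
      25 * ((min 1 δ) ^ (9 / 10 : ℝ) * (max 1 δ) ^ (20 / 7 : ℝ)) := by
  have hm : 0 < min 1 δ := lt_min one_pos hδ
  have hM : 1 ≤ max 1 δ := le_max_left _ _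
  have hM0 : 0 < max 1 δ := by linarith
  have h1 : 4 * δ + 1 ≤ 5 * max 1 δ := by
    have := le_max_right 1 δ
    linarith
  have h2 : δ = min 1 δ * max 1 δ := by
    rw [min_mul_max, one_mul]
  have h3 : (4 * δ + 1) ^ (13 / 7 : ℝ) * (4 * δ + 1) ^ (1 / 10 : ℝ) ≤ 25 * (max 1 δ) ^ (137 / 70 : ℝ) := by
    rw [← Real.rpow_add (by positivity)]
    have e1 : (13 / 7 + 1 / 10 : ℝ) = 137 / 70 := by norm_num
    rw [e1]
    calc (4 * δ + 1) ^ (137 / 70 : ℝ) ≤ (5 * max 1 δ) ^ (137 / 70 : ℝ) :=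
          Real.rpow_le_rpow (by positivity) h1 (by norm_num)
      _ = 5 ^ (137 / 70 : ℝ) * (max 1 δ) ^ (137 / 70 : ℝ) := Real.mul_rpow (by norm_num) hM0.le
      _ ≤ 25 * (max 1 δ) ^ (137 / 70 : ℝ) := by
          refine mul_le_mul_of_nonneg_right ?_ (by positivity)
          calc (5 : ℝ) ^ (137 / 70 : ℝ) ≤ 5 ^ (2 : ℝ) :=
                Real.rpow_le_rpow_of_exponent_le (by norm_num) (by norm_num)
            _ = 25 := by norm_num
  have h4 : δ ^ (9 / 10 : ℝ) = (min 1 δ) ^ (9 / 10 : ℝ) * (max 1 δ) ^ (9 / 10 : ℝ) := by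
    rw [← Real.mul_rpow hm.le hM0.le, ← h2]
  have h5 : (max 1 δ) ^ (20 / 7 : ℝ) = (max 1 δ) ^ (137 / 70 : ℝ) * (max 1 δ) ^ (9 / 10 : ℝ) := by
    rw [← Real.rpow_add hM0]
    norm_num
  calc (4 * δ + 1) ^ (13 / 7 : ℝ) * (δ ^ (9 / 10 : ℝ) * (4 * δ + 1) ^ (1 / 10 : ℝ))
      = ((4 * δ + 1) ^ (13 / 7 : ℝ) * (4 * δ + 1) ^ (1 / 10 : ℝ)) * δ ^ (9 / 10 : ℝ) := by ring
    _ ≤ (25 * (max 1 δ) ^ (137 / 70 : ℝ)) * δ ^ (9 / 10 : ℝ) :=
        mul_le_mul_of_nonneg_right h3 (by positivity)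
    _ = 25 * ((min 1 δ) ^ (9 / 10 : ℝ) * (max 1 δ) ^ (20 / 7 : ℝ)) := by
        rw [h4, h5]
        ring

theorem E1G_box {a i x : ℕ} {P : ℝ} (ha : 0 < a) (hP : P = 2 ^ i / (a : ℝ)) (hx : 0 < x)
    (hi : Nat.log 2 (a * x) = i) : P ≤ (x : ℝ) ∧ (x : ℝ) ≤ 2 * P := by
  have h1 : 2 ^ i ≤ a * x := by
    rw [← hi]
    exact Nat.pow_log_le_self 2 (Nat.mul_pos ha hx).ne'
  have h2 : a * x < 2 ^ (i + 1) := by
    rw [← hi]
    exact Nat.lt_pow_succ_log_self (by norm_num) _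
  have ha' : (0 : ℝ) < a := by exact_mod_cast ha
  have h1' : (2 : ℝ) ^ i ≤ a * x := by exact_mod_cast h1
  have h2' : (a : ℝ) * x ≤ 2 ^ (i + 1) := by exact_mod_cast h2.le
  rw [hP]
  constructor
  · rw [div_le_iff₀ ha']
    linarith
  · rw [← mul_div_assoc, le_div_iff₀ ha']
    rw [pow_succ] at h2'
    linarith

theorem E1G_Del {ψ : ℕ → ℝ} {q r : ℕ} {δ : ℝ} (h : Dm ψ q r ≤ δ) : Del ψ q r ≤ 2 * δ := by
  unfold Dm at h
  unfold Del
  have h1 := (le_max_left _ _).trans h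
  have h2 := (le_max_right _ _).trans h
  linarith

theorem e1g (ε : ℝ) (hε : 0 < ε) (hε1 : ε ≤ 1) : ∃ C : ℝ, 1 ≤ C ∧ ∃ X0 : ℝ, 2 ≤ X0 ∧
    ∀ (X γ : ℝ) (B : ℕ) (A : ℤ) (ψ : ℕ → ℝ) (S : Finset ℕ), X0 ≤ X → Blk2 ε X γ B A ψ S →
    ∀ (δ : ℝ) (z : ℕ), Lev ε X δ z → ∀ (V W : Finset ℕ) (a b i j : ℕ), 0 < a → 0 < b →
    V ⊆ S → W ⊆ S → (∀ q ∈ V, a ∣ q) → (∀ r ∈ W, b ∣ r) →
    (q1 a b : ℝ) * (r1 a b : ℝ) ≤ X ^ cA ε →
    bij (K1 γ B A ψ ε X δ z (q1 a b * r1 a b)) V W a b i j ≤ MV a b (1 / δ) * MW a b (1 / δ) *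
      (C * (min 1 δ) ^ (9 / 10 : ℝ) * (max 1 δ) ^ (20 / 7 : ℝ)) := by
  classical
  obtain ⟨C, hC, hsum⟩ := e1g_sum
  refine ⟨25 * C, by linarith, max 2 ((4 : ℝ) ^ (2 / ε)), le_max_left _ _, ?_⟩
  intro X γ B A ψ S hX hB δ z hL V W a b i j ha hb hV hW hVa hWb hab
  have hX2 : 2 ≤ X := (le_max_left _ _).trans hX
  have hX0 : 0 < X := by linarith
  have hδ : 0 < δ := lt_of_lt_of_le (by positivity) hL.hδ
  have hg : 0 < Nat.gcd a b := Nat.gcd_pos_of_pos_left _ ha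
  have hal : 0 < q1 a b := Nat.div_pos (Nat.le_of_dvd ha (Nat.gcd_dvd_left a b)) hg
  have hbe : 0 < r1 a b := Nat.div_pos (Nat.le_of_dvd hb (Nat.gcd_dvd_right a b)) hg
  have hcop : Nat.Coprime (q1 a b) (r1 a b) := Nat.coprime_div_gcd_div_gcd hg
  have hal1 : (1 : ℝ) ≤ q1 a b := by exact_mod_cast hal
  have hbe1 : (1 : ℝ) ≤ r1 a b := by exact_mod_cast hbe
  have halX : (q1 a b : ℝ) ≤ X ^ cA ε :=
    (le_mul_of_one_le_right (by positivity) hbe1).trans hab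
  have hbeX : (r1 a b : ℝ) ≤ X ^ cA ε :=
    (le_mul_of_one_le_left (by positivity) hal1).trans hab
  have hR : 0 ≤ MV a b (1 / δ) * MW a b (1 / δ) *
      (25 * C * (min 1 δ) ^ (9 / 10 : ℝ) * (max 1 δ) ^ (20 / 7 : ℝ)) := by
    have h1 := Vale.Agent.P028KM.BX_w_nonneg a
    have h2 := Vale.Agent.P028KM.BX_w_nonneg b
    have h3 : 0 ≤ min 1 δ := le_min zero_le_one hδ.le
    have h4 : 0 ≤ max 1 δ := le_max_of_le_left zero_le_one
    unfold MV MW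
    positivity
  have hSpos : ∀ q ∈ S, 0 < q := by
    intro q hq
    have := hB.lo q hq
    have h1 : (0 : ℝ) < q := by linarith
    exact_mod_cast h1
  set θ : ℝ := 4 + 8 * (z : ℝ) with hθ
  set V' : Finset ℕ := V.filter (fun q => Nat.log 2 q = i) with hV'
  set W' : ℕ → Finset ℕ := fun q => W.filter (fun r => Nat.log 2 r = j ∧ Nat.gcd q r = Nat.gcd a b) with hW'
  set F : ℕ → ℕ → Finset ℤ := fun q r => if ED ψ ε X δ q r then
    (Ts γ (hh q r) (Del ψ q r)).filter (fun t => nt B A q r t ≠ 0) else ∅ with hF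
  set f : ℕ × ℕ × ℤ → ℝ := fun z' => Real.exp ((20 / 7) * θ * (sL z z'.1 + sL z z'.2.1 +
        sL z (((r1 a b : ℤ) * z'.2.1 - (q1 a b : ℤ) * z'.1) * A + z'.2.2 * B).natAbs)) with hf
  set c0 : ℝ := (w a * ((Nat.gcd a b : ℝ) / ((1 / δ) * 2 ^ j))) *
    (w b * ((Nat.gcd a b : ℝ) / ((1 / δ) * 2 ^ i))) with hc0
  have hc0' : 0 ≤ c0 := by
    have h1 := Vale.Agent.P028KM.BX_w_nonneg a
    have h2 := Vale.Agent.P028KM.BX_w_nonneg b
    positivity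
  -- structure of the elements of the box
  have hbox : ∀ q ∈ V', ∀ r ∈ W' q, ∃ x y : ℕ, 0 < x ∧ 0 < y ∧ q = a * x ∧ r = b * y ∧ q ∈ S ∧ r ∈ S ∧
      Nat.log 2 q = i ∧ Nat.log 2 r = j ∧ Nat.gcd q r = Nat.gcd a b := by
    intro q hq r hr
    rw [hV', Finset.mem_filter] at hq
    simp only [hW', Finset.mem_filter] at hr
    obtain ⟨x, hx⟩ := hVa q hq.1
    obtain ⟨y, hy⟩ := hWb r hr.1
    have hq0 := hSpos q (hV hq.1)
    have hr0 := hSpos r (hW hr.1)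
    refine ⟨x, y, ?_, ?_, hx, hy, hV hq.1, hW hr.1, hq.2, hr.2.1, hr.2.2⟩
    · rcases Nat.eq_zero_or_pos x with h | h
      · rw [h, mul_zero] at hx
        omega
      · exact h
    · rcases Nat.eq_zero_or_pos y with h | h
      · rw [h, mul_zero] at hy
        omega
      · exact h
  -- pointwise bound
  have hpt : ∀ q ∈ V', ∀ r ∈ W' q, K1 γ B A ψ ε X δ z (q1 a b * r1 a b) q r ≤
      c0 * (4 * δ + 1) ^ (13 / 7 : ℝ) * ∑ t ∈ F q r, f (q / a, r / b, t) := by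
    intro q hq r hr
    obtain ⟨x, y, hx0, hy0, hx, hy, hqS, hrS, hqi, hrj, hgcd⟩ := hbox q hq r hr
    unfold K1
    by_cases hE : ED ψ ε X δ q r
    · rw [if_pos hE]
      have hFE : F q r = (Ts γ (hh q r) (Del ψ q r)).filter (fun t => nt B A q r t ≠ 0) := by
        simp only [hF, if_pos hE]
      rw [hFE]
      have hD : Dm ψ q r ≤ δ := hE.2.2.2
      have hD' : Dm ψ q r ≤ 1 / (1 / δ) := by rwa [one_div_one_div]
      have hq0 := hSpos q hqS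
      have hr0 := hSpos r hrS
      have hs : 0 < 1 / δ := by positivity
      have hm1 := Vale.Agent.P028KM.BX_muq hB.psi0 hs (a := a) (b := b) (j := j) hq0 ⟨x, hx⟩ hr0 hrj hgcd hD'
      have hm2 := Vale.Agent.P028KM.BX_mur hB.psi0 hs (a := a) (b := b) (i := i) hr0 ⟨y, hy⟩ hq0 hqi hgcd hD'
      have hmu1 := Vale.Agent.P028KM.BX_mu_nonneg hB.psi0 q
      have hmu2 := Vale.Agent.P028KM.BX_mu_nonneg hB.psi0 r
      have hθ0 : 0 ≤ θ := by positivity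
      subst hx
      subst hy
      have ht := e1g_term γ B A ψ θ z δ hθ0 hδ a b x y ha hb hx0 hy0 hgcd hD
      have hqq := e1g_q1 ha hb hgcd
      have hfe : ∀ t : ℤ, f (a * x / a, b * y / b, t) = Real.exp ((20 / 7) * θ *
          (sL z x + sL z y + sL z (nt B A (a * x) (b * y) t).natAbs)) := by
        intro t
        simp only [hf, Nat.mul_div_cancel_left _ ha, Nat.mul_div_cancel_left _ hb]
        congr 3
        congr 1
        unfold nt hh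
        rw [hqq.1, hqq.2]
        push_cast
        ring_nf
      rw [Finset.sum_congr rfl (fun t _ => hfe t)]
      have hmm : mu ψ (a * x) * mu ψ (b * y) ≤ c0 := mul_le_mul hm1 hm2 hmu2 (hmu1.trans hm1)
      have hEX : 0 ≤ (EX γ B A ψ θ z (a * x) (b * y) * Real.exp (-(θ * sL z (q1 a b * r1 a b)))) ^ (20 / 7 : ℝ) := by
        apply Real.rpow_nonneg
        apply mul_nonneg _ (Real.exp_pos _).le
        exact Finset.sum_nonneg fun _ _ => (Real.exp_pos _).le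
      calc mu ψ (a * x) * mu ψ (b * y) * (EX γ B A ψ θ z (a * x) (b * y) *
            Real.exp (-(θ * sL z (q1 a b * r1 a b)))) ^ (20 / 7 : ℝ)
          ≤ c0 * ((4 * δ + 1) ^ (13 / 7 : ℝ) *
            ∑ t ∈ Ts γ (hh (a * x) (b * y)) (Del ψ (a * x) (b * y)) with nt B A (a * x) (b * y) t ≠ 0,
              Real.exp ((20 / 7) * θ * (sL z x + sL z y + sL z (nt B A (a * x) (b * y) t).natAbs))) :=
            mul_le_mul hmm ht hEX hc0'
        _ = _ := by ring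
    · rw [if_neg hE]
      have h1 : 0 ≤ ∑ t ∈ F q r, f (q / a, r / b, t) :=
        Finset.sum_nonneg fun _ _ => (Real.exp_pos _).le
      positivity
  -- the set of triples
  set Ω : Finset (Σ _ : ℕ, Σ _ : ℕ, ℤ) := V'.sigma (fun q => (W' q).sigma (fun r => F q r)) with hΩ
  set φ : (Σ _ : ℕ, Σ _ : ℕ, ℤ) → ℕ × ℕ × ℤ := fun x => (x.1 / a, x.2.1 / b, x.2.2) with hφ
  have hΩmem : ∀ u ∈ Ω, u.1 ∈ V' ∧ u.2.1 ∈ W' u.1 ∧ u.2.2 ∈ F u.1 u.2.1 := by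
    intro u hu
    rw [hΩ, Finset.mem_sigma] at hu
    obtain ⟨h1, h2⟩ := hu
    rw [Finset.mem_sigma] at h2
    exact ⟨h1, h2.1, h2.2⟩
  have hinj : Set.InjOn φ (Ω : Set (Σ _ : ℕ, Σ _ : ℕ, ℤ)) := by
    intro u hu v hv huv
    rw [Finset.mem_coe] at hu hv
    obtain ⟨hu1, hu2, _⟩ := hΩmem u hu
    obtain ⟨hv1, hv2, _⟩ := hΩmem v hv
    obtain ⟨x, y, _, _, hx, hy, _⟩ := hbox _ hu1 _ hu2
    obtain ⟨x', y', _, _, hx', hy', _⟩ := hbox _ hv1 _ hv2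
    obtain ⟨q, r, t⟩ := u
    obtain ⟨q', r', t'⟩ := v
    simp only at hx hy hx' hy'
    simp only [hφ, Prod.mk.injEq] at huv
    obtain ⟨e1, e2, e3⟩ := huv
    subst hx hy hx' hy'
    rw [Nat.mul_div_cancel_left _ ha, Nat.mul_div_cancel_left _ ha] at e1
    rw [Nat.mul_div_cancel_left _ hb, Nat.mul_div_cancel_left _ hb] at e2
    subst e1 e2 e3
    rfl
  have hsumΩ : ∑ q ∈ V', ∑ r ∈ W' q, ∑ t ∈ F q r, f (q / a, r / b, t) = ∑ z' ∈ Ω.image φ, f z' := by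
    rw [Finset.sum_image hinj, hΩ, Finset.sum_sigma]
    refine Finset.sum_congr rfl fun q _ => ?_
    rw [Finset.sum_sigma]
  have hmain : bij (K1 γ B A ψ ε X δ z (q1 a b * r1 a b)) V W a b i j ≤
      c0 * (4 * δ + 1) ^ (13 / 7 : ℝ) * ∑ z' ∈ Ω.image φ, f z' := by
    rw [← hsumΩ]
    calc bij (K1 γ B A ψ ε X δ z (q1 a b * r1 a b)) V W a b i j
        = ∑ q ∈ V', ∑ r ∈ W' q, K1 γ B A ψ ε X δ z (q1 a b * r1 a b) q r := rfl
      _ ≤ ∑ q ∈ V', ∑ r ∈ W' q, c0 * (4 * δ + 1) ^ (13 / 7 : ℝ) * ∑ t ∈ F q r, f (q / a, r / b, t) :=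
          Finset.sum_le_sum fun q hq => Finset.sum_le_sum fun r hr => hpt q hq r hr
      _ = _ := by
          simp only [Finset.mul_sum]
  rcases Finset.eq_empty_or_nonempty Ω with hΩe | ⟨u0, hu0⟩
  · rw [hΩe, Finset.image_empty, Finset.sum_empty, mul_zero] at hmain
    exact hmain.trans hR
  -- an edge exists
  set P : ℝ := 2 ^ i / (a : ℝ) with hP
  set Q : ℝ := 2 ^ j / (b : ℝ) with hQ
  have hPQ : (B : ℝ) ≤ P ∧ (B : ℝ) ≤ Q := by
    obtain ⟨h1, h2, h3⟩ := hΩmem u0 hu0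
    obtain ⟨x, y, hx0, hy0, hx, hy, hqS, hrS, hqi, hrj, hgcd⟩ := hbox _ h1 _ h2
    have hE : ED ψ ε X δ u0.1 u0.2.1 := by
      by_contra hE
      simp only [hF, if_neg hE, Finset.notMem_empty] at h3
    rw [hx, hy] at hE hgcd
    have hqq := e1g_q1 ha hb hgcd
    have hedge := E1G_edge hε hX hB hL.hδ (by rw [← hx]; exact hqS) (by rw [← hy]; exact hrS) hE hqq.1 hqq.2 halX hbeX
    rw [hx] at hqi
    rw [hy] at hrj
    have b1 := (E1G_box ha hP hx0 hqi).2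
    have b2 := (E1G_box hb hQ hy0 hrj).2
    have b3 := hB.hBX
    constructor
    · linarith [hedge.1]
    · linarith [hedge.2]
  have hT : ∀ z' ∈ Ω.image φ, P ≤ (z'.1 : ℝ) ∧ (z'.1 : ℝ) ≤ 2 * P ∧ Q ≤ (z'.2.1 : ℝ) ∧ (z'.2.1 : ℝ) ≤ 2 * Q ∧
      |(z'.2.2 : ℝ) + γ * ((r1 a b : ℝ) * z'.2.1 - (q1 a b : ℝ) * z'.1)| < 2 * δ ∧
      ((r1 a b : ℤ) * z'.2.1 - (q1 a b : ℤ) * z'.1) * A + z'.2.2 * B ≠ 0 := by
    intro z' hz'
    rw [Finset.mem_image] at hz'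
    obtain ⟨u, hu, rfl⟩ := hz'
    obtain ⟨h1, h2, h3⟩ := hΩmem u hu
    obtain ⟨x, y, hx0, hy0, hx, hy, hqS, hrS, hqi, hrj, hgcd⟩ := hbox _ h1 _ h2
    obtain ⟨q, r, t⟩ := u
    simp only at hx hy hqi hrj hgcd h3 hqS hrS
    subst hx hy
    have hE : ED ψ ε X δ (a * x) (b * y) := by
      by_contra hE
      simp only [hF, if_neg hE, Finset.notMem_empty] at h3
    simp only [hF, if_pos hE, Finset.mem_filter] at h3
    have hqq := e1g_q1 ha hb hgcd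
    have b1 := E1G_box ha hP hx0 hqi
    have b2 := E1G_box hb hQ hy0 hrj
    simp only [hφ, Nat.mul_div_cancel_left _ ha, Nat.mul_div_cancel_left _ hb]
    have h4 := Vale.Agent.P028EV.mem_Ts.1 h3.1
    have h5 := h3.2
    unfold nt hh at h5
    unfold hh at h4
    rw [hqq.1, hqq.2] at h4 h5
    push_cast at h4 h5
    refine ⟨b1.1, b1.2, b2.1, b2.2, ?_, h5⟩
    exact lt_of_lt_of_le h4 (E1G_Del hE.2.2.2)
  have hz1 : (1 : ℝ) ≤ z := by exact_mod_cast hL.hz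
  have hXε : (0 : ℝ) < X ^ (ε / 8) := by positivity
  have hN : X ^ cA ε ≤ X ^ (ε / 8) / 2 * (2 * δ) := by
    have e1 : X ^ cA ε ≤ X ^ (ε / 8) * X ^ (-cS ε) := by
      rw [← Real.rpow_add hX0]
      apply Real.rpow_le_rpow_of_exponent_le (by linarith)
      unfold cA cS
      linarith
    have e2 : X ^ (ε / 8) * X ^ (-cS ε) ≤ X ^ (ε / 8) * δ := mul_le_mul_of_nonneg_left hL.hδ hXε.le
    linarith
  have hs := hsum z θ hz1 (by positivity) (by rw [hθ]; linarith) γ B A hB.hB hB.co (X ^ (ε / 8) / 2) (by positivity)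
    (by
      refine hB.ap.trans (le_of_eq ?_)
      rw [Real.rpow_neg hX0.le]
      field_simp) (q1 a b) (r1 a b) hal hbe hcop P Q δ hPQ.1 hPQ.2 hδ (halX.trans hN) (hbeX.trans hN)
    (Ω.image φ) hT
  have hPQe : c0 * (P * Q) = MV a b (1 / δ) * MW a b (1 / δ) / 4 := by
    have e1 : (a : ℝ) = q1 a b * Nat.gcd a b := by exact_mod_cast (Vale.Agent.P028EV.q1_mul a b).symm
    have e2 : (b : ℝ) = r1 a b * Nat.gcd a b := by exact_mod_cast (Vale.Agent.P028EV.r1_mul a b).symm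
    have hg' : (Nat.gcd a b : ℝ) ≠ 0 := by positivity
    have hal' : (q1 a b : ℝ) ≠ 0 := by positivity
    have hbe' : (r1 a b : ℝ) ≠ 0 := by positivity
    rw [hc0, hP, hQ]
    unfold MV MW
    have e3 : (2 : ℝ) ^ i / (a : ℝ) = 2 ^ i / (q1 a b * Nat.gcd a b) := by rw [← e1]
    have e4 : (2 : ℝ) ^ j / (b : ℝ) = 2 ^ j / (r1 a b * Nat.gcd a b) := by rw [← e2]
    rw [e3, e4]
    field_simp
    try ring
  have hfin := E1G_const hδ
  have hMM : 0 ≤ MV a b (1 / δ) * MW a b (1 / δ) := by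
    have h1 := Vale.Agent.P028KM.BX_w_nonneg a
    have h2 := Vale.Agent.P028KM.BX_w_nonneg b
    unfold MV MW
    positivity
  have hrhs : 0 ≤ (min 1 δ) ^ (9 / 10 : ℝ) * (max 1 δ) ^ (20 / 7 : ℝ) := by
    have h3 : 0 ≤ min 1 δ := le_min zero_le_one hδ.le
    have h4 : 0 ≤ max 1 δ := le_max_of_le_left zero_le_one
    positivity
  calc bij (K1 γ B A ψ ε X δ z (q1 a b * r1 a b)) V W a b i j
      ≤ c0 * (4 * δ + 1) ^ (13 / 7 : ℝ) * ∑ z' ∈ Ω.image φ, f z' := hmain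
    _ ≤ c0 * (4 * δ + 1) ^ (13 / 7 : ℝ) * (C * δ ^ (9 / 10 : ℝ) * (4 * δ + 1) ^ (1 / 10 : ℝ) * (P * Q)) :=
        mul_le_mul_of_nonneg_left hs (by positivity)
    _ = (c0 * (P * Q)) * C * ((4 * δ + 1) ^ (13 / 7 : ℝ) * (δ ^ (9 / 10 : ℝ) * (4 * δ + 1) ^ (1 / 10 : ℝ))) := by ring
    _ ≤ (c0 * (P * Q)) * C * (25 * ((min 1 δ) ^ (9 / 10 : ℝ) * (max 1 δ) ^ (20 / 7 : ℝ))) := by
        refine mul_le_mul_of_nonneg_left hfin ?_
        rw [hPQe]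
        positivity
    _ ≤ MV a b (1 / δ) * MW a b (1 / δ) * (25 * C * (min 1 δ) ^ (9 / 10 : ℝ) * (max 1 δ) ^ (20 / 7 : ℝ)) := by
        rw [hPQe]
        have h1 : 0 ≤ MV a b (1 / δ) * MW a b (1 / δ) * C * ((min 1 δ) ^ (9 / 10 : ℝ) * (max 1 δ) ^ (20 / 7 : ℝ)) := by
          positivity
        linarith

end Vale.Agent.P028W
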