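import Vale.Agent.P028W.Defs3
import Vale.Agent.P028KM.BX
import Vale.Agent.P028W.SL
import Vale.Agent.P028EV.Ov

/-!
Module E1T: trivial bound: `#Ts ≤ 2 Del + 1 ≤ 4δ+1` (`card_Ts_le` in P028EV/Ov.lean), each exponential is
`≤ exp((4+8z) * 2 log(1+16 log X))` (`sL_triv`: `q1 r1 ≤ X^8`, `|nt| ≤ B Del + |Bγ-A||h| ≤ X^8`), and as in
`bx4` the sum of `mu mu` over the box is `≤ MV MW`.
-/

namespace Vale.Agent.P028W

open Finset MeasureTheory
open Vale.Agent.P028EV (q1 r1 Del hh Ts Bd Ad Nd)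
open Vale.Agent.P028KM (w mu Dm Bl FF MN Sb ex cl OK KO th Th MV MW)

theorem E1T_bij {K : ℕ → ℕ → ℝ} {V W : Finset ℕ} {a b i j : ℕ} (f h : ℕ → ℝ)
    (hf : ∀ q, 0 ≤ f q) (hh' : ∀ r, 0 ≤ h r)
    (H : ∀ q ∈ V, Nat.log 2 q = i → ∀ r ∈ W, Nat.log 2 r = j → Nat.gcd q r = Nat.gcd a b →
      K q r ≤ f q * h r) :
    bij K V W a b i j ≤
      (∑ q ∈ V with Nat.log 2 q = i, f q) * (∑ r ∈ W with Nat.log 2 r = j, h r) := by
  rw [bij, Finset.sum_mul]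
  apply Finset.sum_le_sum
  intro q hq
  rw [Finset.mem_filter] at hq
  rw [Finset.mul_sum]
  calc ∑ r ∈ W with Nat.log 2 r = j ∧ Nat.gcd q r = Nat.gcd a b, K q r
      ≤ ∑ r ∈ W with Nat.log 2 r = j ∧ Nat.gcd q r = Nat.gcd a b, f q * h r := by
        apply Finset.sum_le_sum
        intro r hr
        rw [Finset.mem_filter] at hr
        exact H q hq.1 hq.2 r hr.1 hr.2.1 hr.2.2
    _ ≤ ∑ r ∈ W with Nat.log 2 r = j, f q * h r := by
        apply Finset.sum_le_sum_of_subset_of_nonneg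
        · intro r hr
          rw [Finset.mem_filter] at hr ⊢
          exact ⟨hr.1, hr.2.1⟩
        · intro r _ _
          exact mul_nonneg (hf q) (hh' r)

theorem E1T_sL {X z : ℝ} (hX : 1 ≤ X) {n : ℕ} (hn : 0 < n) (h : (n : ℝ) ≤ X ^ 8) :
    sL z n ≤ Real.log (1 + 16 * Real.log X) := by
  have hn1 : (1 : ℝ) ≤ n := by exact_mod_cast hn
  have h0 : 0 ≤ Real.log n := Real.log_nonneg hn1
  have h1 : Real.log n ≤ 8 * Real.log X := by
    have := Real.log_le_log (by linarith) h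
    rw [Real.log_pow] at this
    exact_mod_cast this
  refine (sL_triv z n hn).trans (Real.log_le_log (by linarith) (by linarith))

theorem E1T_log {X : ℝ} (hX : 3 ≤ X) : Real.log 4 ≤ Real.log (1 + 16 * Real.log X) := by
  have h1 : Real.log 2 ≤ Real.log X := Real.log_le_log (by norm_num) (by linarith)
  have h2 := Real.log_two_gt_d9
  exact Real.log_le_log (by norm_num) (by linarith)

theorem E1T_delta {ε X δ : ℝ} {z : ℕ} (hε : 0 < ε) (hε1 : ε ≤ 1) (hX : 3 ≤ X)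
    (hL : Lev ε X δ z) : 0 < δ ∧ δ ≤ 16 * X := by
  have hX0 : 0 < X := by linarith
  refine ⟨(Real.rpow_pos_of_pos hX0 _).trans_le hL.hδ, ?_⟩
  have hl : 0 ≤ Real.log X := Real.log_nonneg (by linarith)
  have h1 : (4 : ℝ) ^ z ≤ X := by
    have h2 : (4 : ℝ) ^ z = Real.exp ((z : ℝ) * Real.log 4) := by
      rw [mul_comm, Real.exp_mul, Real.exp_log (by norm_num), Real.rpow_natCast]
    rw [h2]
    calc Real.exp ((z : ℝ) * Real.log 4) ≤ Real.exp (Real.log X) := by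
          rw [Real.exp_le_exp]
          have h3 : (z : ℝ) * Real.log 4 ≤ (z : ℝ) * Real.log (1 + 16 * Real.log X) :=
            mul_le_mul_of_nonneg_left (E1T_log hX) (Nat.cast_nonneg z)
          have h4 : c6 ε * Real.log X ≤ 1 * Real.log X := by
            refine mul_le_mul_of_nonneg_right ?_ hl
            unfold c6 cA
            rw [div_div, div_le_one (by norm_num)]
            linarith
          linarith [hL.hz2]
      _ = X := Real.exp_log hX0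
  linarith [hL.hδ2]

theorem E1T_nt {ε X γ : ℝ} {B : ℕ} {A : ℤ} {ψ : ℕ → ℝ} {S : Finset ℕ} (hε : 0 < ε)
    (hε1 : ε ≤ 1) (hX : 3 ≤ X) (hb : Blk2 ε X γ B A ψ S) {δ : ℝ} (hδ : δ ≤ 16 * X)
    {q r : ℕ} (hq : q ∈ S) (hr : r ∈ S) (hD : Del ψ q r ≤ 2 * δ) {t : ℤ}
    (ht : t ∈ Ts γ (hh q r) (Del ψ q r)) : (((nt B A q r t).natAbs : ℕ) : ℝ) ≤ X ^ 8 := by
  have hX0 : 0 < X := by linarith
  have hX1 : 1 ≤ X := by linarith
  rw [Nat.cast_natAbs, Int.cast_abs]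
  have ht' := Vale.Agent.P028EV.mem_Ts.1 ht
  have e : ((nt B A q r t : ℤ) : ℝ) =
      B * ((t : ℝ) + γ * (hh q r : ℝ)) - (hh q r : ℝ) * (B * γ - A) := by
    unfold nt
    push_cast
    ring
  have hB0 : (0 : ℝ) ≤ B := Nat.cast_nonneg B
  have hB : (B : ℝ) ≤ X := by
    refine hb.hBX.trans ?_
    calc X ^ (ε / 8) ≤ X ^ (1 : ℝ) := Real.rpow_le_rpow_of_exponent_le hX1 (by linarith)
      _ = X := Real.rpow_one X
  have hA : |(B : ℝ) * γ - A| ≤ 2 := by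
    refine hb.ap.trans ?_
    have : X ^ (-(ε / 8)) ≤ 1 := Real.rpow_le_one_of_one_le_of_nonpos hX1 (by linarith)
    linarith
  have hq1 : (q1 q r : ℝ) ≤ X ^ 4 := by
    refine le_trans ?_ (hb.hi q hq)
    exact_mod_cast Nat.div_le_self q (Nat.gcd q r)
  have hr1 : (r1 q r : ℝ) ≤ X ^ 4 := by
    refine le_trans ?_ (hb.hi r hr)
    exact_mod_cast Nat.div_le_self r (Nat.gcd q r)
  have hh1 : |((hh q r : ℤ) : ℝ)| ≤ X ^ 4 := by
    unfold hh
    push_cast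
    have h1 : (0 : ℝ) ≤ q1 q r := Nat.cast_nonneg _
    have h2 : (0 : ℝ) ≤ r1 q r := Nat.cast_nonneg _
    rw [abs_le]
    constructor <;> linarith
  rw [e]
  have h1 : |(B : ℝ) * ((t : ℝ) + γ * (hh q r : ℝ)) - (hh q r : ℝ) * (B * γ - A)| ≤
      |(B : ℝ) * ((t : ℝ) + γ * (hh q r : ℝ))| + |(hh q r : ℝ) * (B * γ - A)| := abs_sub _ _
  rw [abs_mul, abs_mul, abs_of_nonneg hB0] at h1
  have h2 : (B : ℝ) * |(t : ℝ) + γ * (hh q r : ℝ)| ≤ X * (32 * X) :=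
    mul_le_mul hB (by linarith) (abs_nonneg _) hX0.le
  have h3 : |((hh q r : ℤ) : ℝ)| * |(B : ℝ) * γ - A| ≤ X ^ 4 * 2 :=
    mul_le_mul hh1 hA (abs_nonneg _) (by positivity)
  have h4 : (81 : ℝ) ≤ X ^ 4 := by
    calc (81 : ℝ) = 3 ^ 4 := by norm_num
      _ ≤ X ^ 4 := pow_le_pow_left₀ (by norm_num) hX 4
  have h5 : X ^ 2 ≤ X ^ 4 := pow_le_pow_right₀ hX1 (by norm_num)
  have h6 : X ^ 8 = X ^ 4 * X ^ 4 := by ring
  nlinarith

theorem E1T_EX {ε X γ : ℝ} {B : ℕ} {A : ℤ} {ψ : ℕ → ℝ} {S : Finset ℕ} (hε : 0 < ε)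
    (hε1 : ε ≤ 1) (hX : 3 ≤ X) (hb : Blk2 ε X γ B A ψ S) {δ : ℝ} (hδ0 : 0 < δ)
    (hδ : δ ≤ 16 * X) {θ z : ℝ} (hθ : 0 ≤ θ) {q r : ℕ} (hq : q ∈ S) (hr : r ∈ S)
    (hD : Dm ψ q r ≤ δ) :
    EX γ B A ψ θ z q r ≤
      (4 * δ + 1) * Real.exp (2 * θ * Real.log (1 + 16 * Real.log X)) := by
  have hX0 : 0 < X := by linarith
  have hX1 : 1 ≤ X := by linarith
  have hDel0 : 0 ≤ Del ψ q r := by
    unfold Del
    exact add_nonneg (mul_nonneg (Nat.cast_nonneg _) (hb.psi0 q))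
      (mul_nonneg (Nat.cast_nonneg _) (hb.psi0 r))
  have hDel : Del ψ q r ≤ 2 * δ := by
    have h1 : (r1 q r : ℝ) * ψ q ≤ Dm ψ q r := le_max_left _ _
    have h2 : (q1 q r : ℝ) * ψ r ≤ Dm ψ q r := le_max_right _ _
    unfold Del
    linarith
  have hq0 : 0 < q := by
    have h1 := hb.lo q hq
    have : (0 : ℝ) < q := by linarith
    exact_mod_cast this
  have hr0 : 0 < r := by
    have h1 := hb.lo r hr
    have : (0 : ℝ) < r := by linarith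
    exact_mod_cast this
  have hq1p : 0 < q1 q r := Nat.div_pos (Nat.le_of_dvd hq0 (Nat.gcd_dvd_left q r))
    (Nat.gcd_pos_of_pos_left _ hq0)
  have hr1p : 0 < r1 q r := Nat.div_pos (Nat.le_of_dvd hr0 (Nat.gcd_dvd_right q r))
    (Nat.gcd_pos_of_pos_left _ hq0)
  have hq1 : (q1 q r : ℝ) ≤ X ^ 4 := by
    refine le_trans ?_ (hb.hi q hq)
    exact_mod_cast Nat.div_le_self q (Nat.gcd q r)
  have hr1 : (r1 q r : ℝ) ≤ X ^ 4 := by
    refine le_trans ?_ (hb.hi r hr)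
    exact_mod_cast Nat.div_le_self r (Nat.gcd q r)
  have hs1 : sL z (q1 q r * r1 q r) ≤ Real.log (1 + 16 * Real.log X) := by
    refine E1T_sL hX1 (Nat.mul_pos hq1p hr1p) ?_
    push_cast
    calc (q1 q r : ℝ) * (r1 q r : ℝ) ≤ X ^ 4 * X ^ 4 :=
          mul_le_mul hq1 hr1 (Nat.cast_nonneg _) (by positivity)
      _ = X ^ 8 := by ring
  unfold EX
  have h1 : ∀ t ∈ (Ts γ (hh q r) (Del ψ q r)).filter (fun t => nt B A q r t ≠ 0),
      Real.exp (θ * (sL z (q1 q r * r1 q r) + sL z (nt B A q r t).natAbs)) ≤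
        Real.exp (2 * θ * Real.log (1 + 16 * Real.log X)) := by
    intro t ht
    rw [Finset.mem_filter] at ht
    have hs2 : sL z (nt B A q r t).natAbs ≤ Real.log (1 + 16 * Real.log X) :=
      E1T_sL hX1 (Int.natAbs_pos.2 ht.2) (E1T_nt hε hε1 hX hb hδ hq hr hDel ht.1)
    rw [Real.exp_le_exp]
    have h2 := mul_le_mul_of_nonneg_left (add_le_add hs1 hs2) hθ
    linarith
  refine (Finset.sum_le_sum h1).trans ?_
  rw [Finset.sum_const, nsmul_eq_mul]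
  refine mul_le_mul_of_nonneg_right ?_ (Real.exp_pos _).le
  have h2 : ((((Ts γ (hh q r) (Del ψ q r)).filter (fun t => nt B A q r t ≠ 0)).card : ℕ) : ℝ) ≤
      ((Ts γ (hh q r) (Del ψ q r)).card : ℝ) := by
    exact_mod_cast Finset.card_le_card (Finset.filter_subset _ _)
  have h3 := Vale.Agent.P028EV.card_Ts_le γ (hh q r) (Del ψ q r) hDel0
  linarith

theorem e1t (ε : ℝ) (hε : 0 < ε) (hε1 : ε ≤ 1) : ∃ X0 : ℝ, 2 ≤ X0 ∧
    ∀ (X γ : ℝ) (B : ℕ) (A : ℤ) (ψ : ℕ → ℝ) (S : Finset ℕ), X0 ≤ X → Blk2 ε X γ B A ψ S →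
    ∀ (δ : ℝ) (z : ℕ), Lev ε X δ z → ∀ (V W : Finset ℕ) (a b i j : ℕ), 0 < a → 0 < b →
    V ⊆ S → W ⊆ S → (∀ q ∈ V, a ∣ q) → (∀ r ∈ W, b ∣ r) → ∀ n0 : ℕ,
    bij (K1 γ B A ψ ε X δ z n0) V W a b i j ≤ MV a b (1 / δ) * MW a b (1 / δ) *
      ((4 * δ + 1) * Real.exp (2 * (4 + 8 * (z : ℝ)) * Real.log (1 + 16 * Real.log X))) ^
        (20 / 7 : ℝ) := by
  refine ⟨3, by norm_num, ?_⟩
  intro X γ B A ψ S hX hblk δ z hL V W a b i j ha hb hVS hWS hVa hWb n0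
  obtain ⟨hδ0, hδ⟩ := E1T_delta hε hε1 hX hL
  obtain ⟨M, hM⟩ : ∃ M, M = ((4 * δ + 1) * Real.exp (2 * (4 + 8 * (z : ℝ)) *
      Real.log (1 + 16 * Real.log X))) ^ (20 / 7 : ℝ) := ⟨_, rfl⟩
  have hM0 : 0 ≤ M := by rw [hM]; positivity
  rw [← hM]
  have hs : 0 < 1 / δ := by positivity
  have hpos : ∀ q ∈ S, 0 < q := by
    intro q hq
    have h1 := hblk.lo q hq
    have : (0 : ℝ) < q := by linarith
    exact_mod_cast this
  have hV : ∀ q ∈ V, 0 < q ∧ a ∣ q := fun q hq => ⟨hpos q (hVS hq), hVa q hq⟩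
  have hW : ∀ r ∈ W, 0 < r ∧ b ∣ r := fun r hr => ⟨hpos r (hWS hr), hWb r hr⟩
  have hXX : 0 ≤ w a * ((Nat.gcd a b : ℝ) / (1 / δ * 2 ^ j)) :=
    mul_nonneg (Vale.Agent.P028KM.BX_w_nonneg a) (by positivity)
  have hYY : 0 ≤ w b * ((Nat.gcd a b : ℝ) / (1 / δ * 2 ^ i)) :=
    mul_nonneg (Vale.Agent.P028KM.BX_w_nonneg b) (by positivity)
  have hψ := hblk.psi0
  refine le_trans (E1T_bij (fun _ => w a * ((Nat.gcd a b : ℝ) / (1 / δ * 2 ^ j)) * M)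
    (fun _ => w b * ((Nat.gcd a b : ℝ) / (1 / δ * 2 ^ i))) (fun _ => mul_nonneg hXX hM0)
    (fun _ => hYY) ?_) ?_
  · intro q hq hi r hr hj hg
    unfold K1
    split_ifs with hED
    · have hD : Dm ψ q r ≤ 1 / (1 / δ) := by
        rw [one_div_one_div]
        exact hED.2.2.2
      have h1 := Vale.Agent.P028KM.BX_muq hψ hs (hV q hq).1 (hV q hq).2 (hW r hr).1 hj hg hD
      have h2 := Vale.Agent.P028KM.BX_mur hψ hs (hW r hr).1 (hW r hr).2 (hV q hq).1 hi hg hD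
      have h3 : mu ψ q * mu ψ r ≤ w a * ((Nat.gcd a b : ℝ) / (1 / δ * 2 ^ j)) *
          (w b * ((Nat.gcd a b : ℝ) / (1 / δ * 2 ^ i))) :=
        mul_le_mul h1 h2 (Vale.Agent.P028KM.BX_mu_nonneg hψ r) hXX
      have h4 : (EX γ B A ψ (4 + 8 * (z : ℝ)) z q r *
          Real.exp (-((4 + 8 * (z : ℝ)) * sL z n0))) ^ (20 / 7 : ℝ) ≤ M := by
        have hE0 : 0 ≤ EX γ B A ψ (4 + 8 * (z : ℝ)) z q r :=
          Finset.sum_nonneg fun t _ => (Real.exp_pos _).le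
        rw [hM]
        refine Real.rpow_le_rpow (mul_nonneg hE0 (Real.exp_pos _).le) ?_ (by norm_num)
        have h5 := E1T_EX hε hε1 hX hblk hδ0 hδ (θ := 4 + 8 * (z : ℝ)) (z := (z : ℝ))
          (by positivity) (hVS hq) (hWS hr) hED.2.2.2
        have h6 : Real.exp (-((4 + 8 * (z : ℝ)) * sL z n0)) ≤ 1 := by
          rw [Real.exp_le_one_iff, neg_nonpos]
          exact mul_nonneg (by positivity) (sL_nonneg _ _)
        exact (mul_le_of_le_one_right hE0 h6).trans h5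
      have h7 : 0 ≤ (EX γ B A ψ (4 + 8 * (z : ℝ)) z q r *
          Real.exp (-((4 + 8 * (z : ℝ)) * sL z n0))) ^ (20 / 7 : ℝ) :=
        Real.rpow_nonneg (mul_nonneg (Finset.sum_nonneg fun t _ => (Real.exp_pos _).le)
          (Real.exp_pos _).le) _
      refine (mul_le_mul h3 h4 h7 (mul_nonneg hXX hYY)).trans (le_of_eq ?_)
      ring
    · exact mul_nonneg (mul_nonneg hXX hM0) hYY
  · rw [Finset.sum_const, nsmul_eq_mul, Finset.sum_const, nsmul_eq_mul]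
    have h1 := mul_le_mul_of_nonneg_right (Vale.Agent.P028KM.BX_card ha hV (j := i)) hXX
    have h2 := mul_le_mul_of_nonneg_right (Vale.Agent.P028KM.BX_card hb hW (j := j)) hYY
    rw [Vale.Agent.P028KM.BX_MV ha (1 / δ) hs i j] at h1
    rw [Vale.Agent.P028KM.BX_MW ha hb (1 / δ) hs i j] at h2
    have h3 := mul_le_mul h1 h2 (mul_nonneg (Nat.cast_nonneg _) hYY)
      (le_trans (mul_nonneg (Nat.cast_nonneg _) hXX) h1)
    have h5 := mul_le_mul_of_nonneg_right h3 hM0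
    have h4 : (2 : ℝ) ^ ((i : ℝ) - (j : ℝ)) * (2 : ℝ) ^ ((j : ℝ) - (i : ℝ)) = 1 := by
      rw [← Real.rpow_add two_pos]
      simp
    have h6 : MV a b (1 / δ) * (2 : ℝ) ^ ((i : ℝ) - (j : ℝ)) *
        (MW a b (1 / δ) * (2 : ℝ) ^ ((j : ℝ) - (i : ℝ))) * M =
        MV a b (1 / δ) * MW a b (1 / δ) * M := by
      calc _ = MV a b (1 / δ) * MW a b (1 / δ) * M *
          ((2 : ℝ) ^ ((i : ℝ) - (j : ℝ)) * (2 : ℝ) ^ ((j : ℝ) - (i : ℝ))) := by ring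
        _ = _ := by rw [h4, mul_one]
    rw [h6] at h5
    refine le_trans (le_of_eq ?_) h5
    ring

end Vale.Agent.P028W
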