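import Vale.Agent.P028W.Defs3


/-!
Module HO: Hölder with exponents `20/13, 20/7` and weights `mu mu` on the edges:
`KL = mu mu EX = exp(θ sL n0) * (mu mu)^(13/20) * (mu mu (EX exp(-θ sL n0))^(20/7))^(7/20)`, `θ = 4+8z`.
-/

namespace Vale.Agent.P028W

open Finset MeasureTheory
open Vale.Agent.P028EV (q1 r1 Del hh Ts Bd Ad Nd)
open Vale.Agent.P028KM (w mu Dm Bl FF MN Sb ex cl OK KO th Th MV MW)

theorem HO_EX (γ : ℝ) (B : ℕ) (A : ℤ) (ψ : ℕ → ℝ) (θ z : ℝ) (q r : ℕ) :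
    0 ≤ EX γ B A ψ θ z q r := by
  unfold EX
  exact Finset.sum_nonneg fun _ _ => (Real.exp_pos _).le

theorem HO_mu (ψ : ℕ → ℝ) (hψ : ∀ q, 0 ≤ ψ q) (q : ℕ) : 0 ≤ mu ψ q := by
  unfold mu w
  have := hψ q
  positivity

theorem HO_bij (K : ℕ → ℕ → ℝ) (V W : Finset ℕ) (a b i j : ℕ) :
    bij K V W a b i j =
      ∑ x ∈ (V.filter fun q => Nat.log 2 q = i).sigma
        (fun q => W.filter fun r => Nat.log 2 r = j ∧ Nat.gcd q r = Nat.gcd a b), K x.1 x.2 := by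
  unfold bij
  rw [Finset.sum_sigma]

theorem HO_pt (c E s : ℝ) (hc : 0 ≤ c) (hE : 0 ≤ E) :
    c * E = Real.exp s * (c ^ (13 / 20 : ℝ) *
      (c * (E * Real.exp (-s)) ^ (20 / 7 : ℝ)) ^ (7 / 20 : ℝ)) := by
  have hEe : 0 ≤ E * Real.exp (-s) := mul_nonneg hE (Real.exp_pos _).le
  rw [Real.mul_rpow hc (Real.rpow_nonneg hEe _), ← Real.rpow_mul hEe, ← mul_assoc,
    ← mul_assoc, mul_assoc (Real.exp s), ← Real.rpow_add_of_nonneg hc (by norm_num) (by norm_num)]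
  norm_num
  have h : Real.exp s * Real.exp (-s) = 1 := by
    rw [← Real.exp_add, add_neg_cancel, Real.exp_zero]
  calc c * E = c * E * (Real.exp s * Real.exp (-s)) := by rw [h, mul_one]
    _ = _ := by ring

theorem ho (γ : ℝ) (B : ℕ) (A : ℤ) (ψ : ℕ → ℝ) (hψ : ∀ q, 0 ≤ ψ q) (ε X δ z : ℝ) (n0 : ℕ)
    (V W : Finset ℕ) (a b i j : ℕ) :
    bij (KL γ B A ψ ε X δ z) V W a b i j ≤ Real.exp ((4 + 8 * z) * sL z n0) *
      ((bij (K0 ψ ε X δ) V W a b i j) ^ (13 / 20 : ℝ) *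
        (bij (K1 γ B A ψ ε X δ z n0) V W a b i j) ^ (7 / 20 : ℝ)) := by
  rw [HO_bij, HO_bij, HO_bij]
  set S := (V.filter fun q => Nat.log 2 q = i).sigma
    (fun q => W.filter fun r => Nat.log 2 r = j ∧ Nat.gcd q r = Nat.gcd a b) with hS
  have h0 : ∀ q r, 0 ≤ K0 ψ ε X δ q r := by
    intro q r
    unfold K0
    split_ifs
    · exact mul_nonneg (HO_mu ψ hψ q) (HO_mu ψ hψ r)
    · exact le_rfl
  have h1 : ∀ q r, 0 ≤ K1 γ B A ψ ε X δ z n0 q r := by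
    intro q r
    unfold K1
    split_ifs
    · exact mul_nonneg (mul_nonneg (HO_mu ψ hψ q) (HO_mu ψ hψ r)) (Real.rpow_nonneg
        (mul_nonneg (HO_EX _ _ _ _ _ _ _ _) (Real.exp_pos _).le) _)
    · exact le_rfl
  have hpt : ∀ q r, KL γ B A ψ ε X δ z q r = Real.exp ((4 + 8 * z) * sL z n0) *
      ((K0 ψ ε X δ q r) ^ (13 / 20 : ℝ) * (K1 γ B A ψ ε X δ z n0 q r) ^ (7 / 20 : ℝ)) := by
    intro q r
    by_cases h : ED ψ ε X δ q r
    · have a1 : KL γ B A ψ ε X δ z q r = mu ψ q * mu ψ r * EX γ B A ψ (4 + 8 * z) z q r := by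
        unfold KL
        exact if_pos h
      have a2 : K0 ψ ε X δ q r = mu ψ q * mu ψ r := by
        unfold K0
        exact if_pos h
      have a3 : K1 γ B A ψ ε X δ z n0 q r = mu ψ q * mu ψ r *
          (EX γ B A ψ (4 + 8 * z) z q r * Real.exp (-((4 + 8 * z) * sL z n0))) ^ (20 / 7 : ℝ) := by
        unfold K1
        exact if_pos h
      rw [a1, a2, a3]
      exact HO_pt _ _ _ (mul_nonneg (HO_mu ψ hψ q) (HO_mu ψ hψ r)) (HO_EX _ _ _ _ _ _ _ _)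
    · have a1 : KL γ B A ψ ε X δ z q r = 0 := by
        unfold KL
        exact if_neg h
      have a2 : K0 ψ ε X δ q r = 0 := by
        unfold K0
        exact if_neg h
      rw [a1, a2, Real.zero_rpow (by norm_num), zero_mul, mul_zero]
  rw [Finset.sum_congr rfl fun x _ => hpt x.1 x.2, ← Finset.mul_sum]
  refine mul_le_mul_of_nonneg_left ?_ (Real.exp_pos _).le
  have hpq : (20 / 13 : ℝ).HolderConjugate (20 / 7) := by
    rw [Real.holderConjugate_iff]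
    norm_num
  have hH := Real.inner_le_Lp_mul_Lq_of_nonneg S hpq
    (f := fun x => (K0 ψ ε X δ x.1 x.2) ^ (13 / 20 : ℝ))
    (g := fun x => (K1 γ B A ψ ε X δ z n0 x.1 x.2) ^ (7 / 20 : ℝ))
    (fun x _ => Real.rpow_nonneg (h0 _ _) _) (fun x _ => Real.rpow_nonneg (h1 _ _) _)
  refine hH.trans (le_of_eq ?_)
  have e0 : ∀ x : (_ : ℕ) × ℕ, ((K0 ψ ε X δ x.1 x.2) ^ (13 / 20 : ℝ)) ^ (20 / 13 : ℝ) =
      K0 ψ ε X δ x.1 x.2 := by
    intro x
    rw [← Real.rpow_mul (h0 _ _)]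
    norm_num
  have e1 : ∀ x : (_ : ℕ) × ℕ, ((K1 γ B A ψ ε X δ z n0 x.1 x.2) ^ (7 / 20 : ℝ)) ^ (20 / 7 : ℝ) =
      K1 γ B A ψ ε X δ z n0 x.1 x.2 := by
    intro x
    rw [← Real.rpow_mul (h1 _ _)]
    norm_num
  rw [Finset.sum_congr rfl fun x _ => e0 x, Finset.sum_congr rfl fun x _ => e1 x]
  norm_num

end Vale.Agent.P028W
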