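import Vale.Agent.P028W.Defs3
import Vale.Agent.P028KM.SIJ

/-!
Module SIJr: apply the method of `sij` (Vale/Agent/P028KM/SIJ.lean, `sij_geom`):
`e0^(13/20) e1^(7/20) ≤ (x_i y_j)^(11/20) (x_i B 2^(j-i))^(1/10) (A B σ)^(7/20)` and symmetrically.
-/

namespace Vale.Agent.P028W

open Finset MeasureTheory
open Vale.Agent.P028EV (q1 r1 Del hh Ts Bd Ad Nd)
open Vale.Agent.P028KM (w mu Dm Bl FF MN Sb ex cl OK KO th Th MV MW)

theorem SIJr_pow3 (e0 e1 p q r : ℝ) (he0 : 0 ≤ e0) (he1 : 0 ≤ e1) (h1 : e0 ≤ p) (h2 : e0 ≤ q) (h3 : e1 ≤ r) :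
    e0 ^ (13 / 20 : ℝ) * e1 ^ (7 / 20 : ℝ) ≤ p ^ (11 / 20 : ℝ) * q ^ (1 / 10 : ℝ) * r ^ (7 / 20 : ℝ) := by
  have h : e0 ^ (13 / 20 : ℝ) = e0 ^ (11 / 20 : ℝ) * e0 ^ (1 / 10 : ℝ) := by
    rw [← Real.rpow_add_of_nonneg he0 (by norm_num) (by norm_num)]
    norm_num
  rw [h]
  have hp : 0 ≤ p := he0.trans h1
  have hq : 0 ≤ q := he0.trans h2
  have hr : 0 ≤ r := he1.trans h3
  gcongr

theorem SIJr_pt (e0 e1 x y A B σ z : ℝ) (he0 : 0 ≤ e0) (he1 : 0 ≤ e1) (hx : 0 ≤ x) (hy : 0 ≤ y) (hA : 0 ≤ A)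
    (hB : 0 ≤ B) (hσ : 0 ≤ σ) (h1 : e0 ≤ x * y) (h2 : e0 ≤ x * B * (2 : ℝ) ^ z)
    (h3 : e1 ≤ A * B * σ) :
    e0 ^ (13 / 20 : ℝ) * e1 ^ (7 / 20 : ℝ) ≤ σ ^ (7 / 20 : ℝ) * (x ^ (13 / 20 : ℝ) * y ^ (11 / 20 : ℝ)) *
      (A ^ (7 / 20 : ℝ) * B ^ (9 / 20 : ℝ)) * (2 : ℝ) ^ (z / 10) := by
  refine (SIJr_pow3 e0 e1 _ _ _ he0 he1 h1 h2 h3).trans (le_of_eq ?_)
  rw [Real.mul_rpow hx hy, Real.mul_rpow (by positivity) (by positivity), Real.mul_rpow hx hB,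
    Real.mul_rpow (by positivity) hσ, Real.mul_rpow hA hB, ← Real.rpow_mul (by norm_num)]
  have e1 : x ^ (13 / 20 : ℝ) = x ^ (11 / 20 : ℝ) * x ^ (1 / 10 : ℝ) := by
    rw [← Real.rpow_add_of_nonneg hx (by norm_num) (by norm_num)]; norm_num
  have e2 : B ^ (9 / 20 : ℝ) = B ^ (1 / 10 : ℝ) * B ^ (7 / 20 : ℝ) := by
    rw [← Real.rpow_add_of_nonneg hB (by norm_num) (by norm_num)]; norm_num
  have e3 : z / 10 = z * (1 / 10) := by ring
  rw [e1, e2, e3]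
  ring

theorem sijr : ∃ C9 : ℝ, 0 < C9 ∧ ∀ (L : ℕ) (e0 e1 : ℕ → ℕ → ℝ) (x y : ℕ → ℝ) (A B σ : ℝ),
    (∀ i, 0 ≤ x i) → (∀ i, 0 ≤ y i) → 0 ≤ A → 0 ≤ B → 0 ≤ σ → (∀ i j, 0 ≤ e0 i j) →
    (∀ i j, 0 ≤ e1 i j) →
    (∀ i j, e0 i j ≤ x i * y j) → (∀ i j, e0 i j ≤ x i * B * (2 : ℝ) ^ ((j : ℝ) - (i : ℝ))) →
    (∀ i j, e0 i j ≤ y j * A * (2 : ℝ) ^ ((i : ℝ) - (j : ℝ))) → (∀ i j, e1 i j ≤ A * B * σ) →
    ∑ i ∈ range L, ∑ j ∈ range L, (e0 i j) ^ (13 / 20 : ℝ) * (e1 i j) ^ (7 / 20 : ℝ)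
      ≤ C9 * ((∑ i ∈ range L, x i) * (∑ j ∈ range L, y j)) ^ (3 / 5 : ℝ) * (A * B) ^ (2 / 5 : ℝ) *
        σ ^ (7 / 20 : ℝ) := by
  obtain ⟨C, hC, hgeom⟩ := P028KM.sij_geom
  refine ⟨2 * C, by positivity, ?_⟩
  intro L e0 e1 x y A B σ hx hy hA hB hσ he0 he1 h1 h2 h3 h4
  set e : ℕ → ℕ → ℝ := fun i j => (e0 i j) ^ (13 / 20 : ℝ) * (e1 i j) ^ (7 / 20 : ℝ) with hedef
  have hz0 : ∀ i j, e0 i j ≤ 0 → e i j ≤ 0 := by
    intro i j h
    have h0 : e0 i j = 0 := le_antisymm h (he0 i j)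
    show (e0 i j) ^ (13 / 20 : ℝ) * (e1 i j) ^ (7 / 20 : ℝ) ≤ 0
    rw [h0, Real.zero_rpow (by norm_num), zero_mul]
  set X : ℝ := ∑ i ∈ range L, x i with hXdef
  set Y : ℝ := ∑ j ∈ range L, y j with hYdef
  have hX0 : 0 ≤ X := Finset.sum_nonneg (fun i _ => hx i)
  have hY0 : 0 ≤ Y := Finset.sum_nonneg (fun i _ => hy i)
  have hxX : ∀ i ∈ range L, x i ≤ X := fun i hi =>
    Finset.single_le_sum (f := x) (fun i _ => hx i) hi
  have hyY : ∀ i ∈ range L, y i ≤ Y := fun i hi =>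
    Finset.single_le_sum (f := y) (fun i _ => hy i) hi
  have hpos : 0 ≤ 2 * C * (X * Y) ^ (3 / 5 : ℝ) * (A * B) ^ (2 / 5 : ℝ) * σ ^ (7 / 20 : ℝ) := by
    positivity
  rcases hX0.eq_or_lt with h | hXp
  · refine le_trans ?_ hpos
    apply Finset.sum_nonpos
    intro i hi
    apply Finset.sum_nonpos
    intro j _
    have hxi : x i = 0 := le_antisymm (h ▸ hxX i hi) (hx i)
    have := h1 i j
    rw [hxi, zero_mul] at this
    exact hz0 i _ this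
  rcases hY0.eq_or_lt with h | hYp
  · refine le_trans ?_ hpos
    apply Finset.sum_nonpos
    intro i _
    apply Finset.sum_nonpos
    intro j hj
    have hyj : y j = 0 := le_antisymm (h ▸ hyY j hj) (hy j)
    have := h1 i j
    rw [hyj, mul_zero] at this
    exact hz0 _ j this
  set a1 : ℝ := X ^ (13 / 20 : ℝ) * Y ^ (11 / 20 : ℝ) * (A ^ (7 / 20 : ℝ) * B ^ (9 / 20 : ℝ)) with ha1
  set a2 : ℝ := Y ^ (13 / 20 : ℝ) * X ^ (11 / 20 : ℝ) * (B ^ (7 / 20 : ℝ) * A ^ (9 / 20 : ℝ)) with ha2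
  have ha1p : 0 ≤ a1 := by positivity
  have ha2p : 0 ≤ a2 := by positivity
  set m : ℤ → ℝ := fun d => min (a1 * (2 : ℝ) ^ (-(d : ℝ) / 10)) (a2 * (2 : ℝ) ^ ((d : ℝ) / 10)) with hm
  have hm0 : ∀ d, 0 ≤ m d := fun d => le_min (by positivity) (by positivity)
  have hG : ∑ d ∈ Finset.Icc (-(L : ℤ)) L, m d ≤ C * (a1 * a2) ^ (1 / 2 : ℝ) :=
    hgeom L a1 a2 ha1p ha2p
  set G : ℝ := ∑ d ∈ Finset.Icc (-(L : ℤ)) L, m d with hGdef
  have hprod : (a1 * a2) ^ (1 / 2 : ℝ) = (X * Y) ^ (3 / 5 : ℝ) * (A * B) ^ (2 / 5 : ℝ) := by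
    have : a1 * a2 = (X * Y) ^ (6 / 5 : ℝ) * (A * B) ^ (4 / 5 : ℝ) := by
      rw [ha1, ha2, Real.mul_rpow hX0 hY0, Real.mul_rpow hA hB]
      have e1 : X ^ (6 / 5 : ℝ) = X ^ (13 / 20 : ℝ) * X ^ (11 / 20 : ℝ) := by
        rw [← Real.rpow_add_of_nonneg hX0 (by norm_num) (by norm_num)]; norm_num
      have e2 : Y ^ (6 / 5 : ℝ) = Y ^ (13 / 20 : ℝ) * Y ^ (11 / 20 : ℝ) := by
        rw [← Real.rpow_add_of_nonneg hY0 (by norm_num) (by norm_num)]; norm_num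
      have e3 : A ^ (4 / 5 : ℝ) = A ^ (7 / 20 : ℝ) * A ^ (9 / 20 : ℝ) := by
        rw [← Real.rpow_add_of_nonneg hA (by norm_num) (by norm_num)]; norm_num
      have e4 : B ^ (4 / 5 : ℝ) = B ^ (7 / 20 : ℝ) * B ^ (9 / 20 : ℝ) := by
        rw [← Real.rpow_add_of_nonneg hB (by norm_num) (by norm_num)]; norm_num
      rw [e1, e2, e3, e4]; ring
    rw [this, Real.mul_rpow (by positivity) (by positivity), ← Real.rpow_mul (by positivity),
      ← Real.rpow_mul (by positivity)]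
    norm_num
  have hpt : ∀ i ∈ range L, ∀ j ∈ range L,
      e i j ≤ σ ^ (7 / 20 : ℝ) * ((x i / X + y j / Y) * m ((i : ℤ) - (j : ℤ))) := by
    intro i hi j hj
    have hs0 : 0 ≤ x i / X + y j / Y := by
      have := hx i; have := hy j; positivity
    have hcast : (((i : ℤ) - (j : ℤ) : ℤ) : ℝ) = (i : ℝ) - (j : ℝ) := by push_cast; ring
    have b1 : e i j ≤ σ ^ (7 / 20 : ℝ) * ((x i / X + y j / Y) *
        (a1 * (2 : ℝ) ^ (-(((i : ℤ) - (j : ℤ) : ℤ) : ℝ) / 10))) := by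
      have hp := SIJr_pt (e0 i j) (e1 i j) (x i) (y j) A B σ ((j : ℝ) - (i : ℝ)) (he0 i j) (he1 i j) (hx i) (hy j) hA hB hσ
        (h1 i j) (h2 i j) (h4 i j)
      have huv := P028KM.SIJ_uv (x i) (y j) X Y (13 / 20) (11 / 20) hXp hYp (hx i) (hxX i hi) (hy j)
        (hyY j hj) (by norm_num) (by norm_num) (by norm_num)
      rw [hcast]
      have hz : -((i : ℝ) - (j : ℝ)) / 10 = ((j : ℝ) - (i : ℝ)) / 10 := by ring
      rw [hz]
      calc e i j ≤ σ ^ (7 / 20 : ℝ) * ((x i) ^ (13 / 20 : ℝ) * (y j) ^ (11 / 20 : ℝ)) *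
            (A ^ (7 / 20 : ℝ) * B ^ (9 / 20 : ℝ)) * (2 : ℝ) ^ (((j : ℝ) - (i : ℝ)) / 10) := hp
        _ ≤ σ ^ (7 / 20 : ℝ) * (X ^ (13 / 20 : ℝ) * Y ^ (11 / 20 : ℝ) * (x i / X + y j / Y)) *
            (A ^ (7 / 20 : ℝ) * B ^ (9 / 20 : ℝ)) * (2 : ℝ) ^ (((j : ℝ) - (i : ℝ)) / 10) := by
          gcongr
        _ = _ := by rw [ha1]; ring
    have b2 : e i j ≤ σ ^ (7 / 20 : ℝ) * ((x i / X + y j / Y) *
        (a2 * (2 : ℝ) ^ ((((i : ℤ) - (j : ℤ) : ℤ) : ℝ) / 10))) := by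
      have hp := SIJr_pt (e0 i j) (e1 i j) (y j) (x i) B A σ ((i : ℝ) - (j : ℝ)) (he0 i j) (he1 i j) (hy j) (hx i) hB hA hσ
        ((h1 i j).trans (le_of_eq (mul_comm _ _))) (h3 i j)
        ((h4 i j).trans (le_of_eq (by ring)))
      have huv := P028KM.SIJ_uv (y j) (x i) Y X (13 / 20) (11 / 20) hYp hXp (hy j) (hyY j hj) (hx i)
        (hxX i hi) (by norm_num) (by norm_num) (by norm_num)
      rw [hcast]
      calc e i j ≤ σ ^ (7 / 20 : ℝ) * ((y j) ^ (13 / 20 : ℝ) * (x i) ^ (11 / 20 : ℝ)) *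
            (B ^ (7 / 20 : ℝ) * A ^ (9 / 20 : ℝ)) * (2 : ℝ) ^ (((i : ℝ) - (j : ℝ)) / 10) := hp
        _ ≤ σ ^ (7 / 20 : ℝ) * (Y ^ (13 / 20 : ℝ) * X ^ (11 / 20 : ℝ) * (y j / Y + x i / X)) *
            (B ^ (7 / 20 : ℝ) * A ^ (9 / 20 : ℝ)) * (2 : ℝ) ^ (((i : ℝ) - (j : ℝ)) / 10) := by
          gcongr
        _ = _ := by rw [ha2]; ring
    rw [hm]
    simp only
    rw [← mul_assoc, mul_min_of_nonneg _ _ (by positivity)]
    exact le_min (by rw [mul_assoc]; exact b1) (by rw [mul_assoc]; exact b2)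
  have hrow : ∀ i ∈ range L, ∑ j ∈ range L, m ((i : ℤ) - (j : ℤ)) ≤ G := by
    intro i hi
    rw [Finset.mem_range] at hi
    have hinj : Set.InjOn (fun j : ℕ => (i : ℤ) - (j : ℤ)) (range L : Set ℕ) := by
      intro a _ b _ hab
      simp only at hab
      omega
    rw [← Finset.sum_image (f := m) hinj]
    apply Finset.sum_le_sum_of_subset_of_nonneg
    · intro d hd
      rw [Finset.mem_image] at hd
      obtain ⟨j, hj, rfl⟩ := hd
      rw [Finset.mem_range] at hj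
      rw [Finset.mem_Icc]
      omega
    · intro d _ _
      exact hm0 d
  have hcol : ∀ j ∈ range L, ∑ i ∈ range L, m ((i : ℤ) - (j : ℤ)) ≤ G := by
    intro j hj
    rw [Finset.mem_range] at hj
    have hinj : Set.InjOn (fun i : ℕ => (i : ℤ) - (j : ℤ)) (range L : Set ℕ) := by
      intro a _ b _ hab
      simp only at hab
      omega
    rw [← Finset.sum_image (f := m) hinj]
    apply Finset.sum_le_sum_of_subset_of_nonneg
    · intro d hd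
      rw [Finset.mem_image] at hd
      obtain ⟨i, hi, rfl⟩ := hd
      rw [Finset.mem_range] at hi
      rw [Finset.mem_Icc]
      omega
    · intro d _ _
      exact hm0 d
  have hsx : ∑ i ∈ range L, x i / X = 1 := by
    rw [← Finset.sum_div]; exact div_self hXp.ne'
  have hsy : ∑ j ∈ range L, y j / Y = 1 := by
    rw [← Finset.sum_div]; exact div_self hYp.ne'
  have hfin : ∑ i ∈ range L, ∑ j ∈ range L, (x i / X + y j / Y) * m ((i : ℤ) - (j : ℤ)) ≤ 2 * G := by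
    have hsplit : ∑ i ∈ range L, ∑ j ∈ range L, (x i / X + y j / Y) * m ((i : ℤ) - (j : ℤ))
        = ∑ i ∈ range L, x i / X * ∑ j ∈ range L, m ((i : ℤ) - (j : ℤ))
          + ∑ j ∈ range L, y j / Y * ∑ i ∈ range L, m ((i : ℤ) - (j : ℤ)) := by
      have c2 : ∑ j ∈ range L, y j / Y * ∑ i ∈ range L, m ((i : ℤ) - (j : ℤ))
          = ∑ i ∈ range L, ∑ j ∈ range L, y j / Y * m ((i : ℤ) - (j : ℤ)) := by
        rw [Finset.sum_comm]
        apply Finset.sum_congr rfl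
        intro j _
        rw [Finset.mul_sum]
      rw [c2, ← Finset.sum_add_distrib]
      apply Finset.sum_congr rfl
      intro i _
      rw [Finset.mul_sum, ← Finset.sum_add_distrib]
      apply Finset.sum_congr rfl
      intro j _
      ring
    rw [hsplit]
    have t1 : ∑ i ∈ range L, x i / X * ∑ j ∈ range L, m ((i : ℤ) - (j : ℤ)) ≤ G := by
      calc _ ≤ ∑ i ∈ range L, x i / X * G := by
            apply Finset.sum_le_sum
            intro i hi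
            exact mul_le_mul_of_nonneg_left (hrow i hi) (div_nonneg (hx i) hX0)
        _ = G := by rw [← Finset.sum_mul, hsx, one_mul]
    have t2 : ∑ j ∈ range L, y j / Y * ∑ i ∈ range L, m ((i : ℤ) - (j : ℤ)) ≤ G := by
      calc _ ≤ ∑ j ∈ range L, y j / Y * G := by
            apply Finset.sum_le_sum
            intro j hj
            exact mul_le_mul_of_nonneg_left (hcol j hj) (div_nonneg (hy j) hY0)
        _ = G := by rw [← Finset.sum_mul, hsy, one_mul]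
    linarith
  calc ∑ i ∈ range L, ∑ j ∈ range L, e i j
      ≤ ∑ i ∈ range L, ∑ j ∈ range L, σ ^ (7 / 20 : ℝ) * ((x i / X + y j / Y) * m ((i : ℤ) - (j : ℤ))) := by
        apply Finset.sum_le_sum
        intro i hi
        apply Finset.sum_le_sum
        intro j hj
        exact hpt i hi j hj
    _ = σ ^ (7 / 20 : ℝ) * ∑ i ∈ range L, ∑ j ∈ range L, (x i / X + y j / Y) * m ((i : ℤ) - (j : ℤ)) := by
        rw [Finset.mul_sum]
        apply Finset.sum_congr rfl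
        intro i _
        rw [Finset.mul_sum]
    _ ≤ σ ^ (7 / 20 : ℝ) * (2 * (C * ((X * Y) ^ (3 / 5 : ℝ) * (A * B) ^ (2 / 5 : ℝ)))) := by
        refine mul_le_mul_of_nonneg_left ?_ (by positivity)
        rw [← hprod]
        linarith
    _ = 2 * C * (X * Y) ^ (3 / 5 : ℝ) * (A * B) ^ (2 / 5 : ℝ) * σ ^ (7 / 20 : ℝ) := by ring

end Vale.Agent.P028W
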