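import Vale.Agent.P028W.Defs3
import Vale.Agent.P028W.E0
import Vale.Agent.P028W.E1T
import Vale.Agent.P028W.E1G
import Vale.Agent.P028W.HO
import Vale.Agent.P028W.SIJr

/-!
Module BSr: the base inequality; compare Vale/Agent/P028KM/BS.lean. Sum over the boxes with `ho` (`n0 = q1 a b * r1 a b`) and
`sijr` (`A = MV a b (1/δ)`, `B = MW a b (1/δ)`), `σ` from `e1g` if `q1 r1 ≤ X^cA`, from `e1t` otherwise.
`exp(θ sL z n0) = ∏_{p ∣ n0} rz z p` (`exp_sL`). `(MV MW)^(2/5) = 4^(2/5) δ^(4/5) ((αβ)^(-1) w w)^(2/5)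
= 4^(2/5) δ^(4/5) Th η a b (αβ)^(-2η/5)`; if `αβ > X^cA` then `(αβ)^(2η/5) ≥ exp(2θ log(1+16 log X)) max(1,1/δ) e^2`
by the choice of `etaW`, which beats the ratio of the two values of `σ^(7/20)`
(`(4δ+1) ≤ 5 max(1,δ)`).
-/

namespace Vale.Agent.P028W

open Finset MeasureTheory
open Vale.Agent.P028EV (q1 r1 Del hh Ts Bd Ad Nd)
open Vale.Agent.P028KM (w mu Dm Bl FF MN Sb ex cl OK KO th Th MV MW)

theorem BSr_w_nonneg (q : ℕ) : 0 ≤ w q := by unfold w; positivity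

theorem BSr_mu_nonneg {ψ : ℕ → ℝ} (hψ : ∀ q, 0 ≤ ψ q) (q : ℕ) : 0 ≤ mu ψ q :=
  mul_nonneg (BSr_w_nonneg q) (hψ q)

theorem BSr_EX_nonneg (γ : ℝ) (B : ℕ) (A : ℤ) (ψ : ℕ → ℝ) (θ z : ℝ) (q r : ℕ) :
    0 ≤ EX γ B A ψ θ z q r := by
  unfold EX
  exact Finset.sum_nonneg fun t _ => (Real.exp_pos _).le

theorem BSr_K0_nonneg {ψ : ℕ → ℝ} (hψ : ∀ q, 0 ≤ ψ q) (ε X δ : ℝ) (q r : ℕ) :
    0 ≤ K0 ψ ε X δ q r := by
  unfold K0
  split_ifs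
  · exact mul_nonneg (BSr_mu_nonneg hψ q) (BSr_mu_nonneg hψ r)
  · exact le_refl _

theorem BSr_K1_nonneg {ψ : ℕ → ℝ} (hψ : ∀ q, 0 ≤ ψ q) (γ : ℝ) (B : ℕ) (A : ℤ) (ε X δ z : ℝ)
    (n0 : ℕ) (q r : ℕ) :
    0 ≤ K1 γ B A ψ ε X δ z n0 q r := by
  unfold K1
  split_ifs
  · refine mul_nonneg (mul_nonneg (BSr_mu_nonneg hψ q) (BSr_mu_nonneg hψ r)) (Real.rpow_nonneg ?_ _)
    exact mul_nonneg (BSr_EX_nonneg _ _ _ _ _ _ _ _) (Real.exp_pos _).le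
  · exact le_refl _

theorem BSr_bij_nonneg {K : ℕ → ℕ → ℝ} (hK : ∀ q r, 0 ≤ K q r) (V W : Finset ℕ) (a b i j : ℕ) :
    0 ≤ bij K V W a b i j :=
  Finset.sum_nonneg fun _ _ => Finset.sum_nonneg fun _ _ => hK _ _

theorem BSr_split (K : ℕ → ℕ → ℝ) (V W : Finset ℕ) (a b L : ℕ)
    (hV : ∀ q ∈ V, Nat.log 2 q < L) (hW : ∀ r ∈ W, Nat.log 2 r < L) :
    ∑ q ∈ V, ∑ r ∈ W with Nat.gcd q r = Nat.gcd a b, K q r =
      ∑ i ∈ range L, ∑ j ∈ range L, bij K V W a b i j := by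
  have h1 : ∀ q, ∑ r ∈ W with Nat.gcd q r = Nat.gcd a b, K q r =
      ∑ j ∈ range L, ∑ r ∈ W with Nat.log 2 r = j ∧ Nat.gcd q r = Nat.gcd a b, K q r := by
    intro q
    rw [← Finset.sum_fiberwise_of_maps_to (s := W.filter fun r => Nat.gcd q r = Nat.gcd a b)
      (t := range L) (g := fun r => Nat.log 2 r)
      (fun r hr => Finset.mem_range.2 (hW r (Finset.mem_filter.1 hr).1))]
    refine Finset.sum_congr rfl fun j _ => ?_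
    rw [Finset.filter_filter]
    refine Finset.sum_congr ?_ fun _ _ => rfl
    refine Finset.filter_congr fun r _ => ?_
    exact and_comm
  simp only [h1]
  rw [← Finset.sum_fiberwise_of_maps_to (s := V) (t := range L) (g := fun q => Nat.log 2 q)
      (fun q hq => Finset.mem_range.2 (hV q hq))]
  refine Finset.sum_congr rfl fun i _ => ?_
  rw [Finset.sum_comm]
  rfl

theorem BSr_sum (ψ : ℕ → ℝ) (V : Finset ℕ) (L : ℕ) (hV : ∀ q ∈ V, Nat.log 2 q < L) :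
    ∑ i ∈ range L, ∑ q ∈ V with Nat.log 2 q = i, mu ψ q = ∑ q ∈ V, mu ψ q :=
  Finset.sum_fiberwise_of_maps_to (fun q hq => Finset.mem_range.2 (hV q hq)) _

theorem BSr_pow (C1 m M : ℝ) (hC : 0 ≤ C1) (hm : 0 ≤ m) (hM : 0 ≤ M) :
    (C1 * m ^ (9 / 10 : ℝ) * M ^ (20 / 7 : ℝ)) ^ (7 / 20 : ℝ) =
      C1 ^ (7 / 20 : ℝ) * m ^ (63 / 200 : ℝ) * M := by
  rw [Real.mul_rpow (by positivity) (by positivity), Real.mul_rpow hC (by positivity),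
    ← Real.rpow_mul hm, ← Real.rpow_mul hM]
  norm_num

theorem BSr_pow2 (t : ℝ) (ht : 0 ≤ t) : (t ^ (20 / 7 : ℝ)) ^ (7 / 20 : ℝ) = t := by
  rw [← Real.rpow_mul ht]
  norm_num

/-- the numerical part: the key inequality -/
theorem BSr_key {C1 ε X δ η α σ θ : ℝ} {z : ℕ} (hC1 : 1 ≤ C1) (hε : 0 < ε) (hX : 2 ≤ X)
    (hδ : 0 < δ) (hθ : θ = 4 + 8 * (z : ℝ)) (hη : η = etaW ε X δ z) (hα : 1 ≤ α)
    (hσ : (α ≤ X ^ cA ε ∧ σ = C1 * (min 1 δ) ^ (9 / 10 : ℝ) * (max 1 δ) ^ (20 / 7 : ℝ)) ∨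
      (X ^ cA ε < α ∧ σ = ((4 * δ + 1) * Real.exp (2 * θ * Real.log (1 + 16 * Real.log X))) ^
        (20 / 7 : ℝ))) :
    α ^ (-(2 / 5) * η) * σ ^ (7 / 20 : ℝ) ≤
      (C1 ^ (7 / 20 : ℝ) + 5) * (min 1 δ) ^ (63 / 200 : ℝ) * max 1 δ := by
  have hX0 : 0 < X := by linarith
  have hcA : 0 < cA ε := by unfold cA; positivity
  have hlX : 0 < Real.log X := Real.log_pos (by linarith)
  have hmin0 : 0 < min 1 δ := lt_min one_pos hδ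
  have hmin1 : min 1 δ ≤ 1 := min_le_left _ _
  have hmax1 : 1 ≤ max 1 δ := le_max_left _ _
  have hmax0 : 0 < max 1 δ := by linarith
  have hM1 : 1 ≤ max 1 (1 / δ) := le_max_left _ _
  have hM0 : 0 < max 1 (1 / δ) := by linarith
  have hLL : 0 ≤ Real.log (1 + 16 * Real.log X) := Real.log_nonneg (by linarith)
  have hθ0 : 0 ≤ θ := by rw [hθ]; positivity
  have hlM : 0 ≤ Real.log (max 1 (1 / δ)) := Real.log_nonneg hM1
  have hηX : (2 / 5) * (cA ε * Real.log X) * η =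
      2 * θ * Real.log (1 + 16 * Real.log X) + Real.log (max 1 (1 / δ)) + 2 := by
    rw [hη, hθ]; unfold etaW; field_simp
  have hη0 : 0 ≤ η := by
    have h : 0 ≤ (2 / 5) * (cA ε * Real.log X) * η := by
      rw [hηX]; positivity
    exact nonneg_of_mul_nonneg_right h (by positivity)
  have hmp : 0 ≤ (min 1 δ) ^ (63 / 200 : ℝ) := by positivity
  rcases hσ with ⟨_, h2⟩ | ⟨h1, h2⟩
  · rw [h2, BSr_pow C1 _ _ (by linarith) hmin0.le hmax0.le]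
    have h3 : α ^ (-(2 / 5) * η) ≤ 1 :=
      Real.rpow_le_one_of_one_le_of_nonpos hα (by nlinarith)
    have h4 : 0 ≤ C1 ^ (7 / 20 : ℝ) := by positivity
    calc α ^ (-(2 / 5) * η) * (C1 ^ (7 / 20 : ℝ) * (min 1 δ) ^ (63 / 200 : ℝ) * max 1 δ)
        ≤ 1 * (C1 ^ (7 / 20 : ℝ) * (min 1 δ) ^ (63 / 200 : ℝ) * max 1 δ) :=
          mul_le_mul_of_nonneg_right h3 (by positivity)
      _ ≤ (C1 ^ (7 / 20 : ℝ) + 5) * (min 1 δ) ^ (63 / 200 : ℝ) * max 1 δ := by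
          rw [one_mul]
          gcongr
          linarith
  · rw [h2, BSr_pow2 _ (by positivity)]
    have h3 : α ^ (-(2 / 5) * η) ≤ (X ^ cA ε) ^ (-(2 / 5) * η) :=
      Real.rpow_le_rpow_of_nonpos (by positivity) h1.le (by nlinarith)
    have h4 : (X ^ cA ε) ^ (-(2 / 5) * η) =
        Real.exp (-(2 * θ * Real.log (1 + 16 * Real.log X))) * (max 1 (1 / δ))⁻¹ *
          Real.exp (-2) := by
      rw [← Real.rpow_mul hX0.le, Real.rpow_def_of_pos hX0]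
      have : Real.log X * (cA ε * (-(2 / 5) * η)) = -((2 / 5) * (cA ε * Real.log X) * η) := by
        ring
      rw [this, hηX]
      have e : -(2 * θ * Real.log (1 + 16 * Real.log X) + Real.log (max 1 (1 / δ)) + 2) =
          -(2 * θ * Real.log (1 + 16 * Real.log X)) + -Real.log (max 1 (1 / δ)) + -2 := by ring
      rw [e, Real.exp_add, Real.exp_add, Real.exp_neg (Real.log _), Real.exp_log hM0]
    rw [h4] at h3
    have hexp : Real.exp (-(2 * θ * Real.log (1 + 16 * Real.log X))) *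
        Real.exp (2 * θ * Real.log (1 + 16 * Real.log X)) = 1 := by
      rw [← Real.exp_add]; simp
    have hinv : (max 1 (1 / δ))⁻¹ = min 1 δ := by
      rcases le_total 1 δ with h | h
      · rw [min_eq_left h, max_eq_left (by rw [div_le_one hδ]; exact h), inv_one]
      · rw [min_eq_right h, max_eq_right (by rw [le_div_iff₀ hδ, one_mul]; exact h), one_div,
          inv_inv]
    have hd : 4 * δ + 1 ≤ 5 * max 1 δ := by
      have := le_max_right 1 δ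
      linarith
    have he2 : Real.exp (-2) ≤ 1 := Real.exp_le_one_iff.2 (by norm_num)
    have hmm : min 1 δ ≤ (min 1 δ) ^ (63 / 200 : ℝ) := by
      have := Real.rpow_le_rpow_of_exponent_ge hmin0 hmin1 (show (63 / 200 : ℝ) ≤ 1 by norm_num)
      rwa [Real.rpow_one] at this
    have h5 : 0 ≤ C1 ^ (7 / 20 : ℝ) := by positivity
    calc α ^ (-(2 / 5) * η) * ((4 * δ + 1) * Real.exp (2 * θ * Real.log (1 + 16 * Real.log X)))
        ≤ (Real.exp (-(2 * θ * Real.log (1 + 16 * Real.log X))) * (max 1 (1 / δ))⁻¹ *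
          Real.exp (-2)) * ((4 * δ + 1) * Real.exp (2 * θ * Real.log (1 + 16 * Real.log X))) :=
          mul_le_mul_of_nonneg_right h3 (by positivity)
      _ = (Real.exp (-(2 * θ * Real.log (1 + 16 * Real.log X))) *
            Real.exp (2 * θ * Real.log (1 + 16 * Real.log X))) *
            (min 1 δ * Real.exp (-2) * (4 * δ + 1)) := by rw [hinv]; ring
      _ = min 1 δ * Real.exp (-2) * (4 * δ + 1) := by rw [hexp, one_mul]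
      _ ≤ (min 1 δ) ^ (63 / 200 : ℝ) * 1 * (5 * max 1 δ) := by gcongr
      _ ≤ (C1 ^ (7 / 20 : ℝ) + 5) * (min 1 δ) ^ (63 / 200 : ℝ) * max 1 δ := by
          have : (C1 ^ (7 / 20 : ℝ) + 5) * (min 1 δ) ^ (63 / 200 : ℝ) * max 1 δ =
            C1 ^ (7 / 20 : ℝ) * ((min 1 δ) ^ (63 / 200 : ℝ) * max 1 δ) +
              (min 1 δ) ^ (63 / 200 : ℝ) * 1 * (5 * max 1 δ) := by ring
          rw [this]
          have : 0 ≤ C1 ^ (7 / 20 : ℝ) * ((min 1 δ) ^ (63 / 200 : ℝ) * max 1 δ) := by positivity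
          linarith

theorem BSr_num {C1 C9 ε X δ η α wa wb σ M θ : ℝ} {z : ℕ} (hC1 : 1 ≤ C1) (hC9 : 0 < C9)
    (hε : 0 < ε) (hX : 2 ≤ X) (hδ : 0 < δ) (hθ : θ = 4 + 8 * (z : ℝ))
    (hη : η = etaW ε X δ z) (hα : 1 ≤ α) (hwa : 0 ≤ wa) (hwb : 0 ≤ wb) (hM : 0 ≤ M)
    (hσ : (α ≤ X ^ cA ε ∧ σ = C1 * (min 1 δ) ^ (9 / 10 : ℝ) * (max 1 δ) ^ (20 / 7 : ℝ)) ∨
      (X ^ cA ε < α ∧ σ = ((4 * δ + 1) * Real.exp (2 * θ * Real.log (1 + 16 * Real.log X))) ^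
        (20 / 7 : ℝ))) :
    C9 * M * ((4 * δ ^ 2) * (α⁻¹ * (wa * wb))) ^ (2 / 5 : ℝ) * σ ^ (7 / 20 : ℝ) ≤
      (1 + (4 : ℝ) ^ (2 / 5 : ℝ) * C9 * (C1 ^ (7 / 20 : ℝ) + 5)) * δ ^ (4 / 5 : ℝ) *
        (min 1 δ) ^ (63 / 200 : ℝ) * (max 1 δ) *
        ((α ^ (-(1 - η)) * (wa * wb)) ^ (2 / 5 : ℝ)) * M := by
  have hkey := BSr_key hC1 hε hX hδ hθ hη hα hσ
  have hα0 : 0 < α := by linarith
  have hmin0 : 0 < min 1 δ := lt_min one_pos hδ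
  have hmax0 : 0 < max 1 δ := lt_max_of_lt_left one_pos
  have e1 : (4 * δ ^ 2) * (α⁻¹ * (wa * wb)) =
      4 * (δ ^ (2 : ℝ)) * (α ^ (-η) * (α ^ (-(1 - η)) * (wa * wb))) := by
    have e3 : α ^ (-η) * α ^ (-(1 - η)) = α⁻¹ := by
      rw [← Real.rpow_add hα0, ← Real.rpow_neg_one]
      congr 1
      ring
    rw [← e3, Real.rpow_two]
    ring
  have hw0 : 0 ≤ wa * wb := mul_nonneg hwa hwb
  have hp1 : 0 ≤ α ^ (-(1 - η)) * (wa * wb) := mul_nonneg (Real.rpow_nonneg hα0.le _) hw0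
  have e4 : ((4 * δ ^ 2) * (α⁻¹ * (wa * wb))) ^ (2 / 5 : ℝ) =
      (4 : ℝ) ^ (2 / 5 : ℝ) * δ ^ (4 / 5 : ℝ) * (α ^ (-(2 / 5) * η) *
        (α ^ (-(1 - η)) * (wa * wb)) ^ (2 / 5 : ℝ)) := by
    have hd2 : (δ ^ (2 : ℝ)) ^ (2 / 5 : ℝ) = δ ^ (4 / 5 : ℝ) := by
      rw [← Real.rpow_mul hδ.le]; norm_num
    have hal : (α ^ (-η)) ^ (2 / 5 : ℝ) = α ^ (-(2 / 5) * η) := by
      rw [← Real.rpow_mul hα0.le]
      congr 1
      ring
    rw [e1, Real.mul_rpow (by positivity) (mul_nonneg (Real.rpow_nonneg hα0.le _) hp1),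
      Real.mul_rpow (by norm_num) (Real.rpow_nonneg hδ.le _),
      Real.mul_rpow (Real.rpow_nonneg hα0.le _) hp1, hd2, hal]
  obtain ⟨D, hD⟩ : ∃ D, D = (α ^ (-(1 - η)) * (wa * wb)) ^ (2 / 5 : ℝ) := ⟨_, rfl⟩
  have hD0 : 0 ≤ D := by rw [hD]; exact Real.rpow_nonneg hp1 _
  rw [e4, ← hD]
  have h8 : (0 : ℝ) ≤ (4 : ℝ) ^ (2 / 5 : ℝ) := by positivity
  have hδp : 0 ≤ δ ^ (4 / 5 : ℝ) := by positivity
  have hC1p : 0 ≤ C1 ^ (7 / 20 : ℝ) := by positivity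
  calc C9 * M * ((4 : ℝ) ^ (2 / 5 : ℝ) * δ ^ (4 / 5 : ℝ) * (α ^ (-(2 / 5) * η) * D)) *
        σ ^ (7 / 20 : ℝ)
      = (C9 * M * (4 : ℝ) ^ (2 / 5 : ℝ) * δ ^ (4 / 5 : ℝ) * D) *
        (α ^ (-(2 / 5) * η) * σ ^ (7 / 20 : ℝ)) := by ring
    _ ≤ (C9 * M * (4 : ℝ) ^ (2 / 5 : ℝ) * δ ^ (4 / 5 : ℝ) * D) *
        ((C1 ^ (7 / 20 : ℝ) + 5) * (min 1 δ) ^ (63 / 200 : ℝ) * max 1 δ) :=
        mul_le_mul_of_nonneg_left hkey (by positivity)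
    _ = ((4 : ℝ) ^ (2 / 5 : ℝ) * C9 * (C1 ^ (7 / 20 : ℝ) + 5)) * δ ^ (4 / 5 : ℝ) *
        (min 1 δ) ^ (63 / 200 : ℝ) * (max 1 δ) * D * M := by ring
    _ ≤ (1 + (4 : ℝ) ^ (2 / 5 : ℝ) * C9 * (C1 ^ (7 / 20 : ℝ) + 5)) * δ ^ (4 / 5 : ℝ) *
        (min 1 δ) ^ (63 / 200 : ℝ) * (max 1 δ) * D * M := by
        gcongr
        linarith

theorem bsr (ε : ℝ) (hε : 0 < ε) (hε1 : ε ≤ 1) : ∃ C : ℝ, 1 ≤ C ∧ ∃ X0 : ℝ, 2 ≤ X0 ∧
    ∀ (X γ : ℝ) (B : ℕ) (A : ℤ) (ψ : ℕ → ℝ) (S : Finset ℕ), X0 ≤ X → Blk2 ε X γ B A ψ S →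
    ∀ (δ : ℝ) (z : ℕ), Lev ε X δ z →
    BASEr (rz z) (etaW ε X δ z)
      (C * δ ^ (4 / 5 : ℝ) * (min 1 δ) ^ (63 / 200 : ℝ) * (max 1 δ)) S (mu ψ) (mu ψ)
      (KL γ B A ψ ε X δ z) := by
  obtain ⟨C1, hC1, X1, hX1, hg⟩ := e1g ε hε hε1
  obtain ⟨X2, hX2, ht⟩ := e1t ε hε hε1
  obtain ⟨C9, hC9, h9⟩ := sijr
  have hC1p : 0 ≤ C1 ^ (7 / 20 : ℝ) := by positivity
  refine ⟨1 + (4 : ℝ) ^ (2 / 5 : ℝ) * C9 * (C1 ^ (7 / 20 : ℝ) + 5), ?_, max X1 X2,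
    hX1.trans (le_max_left _ _), ?_⟩
  · have : 0 ≤ (4 : ℝ) ^ (2 / 5 : ℝ) * C9 * (C1 ^ (7 / 20 : ℝ) + 5) := by positivity
    linarith
  intro X γ B A ψ S hX hB δ z hL a b ha hb V W hV hW hVa hWb
  have hXX1 : X1 ≤ X := (le_max_left _ _).trans hX
  have hXX2 : X2 ≤ X := (le_max_right _ _).trans hX
  have hXt : 2 ≤ X := hX1.trans hXX1
  have hX0 : 0 < X := by linarith
  have hψ := hB.psi0
  have hδ : 0 < δ := lt_of_lt_of_le (Real.rpow_pos_of_pos hX0 _) hL.hδ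
  have hposS : ∀ q ∈ S, 0 < q := by
    intro q hq
    have := hB.lo q hq
    have h : (0 : ℝ) < q := by linarith
    exact_mod_cast h
  have hVp : ∀ q ∈ V, 0 < q ∧ a ∣ q := fun q hq => ⟨hposS q (hV hq), hVa q hq⟩
  have hWp : ∀ r ∈ W, 0 < r ∧ b ∣ r := fun r hr => ⟨hposS r (hW hr), hWb r hr⟩
  let L : ℕ := (V ∪ W).sup (fun q => Nat.log 2 q) + 1
  have hVL : ∀ q ∈ V, Nat.log 2 q < L := fun q hq =>
    Nat.lt_succ_of_le (Finset.le_sup (f := fun q => Nat.log 2 q) (Finset.mem_union_left _ hq))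
  have hWL : ∀ q ∈ W, Nat.log 2 q < L := fun q hq =>
    Nat.lt_succ_of_le (Finset.le_sup (f := fun q => Nat.log 2 q) (Finset.mem_union_right _ hq))
  rw [BSr_split _ V W a b L hVL hWL]
  have hgp : 0 < Nat.gcd a b := Nat.gcd_pos_of_pos_left b ha
  have hq1 : 0 < q1 a b := Nat.div_pos (Nat.le_of_dvd ha (Nat.gcd_dvd_left a b)) hgp
  have hr1 : 0 < r1 a b := Nat.div_pos (Nat.le_of_dvd hb (Nat.gcd_dvd_right a b)) hgp
  have hq1r : (1 : ℝ) ≤ q1 a b := by exact_mod_cast hq1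
  have hr1r : (1 : ℝ) ≤ r1 a b := by exact_mod_cast hr1
  have hwa := BSr_w_nonneg a
  have hwb := BSr_w_nonneg b
  have hMV : 0 ≤ MV a b (1 / δ) := by unfold MV; positivity
  have hMW : 0 ≤ MW a b (1 / δ) := by unfold MW; positivity
  have hα : (1 : ℝ) ≤ (q1 a b : ℝ) * (r1 a b : ℝ) := one_le_mul_of_one_le_of_one_le hq1r hr1r
  obtain ⟨n0, hn0⟩ : ∃ n0 : ℕ, n0 = q1 a b * r1 a b := ⟨_, rfl⟩
  obtain ⟨θ, hθ⟩ : ∃ θ : ℝ, θ = 4 + 8 * (z : ℝ) := ⟨_, rfl⟩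
  obtain ⟨σ, hσ0, hσ, hbound⟩ : ∃ σ : ℝ, 0 ≤ σ ∧
      (((q1 a b : ℝ) * (r1 a b : ℝ) ≤ X ^ cA ε ∧
          σ = C1 * (min 1 δ) ^ (9 / 10 : ℝ) * (max 1 δ) ^ (20 / 7 : ℝ)) ∨
        (X ^ cA ε < (q1 a b : ℝ) * (r1 a b : ℝ) ∧
          σ = ((4 * δ + 1) * Real.exp (2 * θ * Real.log (1 + 16 * Real.log X))) ^
            (20 / 7 : ℝ))) ∧
      ∀ i j, bij (K1 γ B A ψ ε X δ z n0) V W a b i j ≤ MV a b (1 / δ) * MW a b (1 / δ) * σ := by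
    rcases le_or_gt ((q1 a b : ℝ) * (r1 a b : ℝ)) (X ^ cA ε) with h | h
    · refine ⟨_, by positivity, Or.inl ⟨h, rfl⟩, fun i j => ?_⟩
      rw [hn0]
      exact hg X γ B A ψ S hXX1 hB δ z hL V W a b i j ha hb hV hW hVa hWb h
    · refine ⟨_, by positivity, Or.inr ⟨h, rfl⟩, fun i j => ?_⟩
      rw [hθ]
      exact ht X γ B A ψ S hXX2 hB δ z hL V W a b i j ha hb hV hW hVa hWb n0
  have hs := h9 L (fun i j => bij (K0 ψ ε X δ) V W a b i j)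
    (fun i j => bij (K1 γ B A ψ ε X δ z n0) V W a b i j)
    (fun i => ∑ q ∈ V with Nat.log 2 q = i, mu ψ q) (fun j => ∑ r ∈ W with Nat.log 2 r = j, mu ψ r)
    (MV a b (1 / δ)) (MW a b (1 / δ)) σ
    (fun i => Finset.sum_nonneg fun q _ => BSr_mu_nonneg hψ q)
    (fun j => Finset.sum_nonneg fun q _ => BSr_mu_nonneg hψ q) hMV hMW hσ0
    (fun i j => BSr_bij_nonneg (BSr_K0_nonneg hψ ε X δ) V W a b i j)
    (fun i j => BSr_bij_nonneg (BSr_K1_nonneg hψ γ B A ε X δ z n0) V W a b i j)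
    (fun i j => e0_1 ψ hψ ε X δ V W a b i j)
    (fun i j => e0_2 ψ hψ ε X δ hδ V W a b i j ha hb hVp hWp)
    (fun i j => e0_3 ψ hψ ε X δ hδ V W a b i j ha hb hVp hWp) hbound
  rw [BSr_sum ψ V L hVL, BSr_sum ψ W L hWL] at hs
  have hnum := BSr_num (M := MN (mu ψ) (mu ψ) V W) hC1 hC9 hε hXt hδ hθ rfl hα hwa hwb
    (Real.rpow_nonneg (mul_nonneg (Finset.sum_nonneg fun q _ => BSr_mu_nonneg hψ q)
      (Finset.sum_nonneg fun q _ => BSr_mu_nonneg hψ q)) _) hσ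
  have e1 : MV a b (1 / δ) * MW a b (1 / δ) =
      (4 * δ ^ 2) * (((q1 a b : ℝ) * (r1 a b : ℝ))⁻¹ * (w a * w b)) := by
    unfold MV MW
    have h1 : (q1 a b : ℝ) ≠ 0 := by positivity
    have h2 : (r1 a b : ℝ) ≠ 0 := by positivity
    field_simp
    ring
  rw [e1] at hs
  have hs' := hs.trans hnum
  have hstep : ∑ i ∈ range L, ∑ j ∈ range L, bij (KL γ B A ψ ε X δ z) V W a b i j ≤
      Real.exp (θ * sL z n0) * ∑ i ∈ range L, ∑ j ∈ range L,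
        ((bij (K0 ψ ε X δ) V W a b i j) ^ (13 / 20 : ℝ) *
        (bij (K1 γ B A ψ ε X δ z n0) V W a b i j) ^ (7 / 20 : ℝ)) := by
    rw [Finset.mul_sum]
    refine Finset.sum_le_sum fun i _ => ?_
    rw [Finset.mul_sum]
    refine Finset.sum_le_sum fun j _ => ?_
    rw [hθ]
    exact ho γ B A ψ hψ ε X δ z n0 V W a b i j
  have hprod : Real.exp (θ * sL z n0) = ∏ p ∈ (q1 a b * r1 a b).primeFactors, rz z p := by
    rw [exp_sL, hn0, hθ]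
    rfl
  refine hstep.trans ?_
  have hfin := mul_le_mul_of_nonneg_left hs' (Real.exp_pos (θ * sL z n0)).le
  refine hfin.trans (le_of_eq ?_)
  rw [hprod]
  unfold Tr Th
  ring

end Vale.Agent.P028W
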