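import Vale.Agent.P028W.Defs
import Vale.Agent.P028KM.TH
import Vale.Agent.P028KM.THB

/-!
Module THr: from `Th_eq`, `th_pos`, `th_le`, `th_zero` of P028KM. `p ∣ (a/g)(b/g)` iff
`v_p a ≠ v_p b`.
-/

namespace Vale.Agent.P028W

open Finset MeasureTheory
open Vale.Agent.P028EV (q1 r1 Del hh Ts Bd Ad Nd)
open Vale.Agent.P028KM (w mu Dm Bl FF MN Sb ex cl OK KO th Th)

theorem THr_nonneg (η : ℝ) (p k l : ℕ) : 0 ≤ th η p k l := by
  unfold th
  have h : (0 : ℝ) ≤ 1 - 1 / (p : ℝ) := by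
    rcases Nat.eq_zero_or_pos p with h | h
    · subst h
      simp
    · have h1 : (1 : ℝ) ≤ p := by exact_mod_cast h
      have h2 : 1 / (p : ℝ) ≤ 1 := by
        rw [div_le_one (by linarith)]
        exact h1
      linarith
  exact mul_nonneg (Real.rpow_nonneg (Nat.cast_nonneg p) _) (Real.rpow_nonneg h _)

theorem tr_nonneg (ρ : ℕ → ℝ) (hρ : ∀ p, 1 ≤ ρ p) (η : ℝ) (p k l : ℕ) : 0 ≤ tr ρ η p k l := by
  unfold tr
  refine mul_nonneg (THr_nonneg η p k l) ?_
  split_ifs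
  · exact zero_le_one
  · exact zero_le_one.trans (hρ p)

theorem tr_pos (ρ : ℕ → ℝ) (hρ : ∀ p, 1 ≤ ρ p) (η : ℝ) (p k l : ℕ) (hp : 2 ≤ p) :
    0 < tr ρ η p k l := by
  unfold tr
  refine mul_pos (Vale.Agent.P028KM.th_pos η p k l hp) ?_
  split_ifs
  · exact zero_lt_one
  · exact zero_lt_one.trans_le (hρ p)

theorem tr_le (ρ : ℕ → ℝ) (R0 : ℝ) (hρ : ∀ p, 1 ≤ ρ p) (hρ2 : ∀ p, ρ p ≤ R0) (η : ℝ)
    (hη0 : 0 ≤ η) (hη1 : η ≤ 1 / 40) (p k l : ℕ) (hp : 2 ≤ p) :
    tr ρ η p k l ≤ R0 * (p : ℝ) ^ (-(39 / 100 : ℝ) * |(k : ℝ) - (l : ℝ)|) := by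
  unfold tr
  rw [mul_comm R0]
  have hR : 1 ≤ R0 := (hρ p).trans (hρ2 p)
  refine mul_le_mul (Vale.Agent.P028KM.th_le η hη0 hη1 p k l hp) ?_ ?_
    (Real.rpow_nonneg (Nat.cast_nonneg p) _)
  · split_ifs
    · exact hR
    · exact hρ2 p
  · split_ifs
    · exact zero_le_one
    · exact zero_le_one.trans (hρ p)

theorem tr_zero (ρ : ℕ → ℝ) (η : ℝ) (p : ℕ) (hp : 2 ≤ p) : tr ρ η p 0 0 = 1 := by
  unfold tr
  rw [Vale.Agent.P028KM.th_zero η p hp, if_pos rfl, mul_one]

theorem THr_fac (a b : ℕ) (ha : 0 < a) (hb : 0 < b) (p : ℕ) :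
    (a / Nat.gcd a b).factorization p = a.factorization p - b.factorization p := by
  rw [Nat.factorization_div (Nat.gcd_dvd_left a b), Nat.factorization_gcd ha.ne' hb.ne']
  simp only [Finsupp.coe_tsub, Pi.sub_apply, Finsupp.inf_apply]
  omega

theorem THr_supp (P : Finset ℕ) (a b : ℕ) (ha : 0 < a) (hb : 0 < b)
    (hPa : a.primeFactors ⊆ P) (hPb : b.primeFactors ⊆ P) :
    (q1 a b * r1 a b).primeFactors =
      P.filter (fun p => a.factorization p ≠ b.factorization p) := by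
  have hq : 0 < q1 a b := Nat.div_pos (Nat.le_of_dvd ha (Nat.gcd_dvd_left a b))
    (Nat.gcd_pos_of_pos_left b ha)
  have hr : 0 < r1 a b := Nat.div_pos (Nat.le_of_dvd hb (Nat.gcd_dvd_right a b))
    (Nat.gcd_pos_of_pos_left b ha)
  have hqf : ∀ p, (q1 a b).factorization p = a.factorization p - b.factorization p :=
    fun p => THr_fac a b ha hb p
  have hrf : ∀ p, (r1 a b).factorization p = b.factorization p - a.factorization p := by
    intro p
    have h := THr_fac b a hb ha p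
    rw [Nat.gcd_comm] at h
    exact h
  have hkey : ∀ p, p ∈ (q1 a b * r1 a b).primeFactors ↔
      a.factorization p ≠ b.factorization p := by
    intro p
    rw [← Nat.support_factorization, Finsupp.mem_support_iff,
      Nat.factorization_mul hq.ne' hr.ne', Finsupp.add_apply, hqf, hrf]
    omega
  ext p
  rw [hkey, Finset.mem_filter]
  constructor
  · intro h
    refine ⟨?_, h⟩
    by_cases h0 : a.factorization p = 0
    · apply hPb
      rw [← Nat.support_factorization, Finsupp.mem_support_iff]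
      omega
    · apply hPa
      rw [← Nat.support_factorization, Finsupp.mem_support_iff]
      exact h0
  · exact fun h => h.2

theorem Tr_eq (ρ : ℕ → ℝ) (η : ℝ) (P : Finset ℕ) (hP : ∀ p ∈ P, p.Prime) (a b : ℕ) (ha : 0 < a)
    (hb : 0 < b) (hPa : a.primeFactors ⊆ P) (hPb : b.primeFactors ⊆ P) :
    Tr ρ η a b = ∏ p ∈ P, tr ρ η p (a.factorization p) (b.factorization p) := by
  unfold Tr tr
  rw [Vale.Agent.P028KM.Th_eq η P hP a b ha hb hPa hPb, Finset.prod_mul_distrib,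
    THr_supp P a b ha hb hPa hPb, Finset.prod_filter]
  congr 1
  refine Finset.prod_congr rfl fun p _ => ?_
  by_cases h : a.factorization p = b.factorization p
  · rw [if_neg (not_not.2 h), if_pos h]
  · rw [if_pos h, if_neg h]

end Vale.Agent.P028W
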