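import Vale.Agent.P028W.Defs
import Vale.Agent.P028W.THr

/-!
Module CONC1r: copy of Vale/Agent/P028KM/CONC1.lean; the diagonal entries are unchanged
(`tr = th ≤ 1`), the off-diagonal ones are multiplied by at most `R0`; `p0` depends on `R0`.
-/

namespace Vale.Agent.P028W

open Finset MeasureTheory
open Vale.Agent.P028EV (q1 r1 Del hh Ts Bd Ad Nd)
open Vale.Agent.P028KM (w mu Dm Bl FF MN Sb ex cl OK KO th Th)

theorem CONC1r_geo {τ : ℝ} (h0 : 0 ≤ τ) (h1 : τ ≤ 1 / 2) (n : ℕ) :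
    ∑ j ∈ range n, (if j = 0 then 0 else τ ^ j) ≤ 2 * τ := by
  have key : ∀ n : ℕ, ∑ j ∈ range (n + 1), (if j = 0 then 0 else τ ^ j) ≤
      2 * τ * (1 - (1 / 2 : ℝ) ^ n) := by
    intro n
    induction n with
    | zero => simp
    | succ n ih =>
      rw [sum_range_succ, if_neg (Nat.succ_ne_zero n)]
      have h2 : τ ^ (n + 1) ≤ τ * (1 / 2 : ℝ) ^ n := by
        rw [pow_succ']
        exact mul_le_mul_of_nonneg_left (pow_le_pow_left₀ h0 h1 n) h0
      have h3 : 2 * τ * (1 - (1 / 2 : ℝ) ^ (n + 1)) =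
          2 * τ * (1 - (1 / 2 : ℝ) ^ n) + τ * (1 / 2 : ℝ) ^ n := by
        rw [pow_succ]
        ring
      rw [h3]
      linarith
  cases n with
  | zero => simpa using h0
  | succ n =>
    refine (key n).trans ?_
    have h4 : 0 ≤ (1 / 2 : ℝ) ^ n := by positivity
    nlinarith

/-- distance of natural numbers -/
def CONC1r_d (k l : ℕ) : ℕ := (k - l) + (l - k)

theorem CONC1r_dist (k l : ℕ) : |(k : ℝ) - (l : ℝ)| = (CONC1r_d k l : ℝ) := by
  unfold CONC1r_d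
  rcases le_total k l with h | h
  · rw [Nat.sub_eq_zero_of_le h, zero_add, Nat.cast_sub h, abs_of_nonpos (by
      have : (k : ℝ) ≤ l := by exact_mod_cast h
      linarith)]
    ring
  · rw [Nat.sub_eq_zero_of_le h, add_zero, Nat.cast_sub h, abs_of_nonneg (by
      have : (l : ℝ) ≤ k := by exact_mod_cast h
      linarith)]

theorem CONC1r_row {τ : ℝ} (h0 : 0 ≤ τ) (h1 : τ ≤ 1 / 2) {L k : ℕ} (hk : k < L) :
    ∑ l ∈ range L, (if CONC1r_d k l = 0 then 0 else τ ^ CONC1r_d k l) ≤ 4 * τ := by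
  rw [← sum_range_add_sum_Ico _ (show k + 1 ≤ L from hk)]
  have e1 : ∑ l ∈ range (k + 1), (if CONC1r_d k l = 0 then 0 else τ ^ CONC1r_d k l) =
      ∑ j ∈ range (k + 1), (if j = 0 then 0 else τ ^ j) := by
    rw [← sum_range_reflect]
    refine sum_congr rfl fun j hj => ?_
    have hj' := mem_range.1 hj
    have h2 : CONC1r_d k (k + 1 - 1 - j) = j := by
      unfold CONC1r_d
      omega
    rw [h2]
  have e2 : ∑ l ∈ Ico (k + 1) L, (if CONC1r_d k l = 0 then 0 else τ ^ CONC1r_d k l) ≤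
      ∑ j ∈ range (L - (k + 1) + 1), (if j = 0 then 0 else τ ^ j) := by
    rw [sum_Ico_eq_sum_range, sum_range_succ']
    simp only [if_true, add_zero]
    refine le_of_eq (sum_congr rfl fun j _ => ?_)
    have h2 : CONC1r_d k (k + 1 + j) = j + 1 := by
      unfold CONC1r_d
      omega
    rw [h2]
  rw [e1]
  have h3 := CONC1r_geo h0 h1 (k + 1)
  have h4 := CONC1r_geo h0 h1 (L - (k + 1) + 1)
  linarith

theorem CONC1r_comm (k l : ℕ) : CONC1r_d k l = CONC1r_d l k := by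
  unfold CONC1r_d
  omega

theorem CONC1r_pt {x y m : ℝ} (hx : 0 ≤ x) (hy : 0 ≤ y) (hm : (x * y) ^ (1 / 10 : ℝ) ≤ m) :
    (x * y) ^ (3 / 5 : ℝ) ≤ (x + y) / 2 * m := by
  have hxy : 0 ≤ x * y := mul_nonneg hx hy
  have h1 : (x * y) ^ (3 / 5 : ℝ) = (x * y) ^ (1 / 2 : ℝ) * (x * y) ^ (1 / 10 : ℝ) := by
    rw [← Real.rpow_add_of_nonneg hxy (by norm_num) (by norm_num)]
    norm_num
  have h2 : (x * y) ^ (1 / 2 : ℝ) ≤ (x + y) / 2 := by
    rw [← Real.sqrt_eq_rpow, Real.sqrt_le_left (by positivity)]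
    nlinarith [sq_nonneg (x - y)]
  rw [h1]
  exact mul_le_mul h2 hm (Real.rpow_nonneg hxy _) (by positivity)

theorem conc1r (R0 : ℝ) (hR0 : 1 ≤ R0) : ∃ p0 : ℕ, 2 ≤ p0 ∧ ∀ p : ℕ, p0 ≤ p → ∀ η : ℝ, 0 ≤ η →
    η ≤ 1 / 40 → ∀ ρ : ℕ → ℝ, (∀ p, 1 ≤ ρ p) → (∀ p, ρ p ≤ R0) →
    ∀ (L : ℕ) (x y : ℕ → ℝ), (∀ k, 0 ≤ x k) → (∀ k, 0 ≤ y k) → ∑ k ∈ range L, x k = 1 →
    ∑ k ∈ range L, y k = 1 →
    1 ≤ ∑ k ∈ range L, ∑ l ∈ range L, tr ρ η p k l * (x k * y l) ^ (3 / 5 : ℝ) →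
    ∃ k0 ∈ range L, 9 / 10 ≤ x k0 ∧ 9 / 10 ≤ y k0 := by
  have hlim : Filter.Tendsto (fun p : ℕ => R0 * (p : ℝ) ^ (-(39 / 100 : ℝ))) Filter.atTop
      (nhds 0) := by
    have h := ((tendsto_rpow_neg_atTop (show (0 : ℝ) < 39 / 100 by norm_num)).comp
      (tendsto_natCast_atTop_atTop (R := ℝ))).const_mul R0
    rw [mul_zero] at h
    exact h
  obtain ⟨N, hN⟩ := Filter.eventually_atTop.1
    (hlim.eventually (eventually_le_nhds (show (0 : ℝ) < 1 / 400 by norm_num)))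
  refine ⟨max N 2, le_max_right _ _, ?_⟩
  intro p hp η hη0 hη1 ρ hρ1 hρ2 L x y hx hy hxs hys hsum
  have hp2 : 2 ≤ p := (le_max_right _ _).trans hp
  have hp0 : (0 : ℝ) < p := by
    have : (2 : ℝ) ≤ p := by exact_mod_cast hp2
    linarith
  obtain ⟨σ, hσ⟩ : ∃ σ : ℝ, σ = (p : ℝ) ^ (-(39 / 100 : ℝ)) := ⟨_, rfl⟩
  have hσ0 : 0 ≤ σ := by rw [hσ]; positivity
  obtain ⟨τ, hτ⟩ : ∃ τ : ℝ, τ = R0 * (p : ℝ) ^ (-(39 / 100 : ℝ)) := ⟨_, rfl⟩
  have hτ0 : 0 ≤ τ := by rw [hτ]; positivity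
  have hτ1 : τ ≤ 1 / 400 := by rw [hτ]; exact hN p ((le_max_left _ _).trans hp)
  have hth : ∀ k l, tr ρ η p k l ≤ τ ^ CONC1r_d k l := by
    intro k l
    rw [tr]
    have h1 : th η p k l ≤ σ ^ CONC1r_d k l := by
      refine (Vale.Agent.P028KM.th_le η hη0 hη1 p k l hp2).trans (le_of_eq ?_)
      rw [CONC1r_dist, Real.rpow_mul hp0.le, ← hσ, Real.rpow_natCast]
    have h0 : 0 ≤ th η p k l := (Vale.Agent.P028KM.th_pos η p k l hp2).le
    by_cases hkl : k = l
    · have hd : CONC1r_d k l = 0 := by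
        unfold CONC1r_d
        omega
      rw [if_pos hkl, mul_one, hd, pow_zero]
      rwa [hd, pow_zero] at h1
    · have hd : CONC1r_d k l ≠ 0 := by
        unfold CONC1r_d
        omega
      rw [if_neg hkl, hτ, ← hσ, mul_pow, mul_comm (R0 ^ _)]
      exact mul_le_mul h1 ((hρ2 p).trans (le_self_pow₀ hR0 hd))
        (zero_le_one.trans (hρ1 p)) (pow_nonneg hσ0 _)
  -- the maximal index
  have hLne : (range L).Nonempty := by
    rw [nonempty_range_iff]
    rintro rfl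
    simp at hxs
  obtain ⟨k0, hk0, hmax⟩ := exists_max_image (range L) (fun k => x k * y k) hLne
  obtain ⟨m, hm⟩ : ∃ m : ℝ, m = (x k0 * y k0) ^ (1 / 10 : ℝ) := ⟨_, rfl⟩
  have hm0 : 0 ≤ m := by rw [hm]; exact Real.rpow_nonneg (mul_nonneg (hx _) (hy _)) _
  have hx1 : ∀ k ∈ range L, x k ≤ 1 := fun k hk =>
    hxs ▸ single_le_sum (fun i _ => hx i) hk
  have hy1 : ∀ k ∈ range L, y k ≤ 1 := fun k hk =>
    hys ▸ single_le_sum (fun i _ => hy i) hk
  have hterm : ∀ k ∈ range L, ∀ l ∈ range L, tr ρ η p k l * (x k * y l) ^ (3 / 5 : ℝ) ≤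
      (if CONC1r_d k l = 0 then (x k + y l) / 2 * m else 0) +
        (if CONC1r_d k l = 0 then 0 else τ ^ CONC1r_d k l) * ((x k + y l) / 2) := by
    intro k hk l hl
    have hxy : 0 ≤ (x k * y l) ^ (3 / 5 : ℝ) :=
      Real.rpow_nonneg (mul_nonneg (hx _) (hy _)) _
    by_cases h : CONC1r_d k l = 0
    · have hkl : k = l := by
        unfold CONC1r_d at h
        omega
      rw [if_pos h, if_pos h, zero_mul, add_zero]
      subst hkl
      have h1 : tr ρ η p k k ≤ 1 := by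
        have := hth k k
        rwa [h, pow_zero] at this
      have h2 : (x k * y k) ^ (3 / 5 : ℝ) ≤ (x k + y k) / 2 * m := by
        refine CONC1r_pt (hx _) (hy _) ?_
        rw [hm]
        exact Real.rpow_le_rpow (mul_nonneg (hx _) (hy _)) (hmax k hk) (by norm_num)
      calc tr ρ η p k k * (x k * y k) ^ (3 / 5 : ℝ) ≤ 1 * (x k * y k) ^ (3 / 5 : ℝ) :=
            mul_le_mul_of_nonneg_right h1 hxy
        _ ≤ (x k + y k) / 2 * m := by rw [one_mul]; exact h2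
    · rw [if_neg h, if_neg h, zero_add]
      have h2 : (x k * y l) ^ (3 / 5 : ℝ) ≤ (x k + y l) / 2 * 1 := by
        refine CONC1r_pt (hx _) (hy _) ?_
        refine Real.rpow_le_one (mul_nonneg (hx _) (hy _)) ?_ (by norm_num)
        exact mul_le_one₀ (hx1 k hk) (hy _) (hy1 l hl)
      rw [mul_one] at h2
      exact mul_le_mul (hth k l) h2 hxy (by positivity)
  have hD : ∑ k ∈ range L, ∑ l ∈ range L, (if CONC1r_d k l = 0 then (x k + y l) / 2 * m else 0) =
      m := by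
    have h1 : ∀ k ∈ range L, ∑ l ∈ range L, (if CONC1r_d k l = 0 then (x k + y l) / 2 * m else 0) =
        (x k + y k) / 2 * m := by
      intro k hk
      have h2 : ∀ l, (CONC1r_d k l = 0) ↔ k = l := by
        intro l
        unfold CONC1r_d
        omega
      simp only [h2]
      rw [sum_ite_eq, if_pos hk]
    rw [sum_congr rfl h1, ← sum_mul, ← sum_div, sum_add_distrib, hxs, hys]
    norm_num
  have hO : ∑ k ∈ range L, ∑ l ∈ range L,
      (if CONC1r_d k l = 0 then 0 else τ ^ CONC1r_d k l) * ((x k + y l) / 2) ≤ 4 * τ := by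
    have h1 : ∑ k ∈ range L, ∑ l ∈ range L,
        (if CONC1r_d k l = 0 then 0 else τ ^ CONC1r_d k l) * ((x k + y l) / 2) =
        (∑ k ∈ range L, (∑ l ∈ range L, (if CONC1r_d k l = 0 then 0 else τ ^ CONC1r_d k l)) *
          (x k / 2)) +
        ∑ l ∈ range L, (∑ k ∈ range L, (if CONC1r_d l k = 0 then 0 else τ ^ CONC1r_d l k)) *
          (y l / 2) := by
      simp only [sum_mul]
      rw [sum_comm (f := fun l k => (if CONC1r_d l k = 0 then 0 else τ ^ CONC1r_d l k) * (y l / 2)),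
        ← sum_add_distrib]
      refine sum_congr rfl fun k _ => ?_
      rw [← sum_add_distrib]
      refine sum_congr rfl fun l _ => ?_
      rw [CONC1r_comm l k]
      ring
    rw [h1]
    have h2 : ∀ (z : ℕ → ℝ), (∀ k, 0 ≤ z k) → ∑ k ∈ range L, z k = 1 →
        ∑ k ∈ range L, (∑ l ∈ range L, (if CONC1r_d k l = 0 then 0 else τ ^ CONC1r_d k l)) *
          (z k / 2) ≤ 2 * τ := by
      intro z hz hzs
      have h3 : ∑ k ∈ range L, (∑ l ∈ range L,
          (if CONC1r_d k l = 0 then 0 else τ ^ CONC1r_d k l)) * (z k / 2) ≤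
          ∑ k ∈ range L, (4 * τ) * (z k / 2) := by
        refine sum_le_sum fun k hk => ?_
        exact mul_le_mul_of_nonneg_right (CONC1r_row hτ0 (by linarith) (mem_range.1 hk))
          (by have := hz k; positivity)
      refine h3.trans (le_of_eq ?_)
      rw [← mul_sum, ← sum_div, hzs]
      ring
    have h4 := h2 x hx hxs
    have h5 := h2 y hy hys
    linarith
  have htot : 1 ≤ m + 4 * τ := by
    refine hsum.trans ?_
    refine (sum_le_sum fun k hk => sum_le_sum fun l hl => hterm k hk l hl).trans ?_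
    simp only [sum_add_distrib]
    rw [hD]
    linarith
  have hm1 : 99 / 100 ≤ m := by linarith
  have hm10 : m ^ 10 = x k0 * y k0 := by
    rw [hm, ← Real.rpow_natCast, ← Real.rpow_mul (mul_nonneg (hx _) (hy _))]
    norm_num
  have h9 : (9 / 10 : ℝ) ≤ x k0 * y k0 := by
    rw [← hm10]
    calc (9 / 10 : ℝ) ≤ (99 / 100) ^ 10 := by norm_num
      _ ≤ m ^ 10 := pow_le_pow_left₀ (by norm_num) hm1 10
  refine ⟨k0, hk0, ?_, ?_⟩
  · have := mul_le_mul_of_nonneg_left (hy1 k0 hk0) (hx k0)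
    linarith
  · have := mul_le_mul_of_nonneg_right (hx1 k0 hk0) (hy k0)
    linarith

end Vale.Agent.P028W
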