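import Vale.Agent.P028W.Defs
import Vale.Agent.P028W.THr
import Vale.Agent.P028KM.CONC2

/-!
Module CONC2r: copy of Vale/Agent/P028KM/CONC2.lean (off-diagonal entries times `R0`).
-/

namespace Vale.Agent.P028W

open Finset MeasureTheory
open Vale.Agent.P028EV (q1 r1 Del hh Ts Bd Ad Nd)
open Vale.Agent.P028KM (w mu Dm Bl FF MN Sb ex cl OK KO th Th)

theorem conc2r (R0 : ℝ) (hR0 : 1 ≤ R0) : ∃ C2 : ℝ, 0 < C2 ∧ ∃ p0 : ℕ, 2 ≤ p0 ∧ ∀ p : ℕ, p0 ≤ p →
    ∀ η : ℝ, 0 ≤ η → η ≤ 1 / 40 → ∀ ρ : ℕ → ℝ, (∀ p, 1 ≤ ρ p) → (∀ p, ρ p ≤ R0) →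
    ∀ (L : ℕ) (x y : ℕ → ℝ), (∀ k, 0 ≤ x k) → (∀ k, 0 ≤ y k) →
    ∑ k ∈ range L, x k = 1 → ∑ k ∈ range L, y k = 1 →
    1 ≤ ∑ k ∈ range L, ∑ l ∈ range L, tr ρ η p k l * (x k * y l) ^ (3 / 5 : ℝ) →
    ∀ k0 ∈ range L, 9 / 10 ≤ x k0 → 9 / 10 ≤ y k0 →
      1 - x k0 ≤ C2 * (p : ℝ) ^ (-(39 / 40) : ℝ) ∧ 1 - y k0 ≤ C2 * (p : ℝ) ^ (-(39 / 40) : ℝ) := by
  have hR00 : 0 < R0 := by linarith
  have hlim : Filter.Tendsto (fun p : ℕ => (p : ℝ) ^ (-(39 / 100) : ℝ)) Filter.atTop (nhds 0) :=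
    (tendsto_rpow_neg_atTop (by norm_num : (0 : ℝ) < 39 / 100)).comp tendsto_natCast_atTop_atTop
  have hev := hlim.eventually (gt_mem_nhds (show (0 : ℝ) < 1 / (40 * R0) by positivity))
  obtain ⟨p1, hp1⟩ := Filter.eventually_atTop.1 hev
  set C0 : ℝ := 2 / 5 * (12 : ℝ) ^ (3 / 2 : ℝ) with hC0
  have hC0p : 0 < C0 := by positivity
  refine ⟨44 * C0 * R0 ^ (5 / 2 : ℝ), by positivity, max 2 p1, le_max_left _ _, ?_⟩
  intro p hp η hη0 hη1 ρ hρ1 hρ2 L x y hx hy hsx hsy hsum k0 hk0 hxk hyk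
  have hp2 : 2 ≤ p := (le_max_left _ _).trans hp
  have hpr : (0 : ℝ) < p := by
    have : 0 < p := by omega
    exact_mod_cast this
  set r : ℝ := R0 * (p : ℝ) ^ (-(39 / 100) : ℝ) with hr
  have hr0 : 0 ≤ r := by positivity
  have hr1 : r ≤ 1 / 40 := by
    have h1 := (hp1 p ((le_max_right _ _).trans hp)).le
    rw [hr]
    have h2 := mul_le_mul_of_nonneg_left h1 hR00.le
    refine h2.trans (le_of_eq ?_)
    field_simp
  set R : ℝ := r ^ (5 / 2 : ℝ) with hR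
  have hR0' : 0 ≤ R := by positivity
  have hRr : r ^ (5 / 2 : ℝ) = R := rfl
  have hRp : R = R0 ^ (5 / 2 : ℝ) * (p : ℝ) ^ (-(39 / 40) : ℝ) := by
    rw [hR, hr, Real.mul_rpow hR00.le (by positivity), ← Real.rpow_mul hpr.le]
    norm_num
  have hR1 : R ≤ 1 / 2 := by
    rw [← hRr]
    calc r ^ (5 / 2 : ℝ) ≤ r ^ (1 : ℝ) :=
          Real.rpow_le_rpow_of_exponent_ge' hr0 (by linarith) (by norm_num) (by norm_num)
      _ = r := Real.rpow_one r
      _ ≤ 1 / 2 := by linarith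
  set E : Finset ℕ := (range L).erase k0 with hE
  have hxE : ∑ k ∈ E, x k = 1 - x k0 := by
    have := Finset.add_sum_erase (range L) x hk0
    rw [hsx] at this
    linarith
  have hyE : ∑ k ∈ E, y k = 1 - y k0 := by
    have := Finset.add_sum_erase (range L) y hk0
    rw [hsy] at this
    linarith
  have hξ0 : 0 ≤ 1 - x k0 := hxE ▸ Finset.sum_nonneg fun k _ => hx k
  have hζ0 : 0 ≤ 1 - y k0 := hyE ▸ Finset.sum_nonneg fun k _ => hy k
  have hxle : ∀ k ∈ E, x k ≤ 1 - x k0 := fun k hk =>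
    hxE ▸ Finset.single_le_sum (fun j _ => hx j) hk
  have hyle : ∀ k ∈ E, y k ≤ 1 - y k0 := fun k hk =>
    hyE ▸ Finset.single_le_sum (fun j _ => hy j) hk
  -- the split
  have hsplit : ∑ k ∈ range L, ∑ l ∈ range L, tr ρ η p k l * (x k * y l) ^ (3 / 5 : ℝ)
      = (tr ρ η p k0 k0 * (x k0 * y k0) ^ (3 / 5 : ℝ)
          + ∑ l ∈ E, tr ρ η p k0 l * (x k0 * y l) ^ (3 / 5 : ℝ))
        + ((∑ k ∈ E, tr ρ η p k k0 * (x k * y k0) ^ (3 / 5 : ℝ))
          + ∑ k ∈ E, ∑ l ∈ E, tr ρ η p k l * (x k * y l) ^ (3 / 5 : ℝ)) := by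
    rw [← Finset.add_sum_erase (range L) _ hk0, ← Finset.sum_add_distrib]
    congr 1
    · rw [← Finset.add_sum_erase (range L) _ hk0]
    · refine Finset.sum_congr rfl fun k _ => ?_
      rw [← Finset.add_sum_erase (range L) _ hk0]
  have hth0 : ∀ k l, 0 ≤ tr ρ η p k l := fun k l => by
    unfold tr
    refine mul_nonneg (Vale.Agent.P028KM.th_pos η p k l hp2).le ?_
    split_ifs
    · exact zero_le_one
    · linarith [hρ1 p]
  have hthr : ∀ k l, tr ρ η p k l ≤ r ^ ((k - l) + (l - k)) := fun k l => by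
    have h0 := Vale.Agent.P028KM.CONC2_th η hη0 hη1 p k l hp2
    have h0' := (Vale.Agent.P028KM.th_pos η p k l hp2).le
    unfold tr
    by_cases hkl : k = l
    · rw [if_pos hkl, mul_one]
      have h1 : (k - l) + (l - k) = 0 := by omega
      rw [h1, pow_zero] at h0 ⊢
      exact h0
    · rw [if_neg hkl]
      have h1 : (k - l) + (l - k) ≠ 0 := by omega
      rw [hr, mul_pow, mul_comm]
      have h2 : ρ p ≤ R0 ^ ((k - l) + (l - k)) := (hρ2 p).trans (le_self_pow₀ hR0 h1)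
      exact mul_le_mul h2 h0 h0' (by positivity)
  -- first term
  have hT1 : tr ρ η p k0 k0 * (x k0 * y k0) ^ (3 / 5 : ℝ)
      ≤ (1 - 3 / 5 * (1 - x k0)) * (1 - 3 / 5 * (1 - y k0)) := by
    have h1 : tr ρ η p k0 k0 ≤ 1 := by
      have := hthr k0 k0
      simpa using this
    have hb : ∀ z : ℝ, 0 ≤ z → z ^ (3 / 5 : ℝ) ≤ 1 - 3 / 5 * (1 - z) := by
      intro z hz
      have h2 := rpow_one_add_le_one_add_mul_self (s := z - 1) (by linarith)
        (p := 3 / 5) (by norm_num) (by norm_num)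
      rw [show 1 + (z - 1) = z by ring] at h2
      linarith
    rw [Real.mul_rpow (hx k0) (hy k0)]
    calc tr ρ η p k0 k0 * (x k0 ^ (3 / 5 : ℝ) * y k0 ^ (3 / 5 : ℝ))
        ≤ 1 * (x k0 ^ (3 / 5 : ℝ) * y k0 ^ (3 / 5 : ℝ)) :=
          mul_le_mul_of_nonneg_right h1
            (mul_nonneg (Real.rpow_nonneg (hx k0) _) (Real.rpow_nonneg (hy k0) _))
      _ ≤ (1 - 3 / 5 * (1 - x k0)) * (1 - 3 / 5 * (1 - y k0)) := by
          rw [one_mul]
          exact mul_le_mul (hb _ (hx k0)) (hb _ (hy k0)) (Real.rpow_nonneg (hy k0) _)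
            (by linarith)
  -- cross terms
  have hcross : ∀ (u : ℕ → ℝ) (c : ℝ), (∀ k, 0 ≤ u k) → 0 ≤ c → c ≤ 1 → ∀ a : ℕ → ℝ,
      (∀ k, 0 ≤ a k) → (∀ k, a k ≤ r ^ ((k0 - k) + (k - k0))) →
      ∑ k ∈ E, a k * (u k * c) ^ (3 / 5 : ℝ) ≤ (∑ k ∈ E, u k) / 20 + 4 * C0 * R := by
    intro u c hu hc0 hc1 a ha0 ha
    have h1 : ∀ k ∈ E, a k * (u k * c) ^ (3 / 5 : ℝ)
        ≤ u k / 20 + C0 * R ^ ((k0 - k) + (k - k0)) := by
      intro k _
      have h2 : (u k * c) ^ (3 / 5 : ℝ) ≤ u k ^ (3 / 5 : ℝ) :=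
        Real.rpow_le_rpow (mul_nonneg (hu k) hc0) (mul_le_of_le_one_right (hu k) hc1)
          (by norm_num)
      have h3 : a k ^ (5 / 2 : ℝ) ≤ R ^ ((k0 - k) + (k - k0)) := by
        calc a k ^ (5 / 2 : ℝ) ≤ (r ^ ((k0 - k) + (k - k0))) ^ (5 / 2 : ℝ) :=
              Real.rpow_le_rpow (ha0 k) (ha k) (by norm_num)
          _ = R ^ ((k0 - k) + (k - k0)) := by
              rw [← Real.rpow_natCast, ← Real.rpow_mul hr0, mul_comm, Real.rpow_mul hr0, hRr,
                Real.rpow_natCast]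
      calc a k * (u k * c) ^ (3 / 5 : ℝ) ≤ a k * u k ^ (3 / 5 : ℝ) :=
            mul_le_mul_of_nonneg_left h2 (ha0 k)
        _ ≤ u k / 20 + C0 * a k ^ (5 / 2 : ℝ) := Vale.Agent.P028KM.CONC2_young (a k) (u k) (ha0 k) (hu k)
        _ ≤ u k / 20 + C0 * R ^ ((k0 - k) + (k - k0)) := by
            have := mul_le_mul_of_nonneg_left h3 hC0p.le
            linarith
    refine (Finset.sum_le_sum h1).trans ?_
    rw [Finset.sum_add_distrib, ← Finset.sum_div, ← Finset.mul_sum]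
    have h4 := Vale.Agent.P028KM.CONC2_row R hR0' hR1 L k0
    have h5 := mul_le_mul_of_nonneg_left h4 hC0p.le
    linarith
  have hT2 : ∑ l ∈ E, tr ρ η p k0 l * (x k0 * y l) ^ (3 / 5 : ℝ)
      ≤ (1 - y k0) / 20 + 4 * C0 * R := by
    have h1 := hcross y (x k0) hy (hx k0) (by linarith) (fun l => tr ρ η p k0 l)
      (fun l => hth0 k0 l) (fun l => hthr k0 l)
    rw [hyE] at h1
    refine le_trans (le_of_eq ?_) h1
    refine Finset.sum_congr rfl fun l _ => ?_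
    rw [mul_comm (x k0) (y l)]
  have hT3 : ∑ k ∈ E, tr ρ η p k k0 * (x k * y k0) ^ (3 / 5 : ℝ)
      ≤ (1 - x k0) / 20 + 4 * C0 * R := by
    have h1 := hcross x (y k0) hx (hy k0) (by linarith) (fun k => tr ρ η p k k0)
      (fun k => hth0 k k0) (fun k => by
        have := hthr k k0
        rwa [add_comm] at this)
    rw [hxE] at h1
    exact h1
  -- the rest
  have hrow : ∀ k ∈ E, ∑ l ∈ E, r ^ ((k - l) + (l - k)) ≤ 11 / 10 := by
    intro k hk
    have hkL : k ∈ range L := Finset.mem_of_mem_erase hk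
    have h1 : ∑ l ∈ E, r ^ ((k - l) + (l - k)) ≤ ∑ l ∈ range L, r ^ ((k - l) + (l - k)) :=
      Finset.sum_le_sum_of_subset_of_nonneg (Finset.erase_subset _ _)
        fun l _ _ => pow_nonneg hr0 _
    rw [← Finset.add_sum_erase (range L) _ hkL] at h1
    have h2 := Vale.Agent.P028KM.CONC2_row r hr0 (by linarith) L k
    have h3 : r ^ ((k - k) + (k - k)) = 1 := by simp
    rw [h3] at h1
    linarith
  have hT4 : ∑ k ∈ E, ∑ l ∈ E, tr ρ η p k l * (x k * y l) ^ (3 / 5 : ℝ)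
      ≤ 3476 / 10000 * ((1 - x k0) + (1 - y k0)) := by
    have h1 : ∀ k ∈ E, ∀ l ∈ E, tr ρ η p k l * (x k * y l) ^ (3 / 5 : ℝ)
        ≤ r ^ ((k - l) + (l - k)) * (316 / 1000 * x k)
          + r ^ ((k - l) + (l - k)) * (316 / 1000 * y l) := by
      intro k hk l hl
      have h2 : (x k * y l) ^ (3 / 5 : ℝ) ≤ 316 / 1000 * x k + 316 / 1000 * y l := by
        rw [Real.mul_rpow (hx k) (hy l)]
        have hsq : ∀ z : ℝ, 0 ≤ z → (z ^ (3 / 5 : ℝ)) ^ 2 = z ^ (6 / 5 : ℝ) := by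
          intro z hz
          rw [← Real.rpow_natCast, ← Real.rpow_mul hz]
          norm_num
        have h3 := two_mul_le_add_sq (x k ^ (3 / 5 : ℝ)) (y l ^ (3 / 5 : ℝ))
        rw [hsq _ (hx k), hsq _ (hy l)] at h3
        have h4 := Vale.Agent.P028KM.CONC2_six (x k) (1 - x k0) (hx k) (hxle k hk) (by linarith)
        have h5 := Vale.Agent.P028KM.CONC2_six (y l) (1 - y k0) (hy l) (hyle l hl) (by linarith)
        linarith
      calc tr ρ η p k l * (x k * y l) ^ (3 / 5 : ℝ)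
          ≤ r ^ ((k - l) + (l - k)) * (x k * y l) ^ (3 / 5 : ℝ) :=
            mul_le_mul_of_nonneg_right (hthr k l)
              (Real.rpow_nonneg (mul_nonneg (hx k) (hy l)) _)
        _ ≤ r ^ ((k - l) + (l - k)) * (316 / 1000 * x k + 316 / 1000 * y l) :=
            mul_le_mul_of_nonneg_left h2 (pow_nonneg hr0 _)
        _ = _ := by ring
    refine (Finset.sum_le_sum fun k hk => Finset.sum_le_sum fun l hl => h1 k hk l hl).trans ?_
    simp only [Finset.sum_add_distrib]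
    have h6 : ∑ k ∈ E, ∑ l ∈ E, r ^ ((k - l) + (l - k)) * (316 / 1000 * x k)
        ≤ 3476 / 10000 * (1 - x k0) := by
      calc ∑ k ∈ E, ∑ l ∈ E, r ^ ((k - l) + (l - k)) * (316 / 1000 * x k)
          = ∑ k ∈ E, (∑ l ∈ E, r ^ ((k - l) + (l - k))) * (316 / 1000 * x k) :=
            Finset.sum_congr rfl fun k _ => (Finset.sum_mul _ _ _).symm
        _ ≤ ∑ k ∈ E, 11 / 10 * (316 / 1000 * x k) := by
            refine Finset.sum_le_sum fun k hk => ?_
            refine mul_le_mul_of_nonneg_right (hrow k hk) ?_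
            have := hx k
            positivity
        _ = 3476 / 10000 * (1 - x k0) := by
            rw [← hxE, Finset.mul_sum]
            refine Finset.sum_congr rfl fun k _ => ?_
            ring
    have h7 : ∑ k ∈ E, ∑ l ∈ E, r ^ ((k - l) + (l - k)) * (316 / 1000 * y l)
        ≤ 3476 / 10000 * (1 - y k0) := by
      rw [Finset.sum_comm]
      calc ∑ l ∈ E, ∑ k ∈ E, r ^ ((k - l) + (l - k)) * (316 / 1000 * y l)
          = ∑ l ∈ E, (∑ k ∈ E, r ^ ((l - k) + (k - l))) * (316 / 1000 * y l) := by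
            refine Finset.sum_congr rfl fun l _ => ?_
            rw [Finset.sum_mul]
            refine Finset.sum_congr rfl fun k _ => ?_
            rw [add_comm (k - l)]
        _ ≤ ∑ l ∈ E, 11 / 10 * (316 / 1000 * y l) := by
            refine Finset.sum_le_sum fun l hl => ?_
            refine mul_le_mul_of_nonneg_right (hrow l hl) ?_
            have := hy l
            positivity
        _ = 3476 / 10000 * (1 - y k0) := by
            rw [← hyE, Finset.mul_sum]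
            refine Finset.sum_congr rfl fun k _ => ?_
            ring
    linarith
  rw [hsplit] at hsum
  have hprod : (1 - x k0) * (1 - y k0) ≤ ((1 - x k0) + (1 - y k0)) / 20 := by nlinarith
  have hmain : ((1 - x k0) + (1 - y k0)) ≤ 44 * C0 * R := by
    have hCR : 0 ≤ C0 * R := by positivity
    nlinarith
  rw [hRp, ← mul_assoc] at hmain
  constructor
  · linarith
  · linarith

end Vale.Agent.P028W
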