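import Vale.Agent.P028W.Defs
import Vale.Agent.P028W.THr
import Vale.Agent.P028KM.REM

/-!
Module REMr: copy of Vale/Agent/P028KM/REM.lean (times `R0`).
-/

namespace Vale.Agent.P028W

open Finset MeasureTheory
open Vale.Agent.P028EV (q1 r1 Del hh Ts Bd Ad Nd)
open Vale.Agent.P028KM (w mu Dm Bl FF MN Sb ex cl OK KO th Th)

theorem remr (R0 : ℝ) (hR0 : 1 ≤ R0) (C2 : ℝ) (hC2 : 0 < C2) : ∃ C3 : ℝ, 0 < C3 ∧ ∀ p : ℕ, 2 ≤ p →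
    ∀ η : ℝ, 0 ≤ η → η ≤ 1 / 40 → ∀ ρ : ℕ → ℝ, (∀ p, 1 ≤ ρ p) → (∀ p, ρ p ≤ R0) →
    ∀ (L : ℕ) (x y : ℕ → ℝ), (∀ k, 0 ≤ x k) → (∀ k, 0 ≤ y k) →
    ∑ k ∈ range L, x k = 1 → ∑ k ∈ range L, y k = 1 → ∀ k0 ∈ range L,
    1 - x k0 ≤ C2 * (p : ℝ) ^ (-(39 / 40) : ℝ) → 1 - y k0 ≤ C2 * (p : ℝ) ^ (-(39 / 40) : ℝ) →
    ∑ k ∈ (range L).erase k0, ∑ l ∈ (range L).erase k0, tr ρ η p k l * (x k * y l) ^ (3 / 5 : ℝ)
      ≤ C3 * (p : ℝ) ^ (-(117 / 100) : ℝ) := by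
  obtain ⟨C3, hC3, h⟩ := P028KM.rem C2 hC2
  refine ⟨R0 * C3, mul_pos (by linarith) hC3, ?_⟩
  intro p hp η hη0 hη1 ρ hρ hρ2 L x y hx hy hsx hsy k0 hk0 hbx hby
  have h1 := h p hp η hη0 hη1 L x y hx hy hsx hsy k0 hk0 hbx hby
  have hR : (0 : ℝ) ≤ R0 := by linarith
  have h2 : ∀ k l, tr ρ η p k l * (x k * y l) ^ (3 / 5 : ℝ) ≤
      R0 * (th η p k l * (x k * y l) ^ (3 / 5 : ℝ)) := by
    intro k l
    have hth : 0 ≤ th η p k l := (P028KM.th_pos η p k l hp).le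
    have hpow : 0 ≤ (x k * y l) ^ (3 / 5 : ℝ) := Real.rpow_nonneg (mul_nonneg (hx k) (hy l)) _
    have h3 : tr ρ η p k l ≤ R0 * th η p k l := by
      unfold tr
      rw [mul_comm R0]
      refine mul_le_mul_of_nonneg_left ?_ hth
      split_ifs
      · exact hR0
      · exact hρ2 p
    calc tr ρ η p k l * (x k * y l) ^ (3 / 5 : ℝ)
        ≤ (R0 * th η p k l) * (x k * y l) ^ (3 / 5 : ℝ) :=
          mul_le_mul_of_nonneg_right h3 hpow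
      _ = _ := by ring
  calc ∑ k ∈ (range L).erase k0, ∑ l ∈ (range L).erase k0,
        tr ρ η p k l * (x k * y l) ^ (3 / 5 : ℝ)
      ≤ ∑ k ∈ (range L).erase k0, ∑ l ∈ (range L).erase k0,
        R0 * (th η p k l * (x k * y l) ^ (3 / 5 : ℝ)) :=
        Finset.sum_le_sum fun k _ => Finset.sum_le_sum fun l _ => h2 k l
    _ = R0 * ∑ k ∈ (range L).erase k0, ∑ l ∈ (range L).erase k0,
        th η p k l * (x k * y l) ^ (3 / 5 : ℝ) := by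
        rw [Finset.mul_sum]
        refine Finset.sum_congr rfl fun k _ => ?_
        rw [Finset.mul_sum]
    _ ≤ R0 * (C3 * (p : ℝ) ^ (-(117 / 100) : ℝ)) := mul_le_mul_of_nonneg_left h1 hR
    _ = R0 * C3 * (p : ℝ) ^ (-(117 / 100) : ℝ) := by ring

end Vale.Agent.P028W
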