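import Vale.Agent.P028W.Defs
import Vale.Agent.P028W.THr

/-!
Module SUBr: copy of Vale/Agent/P028KM/SUB.lean.
-/

namespace Vale.Agent.P028W

open Finset MeasureTheory
open Vale.Agent.P028EV (q1 r1 Del hh Ts Bd Ad Nd)
open Vale.Agent.P028KM (w mu Dm Bl FF MN Sb ex cl OK KO th Th)

theorem SUBr_eq {S Q : Finset ℕ} {q0 p k a : ℕ} (ha : a ∈ Sb (Bl S Q q0) p k) :
    Sb (Bl S Q q0) p k = Bl S (insert p Q) a := by
  simp only [Sb, Bl, Finset.mem_filter] at ha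
  obtain ⟨⟨_, ha2⟩, ha3⟩ := ha
  ext q
  simp only [Sb, Bl, Finset.mem_filter, Finset.mem_insert, forall_eq_or_imp]
  constructor
  · rintro ⟨⟨h1, h2⟩, h3⟩
    exact ⟨h1, by rw [h3, ha3], fun p' hp' => by rw [h2 p' hp', ha2 p' hp']⟩
  · rintro ⟨h1, h2, h3⟩
    exact ⟨⟨h1, fun p' hp' => by rw [h3 p' hp', ha2 p' hp']⟩, by rw [h2, ha3]⟩

theorem subr {ρ : ℕ → ℝ} {R0 η : ℝ} {P S Q : Finset ℕ} {m n : ℕ → ℝ} {K : ℕ → ℕ → ℝ}
    {q0 r0 : ℕ} {c : ℝ}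
    (h : Mr ρ R0 η P S Q m n K q0 r0 c) (p : ℕ) (hp : p ∈ P) (hpQ : p ∉ Q) (k l : ℕ) :
    FF K (Sb (Bl S Q q0) p k) (Sb (Bl S Q r0) p l)
      ≤ c * TrQ ρ η Q q0 r0 * (tr ρ η p k l *
          MN m n (Sb (Bl S Q q0) p k) (Sb (Bl S Q r0) p l)) := by
  have hth : ∀ p' i j, 0 ≤ tr ρ η p' i j := fun p' i j => tr_nonneg ρ h.hρ1 η p' i j
  have hT : 0 ≤ TrQ ρ η Q q0 r0 := Finset.prod_nonneg fun p' _ => hth p' _ _
  have hMN : 0 ≤ MN m n (Sb (Bl S Q q0) p k) (Sb (Bl S Q r0) p l) :=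
    Real.rpow_nonneg (mul_nonneg (Finset.sum_nonneg fun q _ => h.hm q)
      (Finset.sum_nonneg fun q _ => h.hn q)) _
  have hR : 0 ≤ c * TrQ ρ η Q q0 r0 * (tr ρ η p k l *
          MN m n (Sb (Bl S Q q0) p k) (Sb (Bl S Q r0) p l)) :=
    mul_nonneg (mul_nonneg h.hc.le hT) (mul_nonneg (hth p _ _) hMN)
  rcases (Sb (Bl S Q q0) p k).eq_empty_or_nonempty with h1 | ⟨a, ha⟩
  · refine le_trans (le_of_eq ?_) hR
    rw [h1, FF, Finset.sum_empty]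
  rcases (Sb (Bl S Q r0) p l).eq_empty_or_nonempty with h2 | ⟨b, hb⟩
  · refine le_trans (le_of_eq ?_) hR
    rw [h2, FF]
    simp
  have haS : a ∈ S ∧ (∀ p' ∈ Q, a.factorization p' = q0.factorization p') ∧
      a.factorization p = k := by
    have := ha
    simp only [Sb, Bl, Finset.mem_filter] at this
    exact ⟨this.1.1, this.1.2, this.2⟩
  have hbS : b ∈ S ∧ (∀ p' ∈ Q, b.factorization p' = r0.factorization p') ∧
      b.factorization p = l := by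
    have := hb
    simp only [Sb, Bl, Finset.mem_filter] at this
    exact ⟨this.1.1, this.1.2, this.2⟩
  have h3 := h.le (insert p Q) (Finset.insert_subset hp h.hQ) a haS.1 b hbS.1
  rw [← SUBr_eq ha, ← SUBr_eq hb] at h3
  have h4 : TrQ ρ η (insert p Q) a b = tr ρ η p k l * TrQ ρ η Q q0 r0 := by
    rw [TrQ, Finset.prod_insert hpQ, haS.2.2, hbS.2.2, TrQ]
    congr 1
    exact Finset.prod_congr rfl fun p' hp' => by rw [haS.2.1 p' hp', hbS.2.1 p' hp']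
  rw [h4] at h3
  refine le_trans h3 (le_of_eq ?_)
  ring

end Vale.Agent.P028W
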