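import Vale.Agent.P028W.Defs
import Vale.Agent.P028W.SUBr

/-!
Module STr: copy of Vale/Agent/P028KM/ST.lean.
-/

namespace Vale.Agent.P028W

open Finset MeasureTheory
open Vale.Agent.P028EV (q1 r1 Del hh Ts Bd Ad Nd)
open Vale.Agent.P028KM (w mu Dm Bl FF MN Sb ex cl OK KO th Th)

theorem STr_part {S V W : Finset ℕ} {K : ℕ → ℕ → ℝ} (hV : V ⊆ S) (hW : W ⊆ S) (p L : ℕ)
    (hL : ∀ q ∈ S, q.factorization p < L) :
    FF K V W = ∑ k ∈ range L, ∑ l ∈ range L, FF K (Sb V p k) (Sb W p l) := by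
  unfold FF Sb
  have h1 : ∀ f : ℕ → ℝ, ∑ q ∈ V, f q
      = ∑ k ∈ range L, ∑ q ∈ V.filter (fun q => q.factorization p = k), f q := by
    intro f
    exact (Finset.sum_fiberwise_of_maps_to (fun q hq => mem_range.2 (hL q (hV hq))) f).symm
  have h2 : ∀ f : ℕ → ℝ, ∑ q ∈ W, f q
      = ∑ k ∈ range L, ∑ q ∈ W.filter (fun q => q.factorization p = k), f q := by
    intro f
    exact (Finset.sum_fiberwise_of_maps_to (fun q hq => mem_range.2 (hL q (hW hq))) f).symm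
  rw [h1]
  refine Finset.sum_congr rfl fun k _ => ?_
  rw [Finset.sum_comm (s := range L)]
  exact Finset.sum_congr rfl fun q _ => h2 fun r => K q r

theorem starr {ρ : ℕ → ℝ} {R0 η : ℝ} {P S Q : Finset ℕ} {m n : ℕ → ℝ} {K : ℕ → ℕ → ℝ}
    {q0 r0 : ℕ} {c : ℝ}
    (h : Mr ρ R0 η P S Q m n K q0 r0 c) (p : ℕ) (hp : p ∈ P) (hpQ : p ∉ Q) (L : ℕ)
    (hL : ∀ q ∈ S, q.factorization p < L) :
    1 ≤ ∑ k ∈ range L, ∑ l ∈ range L, tr ρ η p k l *
      ((((∑ q ∈ Sb (Bl S Q q0) p k, m q) / ∑ q ∈ Bl S Q q0, m q)) *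
        (((∑ q ∈ Sb (Bl S Q r0) p l, n q) / ∑ q ∈ Bl S Q r0, n q))) ^ (3 / 5 : ℝ) := by
  have hA := h.pm
  have hB := h.pn
  set A := ∑ q ∈ Bl S Q q0, m q with hAd
  set B := ∑ q ∈ Bl S Q r0, n q with hBd
  have hT : 0 < TrQ ρ η Q q0 r0 :=
    Finset.prod_pos fun p hp => tr_pos ρ h.hρ1 η p _ _ (h.hP p (h.hQ hp)).two_le
  have hM : 0 < MN m n (Bl S Q q0) (Bl S Q r0) := by
    unfold MN
    exact Real.rpow_pos_of_pos (mul_pos hA hB) _
  have hpos : 0 < c * TrQ ρ η Q q0 r0 * MN m n (Bl S Q q0) (Bl S Q r0) :=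
    mul_pos (mul_pos h.hc hT) hM
  have h1 := STr_part (K := K) (V := Bl S Q q0) (W := Bl S Q r0) (filter_subset _ _)
    (filter_subset _ _) p L hL
  have h2 : c * TrQ ρ η Q q0 r0 * MN m n (Bl S Q q0) (Bl S Q r0) ≤
      c * TrQ ρ η Q q0 r0 * MN m n (Bl S Q q0) (Bl S Q r0) *
        ∑ k ∈ range L, ∑ l ∈ range L, tr ρ η p k l *
      ((((∑ q ∈ Sb (Bl S Q q0) p k, m q) / A)) *
        (((∑ q ∈ Sb (Bl S Q r0) p l, n q) / B))) ^ (3 / 5 : ℝ) := by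
    refine (h.eq.symm.trans h1).trans_le ?_
    rw [Finset.mul_sum]
    refine Finset.sum_le_sum fun k _ => ?_
    rw [Finset.mul_sum]
    refine Finset.sum_le_sum fun l _ => ?_
    refine (subr h p hp hpQ k l).trans (le_of_eq ?_)
    have ha : 0 ≤ ∑ q ∈ Sb (Bl S Q q0) p k, m q := Finset.sum_nonneg fun q _ => h.hm q
    have hb : 0 ≤ ∑ q ∈ Sb (Bl S Q r0) p l, n q := Finset.sum_nonneg fun q _ => h.hn q
    have h3 : MN m n (Sb (Bl S Q q0) p k) (Sb (Bl S Q r0) p l)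
        = MN m n (Bl S Q q0) (Bl S Q r0) *
          ((((∑ q ∈ Sb (Bl S Q q0) p k, m q) / A)) *
        (((∑ q ∈ Sb (Bl S Q r0) p l, n q) / B))) ^ (3 / 5 : ℝ) := by
      unfold MN
      rw [← Real.mul_rpow (mul_pos hA hB).le (mul_nonneg (div_nonneg ha hA.le)
        (div_nonneg hb hB.le))]
      congr 1
      field_simp
    rw [h3]
    ring
  exact (le_mul_iff_one_le_right hpos).1 h2

end Vale.Agent.P028W
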