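import Vale.Agent.P028W.Defs
import Vale.Agent.P028W.STr
import Vale.Agent.P028W.CONC1r
import Vale.Agent.P028W.CONC2r
import Vale.Agent.P028W.REMr
import Vale.Agent.P028KM.SUMP

/-!
Module HALFr: copy of Vale/Agent/P028KM/HALF.lean.
-/

namespace Vale.Agent.P028W

open Finset MeasureTheory
open Vale.Agent.P028EV (q1 r1 Del hh Ts Bd Ad Nd)
open Vale.Agent.P028KM (w mu Dm Bl FF MN Sb ex cl OK KO th Th)

theorem HALFr_sum_sb (V : Finset ℕ) (f : ℕ → ℝ) (p L : ℕ) (hL : ∀ q ∈ V, q.factorization p < L) :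
    ∑ k ∈ range L, ∑ q ∈ Sb V p k, f q = ∑ q ∈ V, f q := by
  unfold Sb
  exact Finset.sum_fiberwise_of_maps_to (s := V) (t := range L) (g := fun q => q.factorization p)
    (fun q hq => Finset.mem_range.2 (hL q hq)) f

/-- one prime -/
theorem HALFr_one {R0 C2 C3 : ℝ} {p1 p2 : ℕ}
    (h1 : ∀ p : ℕ, p1 ≤ p → ∀ η : ℝ, 0 ≤ η → η ≤ 1 / 40 →
      ∀ ρ : ℕ → ℝ, (∀ p, 1 ≤ ρ p) → (∀ p, ρ p ≤ R0) → ∀ (L : ℕ) (x y : ℕ → ℝ), (∀ k, 0 ≤ x k) → (∀ k, 0 ≤ y k) → ∑ k ∈ range L, x k = 1 →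
      ∑ k ∈ range L, y k = 1 →
      1 ≤ ∑ k ∈ range L, ∑ l ∈ range L, tr ρ η p k l * (x k * y l) ^ (3 / 5 : ℝ) →
      ∃ k0 ∈ range L, 9 / 10 ≤ x k0 ∧ 9 / 10 ≤ y k0)
    (h2 : ∀ p : ℕ, p2 ≤ p → ∀ η : ℝ, 0 ≤ η →
      η ≤ 1 / 40 → ∀ ρ : ℕ → ℝ, (∀ p, 1 ≤ ρ p) → (∀ p, ρ p ≤ R0) → ∀ (L : ℕ) (x y : ℕ → ℝ), (∀ k, 0 ≤ x k) → (∀ k, 0 ≤ y k) →
      ∑ k ∈ range L, x k = 1 → ∑ k ∈ range L, y k = 1 →
      1 ≤ ∑ k ∈ range L, ∑ l ∈ range L, tr ρ η p k l * (x k * y l) ^ (3 / 5 : ℝ) →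
      ∀ k0 ∈ range L, 9 / 10 ≤ x k0 → 9 / 10 ≤ y k0 →
        1 - x k0 ≤ C2 * (p : ℝ) ^ (-(39 / 40) : ℝ) ∧
          1 - y k0 ≤ C2 * (p : ℝ) ^ (-(39 / 40) : ℝ))
    (h3 : ∀ p : ℕ, 2 ≤ p → ∀ η : ℝ, 0 ≤ η →
      η ≤ 1 / 40 → ∀ ρ : ℕ → ℝ, (∀ p, 1 ≤ ρ p) → (∀ p, ρ p ≤ R0) → ∀ (L : ℕ) (x y : ℕ → ℝ), (∀ k, 0 ≤ x k) → (∀ k, 0 ≤ y k) →
      ∑ k ∈ range L, x k = 1 → ∑ k ∈ range L, y k = 1 → ∀ k0 ∈ range L,
      1 - x k0 ≤ C2 * (p : ℝ) ^ (-(39 / 40) : ℝ) → 1 - y k0 ≤ C2 * (p : ℝ) ^ (-(39 / 40) : ℝ) →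
      ∑ k ∈ (range L).erase k0, ∑ l ∈ (range L).erase k0, tr ρ η p k l * (x k * y l) ^ (3 / 5 : ℝ)
        ≤ C3 * (p : ℝ) ^ (-(117 / 100) : ℝ))
    {ρ : ℕ → ℝ} {η : ℝ} {P S Q : Finset ℕ} {m n : ℕ → ℝ}
    {K : ℕ → ℕ → ℝ} {q0 r0 : ℕ} {c : ℝ} (h : Mr ρ R0 η P S Q m n K q0 r0 c)
    (p : ℕ) (hp : p ∈ P) (hpQ : p ∉ Q) (hp1 : p1 ≤ p) (hp2 : p2 ≤ p) (hp22 : 2 ≤ p) :
    ∃ k0 : ℕ, (1 / 2) * ∑ q ∈ Bl S Q q0, m q ≤ ∑ q ∈ Sb (Bl S Q q0) p k0, m q ∧
      ∑ q ∈ Bl S Q q0, ∑ r ∈ Bl S Q r0,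
        (if q.factorization p ≠ k0 ∧ r.factorization p ≠ k0 then K q r else 0) ≤
        FF K (Bl S Q q0) (Bl S Q r0) * (C3 * (p : ℝ) ^ (-(117 / 100) : ℝ)) := by
  classical
  set A := Bl S Q q0 with hA
  set B := Bl S Q r0 with hB
  set L : ℕ := S.sup (fun q => q.factorization p) + 1 with hLdef
  have hL : ∀ q ∈ S, q.factorization p < L := by
    intro q hq
    exact Nat.lt_succ_of_le (Finset.le_sup (f := fun q => q.factorization p) hq)
  have hAS : ∀ q ∈ A, q ∈ S := fun q hq => (Finset.mem_filter.1 hq).1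
  have hBS : ∀ q ∈ B, q ∈ S := fun q hq => (Finset.mem_filter.1 hq).1
  have hst := starr h p hp hpQ L hL
  rw [← hA, ← hB] at hst
  have hpm : 0 < ∑ q ∈ A, m q := h.pm
  have hpn : 0 < ∑ q ∈ B, n q := h.pn
  set x : ℕ → ℝ := fun k => (∑ q ∈ Sb A p k, m q) / ∑ q ∈ A, m q with hx
  set y : ℕ → ℝ := fun k => (∑ q ∈ Sb B p k, n q) / ∑ q ∈ B, n q with hy
  have hx0 : ∀ k, 0 ≤ x k := fun k => div_nonneg (Finset.sum_nonneg fun q _ => h.hm q) hpm.le
  have hy0 : ∀ k, 0 ≤ y k := fun k => div_nonneg (Finset.sum_nonneg fun q _ => h.hn q) hpn.le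
  have hx1 : ∑ k ∈ range L, x k = 1 := by
    simp only [hx]
    rw [← Finset.sum_div, HALFr_sum_sb A m p L (fun q hq => hL q (hAS q hq)), div_self hpm.ne']
  have hy1 : ∑ k ∈ range L, y k = 1 := by
    simp only [hy]
    rw [← Finset.sum_div, HALFr_sum_sb B n p L (fun q hq => hL q (hBS q hq)), div_self hpn.ne']
  obtain ⟨k0, hk0, hxk, hyk⟩ := h1 p hp1 η h.hη0 h.hη1 ρ h.hρ1 h.hρ2 L x y hx0 hy0 hx1 hy1 hst
  obtain ⟨hx2, hy2⟩ := h2 p hp2 η h.hη0 h.hη1 ρ h.hρ1 h.hρ2 L x y hx0 hy0 hx1 hy1 hst k0 hk0 hxk hyk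
  have hrem := h3 p hp22 η h.hη0 h.hη1 ρ h.hρ1 h.hρ2 L x y hx0 hy0 hx1 hy1 k0 hk0 hx2 hy2
  refine ⟨k0, ?_, ?_⟩
  · have : (9 / 10) * ∑ q ∈ A, m q ≤ ∑ q ∈ Sb A p k0, m q := by
      have := hxk
      simp only [hx] at this
      rwa [le_div_iff₀ hpm] at this
    linarith
  · -- rewrite the double sum over the fibres
    have e1 : ∑ q ∈ A, ∑ r ∈ B,
        (if q.factorization p ≠ k0 ∧ r.factorization p ≠ k0 then K q r else 0) =
        ∑ k ∈ (range L).erase k0, ∑ l ∈ (range L).erase k0, FF K (Sb A p k) (Sb B p l) := by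
      have eA : ∀ f : ℕ → ℝ, ∑ q ∈ A, (if q.factorization p ≠ k0 then f q else 0) =
          ∑ k ∈ (range L).erase k0, ∑ q ∈ Sb A p k, f q := by
        intro f
        rw [← Finset.sum_filter]
        unfold Sb
        rw [← Finset.sum_fiberwise_of_maps_to (s := A.filter fun q => q.factorization p ≠ k0)
          (t := (range L).erase k0) (g := fun q => q.factorization p) ?_ f]
        · refine Finset.sum_congr rfl fun k hk => ?_
          refine Finset.sum_congr ?_ fun _ _ => rfl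
          ext q
          simp only [Finset.mem_filter]
          constructor
          · rintro ⟨⟨a1, _⟩, a3⟩; exact ⟨a1, a3⟩
          · rintro ⟨a1, a3⟩; exact ⟨⟨a1, by rw [a3]; exact (Finset.mem_erase.1 hk).1⟩, a3⟩
        · intro q hq
          obtain ⟨a1, a2⟩ := Finset.mem_filter.1 hq
          exact Finset.mem_erase.2 ⟨a2, Finset.mem_range.2 (hL q (hAS q a1))⟩
      have eB : ∀ f : ℕ → ℝ, ∑ q ∈ B, (if q.factorization p ≠ k0 then f q else 0) =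
          ∑ k ∈ (range L).erase k0, ∑ q ∈ Sb B p k, f q := by
        intro f
        rw [← Finset.sum_filter]
        unfold Sb
        rw [← Finset.sum_fiberwise_of_maps_to (s := B.filter fun q => q.factorization p ≠ k0)
          (t := (range L).erase k0) (g := fun q => q.factorization p) ?_ f]
        · refine Finset.sum_congr rfl fun k hk => ?_
          refine Finset.sum_congr ?_ fun _ _ => rfl
          ext q
          simp only [Finset.mem_filter]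
          constructor
          · rintro ⟨⟨a1, _⟩, a3⟩; exact ⟨a1, a3⟩
          · rintro ⟨a1, a3⟩; exact ⟨⟨a1, by rw [a3]; exact (Finset.mem_erase.1 hk).1⟩, a3⟩
        · intro q hq
          obtain ⟨a1, a2⟩ := Finset.mem_filter.1 hq
          exact Finset.mem_erase.2 ⟨a2, Finset.mem_range.2 (hL q (hBS q a1))⟩
      have step1 : ∀ q, ∑ r ∈ B,
          (if q.factorization p ≠ k0 ∧ r.factorization p ≠ k0 then K q r else 0) =
          if q.factorization p ≠ k0 then ∑ l ∈ (range L).erase k0, ∑ r ∈ Sb B p l, K q r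
            else 0 := by
        intro q
        by_cases hq : q.factorization p ≠ k0
        · rw [if_pos hq, ← eB]
          refine Finset.sum_congr rfl fun r _ => ?_
          by_cases hr : r.factorization p ≠ k0
          · rw [if_pos ⟨hq, hr⟩, if_pos hr]
          · rw [if_neg (fun hh => hr hh.2), if_neg hr]
        · rw [if_neg hq]
          refine Finset.sum_eq_zero fun r _ => ?_
          rw [if_neg (fun hh => hq hh.1)]
      rw [Finset.sum_congr rfl fun q _ => step1 q, eA]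
      refine Finset.sum_congr rfl fun k _ => ?_
      unfold FF
      rw [Finset.sum_comm]
    rw [e1]
    -- bound each piece
    have hMN : ∀ k l, MN m n (Sb A p k) (Sb B p l) =
        MN m n A B * (x k * y l) ^ (3 / 5 : ℝ) := by
      intro k l
      unfold MN
      rw [← Real.mul_rpow (mul_nonneg hpm.le hpn.le) (mul_nonneg (hx0 k) (hy0 l))]
      congr 1
      simp only [hx, hy]
      field_simp
    have hpiece : ∀ k l, FF K (Sb A p k) (Sb B p l) ≤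
        FF K A B * (tr ρ η p k l * (x k * y l) ^ (3 / 5 : ℝ)) := by
      intro k l
      refine (subr h p hp hpQ k l).trans (le_of_eq ?_)
      rw [← hA, ← hB, hMN k l]
      have heq : FF K A B = c * TrQ ρ η Q q0 r0 * MN m n A B := h.eq
      rw [heq]
      ring
    have hFF0 : 0 ≤ FF K A B := Finset.sum_nonneg fun q _ => Finset.sum_nonneg fun r _ => h.hK q r
    calc ∑ k ∈ (range L).erase k0, ∑ l ∈ (range L).erase k0, FF K (Sb A p k) (Sb B p l)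
        ≤ ∑ k ∈ (range L).erase k0, ∑ l ∈ (range L).erase k0,
            FF K A B * (tr ρ η p k l * (x k * y l) ^ (3 / 5 : ℝ)) :=
          Finset.sum_le_sum fun k _ => Finset.sum_le_sum fun l _ => hpiece k l
      _ = FF K A B * ∑ k ∈ (range L).erase k0, ∑ l ∈ (range L).erase k0,
            tr ρ η p k l * (x k * y l) ^ (3 / 5 : ℝ) := by
          rw [Finset.mul_sum]
          refine Finset.sum_congr rfl fun k _ => ?_
          rw [Finset.mul_sum]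
      _ ≤ FF K A B * (C3 * (p : ℝ) ^ (-(117 / 100) : ℝ)) :=
          mul_le_mul_of_nonneg_left hrem hFF0

theorem halfr (R0 : ℝ) (hR0 : 1 ≤ R0) : ∃ p0 : ℕ, 2 ≤ p0 ∧ ∀ {ρ : ℕ → ℝ} {η : ℝ}
    {P S Q : Finset ℕ} {m n : ℕ → ℝ}
    {K : ℕ → ℕ → ℝ} {q0 r0 : ℕ} {c : ℝ}, Mr ρ R0 η P S Q m n K q0 r0 c →
    ∃ kk : ℕ → ℕ, (∀ p ∈ P, p ∉ Q → p0 ≤ p →
      (1 / 2) * ∑ q ∈ Bl S Q q0, m q ≤ ∑ q ∈ Sb (Bl S Q q0) p (kk p), m q) ∧
      FF K (Bl S Q q0) (Bl S Q r0) ≤ 2 * FF (KO P Q p0 kk K) (Bl S Q q0) (Bl S Q r0) := by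
  classical
  obtain ⟨p1, hp1, h1⟩ := conc1r R0 hR0
  obtain ⟨C2, hC2, p2, hp2, h2⟩ := conc2r R0 hR0
  obtain ⟨C3, hC3, h3⟩ := remr R0 hR0 C2 hC2
  obtain ⟨p3, hp3, h4⟩ := Vale.Agent.P028KM.sump C3 hC3 (1 / 2) (by norm_num)
  refine ⟨max p1 (max p2 p3), le_max_of_le_left hp1, ?_⟩
  intro ρ η P S Q m n K q0 r0 c h
  set p0 := max p1 (max p2 p3) with hp0
  have hone : ∀ p, p ∈ P → p ∉ Q → p0 ≤ p → ∃ k0 : ℕ,
      (1 / 2) * ∑ q ∈ Bl S Q q0, m q ≤ ∑ q ∈ Sb (Bl S Q q0) p k0, m q ∧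
      ∑ q ∈ Bl S Q q0, ∑ r ∈ Bl S Q r0,
        (if q.factorization p ≠ k0 ∧ r.factorization p ≠ k0 then K q r else 0) ≤
        FF K (Bl S Q q0) (Bl S Q r0) * (C3 * (p : ℝ) ^ (-(117 / 100) : ℝ)) := by
    intro p hp hpQ hpp
    have a1 : p1 ≤ p := le_trans (le_max_left _ _) hpp
    have a2 : p2 ≤ p := le_trans (le_trans (le_max_left _ _) (le_max_right _ _)) hpp
    exact HALFr_one h1 h2 h3 h p hp hpQ a1 a2 (le_trans hp1 a1)
  choose! kk hkk using hone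
  refine ⟨kk, fun p hp hpQ hpp => (hkk p hp hpQ hpp).1, ?_⟩
  set A := Bl S Q q0 with hA
  set B := Bl S Q r0 with hB
  set P' := P.filter (fun p => p ∉ Q ∧ p0 ≤ p) with hP'
  have hFF0 : 0 ≤ FF K A B := Finset.sum_nonneg fun q _ => Finset.sum_nonneg fun r _ => h.hK q r
  have hpt : ∀ q r, K q r ≤ KO P Q p0 kk K q r +
      ∑ p ∈ P', (if q.factorization p ≠ kk p ∧ r.factorization p ≠ kk p then K q r else 0) := by
    intro q r
    have hnn : ∀ p ∈ P', (0 : ℝ) ≤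
        (if q.factorization p ≠ kk p ∧ r.factorization p ≠ kk p then K q r else 0) := by
      intro p _
      split_ifs
      · exact h.hK q r
      · exact le_rfl
    unfold KO
    by_cases hok : OK P Q p0 kk q r
    · rw [if_pos hok]
      have := Finset.sum_nonneg hnn
      linarith
    · rw [if_neg hok, zero_add]
      unfold OK at hok
      push Not at hok
      obtain ⟨p, hp, hpQ, hpp, hne1, hne2⟩ := hok
      have hmem : p ∈ P' := Finset.mem_filter.2 ⟨hp, hpQ, hpp⟩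
      refine le_trans ?_ (Finset.single_le_sum hnn hmem)
      rw [if_pos ⟨hne1, hne2⟩]
  have hsum : FF K A B ≤ FF (KO P Q p0 kk K) A B + ∑ p ∈ P', ∑ q ∈ A, ∑ r ∈ B,
      (if q.factorization p ≠ kk p ∧ r.factorization p ≠ kk p then K q r else 0) := by
    have e : ∑ p ∈ P', ∑ q ∈ A, ∑ r ∈ B,
        (if q.factorization p ≠ kk p ∧ r.factorization p ≠ kk p then K q r else 0) =
        ∑ q ∈ A, ∑ r ∈ B, ∑ p ∈ P',
        (if q.factorization p ≠ kk p ∧ r.factorization p ≠ kk p then K q r else 0) := by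
      rw [Finset.sum_comm]
      refine Finset.sum_congr rfl fun q _ => ?_
      rw [Finset.sum_comm]
    rw [e]
    unfold FF
    rw [← Finset.sum_add_distrib]
    refine Finset.sum_le_sum fun q _ => ?_
    rw [← Finset.sum_add_distrib]
    exact Finset.sum_le_sum fun r _ => hpt q r
  have hb : ∑ p ∈ P', ∑ q ∈ A, ∑ r ∈ B,
      (if q.factorization p ≠ kk p ∧ r.factorization p ≠ kk p then K q r else 0) ≤
      FF K A B * (1 / 2) := by
    calc ∑ p ∈ P', ∑ q ∈ A, ∑ r ∈ B,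
        (if q.factorization p ≠ kk p ∧ r.factorization p ≠ kk p then K q r else 0)
        ≤ ∑ p ∈ P', FF K A B * (C3 * (p : ℝ) ^ (-(117 / 100) : ℝ)) := by
          refine Finset.sum_le_sum fun p hp => ?_
          obtain ⟨a1, a2, a3⟩ := Finset.mem_filter.1 hp
          exact (hkk p a1 a2 a3).2
      _ = FF K A B * ∑ p ∈ P', C3 * (p : ℝ) ^ (-(117 / 100) : ℝ) := by rw [Finset.mul_sum]
      _ ≤ FF K A B * (1 / 2) := by
          refine mul_le_mul_of_nonneg_left (h4 P' ?_) hFF0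
          intro p hp
          obtain ⟨a1, a2, a3⟩ := Finset.mem_filter.1 hp
          exact le_trans (le_trans (le_max_right _ _) (le_max_right _ _)) a3
  linarith

end Vale.Agent.P028W
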