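import Vale.Agent.P028W.Defs
import Vale.Agent.P028W.THr

/-!
Module MXr: copy of Vale/Agent/P028KM/MX.lean with `tr` in place of `th`.
-/

namespace Vale.Agent.P028W

open Finset MeasureTheory
open Vale.Agent.P028EV (q1 r1 Del hh Ts Bd Ad Nd)
open Vale.Agent.P028KM (w mu Dm Bl FF MN Sb ex cl OK KO th Th)

private theorem MXr_zero {S V W : Finset ℕ} {m n : ℕ → ℝ} {K : ℕ → ℕ → ℝ} (hm : ∀ q, 0 ≤ m q)
    (hn : ∀ q, 0 ≤ n q) (hK0 : ∀ q ∈ S, ∀ r ∈ S, m q * n r = 0 → K q r = 0)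
    (hV : V ⊆ S) (hW : W ⊆ S) (h : (∑ q ∈ V, m q) * (∑ r ∈ W, n r) = 0) : FF K V W = 0 := by
  unfold FF
  refine sum_eq_zero fun q hq => sum_eq_zero fun r hr => hK0 q (hV hq) r (hW hr) ?_
  rcases mul_eq_zero.1 h with h1 | h1
  · rw [(sum_eq_zero_iff_of_nonneg fun i _ => hm i).1 h1 q hq, zero_mul]
  · rw [(sum_eq_zero_iff_of_nonneg fun i _ => hn i).1 h1 r hr, mul_zero]

private theorem MXr_ThQ_pos {ρ : ℕ → ℝ} (hρ : ∀ p, 1 ≤ ρ p) {η : ℝ} {P Q : Finset ℕ}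
    (hP : ∀ p ∈ P, p.Prime) (hQ : Q ⊆ P) (a b : ℕ) : 0 < TrQ ρ η Q a b := by
  unfold TrQ
  exact prod_pos fun p hp => tr_pos ρ hρ η p _ _ (hP p (hQ hp)).two_le

private theorem MXr_Bl (S Q : Finset ℕ) (a : ℕ) : Bl S Q a ⊆ S := filter_subset _ _

private theorem MXr_Bl_empty (S : Finset ℕ) (a : ℕ) : Bl S ∅ a = S := by
  unfold Bl
  simp

theorem mxr (ρ : ℕ → ℝ) (R0 : ℝ) (hρ1 : ∀ p, 1 ≤ ρ p) (hρ2 : ∀ p, ρ p ≤ R0)
    (η : ℝ) (hη0 : 0 ≤ η) (hη1 : η ≤ 1 / 40) (P S : Finset ℕ) (hP : ∀ p ∈ P, p.Prime)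
    (hS : ∀ q ∈ S, 0 < q ∧ q.primeFactors ⊆ P)
    (m n : ℕ → ℝ) (K : ℕ → ℕ → ℝ) (hm : ∀ q, 0 ≤ m q) (hn : ∀ q, 0 ≤ n q)
    (hK : ∀ q r, 0 ≤ K q r) (hK0 : ∀ q ∈ S, ∀ r ∈ S, m q * n r = 0 → K q r = 0)
    (hpos : 0 < FF K S S) :
    ∃ (Q : Finset ℕ) (q0 r0 : ℕ) (c : ℝ), Mr ρ R0 η P S Q m n K q0 r0 c := by
  have hSne : S.Nonempty := by
    rw [nonempty_iff_ne_empty]
    intro h
    rw [h] at hpos
    unfold FF at hpos
    simp at hpos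
  obtain ⟨a0, ha0⟩ := hSne
  set T : Finset (Finset ℕ × ℕ × ℕ) := P.powerset ×ˢ (S ×ˢ S) with hT
  have hTne : T.Nonempty := by
    refine ⟨(∅, a0, a0), ?_⟩
    rw [hT, mem_product, mem_product]
    exact ⟨empty_mem_powerset P, ha0, ha0⟩
  obtain ⟨⟨Q, q0, r0⟩, hmem, hmax⟩ := exists_max_image T
    (fun t => FF K (Bl S t.1 t.2.1) (Bl S t.1 t.2.2) /
      (TrQ ρ η t.1 t.2.1 t.2.2 * MN m n (Bl S t.1 t.2.1) (Bl S t.1 t.2.2))) hTne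
  rw [hT, mem_product, mem_product, mem_powerset] at hmem
  obtain ⟨hQ, hq0, hr0⟩ := hmem
  dsimp only at hQ hq0 hr0 hmax
  obtain ⟨c, hcdef⟩ : ∃ c, c = FF K (Bl S Q q0) (Bl S Q r0) /
      (TrQ ρ η Q q0 r0 * MN m n (Bl S Q q0) (Bl S Q r0)) := ⟨_, rfl⟩
  rw [← hcdef] at hmax
  have hsum : ∀ V : Finset ℕ, 0 ≤ ∑ q ∈ V, m q := fun V => sum_nonneg fun i _ => hm i
  have hsumn : ∀ V : Finset ℕ, 0 ≤ ∑ q ∈ V, n q := fun V => sum_nonneg fun i _ => hn i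
  have hMN0 : ∀ V W : Finset ℕ, 0 ≤ MN m n V W := fun V W =>
    Real.rpow_nonneg (mul_nonneg (hsum V) (hsumn W)) _
  have hMNz : ∀ V W : Finset ℕ, MN m n V W = 0 → (∑ q ∈ V, m q) * (∑ r ∈ W, n r) = 0 := by
    intro V W h
    unfold MN at h
    exact (Real.rpow_eq_zero (mul_nonneg (hsum V) (hsumn W)) (by norm_num)).1 h
  have hc : 0 < c := by
    have h1 := hmax (∅, a0, a0) (by
      rw [hT, mem_product, mem_product]
      exact ⟨empty_mem_powerset P, ha0, ha0⟩)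
    dsimp only at h1
    rw [MXr_Bl_empty] at h1
    refine lt_of_lt_of_le ?_ h1
    refine div_pos hpos (mul_pos ?_ ?_)
    · exact MXr_ThQ_pos hρ1 hP (empty_subset P) _ _
    · refine lt_of_le_of_ne (hMN0 S S) fun h => ?_
      have h2 := MXr_zero hm hn hK0 (Subset.refl S) (Subset.refl S) (hMNz S S h.symm)
      exact absurd h2 hpos.ne'
  have hden : TrQ ρ η Q q0 r0 * MN m n (Bl S Q q0) (Bl S Q r0) ≠ 0 := by
    intro h
    rw [h, div_zero] at hcdef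
    exact absurd hcdef hc.ne'
  have hMNne : MN m n (Bl S Q q0) (Bl S Q r0) ≠ 0 := right_ne_zero_of_mul hden
  have hprod : (∑ q ∈ Bl S Q q0, m q) * (∑ r ∈ Bl S Q r0, n r) ≠ 0 := by
    intro h
    apply hMNne
    unfold MN
    rw [h]
    exact Real.zero_rpow (by norm_num)
  refine ⟨Q, q0, r0, c, ⟨hρ1, hρ2, hη0, hη1, hP, hS, hm, hn, hK, hQ, hq0, hr0, hc, ?_, ?_, ?_, ?_⟩⟩
  · rw [mul_assoc, hcdef, div_mul_cancel₀ _ hden]
  · exact lt_of_le_of_ne (hsum _) (Ne.symm (left_ne_zero_of_mul hprod))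
  · exact lt_of_le_of_ne (hsumn _) (Ne.symm (right_ne_zero_of_mul hprod))
  · intro Q' hQ' a ha b hb
    have hTh := MXr_ThQ_pos (ρ := ρ) hρ1 (η := η) hP hQ' a b
    rcases eq_or_lt_of_le (hMN0 (Bl S Q' a) (Bl S Q' b)) with h | h
    · rw [MXr_zero hm hn hK0 (MXr_Bl S Q' a) (MXr_Bl S Q' b) (hMNz _ _ h.symm), ← h, mul_zero]
    · have h1 := hmax (Q', a, b) (by
        rw [hT, mem_product, mem_product, mem_powerset]
        exact ⟨hQ', ha, hb⟩)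
      dsimp only at h1
      rw [div_le_iff₀ (mul_pos hTh h)] at h1
      rw [mul_assoc]
      exact h1

end Vale.Agent.P028W
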