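import Vale.Agent.P028W.Defs
import Vale.Agent.P028KM.PN

/-!
Module PNr: `1 + ρ^(5/2) E - 1/p = (1 + E - 1/p) + (ρ^(5/2) - 1) E`, `E = 1/(p^(1-η)-1) ≤ 3 p^(-39/40)`,
`ρ^(5/2) - 1 ≤ C(R0) (ρ - 1)`; use `pn` and `1 + u + v ≤ (1+u) exp v` (`u, v ≥ 0`).
-/

namespace Vale.Agent.P028W

open Finset MeasureTheory
open Vale.Agent.P028EV (q1 r1 Del hh Ts Bd Ad Nd)
open Vale.Agent.P028KM (w mu Dm Bl FF MN Sb ex cl OK KO th Th)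

private lemma PNr_E (η : ℝ) (h0 : 0 ≤ η) (h1 : η ≤ 1 / 40) (p : ℕ) (hp : 2 ≤ p) :
    0 ≤ 1 / ((p : ℝ) ^ (1 - η) - 1) ∧
      1 / ((p : ℝ) ^ (1 - η) - 1) ≤ 3 * (p : ℝ) ^ (-(39 / 40) : ℝ) := by
  have hp2 : (2 : ℝ) ≤ p := by exact_mod_cast hp
  have hp0 : (0 : ℝ) < p := by linarith
  have hp1 : (1 : ℝ) ≤ p := by linarith
  set a : ℝ := (p : ℝ) ^ (1 - η) with ha
  have ha_pos : 0 < a := Real.rpow_pos_of_pos hp0 _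
  have ha_sq : (p : ℝ) ^ (3 / 2 : ℝ) ≤ a ^ 2 := by
    rw [ha, ← Real.rpow_natCast, ← Real.rpow_mul hp0.le]
    refine Real.rpow_le_rpow_of_exponent_le hp1 ?_
    push_cast
    linarith
  have h32 : (9 / 4 : ℝ) ≤ (p : ℝ) ^ (3 / 2 : ℝ) := by
    have h2 : (2 : ℝ) ^ (3 / 2 : ℝ) ≤ (p : ℝ) ^ (3 / 2 : ℝ) :=
      Real.rpow_le_rpow (by norm_num) hp2 (by norm_num)
    refine le_trans ?_ h2
    have h3 : ((2 : ℝ) ^ (3 / 2 : ℝ)) ^ 2 = 8 := by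
      rw [← Real.rpow_natCast, ← Real.rpow_mul (by norm_num)]
      norm_num
    have h4 : 0 ≤ (2 : ℝ) ^ (3 / 2 : ℝ) := by positivity
    nlinarith
  have ha32 : (3 / 2 : ℝ) ≤ a := by
    nlinarith
  have ham : 0 < a - 1 := by linarith
  have ham3 : a / 3 ≤ a - 1 := by linarith
  refine ⟨by positivity, ?_⟩
  have hb : 0 < (p : ℝ) ^ (39 / 40 : ℝ) := Real.rpow_pos_of_pos hp0 _
  have hba : (p : ℝ) ^ (39 / 40 : ℝ) ≤ a := by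
    rw [ha]
    exact Real.rpow_le_rpow_of_exponent_le hp1 (by linarith)
  calc 1 / (a - 1) ≤ 1 / (a / 3) := one_div_le_one_div_of_le (by positivity) ham3
    _ = 3 / a := by field_simp
    _ ≤ 3 / (p : ℝ) ^ (39 / 40 : ℝ) := div_le_div_of_nonneg_left (by norm_num) hb hba
    _ = 3 * (p : ℝ) ^ (-(39 / 40) : ℝ) := by
        rw [Real.rpow_neg hp0.le]; rfl

private lemma PNr_rho {R0 r : ℝ} (h1 : 1 ≤ r) (h2 : r ≤ R0) :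
    0 ≤ r ^ (5 / 2 : ℝ) - 1 ∧ r ^ (5 / 2 : ℝ) - 1 ≤ 3 * R0 ^ 2 * (r - 1) := by
  constructor
  · have := Real.one_le_rpow h1 (by norm_num : (0 : ℝ) ≤ 5 / 2)
    linarith
  · have h3 : r ^ (5 / 2 : ℝ) ≤ r ^ (3 : ℝ) :=
      Real.rpow_le_rpow_of_exponent_le h1 (by norm_num)
    have h4 : r ^ (3 : ℝ) = r ^ 3 := by
      rw [← Real.rpow_natCast]
      norm_num
    rw [h4] at h3
    have h5 : r ^ 2 ≤ R0 ^ 2 := pow_le_pow_left₀ (by linarith) h2 2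
    have h6 : r ≤ r ^ 2 := by nlinarith
    have h7 : 1 ≤ r ^ 2 := by nlinarith
    have h8 : r ^ 3 - 1 = (r ^ 2 + r + 1) * (r - 1) := by ring
    have h9 : (r ^ 2 + r + 1) * (r - 1) ≤ (3 * R0 ^ 2) * (r - 1) :=
      mul_le_mul_of_nonneg_right (by linarith) (by linarith)
    linarith

theorem pnr (R0 : ℝ) (hR0 : 1 ≤ R0) : ∃ C6 : ℝ, 0 < C6 ∧ ∀ η : ℝ, 0 ≤ η → η ≤ 1 / 40 →
    ∀ ρ : ℕ → ℝ, (∀ p, 1 ≤ ρ p) → (∀ p, ρ p ≤ R0) → ∀ X : ℝ, 2 ≤ X → ∀ N : Finset ℕ,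
    (∀ p ∈ N, 2 ≤ p) → (N.card : ℝ) ≤ 3 * Real.log X → ∀ G : ℝ,
    ∑ p ∈ N, (ρ p - 1) * (p : ℝ) ^ (-(39 / 40) : ℝ) ≤ G →
    ∏ p ∈ N, (1 + ((ρ p) ^ (5 / 2 : ℝ) / ((p : ℝ) ^ (1 - η) - 1) - 1 / (p : ℝ)))
      ≤ Real.exp (C6 * (1 + η * (Real.log X) ^ (1 / 2 : ℝ) + G)) := by
  obtain ⟨C, hC, hpn⟩ := Vale.Agent.P028KM.pn
  refine ⟨C + 9 * R0 ^ 2, by positivity, ?_⟩
  intro η h0 h1 ρ hρ1 hρ2 X hX N hN hcard G hG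
  have hmain := hpn η h0 h1 X hX N hN hcard
  have hlogX : 0 ≤ Real.log X := Real.log_nonneg (by linarith)
  have hterm : ∀ p ∈ N, 0 ≤ 1 / ((p : ℝ) ^ (1 - η) - 1) - 1 / (p : ℝ) := fun p hp =>
    (Vale.Agent.P028KM.pn_term η h0 h1 p (hN p hp)).1
  have hE := fun p hp => PNr_E η h0 h1 p (hN p hp)
  have hS0 : 0 ≤ ∑ p ∈ N, (ρ p - 1) * (p : ℝ) ^ (-(39 / 40) : ℝ) :=
    Finset.sum_nonneg fun p _ => mul_nonneg (by linarith [hρ1 p])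
      (Real.rpow_nonneg (Nat.cast_nonneg _) _)
  have hG0 : 0 ≤ G := hS0.trans hG
  have hv : ∀ p ∈ N, ((ρ p) ^ (5 / 2 : ℝ) - 1) * (1 / ((p : ℝ) ^ (1 - η) - 1)) ≤
      9 * R0 ^ 2 * ((ρ p - 1) * (p : ℝ) ^ (-(39 / 40) : ℝ)) := by
    intro p hp
    have hr := PNr_rho (hρ1 p) (hρ2 p)
    have he := hE p hp
    have hr1 : 0 ≤ 3 * R0 ^ 2 * (ρ p - 1) := hr.1.trans hr.2
    calc ((ρ p) ^ (5 / 2 : ℝ) - 1) * (1 / ((p : ℝ) ^ (1 - η) - 1))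
        ≤ (3 * R0 ^ 2 * (ρ p - 1)) * (3 * (p : ℝ) ^ (-(39 / 40) : ℝ)) :=
          mul_le_mul hr.2 he.2 he.1 hr1
      _ = 9 * R0 ^ 2 * ((ρ p - 1) * (p : ℝ) ^ (-(39 / 40) : ℝ)) := by ring
  have hv0 : ∀ p ∈ N, 0 ≤ ((ρ p) ^ (5 / 2 : ℝ) - 1) * (1 / ((p : ℝ) ^ (1 - η) - 1)) :=
    fun p hp => mul_nonneg (PNr_rho (hρ1 p) (hρ2 p)).1 (hE p hp).1
  have hsplit : ∀ p ∈ N, 1 + ((ρ p) ^ (5 / 2 : ℝ) / ((p : ℝ) ^ (1 - η) - 1) - 1 / (p : ℝ)) ≤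
      (1 + (1 / ((p : ℝ) ^ (1 - η) - 1) - 1 / (p : ℝ))) *
        Real.exp (((ρ p) ^ (5 / 2 : ℝ) - 1) * (1 / ((p : ℝ) ^ (1 - η) - 1))) := by
    intro p hp
    have hu := hterm p hp
    have hvv := hv0 p hp
    have he := Real.add_one_le_exp (((ρ p) ^ (5 / 2 : ℝ) - 1) * (1 / ((p : ℝ) ^ (1 - η) - 1)))
    have e1 : 1 + ((ρ p) ^ (5 / 2 : ℝ) / ((p : ℝ) ^ (1 - η) - 1) - 1 / (p : ℝ)) =
        1 + (1 / ((p : ℝ) ^ (1 - η) - 1) - 1 / (p : ℝ)) +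
          ((ρ p) ^ (5 / 2 : ℝ) - 1) * (1 / ((p : ℝ) ^ (1 - η) - 1)) := by ring
    rw [e1]
    generalize 1 / ((p : ℝ) ^ (1 - η) - 1) - 1 / (p : ℝ) = u at hu ⊢
    generalize ((ρ p) ^ (5 / 2 : ℝ) - 1) * (1 / ((p : ℝ) ^ (1 - η) - 1)) = v at hvv he ⊢
    nlinarith [mul_nonneg hu hvv, mul_le_mul_of_nonneg_left he (by linarith : (0 : ℝ) ≤ 1 + u)]
  have hnn : ∀ p ∈ N, 0 ≤ 1 + ((ρ p) ^ (5 / 2 : ℝ) / ((p : ℝ) ^ (1 - η) - 1) - 1 / (p : ℝ)) := by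
    intro p hp
    have hu := hterm p hp
    have hvv := hv0 p hp
    have e1 : 1 + ((ρ p) ^ (5 / 2 : ℝ) / ((p : ℝ) ^ (1 - η) - 1) - 1 / (p : ℝ)) =
        1 + (1 / ((p : ℝ) ^ (1 - η) - 1) - 1 / (p : ℝ)) +
          ((ρ p) ^ (5 / 2 : ℝ) - 1) * (1 / ((p : ℝ) ^ (1 - η) - 1)) := by ring
    rw [e1]
    linarith
  calc ∏ p ∈ N, (1 + ((ρ p) ^ (5 / 2 : ℝ) / ((p : ℝ) ^ (1 - η) - 1) - 1 / (p : ℝ)))
      ≤ ∏ p ∈ N, ((1 + (1 / ((p : ℝ) ^ (1 - η) - 1) - 1 / (p : ℝ))) *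
        Real.exp (((ρ p) ^ (5 / 2 : ℝ) - 1) * (1 / ((p : ℝ) ^ (1 - η) - 1)))) :=
        Finset.prod_le_prod hnn hsplit
    _ = (∏ p ∈ N, (1 + (1 / ((p : ℝ) ^ (1 - η) - 1) - 1 / (p : ℝ)))) *
        Real.exp (∑ p ∈ N, ((ρ p) ^ (5 / 2 : ℝ) - 1) * (1 / ((p : ℝ) ^ (1 - η) - 1))) := by
        rw [Finset.prod_mul_distrib, Real.exp_sum]
    _ ≤ Real.exp (C * (1 + η * (Real.log X) ^ (1 / 2 : ℝ))) * Real.exp (9 * R0 ^ 2 * G) := by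
        refine mul_le_mul hmain ?_ (Real.exp_nonneg _) (Real.exp_nonneg _)
        refine Real.exp_le_exp.mpr ?_
        refine (Finset.sum_le_sum hv).trans ?_
        rw [← Finset.mul_sum]
        exact mul_le_mul_of_nonneg_left hG (by positivity)
    _ = Real.exp (C * (1 + η * (Real.log X) ^ (1 / 2 : ℝ)) + 9 * R0 ^ 2 * G) := by
        rw [Real.exp_add]
    _ ≤ Real.exp ((C + 9 * R0 ^ 2) * (1 + η * (Real.log X) ^ (1 / 2 : ℝ) + G)) := by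
        refine Real.exp_le_exp.mpr ?_
        have hL0 : 0 ≤ η * (Real.log X) ^ (1 / 2 : ℝ) :=
          mul_nonneg h0 (Real.rpow_nonneg hlogX _)
        have h1 : 0 ≤ C * G := mul_nonneg hC.le hG0
        have h2 : 0 ≤ 9 * R0 ^ 2 * (1 + η * (Real.log X) ^ (1 / 2 : ℝ)) :=
          mul_nonneg (by positivity) (by linarith)
        nlinarith

end Vale.Agent.P028W
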