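import Vale.Agent.P028W.Defs
import Vale.Agent.P028W.THr
import Vale.Agent.P028KM.NS
import Vale.Agent.P028KM.NB

/-!
Module NBr: copy of Vale/Agent/P028KM/NB.lean: the off-diagonal entries are multiplied by `ρ p`,
so `(G+H)(x) ≤ ((1-1/p) + ρ^(5/2)/(p^(1-η)-1))^(2/5) (∑x)^(3/5)`. For `p < p0`: `8 R0` (`ns`).
-/

namespace Vale.Agent.P028W

open Finset MeasureTheory
open Vale.Agent.P028EV (q1 r1 Del hh Ts Bd Ad Nd)
open Vale.Agent.P028KM (w mu Dm Bl FF MN Sb ex cl OK KO th Th NB_one NB_holder NB_geom ns)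

/-- NBr auxiliary weights -/
noncomputable def NBrg (s η : ℝ) (p κ k : ℕ) : ℝ :=
  if k = κ then (1 - 1 / (p : ℝ)) ^ (2 / 5 : ℝ) else
    if k < κ then s * (p : ℝ) ^ (-(2 / 5 : ℝ) * (1 - η) * ((κ : ℝ) - k)) else 0

lemma NBrg_nonneg (s η : ℝ) (hs : 1 ≤ s) (p : ℕ) (hp : 2 ≤ p) (κ k : ℕ) :
    0 ≤ NBrg s η p κ k := by
  unfold NBrg
  have := (NB_one p hp).1
  have h0 : 0 ≤ s := by linarith
  split_ifs <;> positivity

lemma NBr_th_nonneg (η : ℝ) (p : ℕ) (hp : 2 ≤ p) (k l : ℕ) : 0 ≤ th η p k l := by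
  unfold th
  have := (NB_one p hp).1
  positivity

lemma NBr_mat (ρ : ℕ → ℝ) (hρ1 : ∀ p, 1 ≤ ρ p) (η : ℝ) (p0 : ℕ) (kk : ℕ → ℕ) (p : ℕ)
    (hp : 2 ≤ p) (hp0 : ¬ p < p0) (hκ : kk p ≠ 0) (k l : ℕ) :
    TTr ρ η p0 kk p k l ≤ NBrg (ρ p) η p (kk p) k * NBrg (ρ p) η p (kk p) l := by
  unfold TTr
  rw [if_neg hp0]
  obtain ⟨ha0, ha1⟩ := NB_one p hp
  have hpp : (0 : ℝ) < p := by have : 0 < p := by omega
                               exact_mod_cast this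
  have hρ0 : 0 ≤ ρ p := by linarith [hρ1 p]
  have hle : ∀ e : ℝ, 2 / 5 ≤ e → (1 - 1 / (p : ℝ)) ^ e ≤ (1 - 1 / (p : ℝ)) ^ (2 / 5 : ℝ) :=
    fun e he => Real.rpow_le_rpow_of_exponent_ge ha0 ha1 he
  split_ifs with h
  · obtain ⟨hk, hl, h3⟩ := h
    unfold tr th NBrg
    by_cases hk' : k = kk p
    · by_cases hl' : l = kk p
      · rw [if_pos hk', if_pos hl', ← Real.rpow_add ha0]
        have : |((k : ℝ)) - l| = 0 := by rw [hk', hl']; simp
        rw [this, mul_zero, Real.rpow_zero, one_mul, if_pos (hk'.trans hl'.symm), mul_one]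
        apply le_of_eq
        congr 1
        rw [if_neg (by rw [hk']; exact hκ), if_neg (by rw [hl']; exact hκ)]
        norm_num
      · have hlt : l < kk p := lt_of_le_of_ne hl hl'
        have hlr : (l : ℝ) < kk p := by exact_mod_cast hlt
        have e1 : |((k : ℝ)) - l| = (kk p : ℝ) - l := by
          rw [hk', abs_of_pos (by linarith)]
        have hkl : ¬ k = l := by omega
        have hA := hle ((2 / 5 : ℝ) * ((if k = 0 then 0 else 1) + (if l = 0 then 0 else 1))) (by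
          rw [if_neg (by rw [hk']; exact hκ)]
          split_ifs <;> norm_num)
        rw [if_neg hkl, e1, if_pos hk', if_neg hl', if_pos hlt]
        have hP : 0 ≤ (p : ℝ) ^ (-(2 / 5 : ℝ) * (1 - η) * ((kk p : ℝ) - l)) := by positivity
        calc _ = (ρ p * (p : ℝ) ^ (-(2 / 5 : ℝ) * (1 - η) * ((kk p : ℝ) - l))) *
              (1 - 1 / (p : ℝ)) ^ ((2 / 5 : ℝ) * ((if k = 0 then 0 else 1) +
                (if l = 0 then 0 else 1))) := by ring
          _ ≤ (ρ p * (p : ℝ) ^ (-(2 / 5 : ℝ) * (1 - η) * ((kk p : ℝ) - l))) *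
              (1 - 1 / (p : ℝ)) ^ (2 / 5 : ℝ) :=
            mul_le_mul_of_nonneg_left hA (mul_nonneg hρ0 hP)
          _ = _ := by ring
    · have hl' : l = kk p := h3.resolve_left hk'
      have hlt : k < kk p := lt_of_le_of_ne hk hk'
      have hlr : (k : ℝ) < kk p := by exact_mod_cast hlt
      have e1 : |((k : ℝ)) - l| = (kk p : ℝ) - k := by
        rw [hl', abs_of_neg (by linarith)]; ring
      have hkl : ¬ k = l := by omega
      have hA := hle ((2 / 5 : ℝ) * ((if k = 0 then 0 else 1) + (if l = 0 then 0 else 1))) (by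
        rw [if_neg (by rw [hl']; exact hκ : ¬ l = 0)]
        split_ifs <;> norm_num)
      rw [if_neg hkl, e1, if_neg hk', if_pos hl', if_pos hlt]
      have hP : 0 ≤ (p : ℝ) ^ (-(2 / 5 : ℝ) * (1 - η) * ((kk p : ℝ) - k)) := by positivity
      calc _ = (ρ p * (p : ℝ) ^ (-(2 / 5 : ℝ) * (1 - η) * ((kk p : ℝ) - k))) *
            (1 - 1 / (p : ℝ)) ^ ((2 / 5 : ℝ) * ((if k = 0 then 0 else 1) +
              (if l = 0 then 0 else 1))) := by ring
        _ ≤ (ρ p * (p : ℝ) ^ (-(2 / 5 : ℝ) * (1 - η) * ((kk p : ℝ) - k))) *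
            (1 - 1 / (p : ℝ)) ^ (2 / 5 : ℝ) :=
          mul_le_mul_of_nonneg_left hA (mul_nonneg hρ0 hP)
  · exact mul_nonneg (NBrg_nonneg _ η (hρ1 p) p hp _ _) (NBrg_nonneg _ η (hρ1 p) p hp _ _)

lemma NBr_sum (s η : ℝ) (hs : 1 ≤ s) (hη0 : 0 ≤ η) (hη1 : η ≤ 1 / 40) (p : ℕ) (hp : 2 ≤ p)
    (κ L : ℕ) :
    ∑ k ∈ range L, NBrg s η p κ k ^ (5 / 2 : ℝ) ≤
      1 + (s ^ (5 / 2 : ℝ) / ((p : ℝ) ^ (1 - η) - 1) - 1 / (p : ℝ)) := by
  obtain ⟨ha0, ha1⟩ := NB_one p hp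
  have hp2 : (2 : ℝ) ≤ p := by exact_mod_cast hp
  have hpp : (0 : ℝ) < p := by linarith
  have hs0 : 0 ≤ s := by linarith
  have h1 : ∑ k ∈ range L, NBrg s η p κ k ^ (5 / 2 : ℝ) ≤
      ∑ k ∈ range (κ + 1), NBrg s η p κ k ^ (5 / 2 : ℝ) := by
    have e1 : ∑ k ∈ range (κ + 1), NBrg s η p κ k ^ (5 / 2 : ℝ) =
        ∑ k ∈ range (max L (κ + 1)), NBrg s η p κ k ^ (5 / 2 : ℝ) := by
      refine Finset.sum_subset (Finset.range_mono (le_max_right _ _)) fun k _ hk => ?_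
      have h2 : ¬ k < κ + 1 := fun h => hk (Finset.mem_range.mpr h)
      unfold NBrg
      rw [if_neg (by omega), if_neg (by omega), Real.zero_rpow (by norm_num)]
    rw [e1]
    exact Finset.sum_le_sum_of_subset_of_nonneg (Finset.range_mono (le_max_left _ _))
      fun k _ _ => Real.rpow_nonneg (NBrg_nonneg s η hs p hp _ k) _
  refine h1.trans ?_
  rw [Finset.sum_range_succ]
  have h2 : NBrg s η p κ κ ^ (5 / 2 : ℝ) = 1 - 1 / (p : ℝ) := by
    unfold NBrg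
    rw [if_pos rfl, ← Real.rpow_mul ha0.le]; norm_num
  set r : ℝ := (p : ℝ) ^ (-(1 - η)) with hr
  have hr0 : 0 < r := by positivity
  have hP : 1 < (p : ℝ) ^ (1 - η) := Real.one_lt_rpow (by linarith) (by linarith)
  have hr1 : r < 1 := by
    rw [hr, Real.rpow_neg hpp.le]; exact inv_lt_one_of_one_lt₀ hP
  have h3 : ∀ k ∈ range κ, NBrg s η p κ k ^ (5 / 2 : ℝ) = s ^ (5 / 2 : ℝ) * r ^ (κ - k) := by
    intro k hk
    have hk' := Finset.mem_range.mp hk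
    unfold NBrg
    rw [if_neg hk'.ne, if_pos hk', Real.mul_rpow hs0 (by positivity), ← Real.rpow_mul hpp.le, hr,
      ← Real.rpow_natCast, ← Real.rpow_mul hpp.le, Nat.cast_sub hk'.le]
    congr 2
    ring
  rw [Finset.sum_congr rfl h3, h2, ← Finset.mul_sum]
  have h4 := NB_geom r hr0 hr1 κ
  have h5 : r / (1 - r) = 1 / ((p : ℝ) ^ (1 - η) - 1) := by
    have e : r = ((p : ℝ) ^ (1 - η))⁻¹ := by rw [hr, Real.rpow_neg hpp.le]
    rw [e]
    have h6 : (p : ℝ) ^ (1 - η) ≠ 0 := by positivity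
    have h7 : (p : ℝ) ^ (1 - η) - 1 ≠ 0 := by linarith
    have h8 : 1 - ((p : ℝ) ^ (1 - η))⁻¹ ≠ 0 := by
      rw [← e]; linarith
    field_simp
  rw [h5] at h4
  have hs5 : 0 ≤ s ^ (5 / 2 : ℝ) := by positivity
  have h9 := mul_le_mul_of_nonneg_left h4 hs5
  have h10 : s ^ (5 / 2 : ℝ) * (1 / ((p : ℝ) ^ (1 - η) - 1)) =
      s ^ (5 / 2 : ℝ) / ((p : ℝ) ^ (1 - η) - 1) := by ring
  rw [h10] at h9
  linarith

theorem nbr (ρ : ℕ → ℝ) (R0 : ℝ) (hρ1 : ∀ p, 1 ≤ ρ p) (hρ2 : ∀ p, ρ p ≤ R0)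
    (η : ℝ) (hη0 : 0 ≤ η) (hη1 : η ≤ 1 / 40) (p0 : ℕ) (kk : ℕ → ℕ) (p : ℕ) (hp : 2 ≤ p)
    (L : ℕ) (x y : ℕ → ℝ) (hx : ∀ k, 0 ≤ x k) (hy : ∀ k, 0 ≤ y k) :
    ∑ k ∈ range L, ∑ l ∈ range L, TTr ρ η p0 kk p k l * (x k * y l) ^ (3 / 5 : ℝ)
      ≤ NNr ρ R0 η p0 kk p * ((∑ k ∈ range L, x k) * (∑ k ∈ range L, y k)) ^ (3 / 5 : ℝ) := by
  have hX : 0 ≤ ∑ k ∈ range L, x k := Finset.sum_nonneg fun k _ => hx k
  have hY : 0 ≤ ∑ k ∈ range L, y k := Finset.sum_nonneg fun k _ => hy k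
  have hR0 : 1 ≤ R0 := (hρ1 p).trans (hρ2 p)
  by_cases hp0 : p < p0
  · have h := ns η hη0 hη1 p hp L x y hx hy
    unfold NNr
    rw [if_pos hp0]
    have h' := mul_le_mul_of_nonneg_left h (show 0 ≤ R0 by linarith)
    have h'' : R0 * (8 * ((∑ k ∈ range L, x k) * (∑ k ∈ range L, y k)) ^ (3 / 5 : ℝ)) =
        8 * R0 * ((∑ k ∈ range L, x k) * (∑ k ∈ range L, y k)) ^ (3 / 5 : ℝ) := by ring
    rw [h''] at h'
    refine le_trans ?_ h'
    rw [Finset.mul_sum]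
    refine Finset.sum_le_sum fun k _ => ?_
    rw [Finset.mul_sum]
    refine Finset.sum_le_sum fun l _ => ?_
    unfold TTr
    rw [if_pos hp0]
    unfold tr
    have h0 := NBr_th_nonneg η p hp k l
    have h1 : (if k = l then (1 : ℝ) else ρ p) ≤ R0 := by
      split_ifs
      · exact hR0
      · exact hρ2 p
    have h2 : 0 ≤ (x k * y l) ^ (3 / 5 : ℝ) := Real.rpow_nonneg (mul_nonneg (hx k) (hy l)) _
    calc th η p k l * (if k = l then (1 : ℝ) else ρ p) * (x k * y l) ^ (3 / 5 : ℝ)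
        = (th η p k l * (x k * y l) ^ (3 / 5 : ℝ)) * (if k = l then (1 : ℝ) else ρ p) := by ring
      _ ≤ (th η p k l * (x k * y l) ^ (3 / 5 : ℝ)) * R0 :=
          mul_le_mul_of_nonneg_left h1 (mul_nonneg h0 h2)
      _ = R0 * (th η p k l * (x k * y l) ^ (3 / 5 : ℝ)) := by ring
  by_cases hκ : kk p = 0
  · unfold NNr
    rw [if_neg hp0, if_pos hκ, one_mul]
    rcases Nat.eq_zero_or_pos L with hL | hL
    · subst hL; simp
    · have h0 : ∀ k l, TTr ρ η p0 kk p k l * (x k * y l) ^ (3 / 5 : ℝ) =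
          if k = 0 then (if l = 0 then (x 0 * y 0) ^ (3 / 5 : ℝ) else 0) else 0 := by
        intro k l
        unfold TTr
        rw [if_neg hp0, hκ]
        by_cases hk : k = 0
        · by_cases hl : l = 0
          · subst hk hl; simp [th, tr]
          · subst hk; simp [hl]
        · simp [hk]
      have h1 : ∀ k, ∑ l ∈ range L, TTr ρ η p0 kk p k l * (x k * y l) ^ (3 / 5 : ℝ) =
          if k = 0 then (x 0 * y 0) ^ (3 / 5 : ℝ) else 0 := by
        intro k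
        by_cases hk : k = 0
        · rw [if_pos hk, Finset.sum_eq_single_of_mem 0 (Finset.mem_range.mpr hL)]
          · rw [h0, if_pos hk, if_pos rfl]
          · intro l _ hl
            rw [h0, if_pos hk, if_neg hl]
        · rw [if_neg hk]
          exact Finset.sum_eq_zero fun l _ => by rw [h0, if_neg hk]
      rw [Finset.sum_congr rfl fun k _ => h1 k, Finset.sum_eq_single_of_mem 0
        (Finset.mem_range.mpr hL) (fun k _ hk => if_neg hk), if_pos rfl]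
      refine Real.rpow_le_rpow (mul_nonneg (hx 0) (hy 0)) ?_ (by norm_num)
      exact mul_le_mul (Finset.single_le_sum (fun k _ => hx k) (Finset.mem_range.mpr hL))
        (Finset.single_le_sum (fun k _ => hy k) (Finset.mem_range.mpr hL)) (hy 0) hX
  · unfold NNr
    rw [if_neg hp0, if_neg hκ]
    set N : ℝ := 1 + ((ρ p) ^ (5 / 2 : ℝ) / ((p : ℝ) ^ (1 - η) - 1) - 1 / (p : ℝ)) with hN
    have hp2 : (2 : ℝ) ≤ p := by exact_mod_cast hp
    have hN1 : 1 ≤ N := by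
      have hP : 1 < (p : ℝ) ^ (1 - η) := Real.one_lt_rpow (by linarith) (by linarith)
      have hPp : (p : ℝ) ^ (1 - η) ≤ p := by
        calc (p : ℝ) ^ (1 - η) ≤ (p : ℝ) ^ (1 : ℝ) :=
              Real.rpow_le_rpow_of_exponent_le (by linarith) (by linarith)
          _ = p := Real.rpow_one _
      have h1 : 1 / (p : ℝ) ≤ 1 / ((p : ℝ) ^ (1 - η) - 1) := by
        apply one_div_le_one_div_of_le <;> linarith
      have h2 : (1 : ℝ) ≤ (ρ p) ^ (5 / 2 : ℝ) := Real.one_le_rpow (hρ1 p) (by norm_num)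
      have h3 : 1 / ((p : ℝ) ^ (1 - η) - 1) ≤ (ρ p) ^ (5 / 2 : ℝ) / ((p : ℝ) ^ (1 - η) - 1) :=
        div_le_div_of_nonneg_right h2 (by linarith)
      linarith
    have hG : ∀ z : ℕ → ℝ, (∀ k, 0 ≤ z k) →
        ∑ k ∈ range L, NBrg (ρ p) η p (kk p) k * z k ^ (3 / 5 : ℝ) ≤
          N ^ (2 / 5 : ℝ) * (∑ k ∈ range L, z k) ^ (3 / 5 : ℝ) := by
      intro z hz
      refine (NB_holder _ z (fun k => NBrg_nonneg (ρ p) η (hρ1 p) p hp _ k) hz (range L)).trans ?_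
      refine mul_le_mul_of_nonneg_right ?_ (Real.rpow_nonneg (Finset.sum_nonneg fun k _ => hz k) _)
      refine Real.rpow_le_rpow ?_ (NBr_sum (ρ p) η (hρ1 p) hη0 hη1 p hp (kk p) L) (by norm_num)
      exact Finset.sum_nonneg fun k _ =>
        Real.rpow_nonneg (NBrg_nonneg (ρ p) η (hρ1 p) p hp _ k) _
    calc ∑ k ∈ range L, ∑ l ∈ range L, TTr ρ η p0 kk p k l * (x k * y l) ^ (3 / 5 : ℝ)
        ≤ ∑ k ∈ range L, ∑ l ∈ range L, (NBrg (ρ p) η p (kk p) k * x k ^ (3 / 5 : ℝ)) *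
            (NBrg (ρ p) η p (kk p) l * y l ^ (3 / 5 : ℝ)) := by
          refine Finset.sum_le_sum fun k _ => Finset.sum_le_sum fun l _ => ?_
          rw [Real.mul_rpow (hx k) (hy l)]
          calc TTr ρ η p0 kk p k l * (x k ^ (3 / 5 : ℝ) * y l ^ (3 / 5 : ℝ)) ≤
              (NBrg (ρ p) η p (kk p) k * NBrg (ρ p) η p (kk p) l) *
                (x k ^ (3 / 5 : ℝ) * y l ^ (3 / 5 : ℝ)) :=
                mul_le_mul_of_nonneg_right (NBr_mat ρ hρ1 η p0 kk p hp hp0 hκ k l)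
                  (mul_nonneg (Real.rpow_nonneg (hx k) _) (Real.rpow_nonneg (hy l) _))
            _ = _ := by ring
      _ = (∑ k ∈ range L, NBrg (ρ p) η p (kk p) k * x k ^ (3 / 5 : ℝ)) *
            (∑ l ∈ range L, NBrg (ρ p) η p (kk p) l * y l ^ (3 / 5 : ℝ)) := by
          rw [Finset.sum_mul_sum]
      _ ≤ (N ^ (2 / 5 : ℝ) * (∑ k ∈ range L, x k) ^ (3 / 5 : ℝ)) *
            (N ^ (2 / 5 : ℝ) * (∑ k ∈ range L, y k) ^ (3 / 5 : ℝ)) := by
          refine mul_le_mul (hG x hx) (hG y hy) ?_ ?_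
          · exact Finset.sum_nonneg fun k _ => mul_nonneg (NBrg_nonneg (ρ p) η (hρ1 p) p hp _ k)
              (Real.rpow_nonneg (hy k) _)
          · exact mul_nonneg (Real.rpow_nonneg (by linarith) _) (Real.rpow_nonneg hX _)
      _ = N ^ (4 / 5 : ℝ) * ((∑ k ∈ range L, x k) * (∑ k ∈ range L, y k)) ^ (3 / 5 : ℝ) := by
          rw [Real.mul_rpow hX hY]
          have : N ^ (4 / 5 : ℝ) = N ^ (2 / 5 : ℝ) * N ^ (2 / 5 : ℝ) := by
            rw [← Real.rpow_add (by linarith)]; norm_num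
          rw [this]; ring
      _ ≤ N * ((∑ k ∈ range L, x k) * (∑ k ∈ range L, y k)) ^ (3 / 5 : ℝ) := by
          refine mul_le_mul_of_nonneg_right ?_ (Real.rpow_nonneg (mul_nonneg hX hY) _)
          calc N ^ (4 / 5 : ℝ) ≤ N ^ (1 : ℝ) :=
                Real.rpow_le_rpow_of_exponent_le hN1 (by norm_num)
            _ = N := Real.rpow_one _

end Vale.Agent.P028W
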