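import Vale.Agent.P028W.Defs
import Vale.Agent.P028W.THr
import Vale.Agent.P028KM.GC
import Vale.Agent.P028KM.TENS
import Vale.Agent.P028W.NBr

/-!
Module UPr: copy of Vale/Agent/P028KM/UP.lean.
-/

namespace Vale.Agent.P028W

open Finset MeasureTheory
open Vale.Agent.P028EV (q1 r1 Del hh Ts Bd Ad Nd)
open Vale.Agent.P028KM (w mu Dm Bl FF MN Sb ex cl OK KO th Th)

theorem UPr_TT_nonneg {ρ : ℕ → ℝ} (hρ : ∀ p, 1 ≤ ρ p) (η : ℝ) (p0 : ℕ) (kk : ℕ → ℕ) (p k l : ℕ) :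
    0 ≤ TTr ρ η p0 kk p k l := by
  unfold TTr
  split_ifs
  · exact tr_nonneg _ hρ _ _ _ _
  · exact tr_nonneg _ hρ _ _ _ _
  · exact le_rfl

theorem UPr_NN_nonneg {ρ : ℕ → ℝ} {R0 : ℝ} (hρ1 : ∀ p, 1 ≤ ρ p) (hρ2 : ∀ p, ρ p ≤ R0) {η : ℝ}
    (hη1 : η ≤ 1 / 40) (p0 : ℕ) (kk : ℕ → ℕ) (p : ℕ) (h : 2 ≤ p) :
    0 ≤ NNr ρ R0 η p0 kk p := by
  have hR0 : 1 ≤ R0 := (hρ1 0).trans (hρ2 0)
  unfold NNr
  split_ifs
  · linarith
  · norm_num
  · have h2 : (2 : ℝ) ≤ p := by exact_mod_cast h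
    have h3 : 1 < (p : ℝ) ^ (1 - η) := Real.one_lt_rpow (by linarith) (by linarith)
    have h4 : 0 ≤ (ρ p) ^ (5 / 2 : ℝ) / ((p : ℝ) ^ (1 - η) - 1) :=
      div_nonneg (Real.rpow_nonneg (by linarith [hρ1 p]) _) (by linarith)
    have h5 : 1 / (p : ℝ) ≤ 1 / 2 := one_div_le_one_div_of_le (by norm_num) h2
    linarith

theorem UPr_MN_nonneg {m n : ℕ → ℝ} (hm : ∀ q, 0 ≤ m q) (hn : ∀ q, 0 ≤ n q) (V W : Finset ℕ) :
    0 ≤ MN m n V W := by
  unfold MN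
  exact Real.rpow_nonneg (mul_nonneg (Finset.sum_nonneg fun q _ => hm q)
    (Finset.sum_nonneg fun q _ => hn q)) _

theorem UPr_cl {P Q S : Finset ℕ} {p0 : ℕ} {kk : ℕ → ℕ} {q0 : ℕ} {V' : Finset ℕ}
    (hV : V' ⊆ Bl S Q q0) {q : ℕ} (hq : q ∈ V')
    (he : ∀ p ∈ P \ Q, ∀ q' ∈ V', ex Q p0 kk p q' = ex Q p0 kk p q) :
    ∀ q' ∈ V', cl P Q p0 kk q' = cl P Q p0 kk q := by
  intro q' hq'
  unfold cl
  refine Finset.prod_congr rfl fun p hp => ?_
  by_cases hpQ : p ∈ Q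
  · have h1 := (Finset.mem_filter.1 (hV hq)).2 p hpQ
    have h2 := (Finset.mem_filter.1 (hV hq')).2 p hpQ
    unfold ex
    rw [if_pos (Or.inl hpQ), if_pos (Or.inl hpQ), h1, h2]
  · rw [he p (Finset.mem_sdiff.2 ⟨hp, hpQ⟩) q' hq']

theorem UPr_main {ρ : ℕ → ℝ} {R0 η : ℝ} {P S Q : Finset ℕ} {m n : ℕ → ℝ}
    {K : ℕ → ℕ → ℝ} {q0 r0 : ℕ} {c : ℝ} (h : Mr ρ R0 η P S Q m n K q0 r0 c) (CB : ℝ) (hCB : 0 ≤ CB)
    (hB : BASEr ρ η CB S m n K) (p0 : ℕ) (kk : ℕ → ℕ) {V' W' : Finset ℕ} (hV : V' ⊆ Bl S Q q0)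
    (hW : W' ⊆ Bl S Q r0) {q r : ℕ} (hq : q ∈ V') (hr : r ∈ W')
    (hqe : ∀ p ∈ P \ Q, ∀ q' ∈ V', ex Q p0 kk p q' = ex Q p0 kk p q)
    (hre : ∀ p ∈ P \ Q, ∀ r' ∈ W', ex Q p0 kk p r' = ex Q p0 kk p r) :
    FF (KO P Q p0 kk K) V' W' ≤ CB * TrQ ρ η Q q0 r0 *
      (∏ p ∈ P \ Q, TTr ρ η p0 kk p (ex Q p0 kk p q) (ex Q p0 kk p r)) * MN m n V' W' := by
  classical
  have hThQ : 0 ≤ TrQ ρ η Q q0 r0 := Finset.prod_nonneg fun p _ => tr_nonneg _ h.hρ1 _ _ _ _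
  have hMN := UPr_MN_nonneg h.hm h.hn V' W'
  have hVS : ∀ q' ∈ V', q' ∈ S := fun q' hq' => (Finset.mem_filter.1 (hV hq')).1
  have hWS : ∀ r' ∈ W', r' ∈ S := fun r' hr' => (Finset.mem_filter.1 (hW hr')).1
  have hclq := UPr_cl (P := P) (kk := kk) (p0 := p0) hV hq hqe
  have hclr := UPr_cl (P := P) (kk := kk) (p0 := p0) hW hr hre
  by_cases hex : ∃ q1 ∈ V', ∃ r1 ∈ W', OK P Q p0 kk q1 r1
  · obtain ⟨q1, hq1, r1, hr1, hok⟩ := hex
    have hcq0 := Vale.Agent.P028KM.cl_pos P Q h.hP p0 kk q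
    have hcr0 := Vale.Agent.P028KM.cl_pos P Q h.hP p0 kk r
    have hbase := hB (cl P Q p0 kk q) (cl P Q p0 kk r) hcq0 hcr0 V' W' hVS hWS
      (fun q' hq' => by
        rw [← hclq q' hq']
        exact Vale.Agent.P028KM.cl_dvd P Q h.hP p0 kk q' (h.hS q' (hVS q' hq')).1 (h.hS q' (hVS q' hq')).2)
      (fun r' hr' => by
        rw [← hclr r' hr']
        exact Vale.Agent.P028KM.cl_dvd P Q h.hP p0 kk r' (h.hS r' (hWS r' hr')).1 (h.hS r' (hWS r' hr')).2)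
    have h1 : FF (KO P Q p0 kk K) V' W' ≤ ∑ q' ∈ V', ∑ r' ∈ W' with
        Nat.gcd q' r' = Nat.gcd (cl P Q p0 kk q) (cl P Q p0 kk r), K q' r' := by
      unfold FF
      refine Finset.sum_le_sum fun q' hq' => ?_
      rw [Finset.sum_filter]
      refine Finset.sum_le_sum fun r' hr' => ?_
      unfold KO
      by_cases hok' : OK P Q p0 kk q' r'
      · rw [if_pos hok', if_pos]
        rw [← hclq q' hq', ← hclr r' hr']
        exact Vale.Agent.P028KM.cl_gcd P Q h.hP p0 kk q' r' (h.hS q' (hVS q' hq')).1 (h.hS r' (hWS r' hr')).1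
          (h.hS q' (hVS q' hq')).2 (h.hS r' (hWS r' hr')).2 hok'
      · rw [if_neg hok']
        split_ifs
        · exact h.hK _ _
        · exact le_rfl
    have h2 : Tr ρ η (cl P Q p0 kk q) (cl P Q p0 kk r) = TrQ ρ η Q q0 r0 *
        ∏ p ∈ P \ Q, TTr ρ η p0 kk p (ex Q p0 kk p q) (ex Q p0 kk p r) := by
      rw [Tr_eq ρ η P h.hP _ _ hcq0 hcr0 (Vale.Agent.P028KM.cl_primeFactors P Q h.hP p0 kk q)
        (Vale.Agent.P028KM.cl_primeFactors P Q h.hP p0 kk r), ← Finset.prod_sdiff h.hQ, mul_comm]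
      refine congrArg₂ _ ?_ ?_
      · unfold TrQ
        refine Finset.prod_congr rfl fun p hp => ?_
        rw [Vale.Agent.P028KM.cl_fac P Q h.hP p0 kk q p (h.hQ hp), Vale.Agent.P028KM.cl_fac P Q h.hP p0 kk r p (h.hQ hp)]
        unfold ex
        rw [if_pos (Or.inl hp), if_pos (Or.inl hp), (Finset.mem_filter.1 (hV hq)).2 p hp,
          (Finset.mem_filter.1 (hW hr)).2 p hp]
      · refine Finset.prod_congr rfl fun p hp => ?_
        have hpP : p ∈ P := (Finset.mem_sdiff.1 hp).1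
        have hpQ : p ∉ Q := (Finset.mem_sdiff.1 hp).2
        rw [Vale.Agent.P028KM.cl_fac P Q h.hP p0 kk q p hpP, Vale.Agent.P028KM.cl_fac P Q h.hP p0 kk r p hpP]
        unfold TTr
        by_cases hp0 : p < p0
        · rw [if_pos hp0]
        · have hn : ¬ (p ∈ Q ∨ p < p0) := by
            rintro (h3 | h3)
            · exact hpQ h3
            · exact hp0 h3
          have e1 : ∀ x, ex Q p0 kk p x = min (x.factorization p) (kk p) := by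
            intro x
            unfold ex
            rw [if_neg hn]
          rw [if_neg hp0, if_pos]
          refine ⟨?_, ?_, ?_⟩
          · rw [e1]
            exact min_le_right _ _
          · rw [e1]
            exact min_le_right _ _
          · rcases hok p hpP hpQ (not_lt.1 hp0) with h3 | h3
            · left
              rw [← hqe p hp q1 hq1, e1, h3, min_self]
            · right
              rw [← hre p hp r1 hr1, e1, h3, min_self]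
    rw [h2] at hbase
    refine h1.trans (hbase.trans (le_of_eq ?_))
    ring
  · have h1 : FF (KO P Q p0 kk K) V' W' = 0 := by
      unfold FF
      refine Finset.sum_eq_zero fun q' hq' => Finset.sum_eq_zero fun r' hr' => ?_
      unfold KO
      rw [if_neg]
      intro hok
      exact hex ⟨q', hq', r', hr', hok⟩
    rw [h1]
    refine mul_nonneg (mul_nonneg (mul_nonneg hCB hThQ) ?_) hMN
    exact Finset.prod_nonneg fun p _ => UPr_TT_nonneg h.hρ1 _ _ _ _ _ _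

theorem upr {ρ : ℕ → ℝ} {R0 η : ℝ} {P S Q : Finset ℕ} {m n : ℕ → ℝ}
    {K : ℕ → ℕ → ℝ} {q0 r0 : ℕ} {c : ℝ} (h : Mr ρ R0 η P S Q m n K q0 r0 c) (CB : ℝ)
    (hCB : 0 ≤ CB) (hB : BASEr ρ η CB S m n K) (p0 : ℕ) (kk : ℕ → ℕ) :
    FF (KO P Q p0 kk K) (Bl S Q q0) (Bl S Q r0)
      ≤ CB * TrQ ρ η Q q0 r0 * (∏ p ∈ P \ Q, NNr ρ R0 η p0 kk p) *
        MN m n (Bl S Q q0) (Bl S Q r0) := by
  classical
  have hThQ : 0 ≤ TrQ ρ η Q q0 r0 := Finset.prod_nonneg fun p _ => tr_nonneg _ h.hρ1 _ _ _ _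
  obtain ⟨L, hL⟩ : ∃ L, L = S.sup id + 1 := ⟨_, rfl⟩
  have hexL : ∀ p, ∀ q ∈ S, ex Q p0 kk p q < L := by
    intro p q hq
    have h1 : ex Q p0 kk p q ≤ q.factorization p := by
      unfold ex
      split_ifs
      · exact le_rfl
      · exact min_le_left _ _
    have h2 : q.factorization p < q := Nat.factorization_lt p (h.hS q hq).1.ne'
    have h3 : q ≤ S.sup id := Finset.le_sup (f := id) hq
    omega
  have hfin : ∏ p ∈ P \ Q, max 0 (NNr ρ R0 η p0 kk p) = ∏ p ∈ P \ Q, NNr ρ R0 η p0 kk p := by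
    refine Finset.prod_congr rfl fun p hp => ?_
    exact max_eq_right (UPr_NN_nonneg h.hρ1 h.hρ2 h.hη1 p0 kk p
      (h.hP p (Finset.mem_sdiff.1 hp).1).two_le)
  rw [← hfin]
  refine Vale.Agent.P028KM.tens L (TTr ρ η p0 kk) (fun p => max 0 (NNr ρ R0 η p0 kk p))
    (ex Q p0 kk) m n (KO P Q p0 kk K)
    (fun p k l => UPr_TT_nonneg h.hρ1 _ _ _ _ _ _) (fun p => le_max_left _ _) h.hm h.hn
    (fun q r => ?_) (P \ Q) (fun p hp x y hx hy => ?_) (Bl S Q q0) (Bl S Q r0)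
    (CB * TrQ ρ η Q q0 r0) (mul_nonneg hCB hThQ) (fun p _ q hq => ?_) (fun p _ q hq => ?_)
    (fun V' hV W' hW q hq r hr hqe hre => ?_)
  · unfold KO
    split_ifs
    · exact h.hK _ _
    · exact le_rfl
  · have h2 := (h.hP p (Finset.mem_sdiff.1 hp).1).two_le
    refine (nbr ρ R0 h.hρ1 h.hρ2 η h.hη0 h.hη1 p0 kk p h2 L x y hx hy).trans ?_
    exact mul_le_mul_of_nonneg_right (le_max_right _ _) (Real.rpow_nonneg
      (mul_nonneg (Finset.sum_nonneg fun k _ => hx k) (Finset.sum_nonneg fun k _ => hy k)) _)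
  · exact hexL p q (Finset.mem_filter.1 hq).1
  · exact hexL p q (Finset.mem_filter.1 hq).1
  · exact UPr_main h CB hCB hB p0 kk hV hW hq hr hqe hre

end Vale.Agent.P028W
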