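import Vale.Agent.P028W.Defs
import Vale.Agent.P028W.MXr
import Vale.Agent.P028W.HALFr
import Vale.Agent.P028W.UPr
import Vale.Agent.P028KM.OM
import Vale.Agent.P028W.PNr
import Vale.Agent.P028W.THr

/-!
Module HVWr: copy of Vale/Agent/P028KM/HVW.lean.
-/

namespace Vale.Agent.P028W

open Finset MeasureTheory
open Vale.Agent.P028EV (q1 r1 Del hh Ts Bd Ad Nd)
open Vale.Agent.P028KM (w mu Dm Bl FF MN Sb ex cl OK KO th Th)

private theorem HVWr_g_nonneg {ρ : ℕ → ℝ} (hρ : ∀ p, 1 ≤ ρ p) {η : ℝ} (hη1 : η ≤ 1 / 40) {p : ℕ}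
    (hp : 2 ≤ p) :
    0 ≤ 1 + ((ρ p) ^ (5 / 2 : ℝ) / ((p : ℝ) ^ (1 - η) - 1) - 1 / (p : ℝ)) := by
  have h2 : (2 : ℝ) ≤ p := by exact_mod_cast hp
  have h1 : 1 < (p : ℝ) ^ (1 - η) := Real.one_lt_rpow (by linarith) (by linarith)
  have h3 : 0 ≤ (ρ p) ^ (5 / 2 : ℝ) / ((p : ℝ) ^ (1 - η) - 1) := by
    apply div_nonneg
    · exact Real.rpow_nonneg (by linarith [hρ p]) _
    · linarith
  have h4 : 1 / (p : ℝ) ≤ 1 := by
    rw [div_le_one (by linarith)]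
    linarith
  linarith

private theorem HVWr_prod {ρ : ℕ → ℝ} (hρ : ∀ p, 1 ≤ ρ p) {R0 : ℝ} (hR0 : 1 ≤ R0) {η : ℝ}
    (hη1 : η ≤ 1 / 40) (R : Finset ℕ) (hR : ∀ p ∈ R, 2 ≤ p) (p0 : ℕ)
    (kk : ℕ → ℕ) (B : ℝ)
    (hB : ∏ p ∈ (R.filter (fun p => ¬ p < p0)).filter (fun p => kk p ≠ 0),
      (1 + ((ρ p) ^ (5 / 2 : ℝ) / ((p : ℝ) ^ (1 - η) - 1) - 1 / (p : ℝ))) ≤ B) :
    ∏ p ∈ R, NNr ρ R0 η p0 kk p ≤ (8 * R0) ^ p0 * B := by
  rw [← prod_filter_mul_prod_filter_not R (fun p => p < p0)]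
  have h1 : ∏ p ∈ R.filter (fun p => p < p0), NNr ρ R0 η p0 kk p =
      (8 * R0) ^ (R.filter (fun p => p < p0)).card := by
    rw [← prod_const]
    refine prod_congr rfl fun p hp => ?_
    rw [mem_filter] at hp
    unfold NNr
    rw [if_pos hp.2]
  have h2 : ∏ p ∈ R.filter (fun p => ¬ p < p0), NNr ρ R0 η p0 kk p =
      ∏ p ∈ (R.filter (fun p => ¬ p < p0)).filter (fun p => kk p ≠ 0),
      (1 + ((ρ p) ^ (5 / 2 : ℝ) / ((p : ℝ) ^ (1 - η) - 1) - 1 / (p : ℝ))) := by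
    rw [prod_filter (fun p => kk p ≠ 0)]
    refine prod_congr rfl fun p hp => ?_
    rw [mem_filter] at hp
    unfold NNr
    rw [if_neg hp.2]
    by_cases hk : kk p = 0
    · rw [if_pos hk, if_neg (fun h => h hk)]
    · rw [if_neg hk, if_pos hk]
  rw [h1, h2]
  have h3 : (R.filter (fun p => p < p0)).card ≤ p0 := by
    have h4 : R.filter (fun p => p < p0) ⊆ range p0 := by
      intro p hp
      rw [mem_filter] at hp
      exact mem_range.2 hp.2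
    have h5 := card_le_card h4
    rwa [card_range] at h5
  refine mul_le_mul ?_ hB ?_ (by positivity)
  · exact pow_le_pow_right₀ (by linarith) h3
  · refine prod_nonneg fun p hp => ?_
    rw [mem_filter, mem_filter] at hp
    exact HVWr_g_nonneg hρ hη1 (hR p hp.1.1)

theorem hvwr (R0 : ℝ) (hR0 : 1 ≤ R0) : ∃ C1 : ℝ, 0 < C1 ∧ ∀ η : ℝ, 0 ≤ η → η ≤ 1 / 40 →
    ∀ ρ : ℕ → ℝ, (∀ p, 1 ≤ ρ p) → (∀ p, ρ p ≤ R0) → ∀ G : ℝ,
    (∀ N : Finset ℕ, ∑ p ∈ N, (ρ p - 1) * (p : ℝ) ^ (-(39 / 40) : ℝ) ≤ G) →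
    ∀ X : ℝ, 2 ≤ X →
    ∀ S : Finset ℕ, (∀ q ∈ S, 0 < q ∧ (q : ℝ) ≤ X) → ∀ (m n : ℕ → ℝ) (K : ℕ → ℕ → ℝ),
    (∀ q, 0 ≤ m q) → (∀ q, 0 ≤ n q) → (∀ q r, 0 ≤ K q r) → ∀ CB : ℝ, 0 ≤ CB →
    BASEr ρ η CB S m n K →
    FF K S S ≤ C1 * Real.exp (C1 * (η * (Real.log X) ^ (1 / 2 : ℝ) + G)) * CB * MN m n S S := by
  obtain ⟨p0, hp0, hhalf⟩ := halfr R0 hR0
  obtain ⟨C6, hC6, hpn⟩ := pnr R0 hR0
  refine ⟨C6 + 2 * (8 * R0) ^ p0 * Real.exp C6, by positivity, ?_⟩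
  intro η hη0 hη1 ρ hρ1 hρ2 G hG X hX S hS m n K hm hn hK CB hCB hB
  obtain ⟨C1, hC1⟩ : ∃ C1, C1 = C6 + 2 * (8 * R0) ^ p0 * Real.exp C6 := ⟨_, rfl⟩
  rw [← hC1]
  have hpos1 : 0 < 2 * (8 * R0) ^ p0 * Real.exp C6 := by positivity
  have hC1pos : 0 < C1 := by
    rw [hC1]
    linarith
  have hG0 : 0 ≤ G := by
    have := hG ∅
    rwa [sum_empty] at this
  obtain ⟨L, hL⟩ : ∃ L, L = (Real.log X) ^ (1 / 2 : ℝ) := ⟨_, rfl⟩
  rw [← hL]
  have hL0 : 0 ≤ L := by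
    rw [hL]
    exact Real.rpow_nonneg (Real.log_nonneg (by linarith)) _
  have hMNn : ∀ V W : Finset ℕ, 0 ≤ MN m n V W := fun V W =>
    Real.rpow_nonneg (mul_nonneg (sum_nonneg fun i _ => hm i) (sum_nonneg fun i _ => hn i)) _
  have hMN0 : 0 ≤ MN m n S S := hMNn S S
  by_cases hpos : 0 < FF K S S
  · -- the primes
    obtain ⟨P, hPdef⟩ : ∃ P : Finset ℕ, P = (range (⌊X⌋₊ + 1)).filter Nat.Prime := ⟨_, rfl⟩
    have hP : ∀ p ∈ P, p.Prime := by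
      intro p hp
      rw [hPdef, mem_filter] at hp
      exact hp.2
    have hS' : ∀ q ∈ S, 0 < q ∧ q.primeFactors ⊆ P := by
      intro q hq
      refine ⟨(hS q hq).1, fun p hp => ?_⟩
      rw [hPdef, mem_filter, mem_range]
      have hpp := Nat.prime_of_mem_primeFactors hp
      refine ⟨Nat.lt_succ_of_le (Nat.le_floor ?_), hpp⟩
      have h1 : p ≤ q := Nat.le_of_dvd (hS q hq).1 (Nat.dvd_of_mem_primeFactors hp)
      exact (Nat.cast_le.2 h1).trans (hS q hq).2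
    have hK0 : ∀ q ∈ S, ∀ r ∈ S, m q * n r = 0 → K q r = 0 := by
      intro q hq r hr h
      have h1 := hB q r (hS q hq).1 (hS r hr).1 {q} {r} (singleton_subset_iff.2 hq)
        (singleton_subset_iff.2 hr) (fun x hx => by rw [mem_singleton.1 hx])
        (fun x hx => by rw [mem_singleton.1 hx])
      have h2 : MN m n {q} {r} = 0 := by
        unfold MN
        rw [sum_singleton, sum_singleton, h]
        exact Real.zero_rpow (by norm_num)
      rw [h2, mul_zero, sum_singleton, filter_true_of_mem (fun x hx => by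
        rw [mem_singleton.1 hx]), sum_singleton] at h1
      exact le_antisymm h1 (hK q r)
    obtain ⟨Q, q0, r0, c, hM⟩ := mxr ρ R0 hρ1 hρ2 η hη0 hη1 P S hP hS' m n K hm hn hK hK0 hpos
    obtain ⟨kk, hkk, hh2⟩ := hhalf hM
    have hup := upr hM CB hCB hB p0 kk
    have hTh : 0 < TrQ ρ η Q q0 r0 := by
      unfold TrQ
      exact prod_pos fun p hp => tr_pos ρ hρ1 η p _ _ (hP p (hM.hQ hp)).two_le
    have hMNpos : 0 < MN m n (Bl S Q q0) (Bl S Q r0) :=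
      Real.rpow_pos_of_pos (mul_pos hM.pm hM.pn) _
    have hBlX : ∀ q ∈ Bl S Q q0, 0 < q ∧ (q : ℝ) ≤ X := fun q hq =>
      hS q (filter_subset _ _ hq)
    obtain ⟨N, hN⟩ : ∃ N : Finset ℕ, N = ((P \ Q).filter (fun p => ¬ p < p0)).filter
      (fun p => kk p ≠ 0) := ⟨_, rfl⟩
    have hNmem : ∀ p ∈ N, p ∈ P ∧ p ∉ Q ∧ p0 ≤ p ∧ kk p ≠ 0 := by
      intro p hp
      rw [hN, mem_filter, mem_filter, mem_sdiff] at hp
      exact ⟨hp.1.1.1, hp.1.1.2, not_lt.1 hp.1.2, hp.2⟩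
    have hNcard : (N.card : ℝ) ≤ 3 * Real.log X :=
      Vale.Agent.P028KM.om X (by linarith) (Bl S Q q0) N (fun p hp => hP p (hNmem p hp).1) hBlX m hm hM.pm kk
        (fun p hp => (hNmem p hp).2.2.2)
        (fun p hp => hkk p (hNmem p hp).1 (hNmem p hp).2.1 (hNmem p hp).2.2.1)
    have hprodN := hpn η hη0 hη1 ρ hρ1 hρ2 X hX N (fun p hp => (hP p (hNmem p hp).1).two_le)
      hNcard G (hG N)
    rw [← hL] at hprodN
    rw [hN] at hprodN
    have hprod := HVWr_prod hρ1 hR0 hη1 (P \ Q)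
      (fun p hp => (hP p (mem_sdiff.1 hp).1).two_le) p0 kk _ hprodN
    have hc : c ≤ 2 * CB * ((8 * R0) ^ p0 * Real.exp (C6 * (1 + η * L + G))) := by
      have h1 : c * (TrQ ρ η Q q0 r0 * MN m n (Bl S Q q0) (Bl S Q r0)) ≤
          (2 * CB * ∏ p ∈ P \ Q, NNr ρ R0 η p0 kk p) *
            (TrQ ρ η Q q0 r0 * MN m n (Bl S Q q0) (Bl S Q r0)) := by
        have h2 := hM.eq
        have h3 : c * (TrQ ρ η Q q0 r0 * MN m n (Bl S Q q0) (Bl S Q r0)) =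
            FF K (Bl S Q q0) (Bl S Q r0) := by
          rw [h2]
          ring
        rw [h3]
        refine hh2.trans ?_
        have h4 : (2 * CB * ∏ p ∈ P \ Q, NNr ρ R0 η p0 kk p) *
            (TrQ ρ η Q q0 r0 * MN m n (Bl S Q q0) (Bl S Q r0)) =
            2 * (CB * TrQ ρ η Q q0 r0 * (∏ p ∈ P \ Q, NNr ρ R0 η p0 kk p) *
              MN m n (Bl S Q q0) (Bl S Q r0)) := by ring
        rw [h4]
        linarith
      have h5 := le_of_mul_le_mul_right h1 (mul_pos hTh hMNpos)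
      refine h5.trans ?_
      exact mul_le_mul_of_nonneg_left hprod (by positivity)
    have hfin := hM.le ∅ (empty_subset P) q0 hM.hq0 r0 hM.hr0
    have hBl : ∀ a, Bl S ∅ a = S := by
      intro a
      unfold Bl
      simp
    have hThe : TrQ ρ η ∅ q0 r0 = 1 := by
      unfold TrQ
      simp
    rw [hBl, hBl, hThe, mul_one] at hfin
    refine hfin.trans ?_
    refine mul_le_mul_of_nonneg_right ?_ hMN0
    refine hc.trans ?_
    have h6 : 2 * CB * ((8 * R0) ^ p0 * Real.exp (C6 * (1 + η * L + G))) =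
        ((2 * (8 * R0) ^ p0 * Real.exp C6) * Real.exp (C6 * (η * L + G))) * CB := by
      have h7 : C6 * (1 + η * L + G) = C6 + C6 * (η * L + G) := by ring
      rw [h7, Real.exp_add]
      ring
    rw [h6]
    refine mul_le_mul_of_nonneg_right ?_ hCB
    refine mul_le_mul ?_ ?_ (Real.exp_pos _).le hC1pos.le
    · rw [hC1]
      linarith
    · refine Real.exp_le_exp.2 ?_
      refine mul_le_mul_of_nonneg_right ?_ (by positivity)
      rw [hC1]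
      linarith
  · refine (not_lt.1 hpos).trans ?_
    have := Real.exp_pos (C1 * (η * L + G))
    positivity

end Vale.Agent.P028W
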