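import Vale.Agent.P028W.Defs3
import Vale.Agent.P028W.BSr
import Vale.Agent.P028W.HVWr

/-!
Module LVr: one level. `hvwr` with `R0 = exp 12`, `ρ = rz z` (`(4+8z)/p ≤ 12` for `p > z ≥ 1`), `X^4`,
`G = C z^(1/40)` (`ρ p - 1 ≤ 12 z e^12/p` for `p > z`, `∑_{p>z} p^(-79/40) ≤ C z^(-39/40)`),
`η = etaW ≤ 1/40` for large `X`, `C1 η (4 log X)^(1/2) ≤ C + z/10 + (1/200) log(max 1 (1/δ))`;
`C1 G ≤ C + z/10`. For `δ ≤ 1`: exponent `4/5 + 63/200 - 1/200 ≥ 11/10`. For `1 < δ ≤ 16 * 4^z`: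
`δ^(9/5) ≤ C exp(2.4954 z)`. Total `≤ C (min 1 δ)^(11/10) exp(3z) (∑mu)^(6/5)`.
-/

namespace Vale.Agent.P028W

open Finset MeasureTheory
open Vale.Agent.P028EV (q1 r1 Del hh Ts Bd Ad Nd)
open Vale.Agent.P028KM (w mu Dm Bl FF MN Sb ex cl OK KO th Th MV MW)

private theorem LVr_mu_nonneg {ψ : ℕ → ℝ} (h : ∀ q, 0 ≤ ψ q) (q : ℕ) : 0 ≤ mu ψ q := by
  have h1 : 0 ≤ w q := by
    unfold w
    positivity
  exact mul_nonneg h1 (h q)

private theorem LVr_KL_nonneg {ψ : ℕ → ℝ} (h : ∀ q, 0 ≤ ψ q) (γ : ℝ) (B : ℕ) (A : ℤ)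
    (ε X δ z : ℝ) (q r : ℕ) : 0 ≤ KL γ B A ψ ε X δ z q r := by
  unfold KL
  split_ifs
  · refine mul_nonneg (mul_nonneg (LVr_mu_nonneg h q) (LVr_mu_nonneg h r)) ?_
    unfold EX
    exact Finset.sum_nonneg fun t _ => (Real.exp_pos _).le
  · exact le_refl _

private theorem LVr_rz_one {z : ℝ} (hz : 0 ≤ z) (p : ℕ) : 1 ≤ rz z p := by
  unfold rz
  split_ifs
  · exact Real.one_le_exp (by positivity)
  · exact le_refl _

private theorem LVr_rz_le {z : ℝ} (hz : 1 ≤ z) (p : ℕ) : rz z p ≤ Real.exp 12 := by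
  unfold rz
  split_ifs with h
  · apply Real.exp_le_exp.2
    rw [div_le_iff₀ (by linarith)]
    linarith
  · exact Real.one_le_exp (by norm_num)

private theorem LVr_term {z : ℝ} (hz : 1 ≤ z) (p : ℕ) :
    (rz z p - 1) * (p : ℝ) ^ (-(39 / 40) : ℝ) ≤
      (12 * Real.exp 12 * √z) * (p : ℝ) ^ (-(59 / 40) : ℝ) := by
  by_cases h : z < (p : ℝ)
  · have hp : 0 < (p : ℝ) := by linarith
    have h1 : rz z p = Real.exp ((4 + 8 * z) / p) := by
      unfold rz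
      rw [if_pos h]
    have h2 : rz z p - 1 ≤ 12 * z / p * Real.exp 12 := by
      have h3 : 0 ≤ (4 + 8 * z) / p := by positivity
      have h4 : Real.exp ((4 + 8 * z) / p) - 1 ≤
          (4 + 8 * z) / p * Real.exp ((4 + 8 * z) / p) := by
        have h5 := Real.add_one_le_exp (-((4 + 8 * z) / p))
        have h6 : Real.exp (-((4 + 8 * z) / p)) * Real.exp ((4 + 8 * z) / p) = 1 := by
          rw [← Real.exp_add, neg_add_cancel, Real.exp_zero]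
        nlinarith [Real.exp_pos ((4 + 8 * z) / p)]
      rw [h1]
      refine h4.trans ?_
      apply mul_le_mul _ _ (Real.exp_pos _).le (by positivity)
      · exact div_le_div_of_nonneg_right (by linarith) hp.le
      · rw [← h1]
        exact LVr_rz_le hz p
    have h7 : (p : ℝ) ^ (-(39 / 40) : ℝ) = p * ((p : ℝ) ^ (-(1 / 2) : ℝ) * (p : ℝ) ^ (-(59 / 40) : ℝ)) := by
      rw [← Real.rpow_add hp]
      nth_rewrite 2 [← Real.rpow_one (p : ℝ)]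
      rw [← Real.rpow_add hp]
      norm_num
    have h8 : (p : ℝ) ^ (-(1 / 2) : ℝ) ≤ z ^ (-(1 / 2) : ℝ) :=
      Real.rpow_le_rpow_of_nonpos (by linarith) h.le (by norm_num)
    have h9 : z * z ^ (-(1 / 2) : ℝ) = √z := by
      rw [Real.sqrt_eq_rpow]
      nth_rewrite 1 [← Real.rpow_one z]
      rw [← Real.rpow_add (by linarith)]
      norm_num
    have h10 : 0 ≤ (p : ℝ) ^ (-(39 / 40) : ℝ) := by positivity
    calc (rz z p - 1) * (p : ℝ) ^ (-(39 / 40) : ℝ)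
        ≤ (12 * z / p * Real.exp 12) * (p : ℝ) ^ (-(39 / 40) : ℝ) :=
          mul_le_mul_of_nonneg_right h2 h10
      _ = (12 * Real.exp 12 * (z * (p : ℝ) ^ (-(1 / 2) : ℝ))) * (p : ℝ) ^ (-(59 / 40) : ℝ) := by
          rw [h7]
          field_simp
      _ ≤ (12 * Real.exp 12 * (z * z ^ (-(1 / 2) : ℝ))) * (p : ℝ) ^ (-(59 / 40) : ℝ) := by
          gcongr
      _ = (12 * Real.exp 12 * √z) * (p : ℝ) ^ (-(59 / 40) : ℝ) := by rw [h9]
  · have h1 : rz z p = 1 := by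
      unfold rz
      rw [if_neg h]
    rw [h1, sub_self, zero_mul]
    positivity

private theorem LVr_G {z : ℝ} (hz : 1 ≤ z) (N : Finset ℕ) :
    ∑ p ∈ N, (rz z p - 1) * (p : ℝ) ^ (-(39 / 40) : ℝ) ≤
      (12 * Real.exp 12 * ∑' p : ℕ, (p : ℝ) ^ (-(59 / 40) : ℝ)) * √z := by
  have hs : Summable fun p : ℕ => (p : ℝ) ^ (-(59 / 40) : ℝ) :=
    Real.summable_nat_rpow.2 (by norm_num)
  have h1 : ∑ p ∈ N, (p : ℝ) ^ (-(59 / 40) : ℝ) ≤ ∑' p : ℕ, (p : ℝ) ^ (-(59 / 40) : ℝ) :=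
    hs.sum_le_tsum N fun p _ => by positivity
  calc ∑ p ∈ N, (rz z p - 1) * (p : ℝ) ^ (-(39 / 40) : ℝ)
      ≤ ∑ p ∈ N, (12 * Real.exp 12 * √z) * (p : ℝ) ^ (-(59 / 40) : ℝ) :=
        Finset.sum_le_sum fun p _ => LVr_term hz p
    _ = (12 * Real.exp 12 * √z) * ∑ p ∈ N, (p : ℝ) ^ (-(59 / 40) : ℝ) := by
        rw [Finset.mul_sum]
    _ ≤ (12 * Real.exp 12 * √z) * ∑' p : ℕ, (p : ℝ) ^ (-(59 / 40) : ℝ) :=
        mul_le_mul_of_nonneg_left h1 (by positivity)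
    _ = (12 * Real.exp 12 * ∑' p : ℕ, (p : ℝ) ^ (-(59 / 40) : ℝ)) * √z := by ring

private theorem LVr_amgm (K z : ℝ) (hz : 0 ≤ z) : K * √z ≤ 5 / 2 * K ^ 2 + z / 10 := by
  have h1 := Real.sq_sqrt hz
  nlinarith [sq_nonneg (√z - 5 * K)]

/-- `log (1 + 16 y^2) ≤ 9 √y` for `y ≥ 1` -/
private theorem LVr_log {y : ℝ} (hy : 1 ≤ y) : Real.log (1 + 16 * y ^ 2) ≤ 9 * √y := by
  have hu : ∀ u : ℝ, 0 < u → Real.log u ≤ 2 * √u := by
    intro u hu
    have h1 : Real.log u = 2 * Real.log (√u) := by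
      rw [Real.log_sqrt hu.le]
      ring
    rw [h1]
    have h2 := Real.log_le_sub_one_of_pos (Real.sqrt_pos.2 hu)
    linarith
  have h1 : Real.log (1 + 16 * y ^ 2) ≤ Real.log ((1 + 4 * y) ^ 2) := by
    apply Real.log_le_log (by positivity)
    nlinarith
  rw [Real.log_pow] at h1
  have h2 := hu (1 + 4 * y) (by linarith)
  have h3 : √(1 + 4 * y) ≤ √(5 * y) := Real.sqrt_le_sqrt (by linarith)
  have h4 : √(5 * y) ≤ 9 / 4 * √y := by
    rw [Real.sqrt_mul (by norm_num)]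
    refine mul_le_mul_of_nonneg_right ?_ (Real.sqrt_nonneg _)
    rw [Real.sqrt_le_iff]
    norm_num
  push_cast at h1
  linarith

private theorem LVr_case (δ : ℝ) (hδ : 0 < δ) (z : ℕ) (hδ2 : δ ≤ 16 * 4 ^ z) :
    Real.exp ((z : ℝ) / 5 + 1 / 200 * Real.log (max 1 (1 / δ))) *
      (δ ^ (4 / 5 : ℝ) * (min 1 δ) ^ (63 / 200 : ℝ) * (max 1 δ)) ≤
      (16 : ℝ) ^ (9 / 5 : ℝ) * ((min 1 δ) ^ (11 / 10 : ℝ) * Real.exp (3 * z)) := by
  have h16 : (1 : ℝ) ≤ (16 : ℝ) ^ (9 / 5 : ℝ) := Real.one_le_rpow (by norm_num) (by norm_num)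
  rcases le_total δ 1 with h | h
  · rw [min_eq_right h, max_eq_left h, max_eq_right (by
      rw [le_div_iff₀ hδ]
      linarith)]
    have h1 : Real.exp ((z : ℝ) / 5 + 1 / 200 * Real.log (1 / δ)) =
        Real.exp ((z : ℝ) / 5) * δ ^ (-(1 / 200) : ℝ) := by
      have hl : Real.log (1 / δ) = -Real.log δ := by rw [one_div, Real.log_inv]
      rw [hl, Real.exp_add, Real.rpow_def_of_pos hδ]
      congr 2
      ring
    have h2 : δ ^ (-(1 / 200) : ℝ) * (δ ^ (4 / 5 : ℝ) * δ ^ (63 / 200 : ℝ)) = δ ^ (111 / 100 : ℝ) := by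
      rw [← Real.rpow_add hδ, ← Real.rpow_add hδ]
      norm_num
    have h3 : δ ^ (111 / 100 : ℝ) ≤ δ ^ (11 / 10 : ℝ) :=
      Real.rpow_le_rpow_of_exponent_ge hδ h (by norm_num)
    have h4 : Real.exp ((z : ℝ) / 5) ≤ Real.exp (3 * z) := by
      apply Real.exp_le_exp.2
      have : (0 : ℝ) ≤ z := Nat.cast_nonneg z
      linarith
    calc Real.exp ((z : ℝ) / 5 + 1 / 200 * Real.log (1 / δ)) *
          (δ ^ (4 / 5 : ℝ) * δ ^ (63 / 200 : ℝ) * 1)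
        = Real.exp ((z : ℝ) / 5) * δ ^ (111 / 100 : ℝ) := by
          rw [h1, ← h2]
          ring
      _ ≤ Real.exp (3 * z) * δ ^ (11 / 10 : ℝ) := by gcongr
      _ = 1 * (δ ^ (11 / 10 : ℝ) * Real.exp (3 * z)) := by ring
      _ ≤ (16 : ℝ) ^ (9 / 5 : ℝ) * (δ ^ (11 / 10 : ℝ) * Real.exp (3 * z)) :=
          mul_le_mul_of_nonneg_right h16 (by positivity)
  · rw [min_eq_left h, max_eq_right h, max_eq_left (by
      rw [div_le_iff₀ hδ]
      linarith)]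
    rw [Real.log_one, mul_zero, add_zero, Real.one_rpow, Real.one_rpow, mul_one, one_mul]
    have h1 : δ ^ (4 / 5 : ℝ) * δ = δ ^ (9 / 5 : ℝ) := by
      nth_rewrite 2 [← Real.rpow_one δ]
      rw [← Real.rpow_add hδ]
      norm_num
    have h2 : δ ^ (9 / 5 : ℝ) ≤ (16 * 4 ^ z : ℝ) ^ (9 / 5 : ℝ) :=
      Real.rpow_le_rpow hδ.le hδ2 (by norm_num)
    have h3 : (16 * 4 ^ z : ℝ) ^ (9 / 5 : ℝ) = (16 : ℝ) ^ (9 / 5 : ℝ) * Real.exp (9 / 5 * (z * Real.log 4)) := by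
      rw [Real.mul_rpow (by norm_num) (by positivity)]
      congr 1
      rw [Real.rpow_def_of_pos (by positivity), Real.log_pow]
      congr 1
      ring
    have h4 : Real.log 4 ≤ 1.4 := by
      have h5 : Real.log 4 = 2 * Real.log 2 := by
        rw [show (4 : ℝ) = 2 ^ 2 by norm_num, Real.log_pow]
        norm_num
      rw [h5]
      have := Real.log_two_lt_d9
      linarith
    have hz0 : (0 : ℝ) ≤ z := Nat.cast_nonneg z
    rw [h1]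
    calc Real.exp ((z : ℝ) / 5) * δ ^ (9 / 5 : ℝ)
        ≤ Real.exp ((z : ℝ) / 5) *
          ((16 : ℝ) ^ (9 / 5 : ℝ) * Real.exp (9 / 5 * (z * Real.log 4))) := by
          refine mul_le_mul_of_nonneg_left ?_ (Real.exp_pos _).le
          rw [← h3]
          exact h2
      _ = (16 : ℝ) ^ (9 / 5 : ℝ) * Real.exp ((z : ℝ) / 5 + 9 / 5 * (z * Real.log 4)) := by
          rw [Real.exp_add]
          ring
      _ ≤ (16 : ℝ) ^ (9 / 5 : ℝ) * Real.exp (3 * z) := by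
          refine mul_le_mul_of_nonneg_left ?_ (by positivity)
          apply Real.exp_le_exp.2
          nlinarith

/-- numerical bound for `etaW` -/
private theorem LVr_eta {ε X δ : ℝ} {z : ℕ} (hε : 0 < ε) (C1 T : ℝ) (hC1 : 0 < C1)
    (hT : T = 10800 * (C1 + 1) / cA ε + 1) (hT4 : T ^ 4 ≤ Real.log X) (hX : 1 < X)
    (hL : Lev ε X δ z) :
    0 ≤ etaW ε X δ z ∧ etaW ε X δ z ≤ 1 / 40 ∧
      C1 * (etaW ε X δ z * (Real.log (X ^ 4)) ^ (1 / 2 : ℝ)) ≤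
        1 + (z : ℝ) / 10 + 1 / 200 * Real.log (max 1 (1 / δ)) := by
  have hcA : 0 < cA ε := by
    unfold cA
    positivity
  have hXpos : 0 < X := by linarith
  have hlX : 0 < Real.log X := Real.log_pos hX
  have hδ0 : 0 < δ := lt_of_lt_of_le (Real.rpow_pos_of_pos hXpos _) hL.hδ
  have hz : (1 : ℝ) ≤ z := by exact_mod_cast hL.hz
  obtain ⟨y, hy⟩ : ∃ y, y = √(Real.log X) := ⟨_, rfl⟩
  have hyy : Real.log X = y ^ 2 := by
    rw [hy, Real.sq_sqrt hlX.le]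
  have hT0 : 0 < 10800 * (C1 + 1) / cA ε := by positivity
  have hT1 : 1 ≤ T := by
    rw [hT]
    linarith
  have hyT : T ^ 2 ≤ y := by
    rw [hy]
    apply Real.le_sqrt_of_sq_le
    calc (T ^ 2) ^ 2 = T ^ 4 := by ring
      _ ≤ Real.log X := hT4
  have hTT : T ≤ T ^ 2 := by nlinarith
  have hy1 : 1 ≤ y := by linarith
  have hy0 : 0 < y := by linarith
  have hTc : 10800 * (C1 + 1) ≤ T * cA ε := by
    have h1 : 10800 * (C1 + 1) / cA ε ≤ T := by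
      rw [hT]
      linarith
    rwa [div_le_iff₀ hcA] at h1
  have hyc : 10800 * (C1 + 1) ≤ y * cA ε := by
    refine hTc.trans ?_
    exact mul_le_mul_of_nonneg_right (hTT.trans hyT) hcA.le
  have hsy : T ≤ √y := Real.le_sqrt_of_sq_le hyT
  have hsyc : 10800 * (C1 + 1) ≤ √y * cA ε := by
    refine hTc.trans ?_
    exact mul_le_mul_of_nonneg_right hsy hcA.le
  have hsy0 : 0 < √y := by linarith
  have hysq : √y * √y = y := Real.mul_self_sqrt hy0.le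
  obtain ⟨ℓ, hℓ⟩ : ∃ ℓ, ℓ = Real.log (1 + 16 * Real.log X) := ⟨_, rfl⟩
  have hℓ0 : 0 ≤ ℓ := by
    rw [hℓ]
    exact Real.log_nonneg (by linarith)
  have hℓ1 : ℓ ≤ 9 * √y := by
    rw [hℓ, hyy]
    exact LVr_log hy1
  obtain ⟨D, hD⟩ : ∃ D, D = Real.log (max 1 (1 / δ)) := ⟨_, rfl⟩
  have hD0 : 0 ≤ D := by
    rw [hD]
    exact Real.log_nonneg (le_max_left _ _)
  have hD1 : D ≤ cS ε * Real.log X := by
    rw [hD]
    have h1 : max 1 (1 / δ) ≤ X ^ cS ε := by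
      apply max_le
      · exact Real.one_le_rpow hX.le (by unfold cS; positivity)
      · rw [div_le_iff₀ hδ0]
        have h2 := hL.hδ
        rw [Real.rpow_neg hXpos.le] at h2
        have h3 : 0 < X ^ cS ε := Real.rpow_pos_of_pos hXpos _
        rw [inv_le_iff_one_le_mul₀ h3] at h2
        linarith
    have h2 := Real.log_le_log (lt_of_lt_of_le one_pos (le_max_left _ _)) h1
    rwa [Real.log_rpow hXpos] at h2
  have hzl := hL.hz2
  rw [← hℓ] at hzl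
  have hc6 : c6 ε = cA ε / 40000 := rfl
  have hcS : cS ε = cA ε / 1000 := by
    unfold cS cA
    ring
  have hE : etaW ε X δ z = (5 / (2 * cA ε * Real.log X)) * (2 * (4 + 8 * z) * ℓ + D + 2) := by
    unfold etaW
    rw [← hℓ, ← hD]
  have hin0 : 0 ≤ 2 * (4 + 8 * (z : ℝ)) * ℓ + D + 2 := by positivity
  have hin1 : 2 * (4 + 8 * (z : ℝ)) * ℓ + D + 2 ≤ 24 * (z * ℓ) + D + 2 := by
    nlinarith [mul_nonneg (sub_nonneg.2 hz) hℓ0]
  refine ⟨?_, ?_, ?_⟩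
  · rw [hE]
    exact mul_nonneg (by positivity) hin0
  · rw [hE, div_mul_eq_mul_div, div_le_iff₀ (by positivity)]
    have h2 : 2 ≤ cA ε * Real.log X / 1000 := by
      rw [hyy]
      have h3 : y * cA ε ≤ cA ε * y ^ 2 := by nlinarith
      nlinarith
    rw [hc6] at hzl
    rw [hcS] at hD1
    nlinarith
  · have hsq : (Real.log (X ^ 4)) ^ (1 / 2 : ℝ) = 2 * y := by
      rw [Real.log_pow, ← Real.sqrt_eq_rpow, hyy]
      push_cast
      rw [show (4 : ℝ) * y ^ 2 = (2 * y) ^ 2 by ring]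
      exact Real.sqrt_sq (by positivity)
    rw [hsq, ← hD, hE, hyy]
    have h1 : C1 * (5 / (2 * cA ε * y ^ 2) * (2 * (4 + 8 * (z : ℝ)) * ℓ + D + 2) * (2 * y)) =
        (5 * C1) * (2 * (4 + 8 * (z : ℝ)) * ℓ + D + 2) / (y * cA ε) := by
      field_simp
    rw [h1, div_le_iff₀ (by positivity)]
    have hb1 : 5 * C1 * (24 * (z * ℓ)) ≤ (z : ℝ) / 10 * (y * cA ε) := by
      have h2 : 1200 * C1 * ℓ ≤ y * cA ε := by
        calc 1200 * C1 * ℓ ≤ 1200 * C1 * (9 * √y) := by gcongr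
          _ = (10800 * C1) * √y := by ring
          _ ≤ (√y * cA ε) * √y := by
            refine mul_le_mul_of_nonneg_right ?_ hsy0.le
            linarith
          _ = (√y * √y) * cA ε := by ring
          _ = y * cA ε := by rw [hysq]
      have h3 := mul_le_mul_of_nonneg_left h2 (show (0 : ℝ) ≤ z / 10 by positivity)
      calc 5 * C1 * (24 * (z * ℓ)) = (z : ℝ) / 10 * (1200 * C1 * ℓ) := by ring
        _ ≤ (z : ℝ) / 10 * (y * cA ε) := h3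
    have hb2 : 5 * C1 * D ≤ 1 / 200 * D * (y * cA ε) := by
      have h2 : 1000 * C1 ≤ y * cA ε := by linarith
      have h3 := mul_le_mul_of_nonneg_left h2 hD0
      calc 5 * C1 * D = 1 / 200 * (D * (1000 * C1)) := by ring
        _ ≤ 1 / 200 * (D * (y * cA ε)) := mul_le_mul_of_nonneg_left h3 (by norm_num)
        _ = 1 / 200 * D * (y * cA ε) := by ring
    have hb3 : 5 * C1 * 2 ≤ 1 * (y * cA ε) := by linarith
    have hb4 : 5 * C1 * (2 * (4 + 8 * (z : ℝ)) * ℓ + D + 2) ≤ 5 * C1 * (24 * (z * ℓ) + D + 2) :=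
      mul_le_mul_of_nonneg_left hin1 (by positivity)
    have hb5 : 5 * C1 * (24 * (z * ℓ) + D + 2) =
        5 * C1 * (24 * (z * ℓ)) + 5 * C1 * D + 5 * C1 * 2 := by ring
    have hb6 : (1 + (z : ℝ) / 10 + 1 / 200 * D) * (y * cA ε) =
        1 * (y * cA ε) + (z : ℝ) / 10 * (y * cA ε) + 1 / 200 * D * (y * cA ε) := by ring
    rw [hb6]
    rw [hb5] at hb4
    linarith

theorem lvr (ε : ℝ) (hε : 0 < ε) (hε1 : ε ≤ 1) : ∃ C : ℝ, 1 ≤ C ∧ ∃ X0 : ℝ, 2 ≤ X0 ∧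
    ∀ (X γ : ℝ) (B : ℕ) (A : ℤ) (ψ : ℕ → ℝ) (S : Finset ℕ), X0 ≤ X → Blk2 ε X γ B A ψ S →
    ∀ (δ : ℝ) (z : ℕ), Lev ε X δ z →
    FF (KL γ B A ψ ε X δ z) S S ≤ C * (min 1 δ) ^ (11 / 10 : ℝ) * Real.exp (3 * z) *
      (∑ q ∈ S, mu ψ q) ^ (6 / 5 : ℝ) := by
  obtain ⟨C0, hC0, X0, hX0, hbs⟩ := bsr ε hε hε1
  obtain ⟨C1, hC1, hh1⟩ := hvwr (Real.exp 12) (Real.one_le_exp (by norm_num))
  obtain ⟨T, hT⟩ : ∃ T, T = 10800 * (C1 + 1) / cA ε + 1 := ⟨_, rfl⟩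
  obtain ⟨K, hK⟩ : ∃ K, K = 12 * Real.exp 12 * ∑' p : ℕ, (p : ℝ) ^ (-(59 / 40) : ℝ) := ⟨_, rfl⟩
  obtain ⟨C2, hC2⟩ : ∃ C2, C2 = C1 * Real.exp (1 + 5 / 2 * (C1 * K) ^ 2) * C0 *
    (16 : ℝ) ^ (9 / 5 : ℝ) := ⟨_, rfl⟩
  refine ⟨max 1 C2, le_max_left _ _, max X0 (Real.exp (T ^ 4)), hX0.trans (le_max_left _ _), ?_⟩
  intro X γ B A ψ S hX hB δ z hL
  have hXX : X0 ≤ X := (le_max_left _ _).trans hX
  have hX2 : 2 ≤ X := hX0.trans hXX
  have hXpos : 0 < X := by linarith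
  have hT4 : T ^ 4 ≤ Real.log X := by
    have h2 := Real.log_le_log (Real.exp_pos _) ((le_max_right _ _).trans hX)
    rwa [Real.log_exp] at h2
  have hδ0 : 0 < δ := lt_of_lt_of_le (Real.rpow_pos_of_pos hXpos _) hL.hδ
  have hz : (1 : ℝ) ≤ z := by exact_mod_cast hL.hz
  obtain ⟨hη0, hη1, hη2⟩ := LVr_eta hε C1 T hC1 hT hT4 (by linarith) hL
  have hX4 : (2 : ℝ) ≤ X ^ 4 := hX2.trans (le_self_pow₀ (by linarith) (by norm_num))
  have hmu := LVr_mu_nonneg hB.psi0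
  have hKL := LVr_KL_nonneg hB.psi0 γ B A ε X δ z
  have hCB : 0 ≤ C0 * δ ^ (4 / 5 : ℝ) * (min 1 δ) ^ (63 / 200 : ℝ) * (max 1 δ) := by
    have h1 : 0 < min 1 δ := lt_min one_pos hδ0
    have h2 : 0 < max 1 δ := lt_of_lt_of_le one_pos (le_max_left _ _)
    positivity
  have key := hh1 (etaW ε X δ z) hη0 hη1 (rz z) (LVr_rz_one (by linarith)) (LVr_rz_le hz)
    (K * √(z : ℝ)) (by
      intro N
      rw [hK]
      exact LVr_G hz N) (X ^ 4) hX4 S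
    (fun q hq => ⟨by
      have h1 := hB.lo q hq
      have h2 : (0 : ℝ) < q := by linarith
      exact_mod_cast h2, hB.hi q hq⟩) (mu ψ) (mu ψ) (KL γ B A ψ ε X δ z) hmu hmu hKL
    _ hCB (hbs X γ B A ψ S hXX hB δ z hL)
  have hsum : 0 ≤ ∑ q ∈ S, mu ψ q := Finset.sum_nonneg fun q _ => hmu q
  have hMN : MN (mu ψ) (mu ψ) S S = (∑ q ∈ S, mu ψ q) ^ (6 / 5 : ℝ) := by
    unfold MN
    rw [← pow_two, ← Real.rpow_natCast, ← Real.rpow_mul hsum]
    norm_num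
  rw [hMN] at key
  refine key.trans ?_
  have hP : 0 ≤ (∑ q ∈ S, mu ψ q) ^ (6 / 5 : ℝ) := Real.rpow_nonneg hsum _
  refine mul_le_mul_of_nonneg_right ?_ hP
  have hexp : Real.exp (C1 * (etaW ε X δ z * (Real.log (X ^ 4)) ^ (1 / 2 : ℝ) + K * √(z : ℝ))) ≤
      Real.exp (1 + 5 / 2 * (C1 * K) ^ 2) *
        Real.exp ((z : ℝ) / 5 + 1 / 200 * Real.log (max 1 (1 / δ))) := by
    rw [← Real.exp_add]
    apply Real.exp_le_exp.2
    have h1 := LVr_amgm (C1 * K) z (by linarith)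
    rw [mul_add]
    have h2 : C1 * (K * √(z : ℝ)) = C1 * K * √(z : ℝ) := by ring
    rw [h2]
    linarith
  have hcase := LVr_case δ hδ0 z hL.hδ2
  have hm0 : 0 < min 1 δ := lt_min one_pos hδ0
  have hM0 : 0 ≤ (min 1 δ) ^ (11 / 10 : ℝ) * Real.exp (3 * z) := by positivity
  calc C1 * Real.exp (C1 * (etaW ε X δ z * (Real.log (X ^ 4)) ^ (1 / 2 : ℝ) + K * √(z : ℝ))) *
        (C0 * δ ^ (4 / 5 : ℝ) * (min 1 δ) ^ (63 / 200 : ℝ) * (max 1 δ))
      ≤ C1 * (Real.exp (1 + 5 / 2 * (C1 * K) ^ 2) *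
        Real.exp ((z : ℝ) / 5 + 1 / 200 * Real.log (max 1 (1 / δ)))) *
        (C0 * δ ^ (4 / 5 : ℝ) * (min 1 δ) ^ (63 / 200 : ℝ) * (max 1 δ)) := by
        refine mul_le_mul_of_nonneg_right ?_ hCB
        exact mul_le_mul_of_nonneg_left hexp hC1.le
    _ = (C1 * Real.exp (1 + 5 / 2 * (C1 * K) ^ 2) * C0) *
        (Real.exp ((z : ℝ) / 5 + 1 / 200 * Real.log (max 1 (1 / δ))) *
        (δ ^ (4 / 5 : ℝ) * (min 1 δ) ^ (63 / 200 : ℝ) * (max 1 δ))) := by ring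
    _ ≤ (C1 * Real.exp (1 + 5 / 2 * (C1 * K) ^ 2) * C0) *
        ((16 : ℝ) ^ (9 / 5 : ℝ) * ((min 1 δ) ^ (11 / 10 : ℝ) * Real.exp (3 * z))) :=
        mul_le_mul_of_nonneg_left hcase (by positivity)
    _ = C2 * ((min 1 δ) ^ (11 / 10 : ℝ) * Real.exp (3 * z)) := by
        rw [hC2]
        ring
    _ ≤ max 1 C2 * ((min 1 δ) ^ (11 / 10 : ℝ) * Real.exp (3 * z)) :=
        mul_le_mul_of_nonneg_right (le_max_right _ _) hM0
    _ = max 1 C2 * (min 1 δ) ^ (11 / 10 : ℝ) * Real.exp (3 * z) := by ring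

end Vale.Agent.P028W
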