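import Vale.Agent.P028W.Defs3
import Vale.Agent.P028W.LVr
import Vale.Agent.P028W.SL

/-!
Module BADS: bad pairs, `K ≥ 1`. For a pair with `zD = z` which is not `GD`: some `L ∈ {sL z (q1 r1), sL z |nt t0|}` is `> K`,
so `1 ≤ exp(-4zK) exp(4z L)` and `EX 2 z ≤ exp(-4zK) * 2 #Ts * EX (4+8z) z` (product of two sums over `t`:
`e^(2L2(t)) e^(4z L2(t0)) ≤ e^(4 L2(t)) + e^(8z L2(t0))`), `#Ts ≤ 2Del+1 ≤ 8 Dm`. So the summand is
`≤ 16 z^2 exp(-4zK) mu mu EX (4+8z) z`. For each `z` the pairs lie in the levels `δ ∈ {1/2,1,2,4,8,16}` (`z = 1`,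
`1/4 ≤ Dm < 16`), `δ ∈ {4^z, 2*4^z, 4*4^z}` (`z ≥ 2`): `lvr`, and `∑_z 96 z^2 exp(-4z) C exp(3z) < ∞`.
-/

namespace Vale.Agent.P028W

open Finset MeasureTheory
open Vale.Agent.P028EV (q1 r1 Del hh Ts Bd Ad Nd)
open Vale.Agent.P028KM (w mu Dm Bl FF MN Sb ex cl OK KO th Th MV MW)

theorem BADS_card (γ : ℝ) (h : ℤ) (Δ : ℝ) (hΔ : 0 ≤ Δ) :
    ((Ts γ h Δ).card : ℝ) ≤ 2 * Δ + 3 := by
  have h1 : (Ts γ h Δ).card ≤ (Finset.Icc ⌊-(γ * h) - Δ⌋ ⌈-(γ * h) + Δ⌉).card :=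
    Finset.card_filter_le _ _
  rw [Int.card_Icc] at h1
  have h4 := Int.ceil_lt_add_one (-(γ * h) + Δ)
  have h5 := Int.lt_floor_add_one (-(γ * h) - Δ)
  set n : ℤ := ⌈-(γ * h) + Δ⌉ + 1 - ⌊-(γ * h) - Δ⌋ with hn
  have hnr : (n : ℝ) ≤ 2 * Δ + 3 := by
    rw [hn]
    push_cast
    linarith
  have h6 : (n.toNat : ℝ) ≤ 2 * Δ + 3 := by
    rcases le_total 0 n with h0 | h0
    · have : ((n.toNat : ℤ) : ℝ) = (n : ℝ) := by rw [Int.toNat_of_nonneg h0]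
      have h7 : (n.toNat : ℝ) = ((n.toNat : ℤ) : ℝ) := by norm_cast
      rw [h7, this]
      exact hnr
    · rw [Int.toNat_of_nonpos h0]
      push_cast
      linarith
  exact le_trans (by exact_mod_cast h1) h6

theorem BADS_abs {ι : Type*} (T : Finset ι) (L : ι → ℝ) (L0 z K : ℝ) (hL : ∀ t, 0 ≤ L t)
    (hL0 : 0 ≤ L0) (hz : 0 ≤ z) (h : K < L0 ∨ ∃ t ∈ T, K < L t) :
    ∑ t ∈ T, Real.exp (2 * (L0 + L t)) ≤ (1 + (T.card : ℝ)) * Real.exp (-(4 * z * K)) *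
      ∑ t ∈ T, Real.exp ((4 + 8 * z) * (L0 + L t)) := by
  set E := ∑ t ∈ T, Real.exp ((4 + 8 * z) * (L0 + L t)) with hE
  have hE0 : 0 ≤ E := Finset.sum_nonneg fun t _ => (Real.exp_pos _).le
  have hx := (Real.exp_pos (-(4 * z * K))).le
  rcases h with h | ⟨t0, ht0, h⟩
  · have h1 : ∑ t ∈ T, Real.exp (2 * (L0 + L t)) ≤ Real.exp (-(4 * z * K)) * E := by
      rw [hE, Finset.mul_sum]
      refine Finset.sum_le_sum fun t _ => ?_
      rw [← Real.exp_add]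
      apply Real.exp_le_exp.2
      have := hL t
      have h2 : z * K ≤ z * L0 := mul_le_mul_of_nonneg_left h.le hz
      nlinarith [mul_nonneg hz this, mul_nonneg hz hL0]
    have h2 : Real.exp (-(4 * z * K)) * E ≤ (1 + (T.card : ℝ)) * Real.exp (-(4 * z * K)) * E := by
      have : 0 ≤ Real.exp (-(4 * z * K)) * E := mul_nonneg hx hE0
      nlinarith [mul_nonneg (Nat.cast_nonneg (α := ℝ) T.card) this]
    exact h1.trans h2
  · have h1 : ∀ t ∈ T, Real.exp (2 * (L0 + L t)) ≤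
        Real.exp (-(4 * z * K)) * Real.exp ((4 + 8 * z) * (L0 + L t)) +
          Real.exp (-(4 * z * K)) * E := by
      intro t ht
      have ha : Real.exp (2 * (L0 + L t)) ≤
          Real.exp (-(4 * z * K)) * Real.exp (2 * L0 + 2 * L t + 4 * z * L t0) := by
        rw [← Real.exp_add]
        apply Real.exp_le_exp.2
        have h2 : z * K ≤ z * L t0 := mul_le_mul_of_nonneg_left h.le hz
        linarith
      have hb : Real.exp (2 * L0 + 2 * L t + 4 * z * L t0) ≤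
          Real.exp ((4 + 8 * z) * (L0 + L t)) + E := by
        rcases le_total (4 * z * L t0) (2 * L t) with h3 | h3
        · have : Real.exp (2 * L0 + 2 * L t + 4 * z * L t0) ≤
              Real.exp ((4 + 8 * z) * (L0 + L t)) := by
            apply Real.exp_le_exp.2
            nlinarith [mul_nonneg hz (hL t), mul_nonneg hz hL0, hL t]
          linarith
        · have : Real.exp (2 * L0 + 2 * L t + 4 * z * L t0) ≤
              Real.exp ((4 + 8 * z) * (L0 + L t0)) := by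
            apply Real.exp_le_exp.2
            nlinarith [mul_nonneg hz (hL t0), mul_nonneg hz hL0, hL t0]
          have h5 : Real.exp ((4 + 8 * z) * (L0 + L t0)) ≤ E :=
            Finset.single_le_sum (f := fun t => Real.exp ((4 + 8 * z) * (L0 + L t)))
              (fun t _ => (Real.exp_pos _).le) ht0
          have h6 := Real.exp_pos ((4 + 8 * z) * (L0 + L t))
          linarith
      calc _ ≤ _ := ha
        _ ≤ _ := mul_le_mul_of_nonneg_left hb hx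
        _ = _ := by ring
    have h2 := Finset.sum_le_sum h1
    rw [Finset.sum_add_distrib, ← Finset.mul_sum, Finset.sum_const, nsmul_eq_mul] at h2
    calc _ ≤ _ := h2
      _ = _ := by rw [← hE]; ring

theorem BADS_lev (a D : ℝ) (n : ℕ) : a / 2 ^ n < D → D ≤ a →
    ∃ i < n, a / 2 ^ (i + 1) < D ∧ D ≤ a / 2 ^ i := by
  induction n with
  | zero =>
    intro h1 h2
    simp at h1
    exact absurd h1 (not_lt.2 h2)
  | succ n ih =>
    intro h1 h2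
    by_cases h : a / 2 ^ n < D
    · obtain ⟨i, hi, h3⟩ := ih h h2
      exact ⟨i, by omega, h3⟩
    · exact ⟨n, by omega, h1, not_lt.1 h⟩

theorem BADS_zD {ψ : ℕ → ℝ} {q r : ℕ} (hD : 1 / 4 ≤ Dm ψ q r) :
    1 ≤ zD ψ q r ∧ Dm ψ q r ≤ 4 ^ (zD ψ q r + 1) ∧
      (4 : ℝ) ^ (zD ψ q r + 1) / 2 ^ 7 < Dm ψ q r := by
  have h1 : 1 ≤ zD ψ q r := le_max_left _ _
  have h2 : ⌊Dm ψ q r⌋₊ < 4 ^ (Nat.log 4 ⌊Dm ψ q r⌋₊ + 1) :=
    Nat.lt_pow_succ_log_self (by norm_num) _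
  have h3 : 4 ^ (Nat.log 4 ⌊Dm ψ q r⌋₊ + 1) ≤ 4 ^ (zD ψ q r + 1) := by
    apply Nat.pow_le_pow_right (by norm_num)
    have : Nat.log 4 ⌊Dm ψ q r⌋₊ ≤ zD ψ q r := le_max_right _ _
    omega
  have h4 : ⌊Dm ψ q r⌋₊ + 1 ≤ 4 ^ (zD ψ q r + 1) := by omega
  have h5 : ((⌊Dm ψ q r⌋₊ : ℝ) + 1) ≤ 4 ^ (zD ψ q r + 1) := by exact_mod_cast h4
  have h6 : Dm ψ q r < ⌊Dm ψ q r⌋₊ + 1 := Nat.lt_floor_add_one _
  refine ⟨h1, by linarith, ?_⟩
  rcases le_total (Nat.log 4 ⌊Dm ψ q r⌋₊) 1 with h | h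
  · have : zD ψ q r = 1 := max_eq_left h
    rw [this]
    norm_num
    linarith
  · have hz : zD ψ q r = Nat.log 4 ⌊Dm ψ q r⌋₊ := max_eq_right h
    have hne : ⌊Dm ψ q r⌋₊ ≠ 0 := by
      intro h0
      rw [h0] at h
      simp at h
    have h7 : 4 ^ (zD ψ q r) ≤ ⌊Dm ψ q r⌋₊ := by
      rw [hz]
      exact Nat.pow_log_le_self 4 hne
    have h8 : ((4 : ℝ) ^ (zD ψ q r)) ≤ ⌊Dm ψ q r⌋₊ := by exact_mod_cast h7
    have h9 : (⌊Dm ψ q r⌋₊ : ℝ) ≤ Dm ψ q r := Nat.floor_le (by linarith)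
    have h10 : (0 : ℝ) < 4 ^ (zD ψ q r) := by positivity
    rw [pow_succ]
    have : (4 : ℝ) ^ (zD ψ q r) * 4 / 2 ^ 7 = 4 ^ (zD ψ q r) / 32 := by ring
    rw [this]
    linarith

theorem BADS_mu_nonneg {ψ : ℕ → ℝ} (hψ : ∀ q, 0 ≤ ψ q) (q : ℕ) : 0 ≤ mu ψ q := by
  unfold mu w
  have := hψ q
  positivity

theorem BADS_EX_nonneg (γ : ℝ) (B : ℕ) (A : ℤ) (ψ : ℕ → ℝ) (θ z : ℝ) (q r : ℕ) :
    0 ≤ EX γ B A ψ θ z q r := Finset.sum_nonneg fun _ _ => (Real.exp_pos _).le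

theorem BADS_KL_nonneg {γ : ℝ} {B : ℕ} {A : ℤ} {ψ : ℕ → ℝ} (hψ : ∀ q, 0 ≤ ψ q)
    (ε X δ z : ℝ) (q r : ℕ) : 0 ≤ KL γ B A ψ ε X δ z q r := by
  unfold KL
  split_ifs
  · exact mul_nonneg (mul_nonneg (BADS_mu_nonneg hψ q) (BADS_mu_nonneg hψ r))
      (BADS_EX_nonneg _ _ _ _ _ _ _ _)
  · exact le_rfl

theorem BADS_swap {α β : Type*} (S : Finset ℕ) (Z : Finset α) (R : Finset β)
    (f : ℕ → ℕ → α → β → ℝ) :
    ∑ q ∈ S, ∑ r ∈ S, ∑ z ∈ Z, ∑ i ∈ R, f q r z i =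
      ∑ z ∈ Z, ∑ i ∈ R, ∑ q ∈ S, ∑ r ∈ S, f q r z i := by
  have h1 : ∀ q ∈ S, ∑ r ∈ S, ∑ z ∈ Z, ∑ i ∈ R, f q r z i =
      ∑ z ∈ Z, ∑ i ∈ R, ∑ r ∈ S, f q r z i := by
    intro q _
    rw [Finset.sum_comm]
    refine Finset.sum_congr rfl fun z _ => ?_
    rw [Finset.sum_comm]
  rw [Finset.sum_congr rfl h1, Finset.sum_comm]
  refine Finset.sum_congr rfl fun z _ => ?_
  rw [Finset.sum_comm]

theorem BADS_EX {K γ : ℝ} {B : ℕ} {A : ℤ} {ψ : ℕ → ℝ} {q r : ℕ} (hK : ¬ GD K γ B A ψ q r)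
    (hDel : 1 / 2 ≤ Del ψ q r) (hDm : Del ψ q r ≤ 2 * Dm ψ q r) :
    EX γ B A ψ 2 (zD ψ q r) q r ≤ 20 * Dm ψ q r * (Real.exp (-(4 * (zD ψ q r) * K)) *
      EX γ B A ψ (4 + 8 * (zD ψ q r)) (zD ψ q r) q r) := by
  classical
  have hor : K < sL (zD ψ q r) (q1 q r * r1 q r) ∨
      ∃ t ∈ (Ts γ (hh q r) (Del ψ q r)).filter (fun t => nt B A q r t ≠ 0),
        K < sL (zD ψ q r) (nt B A q r t).natAbs := by
    by_contra hcon
    push Not at hcon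
    apply hK
    refine ⟨hcon.1, fun t ht ht0 => ?_⟩
    exact hcon.2 t (Finset.mem_filter.2 ⟨ht, ht0⟩)
  have h1 := BADS_abs ((Ts γ (hh q r) (Del ψ q r)).filter (fun t => nt B A q r t ≠ 0))
    (fun t => sL (zD ψ q r) (nt B A q r t).natAbs) (sL (zD ψ q r) (q1 q r * r1 q r))
    (zD ψ q r) K (fun t => sL_nonneg _ _) (sL_nonneg _ _) (Nat.cast_nonneg _) hor
  have hc : ((((Ts γ (hh q r) (Del ψ q r)).filter (fun t => nt B A q r t ≠ 0)).card : ℕ) : ℝ) ≤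
      2 * Del ψ q r + 3 :=
    le_trans (by exact_mod_cast Finset.card_filter_le _ _) (BADS_card γ _ _ (by linarith))
  have h2 : 1 + ((((Ts γ (hh q r) (Del ψ q r)).filter (fun t => nt B A q r t ≠ 0)).card : ℕ) : ℝ)
      ≤ 20 * Dm ψ q r := by linarith
  have h3 : 0 ≤ Real.exp (-(4 * (zD ψ q r) * K)) *
      EX γ B A ψ (4 + 8 * (zD ψ q r)) (zD ψ q r) q r :=
    mul_nonneg (Real.exp_pos _).le (BADS_EX_nonneg _ _ _ _ _ _ _ _)
  have h4 := mul_le_mul_of_nonneg_right h2 h3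
  refine le_trans ?_ h4
  rw [← mul_assoc]
  exact h1

theorem BADS_Del {ψ : ℕ → ℝ} (q r : ℕ) : Del ψ q r ≤ 2 * Dm ψ q r := by
  unfold Del Dm
  have h1 := le_max_left ((r1 q r : ℝ) * ψ q) ((q1 q r : ℝ) * ψ r)
  have h2 := le_max_right ((r1 q r : ℝ) * ψ q) ((q1 q r : ℝ) * ψ r)
  linarith

open Classical in
theorem bads (ε : ℝ) (hε : 0 < ε) (hε1 : ε ≤ 1) : ∃ C : ℝ, 1 ≤ C ∧ ∃ X0 : ℝ, 2 ≤ X0 ∧
    ∀ (X γ : ℝ) (B : ℕ) (A : ℤ) (ψ : ℕ → ℝ) (S : Finset ℕ) (K : ℝ), X0 ≤ X → 1 ≤ K →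
    Blk2 ε X γ B A ψ S →
    ∑ q ∈ S, ∑ r ∈ S with r < q ∧ (q1 q r : ℝ) < (r1 q r : ℝ) * X ^ (ε / 4) ∧
        1 / 2 ≤ Del ψ q r ∧ ¬ GD K γ B A ψ q r ∧
        (zD ψ q r : ℝ) * Real.log (1 + 16 * Real.log X) ≤ c6 ε * Real.log X,
      (zD ψ q r : ℝ) ^ 2 * (mu ψ q * mu ψ r / Dm ψ q r) * EX γ B A ψ 2 (zD ψ q r) q r
        ≤ C * (∑ q ∈ S, mu ψ q) ^ (6 / 5 : ℝ) := by
  obtain ⟨C, hC, X0, hX0, hlv⟩ := lvr ε hε hε1
  have hsum : Summable fun n : ℕ => (n : ℝ) ^ 2 * Real.exp (-1 * n) :=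
    Real.summable_pow_mul_exp_neg_nat_mul 2 one_pos
  set T := ∑' n : ℕ, (n : ℝ) ^ 2 * Real.exp (-1 * n) with hT
  have hT0 : 0 ≤ T := tsum_nonneg fun n => by positivity
  have hcS : 0 < cS ε := by unfold cS; positivity
  refine ⟨140 * C * T + 1, ?_, max X0 ((4 : ℝ) ^ (1 / cS ε)), le_max_of_le_left hX0, ?_⟩
  · have : 0 ≤ 140 * C * T := by positivity
    linarith
  intro X γ B A ψ S K hX hK hB
  have hX1 : X0 ≤ X := (le_max_left _ _).trans hX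
  have hX2 : (4 : ℝ) ^ (1 / cS ε) ≤ X := (le_max_right _ _).trans hX
  have hXpos : 0 < X := by linarith
  have hX3 : X ^ (-cS ε) ≤ 1 / 4 := by
    have h4 : (4 : ℝ) ≤ X ^ cS ε := by
      calc (4 : ℝ) = ((4 : ℝ) ^ (1 / cS ε)) ^ cS ε := by
            rw [← Real.rpow_mul (by norm_num), one_div_mul_cancel hcS.ne', Real.rpow_one]
        _ ≤ X ^ cS ε := Real.rpow_le_rpow (by positivity) hX2 hcS.le
    rw [Real.rpow_neg hXpos.le, one_div]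
    exact inv_anti₀ (by norm_num) h4
  have hmu := BADS_mu_nonneg hB.psi0
  set Z : Finset ℕ := ((S ×ˢ S).image fun p => zD ψ p.1 p.2).filter
    (fun z => 1 ≤ z ∧ (z : ℝ) * Real.log (1 + 16 * Real.log X) ≤ c6 ε * Real.log X) with hZ
  set M := (∑ q ∈ S, mu ψ q) ^ (6 / 5 : ℝ) with hM
  have hM0 : 0 ≤ M := Real.rpow_nonneg (Finset.sum_nonneg fun q _ => hmu q) _
  have hnn : ∀ (q r z i : ℕ), 0 ≤ 20 * (z : ℝ) ^ 2 * Real.exp (-(4 * z * K)) *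
      KL γ B A ψ ε X (4 ^ (z + 1) / 2 ^ i) z q r := by
    intro q r z i
    have := BADS_KL_nonneg (γ := γ) (B := B) (A := A) hB.psi0 ε X (4 ^ (z + 1) / 2 ^ i) z q r
    positivity
  have hpt : ∀ q ∈ S, ∀ r ∈ S, (r < q ∧ (q1 q r : ℝ) < (r1 q r : ℝ) * X ^ (ε / 4) ∧
        1 / 2 ≤ Del ψ q r ∧ ¬ GD K γ B A ψ q r ∧
        (zD ψ q r : ℝ) * Real.log (1 + 16 * Real.log X) ≤ c6 ε * Real.log X) →
      (zD ψ q r : ℝ) ^ 2 * (mu ψ q * mu ψ r / Dm ψ q r) * EX γ B A ψ 2 (zD ψ q r) q r ≤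
        ∑ z ∈ Z, ∑ i ∈ Finset.range 7, 20 * (z : ℝ) ^ 2 * Real.exp (-(4 * z * K)) *
          KL γ B A ψ ε X (4 ^ (z + 1) / 2 ^ i) z q r := by
    intro q hq r hr hc
    obtain ⟨hc1, hc2, hc3, hc4, hc5⟩ := hc
    have hDel := BADS_Del (ψ := ψ) q r
    have hD : 1 / 4 ≤ Dm ψ q r := by linarith
    obtain ⟨hz1, hz2, hz3⟩ := BADS_zD hD
    obtain ⟨i, hi, hi1, hi2⟩ := BADS_lev _ _ 7 hz3 hz2
    have hzZ : zD ψ q r ∈ Z := by
      rw [hZ, Finset.mem_filter]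
      refine ⟨Finset.mem_image.2 ⟨(q, r), Finset.mem_product.2 ⟨hq, hr⟩, rfl⟩, hz1, hc5⟩
    have h1 : 20 * (zD ψ q r : ℝ) ^ 2 * Real.exp (-(4 * (zD ψ q r) * K)) *
          KL γ B A ψ ε X (4 ^ (zD ψ q r + 1) / 2 ^ i) (zD ψ q r) q r ≤
        ∑ z ∈ Z, ∑ i ∈ Finset.range 7, 20 * (z : ℝ) ^ 2 * Real.exp (-(4 * z * K)) *
          KL γ B A ψ ε X (4 ^ (z + 1) / 2 ^ i) z q r := by
      refine le_trans ?_ (Finset.single_le_sum
        (f := fun z : ℕ => ∑ i ∈ Finset.range 7, 20 * (z : ℝ) ^ 2 * Real.exp (-(4 * z * K)) *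
          KL γ B A ψ ε X (4 ^ (z + 1) / 2 ^ i) z q r)
        (fun z _ => Finset.sum_nonneg fun i _ => hnn q r z i) hzZ)
      exact Finset.single_le_sum
        (f := fun i : ℕ => 20 * (zD ψ q r : ℝ) ^ 2 * Real.exp (-(4 * (zD ψ q r) * K)) *
          KL γ B A ψ ε X (4 ^ (zD ψ q r + 1) / 2 ^ i) (zD ψ q r) q r)
        (fun i _ => hnn q r _ i) (Finset.mem_range.2 hi)
    refine le_trans ?_ h1
    have hKL : KL γ B A ψ ε X (4 ^ (zD ψ q r + 1) / 2 ^ i) (zD ψ q r) q r =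
        mu ψ q * mu ψ r * EX γ B A ψ (4 + 8 * (zD ψ q r)) (zD ψ q r) q r := by
      unfold KL
      rw [if_pos]
      refine ⟨hc1, hc2, ?_, hi2⟩
      rw [div_div, ← pow_succ]
      exact hi1
    rw [hKL]
    have h2 := BADS_EX hc4 hc3 hDel
    have hDpos : 0 < Dm ψ q r := by linarith
    have h3 : 0 ≤ (zD ψ q r : ℝ) ^ 2 * (mu ψ q * mu ψ r / Dm ψ q r) := by
      have := hmu q
      have := hmu r
      positivity
    refine (mul_le_mul_of_nonneg_left h2 h3).trans (le_of_eq ?_)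
    field_simp
  have hFF : ∀ z ∈ Z, ∀ i ∈ Finset.range 7, 20 * (z : ℝ) ^ 2 * Real.exp (-(4 * z * K)) *
      FF (KL γ B A ψ ε X (4 ^ (z + 1) / 2 ^ i) z) S S ≤
        20 * C * M * ((z : ℝ) ^ 2 * Real.exp (-1 * z)) := by
    intro z hz i hi
    rw [hZ, Finset.mem_filter] at hz
    obtain ⟨-, hz1, hz2⟩ := hz
    have hi7 : i < 7 := Finset.mem_range.1 hi
    have h4z : (1 : ℝ) ≤ 4 ^ z := one_le_pow₀ (by norm_num)
    have h16 : (16 : ℝ) ≤ 4 ^ (z + 1) := by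
      calc (16 : ℝ) = 4 ^ 2 := by norm_num
        _ ≤ 4 ^ (z + 1) := pow_le_pow_right₀ (by norm_num) (by omega)
    have h2i : (2 : ℝ) ^ i ≤ 64 := by
      calc (2 : ℝ) ^ i ≤ 2 ^ 6 := pow_le_pow_right₀ (by norm_num) (by omega)
        _ = 64 := by norm_num
    have h2i1 : (1 : ℝ) ≤ 2 ^ i := one_le_pow₀ (by norm_num)
    have hδ1 : (1 : ℝ) / 4 ≤ 4 ^ (z + 1) / 2 ^ i := by
      rw [le_div_iff₀ (by positivity)]
      linarith
    have hLev : Lev ε X (4 ^ (z + 1) / 2 ^ i) z := by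
      refine ⟨hz1, hz2, hX3.trans hδ1, ?_⟩
      rw [div_le_iff₀ (by positivity), pow_succ]
      nlinarith
    have h1 := hlv X γ B A ψ S hX1 hB _ z hLev
    have h2 : C * (min 1 ((4 : ℝ) ^ (z + 1) / 2 ^ i)) ^ (11 / 10 : ℝ) * Real.exp (3 * z) * M ≤
        C * Real.exp (3 * z) * M := by
      have h3 : (min 1 ((4 : ℝ) ^ (z + 1) / 2 ^ i)) ^ (11 / 10 : ℝ) ≤ 1 := by
        apply Real.rpow_le_one _ (min_le_left _ _) (by norm_num)
        apply le_min (by norm_num)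
        positivity
      have h4 : 0 ≤ C * Real.exp (3 * z) * M := by positivity
      calc _ = (min 1 ((4 : ℝ) ^ (z + 1) / 2 ^ i)) ^ (11 / 10 : ℝ) *
            (C * Real.exp (3 * z) * M) := by ring
        _ ≤ 1 * (C * Real.exp (3 * z) * M) := mul_le_mul_of_nonneg_right h3 h4
        _ = _ := one_mul _
    have h5 := h1.trans h2
    have h6 : Real.exp (-(4 * z * K)) * Real.exp (3 * z) ≤ Real.exp (-1 * z) := by
      rw [← Real.exp_add]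
      apply Real.exp_le_exp.2
      have hz0 : (0 : ℝ) ≤ z := Nat.cast_nonneg z
      nlinarith
    have h7 : 0 ≤ 20 * (z : ℝ) ^ 2 * Real.exp (-(4 * z * K)) := by positivity
    calc _ ≤ 20 * (z : ℝ) ^ 2 * Real.exp (-(4 * z * K)) * (C * Real.exp (3 * z) * M) :=
          mul_le_mul_of_nonneg_left h5 h7
      _ = 20 * C * M * (z : ℝ) ^ 2 * (Real.exp (-(4 * z * K)) * Real.exp (3 * z)) := by ring
      _ ≤ 20 * C * M * (z : ℝ) ^ 2 * Real.exp (-1 * z) :=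
          mul_le_mul_of_nonneg_left h6 (by positivity)
      _ = _ := by ring
  calc _ ≤ ∑ q ∈ S, ∑ r ∈ S, ∑ z ∈ Z, ∑ i ∈ Finset.range 7,
          20 * (z : ℝ) ^ 2 * Real.exp (-(4 * z * K)) *
          KL γ B A ψ ε X (4 ^ (z + 1) / 2 ^ i) z q r := by
        refine Finset.sum_le_sum fun q hq => ?_
        rw [Finset.sum_filter]
        refine Finset.sum_le_sum fun r hr => ?_
        split_ifs with h
        · exact hpt q hq r hr h
        · exact Finset.sum_nonneg fun z _ => Finset.sum_nonneg fun i _ => hnn q r z i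
    _ = ∑ z ∈ Z, ∑ i ∈ Finset.range 7, 20 * (z : ℝ) ^ 2 * Real.exp (-(4 * z * K)) *
          FF (KL γ B A ψ ε X (4 ^ (z + 1) / 2 ^ i) z) S S := by
        rw [BADS_swap]
        refine Finset.sum_congr rfl fun z _ => Finset.sum_congr rfl fun i _ => ?_
        unfold FF
        rw [Finset.mul_sum]
        refine Finset.sum_congr rfl fun q _ => ?_
        rw [Finset.mul_sum]
    _ ≤ ∑ z ∈ Z, ∑ _i ∈ Finset.range 7, 20 * C * M * ((z : ℝ) ^ 2 * Real.exp (-1 * z)) :=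
        Finset.sum_le_sum fun z hz => Finset.sum_le_sum fun i hi => hFF z hz i hi
    _ = 140 * C * M * ∑ z ∈ Z, ((z : ℝ) ^ 2 * Real.exp (-1 * z)) := by
        rw [Finset.mul_sum]
        refine Finset.sum_congr rfl fun z _ => ?_
        rw [Finset.sum_const, Finset.card_range, nsmul_eq_mul]
        push_cast
        ring
    _ ≤ 140 * C * M * T :=
        mul_le_mul_of_nonneg_left (hsum.sum_le_tsum Z fun n _ => by positivity) (by positivity)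
    _ ≤ (140 * C * T + 1) * M := by nlinarith

end Vale.Agent.P028W
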