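import Vale.Agent.P028W.Defs3


/-!
Module TY: the type of a block satisfies `Blk2`: `X = 2^(4^k)`, `Nd (2n) = 2^n`, `n = ⌊(ε/8) 4^k⌋`, `Bd_pos`, `Bd_le`,
`Bd_approx`, `Bd_coprime` in Vale/Agent/P028EV/Den.lean; `bk q = k` iff `2^(4^k) ≤ q < 2^(4^(k+1))` (`q ≥ 2`).
-/

namespace Vale.Agent.P028W

open Finset MeasureTheory
open Vale.Agent.P028EV (q1 r1 Del hh Ts Bd Ad Nd)
open Vale.Agent.P028KM (w mu Dm Bl FF MN Sb ex cl OK KO th Th MV MW)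

theorem bk_iff (q k : ℕ) (hq : 2 ≤ q) : bk q = k ↔ 2 ^ (4 ^ k) ≤ q ∧ q < 2 ^ (4 ^ (k + 1)) := by
  unfold bk
  have hq0 : q ≠ 0 := by omega
  have hlog : Nat.log 2 q ≠ 0 := by
    have h1 : 0 < Nat.log 2 q := Nat.log_pos (by norm_num) hq
    omega
  rw [Nat.log_eq_iff (Or.inr ⟨by norm_num, hlog⟩), Nat.le_log_iff_pow_le (by norm_num) hq0,
    Nat.log_lt_iff_lt_pow (by norm_num) hq0]

theorem Bt_pos (γ ε : ℝ) (q : ℕ) : 0 < Bt γ ε q := by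
  unfold Bt
  exact Vale.Agent.P028EV.Bd_pos γ _

theorem Bt_cop (γ ε : ℝ) (q : ℕ) : IsCoprime (At γ ε q) (Bt γ ε q : ℤ) := by
  unfold At Bt
  exact Vale.Agent.P028EV.Bd_coprime γ _

theorem TY_Nd (ε : ℝ) (q : ℕ) : (Nd (Ls ε q) : ℝ) = (2 : ℝ) ^ ⌊(ε / 8) * (4 : ℝ) ^ bk q⌋₊ := by
  unfold Vale.Agent.P028EV.Nd Ls
  rw [Nat.mul_div_cancel_left _ (by norm_num)]
  push_cast
  rfl

theorem TY_X (ε : ℝ) (k : ℕ) :
    ((2 : ℝ) ^ (4 ^ k)) ^ (ε / 8) = (2 : ℝ) ^ ((ε / 8) * (4 : ℝ) ^ k) := by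
  rw [← Real.rpow_natCast, ← Real.rpow_mul (by norm_num)]
  congr 1
  push_cast
  ring

theorem ty (γ ε : ℝ) (hε : 0 < ε) (ψ : ℕ → ℝ) (S : Finset ℕ) (k : ℕ) (q0 : ℕ) (hk : bk q0 = k)
    (h0 : ∀ q, 0 ≤ ψ q) (hS : ∀ q ∈ S, 2 ≤ q ∧ bk q = k ∧ ψ q < 1 / 2 ∧ ψ q ≤ (q : ℝ) ^ (-ε)) :
    Blk2 ε ((2 : ℝ) ^ (4 ^ k)) γ (Bt γ ε q0) (At γ ε q0) ψ S := by
  have hy : 0 ≤ (ε / 8) * (4 : ℝ) ^ k := by positivity
  have hNd := TY_Nd ε q0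
  rw [hk] at hNd
  refine ⟨Bt_pos γ ε q0, ?_, Bt_cop γ ε q0, ?_, h0, fun q hq => (hS q hq).2.2.1, ?_, ?_,
    fun q hq => (hS q hq).2.2.2⟩
  · rw [TY_X]
    have h1 : (Bt γ ε q0 : ℝ) ≤ (Nd (Ls ε q0) : ℝ) := by
      unfold Bt
      exact_mod_cast Vale.Agent.P028EV.Bd_le γ _
    refine h1.trans ?_
    rw [hNd, ← Real.rpow_natCast]
    exact Real.rpow_le_rpow_of_exponent_le (by norm_num) (Nat.floor_le hy)
  · have h1 := Vale.Agent.P028EV.Bd_approx γ (Ls ε q0)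
    unfold Bt At
    refine h1.trans ?_
    rw [Real.rpow_neg (by positivity), TY_X, hNd]
    have h2 : (0 : ℝ) < (2 : ℝ) ^ ((ε / 8) * (4 : ℝ) ^ k) := Real.rpow_pos_of_pos (by norm_num) _
    have h3 : (2 : ℝ) ^ ((ε / 8) * (4 : ℝ) ^ k) ≤
        2 * ((2 : ℝ) ^ ⌊(ε / 8) * (4 : ℝ) ^ k⌋₊ + 1) := by
      have h4 : (ε / 8) * (4 : ℝ) ^ k ≤ ((⌊(ε / 8) * (4 : ℝ) ^ k⌋₊ + 1 : ℕ) : ℝ) := by
        push_cast
        exact (Nat.lt_floor_add_one _).le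
      have h5 := Real.rpow_le_rpow_of_exponent_le (by norm_num : (1 : ℝ) ≤ 2) h4
      rw [Real.rpow_natCast, pow_succ] at h5
      linarith
    rw [← div_eq_mul_inv, div_le_div_iff₀ (by positivity) h2]
    linarith
  · intro q hq
    have h1 := (bk_iff q k (hS q hq).1).1 (hS q hq).2.1
    exact_mod_cast h1.1
  · intro q hq
    have h1 := ((bk_iff q k (hS q hq).1).1 (hS q hq).2.1).2
    have h2 : (2 : ℕ) ^ (4 ^ (k + 1)) = (2 ^ (4 ^ k)) ^ 4 := by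
      rw [← pow_mul, ← pow_succ]
    rw [h2] at h1
    exact_mod_cast h1.le

end Vale.Agent.P028W
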