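import Vale.Agent.P028W.Defs3
import Vale.Agent.P028KM.BK
import Vale.Agent.P028W.TY

/-!
Module BK2: choice of the block with separated scales. Split `μ` according to the parity of `bk q`; one of the two parts is
not summable; apply `bk` (Vale/Agent/P028KM/BK.lean) to it (terms with `lam q μ q ≥ q^(-5/4) > 0` have the right
parity). If `r < q` have the same parity of `bk` and `bk q ≠ bk r` then `bk q ≥ bk r + 2` and
`q ≥ 2^(4^(bk r + 2)) = (2^(4^(bk r+1)))^4 > r^4`.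
-/

namespace Vale.Agent.P028W

open Finset MeasureTheory
open Vale.Agent.P028EV (q1 r1 Del hh Ts Bd Ad Nd)
open Vale.Agent.P028KM (w mu Dm Bl FF MN Sb ex cl OK KO th Th MV MW)

theorem BK2_iff {q : ℕ} (hq : 2 ≤ q) (k : ℕ) :
    bk q = k ↔ 2 ^ (4 ^ k) ≤ q ∧ q < 2 ^ (4 ^ (k + 1)) := by
  have h1 : Nat.log 2 q ≠ 0 := by
    have : 0 < Nat.log 2 q := Nat.log_pos (by norm_num) hq
    omega
  unfold bk
  rw [Nat.log_eq_iff (Or.inr ⟨by norm_num, h1⟩), Nat.le_log_iff_pow_le (by norm_num) (by omega),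
    Nat.log_lt_iff_lt_pow (by norm_num) (by omega)]

theorem BK2_mono {q r : ℕ} (h : r ≤ q) : bk r ≤ bk q :=
  Nat.log_mono_right (Nat.log_mono_right h)

theorem BK2_sep {q r : ℕ} (hr : 2 ≤ r) (hrq : r < q) (hpar : bk q % 2 = bk r % 2)
    (hne : bk q ≠ bk r) : r ^ 4 ≤ q := by
  have h1 := BK2_mono hrq.le
  have h2 : bk r + 2 ≤ bk q := by omega
  have h3 := ((BK2_iff hr (bk r)).1 rfl).2
  have h4 := ((BK2_iff (hr.trans hrq.le) (bk q)).1 rfl).1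
  have h5 : (2 ^ (4 ^ (bk r + 1))) ^ 4 = 2 ^ (4 ^ (bk r + 2)) := by
    rw [← pow_mul, ← pow_succ]
  calc r ^ 4 ≤ (2 ^ (4 ^ (bk r + 1))) ^ 4 := Nat.pow_le_pow_left h3.le 4
    _ = 2 ^ (4 ^ (bk r + 2)) := h5
    _ ≤ 2 ^ (4 ^ (bk q)) := Nat.pow_le_pow_right (by norm_num) (Nat.pow_le_pow_right (by norm_num) h2)
    _ ≤ q := h4

theorem BK2_split (μ : ℕ → ℝ) (hdiv : ¬ Summable μ) :
    ∃ e : ℕ, ¬ Summable fun q => if bk q % 2 = e then μ q else 0 := by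
  by_contra h
  push Not at h
  apply hdiv
  have h1 := (h 0).add (h 1)
  refine h1.congr fun q => ?_
  rcases Nat.mod_two_eq_zero_or_one (bk q) with h2 | h2 <;> simp [h2]

theorem bk2 (μ : ℕ → ℝ) (hμ : ∀ q, 0 ≤ μ q) (hμ1 : ∀ q, μ q ≤ 1) (hdiv : ¬ Summable μ) (ε0 : ℝ)
    (hε0 : 0 < ε0) (N : ℕ) :
    ∃ (lam : ℕ → ℝ) (S : Finset ℕ), (∀ q, 0 ≤ lam q ∧ lam q ≤ 1) ∧
      (∀ q ∈ S, N ≤ q ∧ 2 ≤ q ∧ (q : ℝ) ^ (-(5 / 4) : ℝ) ≤ lam q * μ q) ∧
      1 ≤ ∑ q ∈ S, lam q * μ q ∧ ∑ q ∈ S, lam q * μ q ≤ 2 ∧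
      (∀ k : ℕ, ∑ q ∈ S with bk q = k, lam q * μ q ≤ ε0) ∧
      (∀ q ∈ S, ∀ r ∈ S, r < q → bk q ≠ bk r → r ^ 4 ≤ q) := by
  obtain ⟨e, he⟩ := BK2_split μ hdiv
  set μ' : ℕ → ℝ := fun q => if bk q % 2 = e then μ q else 0 with hμ'
  have h0 : ∀ q, 0 ≤ μ' q := by
    intro q
    simp only [hμ']
    split_ifs
    · exact hμ q
    · exact le_rfl
  have h1 : ∀ q, μ' q ≤ 1 := by
    intro q
    simp only [hμ']
    split_ifs
    · exact hμ1 q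
    · norm_num
  obtain ⟨lam, S, hlam, hS, hs1, hs2, hs3⟩ := Vale.Agent.P028KM.bk μ' h0 h1 he ε0 hε0 N
  have hpar : ∀ q ∈ S, bk q % 2 = e := by
    intro q hq
    obtain ⟨-, h2, h3⟩ := hS q hq
    by_contra hne
    have h4 : μ' q = 0 := if_neg hne
    rw [h4, mul_zero] at h3
    have h5 : (0 : ℝ) < (q : ℝ) ^ (-(5 / 4) : ℝ) :=
      Real.rpow_pos_of_pos (by exact_mod_cast (show 0 < q by omega)) _
    linarith
  have heq : ∀ q ∈ S, lam q * μ q = lam q * μ' q := by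
    intro q hq
    have h4 : μ' q = μ q := if_pos (hpar q hq)
    rw [h4]
  refine ⟨lam, S, hlam, fun q hq => ?_, ?_, ?_, fun k => ?_, fun q hq r hr hrq hne => ?_⟩
  · rw [heq q hq]
    exact hS q hq
  · rw [Finset.sum_congr rfl heq]
    exact hs1
  · rw [Finset.sum_congr rfl heq]
    exact hs2
  · have h2 : (S.filter fun q => bk q = k)
        = S.filter fun q => 2 ^ (4 ^ k) ≤ q ∧ q < 2 ^ (4 ^ (k + 1)) :=
      Finset.filter_congr fun q hq => BK2_iff (hS q hq).2.1 k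
    rw [h2, Finset.sum_congr rfl fun q hq => heq q (Finset.mem_filter.1 hq).1]
    exact hs3 k
  · exact BK2_sep (hS r hr).2.1 hrq ((hpar q hq).trans (hpar r hr).symm) hne

end Vale.Agent.P028W
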