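import Mathlib
import Vale.Agent.P028KM.Defs
import Vale.Agent.P028EV.Den

/-!
# P028, all shifts: psi <= q^-eps and sum phi(q)/q psi(q) = infinity => full measure

All `q` of one block `[2^(4^k), 2^(4^(k+1)))` get the same rational approximation `A/B` of `γ`
(the type), `B ≤ X^(ε/8)`, and `AT` keeps only the numerators `a` with `gcd(Ba+A, q) = 1`.
-/

namespace Vale.Agent.P028W

open Finset MeasureTheory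
open Vale.Agent.P028EV (q1 r1 Del hh Ts Bd Ad Nd)
open Vale.Agent.P028KM (w mu Dm Bl FF MN Sb ex cl OK KO th Th)

/-! ## sets -/

def GT (B : ℕ) (A : ℤ) (q : ℕ) (a : ℤ) : Prop :=
  ∀ p : ℕ, p.Prime → p ∣ q → ¬ ((p : ℤ) ∣ (B : ℤ) * a + A)

def AT (γ : ℝ) (B : ℕ) (A : ℤ) (ψ : ℕ → ℝ) (q : ℕ) : Set ℝ :=
  {x | ∃ a : ℤ, GT B A q a ∧ |(q : ℝ) * x - a - γ| < ψ q}

/-- density of the admissible numerators -/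
noncomputable def WT (B q : ℕ) : ℝ := ∏ p ∈ q.primeFactors with ¬ p ∣ B, (1 - 1 / (p : ℝ))

/-- weight: `vt * WT = w` -/
noncomputable def vt (B q : ℕ) : ℝ := w q / WT B q

/-- index of the block of `q` -/
def bk (q : ℕ) : ℕ := Nat.log 4 (Nat.log 2 q)

/-- scale of the type of `q` : `Nd (Ls ε q) = 2 ^ ⌊(ε/8) 4^k⌋` -/
noncomputable def Ls (ε : ℝ) (q : ℕ) : ℕ := 2 * ⌊(ε / 8) * (4 : ℝ) ^ bk q⌋₊

noncomputable def Bt (γ ε : ℝ) (q : ℕ) : ℕ := Bd γ (Ls ε q)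

noncomputable def At (γ ε : ℝ) (q : ℕ) : ℤ := Ad γ (Ls ε q)

/-- the `n` of a coincidence `t` -/
def nt (B : ℕ) (A : ℤ) (q r : ℕ) (t : ℤ) : ℤ := hh q r * A + t * B

/-- nondegenerate coincidence -/
def NDc (γ : ℝ) (B : ℕ) (A : ℤ) (ψ : ℕ → ℝ) (q r : ℕ) : Prop :=
  Del ψ q r < 1 / 2 ∧ ∃ t ∈ Ts γ (hh q r) (Del ψ q r), nt B A q r t ≠ 0

/-- sum of the reciprocals of the prime factors `> z` -/
noncomputable def sL (z : ℝ) (n : ℕ) : ℝ := ∑ p ∈ n.primeFactors.filter (fun p : ℕ => z < (p : ℝ)), 1 / (p : ℝ)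

/-- weighted number of (nondegenerate) coincidences -/
noncomputable def EX (γ : ℝ) (B : ℕ) (A : ℤ) (ψ : ℕ → ℝ) (θ z : ℝ) (q r : ℕ) : ℝ :=
  ∑ t ∈ Ts γ (hh q r) (Del ψ q r) with nt B A q r t ≠ 0,
    Real.exp (θ * (sL z (q1 q r * r1 q r) + sL z (nt B A q r t).natAbs))

/-- sieve level of a pair -/
noncomputable def zD (ψ : ℕ → ℝ) (q r : ℕ) : ℕ := max 1 (Nat.log 4 ⌊Dm ψ q r⌋₊)

/-- good pair: few prime factors above the level -/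
def GD (K γ : ℝ) (B : ℕ) (A : ℤ) (ψ : ℕ → ℝ) (q r : ℕ) : Prop :=
  sL (zD ψ q r) (q1 q r * r1 q r) ≤ K ∧ ∀ t ∈ Ts γ (hh q r) (Del ψ q r), nt B A q r t ≠ 0 →
    sL (zD ψ q r) (nt B A q r t).natAbs ≤ K

/-- standing assumptions on one block -/
structure Blk2 (ε X γ : ℝ) (B : ℕ) (A : ℤ) (ψ : ℕ → ℝ) (S : Finset ℕ) : Prop where
  hB : 0 < B
  hBX : (B : ℝ) ≤ X ^ (ε / 8)
  co : IsCoprime A (B : ℤ)
  ap : |(B : ℝ) * γ - A| ≤ 2 * X ^ (-(ε / 8))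
  psi0 : ∀ q, 0 ≤ ψ q
  psih : ∀ q ∈ S, ψ q < 1 / 2
  lo : ∀ q ∈ S, X ≤ (q : ℝ)
  hi : ∀ q ∈ S, (q : ℝ) ≤ X ^ 4
  psi1 : ∀ q ∈ S, ψ q ≤ (q : ℝ) ^ (-ε)

noncomputable def cA (ε : ℝ) : ℝ := ε / 64
noncomputable def cS (ε : ℝ) : ℝ := ε / 64000

open Classical in
/-- kernel of the level `δ` -/
noncomputable def KL (γ : ℝ) (B : ℕ) (A : ℤ) (ψ : ℕ → ℝ) (ε X δ z : ℝ) (q r : ℕ) : ℝ :=
  if r < q ∧ (q1 q r : ℝ) < (r1 q r : ℝ) * X ^ (ε / 4) ∧ δ / 2 < Dm ψ q r ∧ Dm ψ q r ≤ δ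
  then mu ψ q * mu ψ r * EX γ B A ψ (4 + 8 * z) z q r else 0

/-! ## abstract part with weights `ρ` -/

/-- local factor with weight -/
noncomputable def tr (ρ : ℕ → ℝ) (η : ℝ) (p k l : ℕ) : ℝ :=
  th η p k l * (if k = l then 1 else ρ p)

/-- global factor with weight -/
noncomputable def Tr (ρ : ℕ → ℝ) (η : ℝ) (a b : ℕ) : ℝ :=
  Th η a b * ∏ p ∈ (q1 a b * r1 a b).primeFactors, ρ p

noncomputable def TrQ (ρ : ℕ → ℝ) (η : ℝ) (Q : Finset ℕ) (q0 r0 : ℕ) : ℝ :=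
  ∏ p ∈ Q, tr ρ η p (q0.factorization p) (r0.factorization p)

/-- maximal block with weights -/
structure Mr (ρ : ℕ → ℝ) (R0 η : ℝ) (P S Q : Finset ℕ) (m n : ℕ → ℝ) (K : ℕ → ℕ → ℝ)
    (q0 r0 : ℕ) (c : ℝ) : Prop where
  hρ1 : ∀ p, 1 ≤ ρ p
  hρ2 : ∀ p, ρ p ≤ R0
  hη0 : 0 ≤ η
  hη1 : η ≤ 1 / 40
  hP : ∀ p ∈ P, p.Prime
  hS : ∀ q ∈ S, 0 < q ∧ q.primeFactors ⊆ P
  hm : ∀ q, 0 ≤ m q
  hn : ∀ q, 0 ≤ n q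
  hK : ∀ q r, 0 ≤ K q r
  hQ : Q ⊆ P
  hq0 : q0 ∈ S
  hr0 : r0 ∈ S
  hc : 0 < c
  eq : FF K (Bl S Q q0) (Bl S Q r0) = c * TrQ ρ η Q q0 r0 * MN m n (Bl S Q q0) (Bl S Q r0)
  pm : 0 < ∑ q ∈ Bl S Q q0, m q
  pn : 0 < ∑ r ∈ Bl S Q r0, n r
  le : ∀ Q' : Finset ℕ, Q' ⊆ P → ∀ a ∈ S, ∀ b ∈ S,
    FF K (Bl S Q' a) (Bl S Q' b) ≤ c * TrQ ρ η Q' a b * MN m n (Bl S Q' a) (Bl S Q' b)

/-- local matrix after the removal step -/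
noncomputable def TTr (ρ : ℕ → ℝ) (η : ℝ) (p0 : ℕ) (kk : ℕ → ℕ) (p k l : ℕ) : ℝ :=
  if p < p0 then tr ρ η p k l else
    if k ≤ kk p ∧ l ≤ kk p ∧ (k = kk p ∨ l = kk p) then tr ρ η p k l else 0

/-- norm of the local matrix -/
noncomputable def NNr (ρ : ℕ → ℝ) (R0 η : ℝ) (p0 : ℕ) (kk : ℕ → ℕ) (p : ℕ) : ℝ :=
  if p < p0 then 8 * R0 else if kk p = 0 then 1 else
    1 + ((ρ p) ^ (5 / 2 : ℝ) / ((p : ℝ) ^ (1 - η) - 1) - 1 / (p : ℝ))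

/-- the base inequality with constant `CB` -/
def BASEr (ρ : ℕ → ℝ) (η CB : ℝ) (S : Finset ℕ) (m n : ℕ → ℝ) (K : ℕ → ℕ → ℝ) : Prop :=
  ∀ a b : ℕ, 0 < a → 0 < b → ∀ V W : Finset ℕ, V ⊆ S → W ⊆ S → (∀ q ∈ V, a ∣ q) →
    (∀ r ∈ W, b ∣ r) →
    ∑ q ∈ V, ∑ r ∈ W with Nat.gcd q r = Nat.gcd a b, K q r ≤ CB * Tr ρ η a b * MN m n V W

end Vale.Agent.P028W
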