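import Vale.Agent.P028W.Defs

/-! Definitions for the level estimates. -/

namespace Vale.Agent.P028W

open Finset MeasureTheory
open Vale.Agent.P028EV (q1 r1 Del hh Ts Bd Ad Nd)
open Vale.Agent.P028KM (w mu Dm Bl FF MN Sb ex cl OK KO th Th MV MW)

/-- edge of level `δ` -/
def ED (ψ : ℕ → ℝ) (ε X δ : ℝ) (q r : ℕ) : Prop :=
  r < q ∧ (q1 q r : ℝ) < (r1 q r : ℝ) * X ^ (ε / 4) ∧ δ / 2 < Dm ψ q r ∧ Dm ψ q r ≤ δ

open Classical in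
noncomputable def K0 (ψ : ℕ → ℝ) (ε X δ : ℝ) (q r : ℕ) : ℝ :=
  if ED ψ ε X δ q r then mu ψ q * mu ψ r else 0

open Classical in
/-- `n0 = (a/g)(b/g)` -/
noncomputable def K1 (γ : ℝ) (B : ℕ) (A : ℤ) (ψ : ℕ → ℝ) (ε X δ z : ℝ) (n0 : ℕ) (q r : ℕ) : ℝ :=
  if ED ψ ε X δ q r then mu ψ q * mu ψ r *
    (EX γ B A ψ (4 + 8 * z) z q r * Real.exp (-((4 + 8 * z) * sL z n0))) ^ (20 / 7 : ℝ) else 0

/-- sum over the box `q ∈ [2^i, 2^(i+1))`, `r ∈ [2^j, 2^(j+1))` -/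
noncomputable def bij (K : ℕ → ℕ → ℝ) (V W : Finset ℕ) (a b i j : ℕ) : ℝ :=
  ∑ q ∈ V with Nat.log 2 q = i, ∑ r ∈ W with Nat.log 2 r = j ∧ Nat.gcd q r = Nat.gcd a b, K q r

noncomputable def rz (z : ℝ) (p : ℕ) : ℝ := if z < (p : ℝ) then Real.exp ((4 + 8 * z) / p) else 1

noncomputable def etaW (ε X δ z : ℝ) : ℝ :=
  (5 / (2 * cA ε * Real.log X)) *
    (2 * (4 + 8 * z) * Real.log (1 + 16 * Real.log X) + Real.log (max 1 (1 / δ)) + 2)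

noncomputable def c6 (ε : ℝ) : ℝ := cA ε / 40000

/-- admissible levels -/
structure Lev (ε X δ : ℝ) (z : ℕ) : Prop where
  hz : 1 ≤ z
  hz2 : (z : ℝ) * Real.log (1 + 16 * Real.log X) ≤ c6 ε * Real.log X
  hδ : X ^ (-cS ε) ≤ δ
  hδ2 : δ ≤ 16 * 4 ^ z

end Vale.Agent.P028W
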