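import Vale.Agent.P028W.Defs
import Vale.Agent.P028W.A1
import Vale.Agent.P028EV.Intv

/-!
Module F2: far pairs with two types; adapt Vale/Agent/P028EV/Far.lean (`far_bound`).
-/

namespace Vale.Agent.P028W

open Finset MeasureTheory
open Vale.Agent.P028EV (q1 r1 Del hh Ts Bd Ad Nd)
open Vale.Agent.P028KM (w mu Dm Bl FF MN Sb ex cl OK KO th Th)

theorem F2_WT_ge (B q : ℕ) : ((2 : ℝ) ^ q.primeFactors.card)⁻¹ ≤ WT B q := by
  unfold WT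
  have h1 : ∀ p ∈ q.primeFactors.filter (fun p => ¬ p ∣ B), (1 / 2 : ℝ) ≤ 1 - 1 / (p : ℝ) := by
    intro p hp
    have h2 : (2 : ℝ) ≤ p := by
      exact_mod_cast (Nat.prime_of_mem_primeFactors (Finset.mem_filter.1 hp).1).two_le
    have h3 : 1 / (p : ℝ) ≤ 1 / 2 := one_div_le_one_div_of_le (by norm_num) h2
    linarith
  have h2 : ((2 : ℝ) ^ q.primeFactors.card)⁻¹
      ≤ ((2 : ℝ) ^ (q.primeFactors.filter (fun p => ¬ p ∣ B)).card)⁻¹ := by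
    apply inv_anti₀ (by positivity)
    exact pow_le_pow_right₀ (by norm_num) (Finset.card_filter_le _ _)
  refine h2.trans ?_
  have h3 : ((2 : ℝ) ^ (q.primeFactors.filter (fun p => ¬ p ∣ B)).card)⁻¹
      = ∏ _p ∈ q.primeFactors.filter (fun p => ¬ p ∣ B), (1 / 2 : ℝ) := by
    rw [Finset.prod_const, one_div, inv_pow]
  rw [h3]
  exact Finset.prod_le_prod (fun p _ => by norm_num) h1

theorem F2_GT_iff {B : ℕ} {A : ℤ} (hco : IsCoprime A (B : ℤ)) {q : ℕ} (hq : 0 < q) (a : ℤ) :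
    GT B A q a ↔ ∀ p ∈ q.primeFactors.filter (fun p => ¬ p ∣ B),
      ¬ ((p : ℤ) ∣ (B : ℤ) * a + A) := by
  constructor
  · intro h p hp
    rw [Finset.mem_filter, Nat.mem_primeFactors] at hp
    exact h p hp.1.1 hp.1.2.1
  · intro h p hpp hpq hdiv
    by_cases hb : p ∣ B
    · have hb' : (p : ℤ) ∣ (B : ℤ) := Int.natCast_dvd_natCast.mpr hb
      have ha' : (p : ℤ) ∣ A := (dvd_add_right (hb'.mul_right a)).mp hdiv
      have hu : IsUnit (p : ℤ) := hco.isUnit_of_dvd' ha' hb'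
      exact (Nat.prime_iff_prime_int.mp hpp).not_isUnit hu
    · refine h p ?_ hdiv
      rw [Finset.mem_filter, Nat.mem_primeFactors]
      exact ⟨⟨hpp, hpq, hq.ne'⟩, hb⟩

theorem F2_large (ℓ : ℝ) (hℓ : 0 < ℓ) : ∃ Q : ℕ, 0 < Q ∧ ∀ q : ℕ, Q ≤ q → ∀ B : ℕ,
    WT B q + 2 ^ q.primeFactors.card ≤ (ℓ * (q : ℝ) ^ ((3 / 8 : ℝ)) / 2) * WT B q := by
  obtain ⟨K, hK, hKq⟩ := Vale.Agent.P028EV.omega_bound
  obtain ⟨Q, hQ⟩ := exists_nat_ge ((2 * (1 + K) / ℓ) ^ 4)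
  refine ⟨Q + 1, Nat.succ_pos _, fun q hq B => ?_⟩
  have hq0 : 0 < q := by omega
  have hq1 : (1 : ℝ) ≤ q := by exact_mod_cast hq0
  have hqp : (0 : ℝ) < q := by linarith
  have hW := WT_pos B q
  have h1 := F2_WT_ge B q
  have h2 := hKq q hq0
  set ω := q.primeFactors.card with hω
  have h3 : (2 : ℝ) ^ ω ≤ 4 ^ ω * WT B q := by
    have h4 : (4 : ℝ) ^ ω = 2 ^ ω * 2 ^ ω := by
      rw [← mul_pow]; norm_num
    have h5 : (0 : ℝ) < 2 ^ ω := by positivity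
    calc (2 : ℝ) ^ ω = 2 ^ ω * (2 ^ ω * (2 ^ ω)⁻¹) := by
          rw [mul_inv_cancel₀ h5.ne', mul_one]
      _ ≤ 2 ^ ω * (2 ^ ω * WT B q) := by gcongr
      _ = 4 ^ ω * WT B q := by rw [h4]; ring
  have hq8 : (1 : ℝ) ≤ (q : ℝ) ^ ((1 / 8 : ℝ)) := Real.one_le_rpow hq1 (by norm_num)
  have h6 : 2 * (1 + K) / ℓ ≤ (q : ℝ) ^ ((1 / 4 : ℝ)) := by
    have h7 : (2 * (1 + K) / ℓ) ^ 4 ≤ (q : ℝ) := by
      refine hQ.trans ?_
      have : (Q : ℝ) + 1 ≤ q := by exact_mod_cast hq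
      linarith
    have h8 : 0 ≤ 2 * (1 + K) / ℓ := by positivity
    calc 2 * (1 + K) / ℓ = ((2 * (1 + K) / ℓ) ^ (4 : ℕ)) ^ ((1 / 4 : ℝ)) := by
          rw [← Real.rpow_natCast, ← Real.rpow_mul h8]
          norm_num
      _ ≤ (q : ℝ) ^ ((1 / 4 : ℝ)) := Real.rpow_le_rpow (by positivity) h7 (by norm_num)
  have h9 : (q : ℝ) ^ ((3 / 8 : ℝ)) = (q : ℝ) ^ ((1 / 4 : ℝ)) * (q : ℝ) ^ ((1 / 8 : ℝ)) := by
    rw [← Real.rpow_add hqp]
    norm_num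
  have h10 : (1 + K) * (q : ℝ) ^ ((1 / 8 : ℝ)) ≤ ℓ * (q : ℝ) ^ ((3 / 8 : ℝ)) / 2 := by
    rw [div_le_iff₀ hℓ] at h6
    rw [h9]
    nlinarith
  calc WT B q + 2 ^ ω ≤ WT B q + 4 ^ ω * WT B q := by linarith
    _ ≤ WT B q + K * (q : ℝ) ^ ((1 / 8 : ℝ)) * WT B q := by gcongr
    _ = (1 + K * (q : ℝ) ^ ((1 / 8 : ℝ))) * WT B q := by ring
    _ ≤ ((1 + K) * (q : ℝ) ^ ((1 / 8 : ℝ))) * WT B q := by
        refine mul_le_mul_of_nonneg_right ?_ hW.le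
        nlinarith
    _ ≤ _ := mul_le_mul_of_nonneg_right h10 hW.le

/-- the power inequality -/
theorem F2_pow {q r : ℕ} (hr : 0 < r) (hrq : r ^ 4 ≤ q) {t : ℝ}
    (ht : (r : ℝ) ^ (-(5 / 4) : ℝ) ≤ t) : (q : ℝ) ^ ((3 / 8 : ℝ)) * r ≤ q * t := by
  have hr' : (0 : ℝ) < r := by exact_mod_cast hr
  have hr1 : (1 : ℕ) ≤ r := hr
  have hq1 : (1 : ℝ) ≤ q := by
    have : 1 ≤ q := le_trans (Nat.one_le_pow _ _ hr1) hrq
    exact_mod_cast this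
  have hq0 : (0 : ℝ) < q := by linarith
  have h1 : (r : ℝ) ^ ((9 / 4 : ℝ)) ≤ (q : ℝ) ^ ((5 / 8 : ℝ)) := by
    have e : (r : ℝ) ^ ((9 / 4 : ℝ)) = ((r : ℝ) ^ (4 : ℕ)) ^ ((9 / 16 : ℝ)) := by
      rw [← Real.rpow_natCast, ← Real.rpow_mul hr'.le]
      norm_num
    rw [e]
    calc ((r : ℝ) ^ (4 : ℕ)) ^ ((9 / 16 : ℝ)) ≤ (q : ℝ) ^ ((9 / 16 : ℝ)) :=
          Real.rpow_le_rpow (by positivity) (by exact_mod_cast hrq) (by norm_num)
      _ ≤ (q : ℝ) ^ ((5 / 8 : ℝ)) := Real.rpow_le_rpow_of_exponent_le hq1 (by norm_num)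
  have h2 : (r : ℝ) = (r : ℝ) ^ ((9 / 4 : ℝ)) * (r : ℝ) ^ (-(5 / 4) : ℝ) := by
    rw [← Real.rpow_add hr']
    norm_num
  have h3 : (q : ℝ) = (q : ℝ) ^ ((3 / 8 : ℝ)) * (q : ℝ) ^ ((5 / 8 : ℝ)) := by
    rw [← Real.rpow_add hq0]
    norm_num
  have h4 : (0 : ℝ) ≤ (r : ℝ) ^ (-(5 / 4) : ℝ) := Real.rpow_nonneg hr'.le _
  calc (q : ℝ) ^ ((3 / 8 : ℝ)) * r
      = (q : ℝ) ^ ((3 / 8 : ℝ)) * ((r : ℝ) ^ ((9 / 4 : ℝ)) * (r : ℝ) ^ (-(5 / 4) : ℝ)) := by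
        rw [← h2]
    _ ≤ (q : ℝ) ^ ((3 / 8 : ℝ)) * ((q : ℝ) ^ ((5 / 8 : ℝ)) * (r : ℝ) ^ (-(5 / 4) : ℝ)) := by
        gcongr
    _ = q * (r : ℝ) ^ (-(5 / 4) : ℝ) := by rw [← mul_assoc, ← h3]
    _ ≤ q * t := by gcongr

open Classical in
/-- admissible numerators in `[u, v)` -/
noncomputable def F2_S (B : ℕ) (A : ℤ) (q : ℕ) (u v : ℝ) : Finset ℤ :=
  (Finset.Ico ⌈u⌉ ⌈v⌉).filter (fun a => GT B A q a)

theorem F2_mem {B : ℕ} {A : ℤ} {q : ℕ} {u v : ℝ} {a : ℤ} :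
    a ∈ F2_S B A q u v ↔ (u ≤ a ∧ (a : ℝ) < v) ∧ GT B A q a := by
  classical
  unfold F2_S
  rw [Finset.mem_filter, Finset.mem_Ico, Int.ceil_le, Int.lt_ceil]

theorem F2_count {B : ℕ} {A : ℤ} (hco : IsCoprime A (B : ℤ)) (q : ℕ) (hq : 0 < q) (u v : ℝ) (huv : u ≤ v) :
    |((F2_S B A q u v).card : ℝ) - (v - u) * WT B q| ≤ 2 ^ q.primeFactors.card := by
  classical
  set P := q.primeFactors.filter (fun p => ¬ p ∣ B) with hP
  have hPp : ∀ p ∈ P, p.Prime := by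
    intro p hp
    rw [hP, Finset.mem_filter] at hp
    exact Nat.prime_of_mem_primeFactors hp.1
  have hPa : ∀ p ∈ P, ¬ ((p : ℤ) ∣ (B : ℤ)) := by
    intro p hp h
    rw [hP, Finset.mem_filter] at hp
    exact hp.2 (Int.natCast_dvd_natCast.mp h)
  have h := Vale.Agent.P028EV.count_interval P hPp (B : ℤ) A hPa u v huv
  have hS : F2_S B A q u v = (Finset.Ico ⌈u⌉ ⌈v⌉).filter
      (fun k => ∀ p ∈ P, ¬ ((p : ℤ) ∣ (B : ℤ) * k + A)) := by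
    ext a
    unfold F2_S
    rw [Finset.mem_filter, Finset.mem_filter, F2_GT_iff hco hq]
  have hW : WT B q = ∏ p ∈ P, (1 - 1 / (p : ℝ)) := rfl
  rw [hS, hW]
  refine h.trans ?_
  have hcard : P.card ≤ q.primeFactors.card := Finset.card_filter_le _ _
  exact pow_le_pow_right₀ (by norm_num) hcard

/-- the interval attached to the numerator `a` -/
def F2_I (γ ψ : ℝ) (q : ℕ) (a : ℤ) : Set ℝ :=
  Set.Ioo ((a + γ - ψ) / q) ((a + γ + ψ) / q)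

theorem F2_memI {γ ψ : ℝ} {q : ℕ} (hq : 0 < q) {a : ℤ} {x : ℝ} :
    x ∈ F2_I γ ψ q a ↔ |(q : ℝ) * x - a - γ| < ψ := by
  have hq' : (0 : ℝ) < q := by exact_mod_cast hq
  unfold F2_I
  rw [Set.mem_Ioo, div_lt_iff₀ hq', lt_div_iff₀ hq', abs_lt]
  constructor
  · rintro ⟨h1, h2⟩
    constructor <;> linarith
  · rintro ⟨h1, h2⟩
    constructor <;> linarith

theorem F2_volI (γ ψ : ℝ) (q : ℕ) (a : ℤ) :
    volume (F2_I γ ψ q a) = ENNReal.ofReal (2 * ψ / q) := by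
  unfold F2_I
  rw [Real.volume_Ioo]
  congr 1
  ring

theorem F2_int_le (γ : ℝ) {B : ℕ} {A : ℤ} (hco : IsCoprime A (B : ℤ)) (ψ : ℕ → ℝ) (q : ℕ) (hq : 0 < q) (h0 : 0 ≤ ψ q)
    (h1 : ψ q < 1 / 2) (x1 x2 : ℝ) (hx : x1 ≤ x2) :
    (volume (AT γ B A ψ q ∩ Set.Ico x1 x2)).toReal
      ≤ ((q * (x2 - x1) + 1) * WT B q + 2 ^ q.primeFactors.card) * (2 * ψ q / q) := by
  have hq' : (0 : ℝ) < q := by exact_mod_cast hq
  set u : ℝ := q * x1 - ψ q - γ with hu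
  set v : ℝ := q * x2 + ψ q - γ with hv
  have hqx : (q : ℝ) * x1 ≤ q * x2 := mul_le_mul_of_nonneg_left hx hq'.le
  have huv : u ≤ v := by rw [hu, hv]; linarith
  have hsub : AT γ B A ψ q ∩ Set.Ico x1 x2 ⊆ ⋃ a ∈ F2_S B A q u v, F2_I γ (ψ q) q a := by
    rintro x ⟨⟨a, ha, hax⟩, hxI⟩
    have hax' := hax
    rw [abs_lt] at hax
    have hx1 : (q : ℝ) * x1 ≤ q * x := mul_le_mul_of_nonneg_left hxI.1 hq'.le
    have hx2 : (q : ℝ) * x < q * x2 := mul_lt_mul_of_pos_left hxI.2 hq'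
    refine Set.mem_biUnion (x := a) ?_ ((F2_memI hq).mpr hax')
    rw [SetLike.mem_coe, F2_mem]
    refine ⟨⟨?_, ?_⟩, ha⟩
    · rw [hu]; linarith [hax.2]
    · rw [hv]; linarith [hax.1]
  have hψq : 0 ≤ 2 * ψ q / q := by positivity
  have hvol : volume (AT γ B A ψ q ∩ Set.Ico x1 x2)
      ≤ ENNReal.ofReal ((F2_S B A q u v).card * (2 * ψ q / q)) := by
    refine (measure_mono hsub).trans ((measure_biUnion_finset_le _ _).trans (le_of_eq ?_))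
    rw [Finset.sum_congr rfl (fun a _ => F2_volI γ (ψ q) q a), Finset.sum_const, nsmul_eq_mul,
      ENNReal.ofReal_mul (Nat.cast_nonneg _), ENNReal.ofReal_natCast]
  have hreal : (volume (AT γ B A ψ q ∩ Set.Ico x1 x2)).toReal
      ≤ (F2_S B A q u v).card * (2 * ψ q / q) := by
    have h2 := ENNReal.toReal_mono ENNReal.ofReal_ne_top hvol
    rwa [ENNReal.toReal_ofReal (by positivity)] at h2
  refine hreal.trans (mul_le_mul_of_nonneg_right ?_ hψq)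
  have hc := (abs_le.mp (F2_count hco q hq u v huv)).2
  have hW := (WT_pos B q).le
  have hlen : v - u ≤ q * (x2 - x1) + 1 := by
    rw [hu, hv, mul_sub]
    linarith
  have h3 := mul_le_mul_of_nonneg_right hlen hW
  linarith

theorem f2 (ℓ : ℝ) (hℓ : 0 < ℓ) : ∃ Q : ℕ, 0 < Q ∧ ∀ q r : ℕ, Q ≤ r → r ^ 4 ≤ q →
    ∀ (γ : ℝ) (B : ℕ) (A : ℤ) (B' : ℕ) (A' : ℤ) (ψ : ℕ → ℝ) (x0 : ℝ),
      0 < B → IsCoprime A (B : ℤ) → 0 < B' → IsCoprime A' (B' : ℤ) → 0 ≤ ψ q → ψ q < 1 / 2 →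
      (r : ℝ) ^ (-(5 / 4) : ℝ) ≤ ψ r → ψ r < 1 / 2 →
      (volume (AT γ B A ψ q ∩ AT γ B' A' ψ r ∩ Set.Ico x0 (x0 + ℓ))).toReal
        ≤ 64 * ℓ * (WT B q * ψ q) * (WT B' r * ψ r) := by
  classical
  obtain ⟨Q1, hQ1, H1⟩ := F2_large ℓ hℓ
  obtain ⟨Q2, hQ2, H2⟩ := F2_large 4 (by norm_num)
  refine ⟨max Q1 Q2, lt_max_of_lt_left hQ1, ?_⟩
  intro q r hQr hrq γ B A B' A' ψ x0 hB hco hB' hco' hq0 hq1 hr0 hr1
  have hrN : 0 < r := lt_of_lt_of_le hQ1 (le_trans (le_max_left _ _) hQr)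
  have hqN : 0 < q := lt_of_lt_of_le (pow_pos hrN 4) hrq
  have hQ2q : Q2 ≤ q :=
    le_trans (le_trans (le_max_right _ _) hQr) (le_trans (Nat.le_self_pow (by norm_num) r) hrq)
  have hr' : (0 : ℝ) < r := by exact_mod_cast hrN
  have hq' : (0 : ℝ) < q := by exact_mod_cast hqN
  have hr1' : (1 : ℝ) ≤ r := by exact_mod_cast hrN
  have hψr : 0 ≤ ψ r := le_trans (Real.rpow_nonneg hr'.le _) hr0
  have hWq := WT_pos B q
  have hWr := WT_pos B' r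
  -- the admissible numerators
  set P := r.primeFactors.filter (fun p => ¬ p ∣ B') with hP
  set u : ℝ := r * x0 - γ - ψ r with hu
  set v : ℝ := r * (x0 + ℓ) - γ + ψ r with hv
  have huv : u ≤ v := by
    have : 0 < (r : ℝ) * ℓ := by positivity
    rw [hu, hv]
    linarith
  set S := (Finset.Ico ⌈u⌉ ⌈v⌉).filter
    (fun k => ∀ p ∈ P, ¬ ((p : ℤ) ∣ (B' : ℤ) * k + A')) with hS
  have hcount : (S.card : ℝ) ≤ 2 * r * ℓ * WT B' r := by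
    have h1 := Vale.Agent.P028EV.count_interval P (fun p hp => Nat.prime_of_mem_primeFactors
      (Finset.mem_filter.1 hp).1) (B' : ℤ) (A') (fun p hp => by
        rw [Int.natCast_dvd_natCast]
        exact (Finset.mem_filter.1 hp).2) u v huv
    have h2 := (abs_le.1 h1).2
    have h3 : (∏ p ∈ P, (1 - 1 / (p : ℝ))) = WT B' r := rfl
    rw [h3] at h2
    have h4 : (2 : ℝ) ^ P.card ≤ 2 ^ r.primeFactors.card :=
      pow_le_pow_right₀ (by norm_num) (Finset.card_filter_le _ _)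
    have h5 := H1 r (le_trans (le_max_left _ _) hQr) B'
    have h6 : (r : ℝ) ^ ((3 / 8 : ℝ)) ≤ r := by
      calc (r : ℝ) ^ ((3 / 8 : ℝ)) ≤ (r : ℝ) ^ (1 : ℝ) :=
            Real.rpow_le_rpow_of_exponent_le hr1' (by norm_num)
        _ = r := Real.rpow_one _
    have h7 : (ℓ * (r : ℝ) ^ ((3 / 8 : ℝ)) / 2) * WT B' r ≤ (ℓ * r / 2) * WT B' r := by
      gcongr
    have h8 : v - u = r * ℓ + 2 * ψ r := by
      rw [hu, hv]
      ring
    have h9 : (v - u) * WT B' r ≤ (r * ℓ + 1) * WT B' r := by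
      rw [h8]
      have : r * ℓ + 2 * ψ r ≤ r * ℓ + 1 := by linarith
      exact mul_le_mul_of_nonneg_right this hWr.le
    have h10 : (S.card : ℝ) ≤ (v - u) * WT B' r + 2 ^ P.card := by
      rw [hS]
      linarith
    have h11 : 0 ≤ ℓ * r * WT B' r := by positivity
    nlinarith
  -- the covering
  have hcover : AT γ B A ψ q ∩ AT γ B' A' ψ r ∩ Set.Ico x0 (x0 + ℓ) ⊆
      ⋃ k ∈ S, (AT γ B A ψ q ∩ Set.Ico (((k : ℝ) + γ - ψ r) / r) (((k : ℝ) + γ + ψ r) / r)) := by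
    rintro x ⟨⟨hxq, ⟨b, hb, hbx⟩⟩, hx0, hx1⟩
    rw [abs_lt] at hbx
    obtain ⟨hb1, hb2⟩ := hbx
    refine Set.mem_iUnion₂.2 ⟨b, ?_, hxq, ?_, ?_⟩
    · rw [hS, Finset.mem_filter, Finset.mem_Ico]
      refine ⟨⟨?_, ?_⟩, ?_⟩
      · rw [Int.ceil_le, hu]
        have : (r : ℝ) * x0 ≤ r * x := mul_le_mul_of_nonneg_left hx0 hr'.le
        linarith
      · rw [Int.lt_ceil, hv]
        have : (r : ℝ) * x < r * (x0 + ℓ) := mul_lt_mul_of_pos_left hx1 hr'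
        linarith
      · exact (F2_GT_iff hco' hrN b).1 hb
    · rw [div_le_iff₀ hr']
      linarith
    · rw [lt_div_iff₀ hr']
      linarith
  -- measure of each piece
  have hpiece : ∀ k ∈ S, (volume (AT γ B A ψ q ∩
      Set.Ico (((k : ℝ) + γ - ψ r) / r) (((k : ℝ) + γ + ψ r) / r))).toReal ≤
        8 * ψ r * ψ q * WT B q / r := by
    intro k _
    have h1 := F2_int_le γ hco ψ q hqN hq0 hq1 (((k : ℝ) + γ - ψ r) / r)
      (((k : ℝ) + γ + ψ r) / r) (by gcongr; linarith)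
    have h2 : (q : ℝ) * (((k : ℝ) + γ + ψ r) / r - ((k : ℝ) + γ - ψ r) / r) = 2 * q * ψ r / r := by
      field_simp
      ring
    rw [h2] at h1
    have h3 := H2 q hQ2q B
    have h4 := F2_pow hrN hrq hr0
    have h5 : (q : ℝ) ^ ((3 / 8 : ℝ)) ≤ q * ψ r / r := by
      rw [le_div_iff₀ hr']
      exact h4
    have h6 : (4 * (q : ℝ) ^ ((3 / 8 : ℝ)) / 2) * WT B q ≤ (2 * (q * ψ r / r)) * WT B q := by
      refine mul_le_mul_of_nonneg_right ?_ hWq.le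
      linarith
    have h7 : (2 * q * ψ r / r + 1) * WT B q + 2 ^ q.primeFactors.card ≤
        (4 * (q * ψ r / r)) * WT B q := by
      have e : 2 * (q : ℝ) * ψ r / r = 2 * (q * ψ r / r) := by ring
      rw [e]
      linarith
    refine h1.trans ?_
    calc ((2 * q * ψ r / r + 1) * WT B q + 2 ^ q.primeFactors.card) * (2 * ψ q / q)
        ≤ ((4 * (q * ψ r / r)) * WT B q) * (2 * ψ q / q) :=
          mul_le_mul_of_nonneg_right h7 (by positivity)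
      _ = 8 * ψ r * ψ q * WT B q / r := by
          field_simp
          ring
  have hfin : ∀ k ∈ S, volume (AT γ B A ψ q ∩
      Set.Ico (((k : ℝ) + γ - ψ r) / r) (((k : ℝ) + γ + ψ r) / r)) ≠ ⊤ := by
    intro k _
    exact ne_top_of_le_ne_top (by rw [Real.volume_Ico]; exact ENNReal.ofReal_ne_top)
      (measure_mono Set.inter_subset_right)
  have hsum : (volume (AT γ B A ψ q ∩ AT γ B' A' ψ r ∩ Set.Ico x0 (x0 + ℓ))).toReal ≤
      ∑ k ∈ S, (volume (AT γ B A ψ q ∩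
        Set.Ico (((k : ℝ) + γ - ψ r) / r) (((k : ℝ) + γ + ψ r) / r))).toReal := by
    rw [← ENNReal.toReal_sum hfin]
    exact ENNReal.toReal_mono (ENNReal.sum_ne_top.2 hfin)
      ((measure_mono hcover).trans (measure_biUnion_finset_le _ _))
  have h0 : 0 ≤ 8 * ψ r * ψ q * WT B q / r := by positivity
  calc (volume (AT γ B A ψ q ∩ AT γ B' A' ψ r ∩ Set.Ico x0 (x0 + ℓ))).toReal
      ≤ ∑ k ∈ S, (volume (AT γ B A ψ q ∩
        Set.Ico (((k : ℝ) + γ - ψ r) / r) (((k : ℝ) + γ + ψ r) / r))).toReal := hsum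
    _ ≤ ∑ _k ∈ S, 8 * ψ r * ψ q * WT B q / r := Finset.sum_le_sum hpiece
    _ = S.card * (8 * ψ r * ψ q * WT B q / r) := by rw [Finset.sum_const, nsmul_eq_mul]
    _ ≤ (2 * r * ℓ * WT B' r) * (8 * ψ r * ψ q * WT B q / r) :=
        mul_le_mul_of_nonneg_right hcount h0
    _ = 16 * ℓ * (WT B q * ψ q) * (WT B' r * ψ r) := by
        field_simp
        ring
    _ ≤ 64 * ℓ * (WT B q * ψ q) * (WT B' r * ψ r) := by
        have : 0 ≤ ℓ * (WT B q * ψ q) * (WT B' r * ψ r) := by positivity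
        nlinarith

end Vale.Agent.P028W
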