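import Vale.Agent.P028W.Defs3
import Vale.Agent.P028W.SL

/-!
Module GB: large `Dm` implies good. `sL_big`: `sL z n ≤ log n/(z log z)`, `n ≤ X^8`, `z > c6 log X/log(1+16 log X)`, so
`sL ≤ 8 log(1+16 log X)/(c6 log z)` and `log z ≥ (1/2) log(1+16 log X)` for large `X`: `K = 16/c6 + 1`.
-/

namespace Vale.Agent.P028W

open Finset MeasureTheory
open Vale.Agent.P028EV (q1 r1 Del hh Ts Bd Ad Nd)
open Vale.Agent.P028KM (w mu Dm Bl FF MN Sb ex cl OK KO th Th MV MW)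

theorem GB_an (c x z : ℝ) (hc : 0 < c) (hc1 : c ≤ 1) (hx : (128 / c) ^ 4 ≤ x)
    (hz : c * x < z * Real.log (1 + 16 * x)) : 1 < z ∧ 8 * x / (z * Real.log z) ≤ 16 / c := by
  have h128 : 128 ≤ 128 / c := by
    rw [le_div_iff₀ hc]
    nlinarith
  have hx1 : (128 : ℝ) ^ 4 ≤ x := (pow_le_pow_left₀ (by norm_num) h128 4).trans hx
  have hx0 : 1 ≤ x := le_trans (by norm_num) hx1
  have hY1 : (1 : ℝ) < 1 + 16 * x := by linarith
  have hY0 : (0 : ℝ) < 1 + 16 * x := by linarith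
  have hL : 0 < Real.log (1 + 16 * x) := Real.log_pos hY1
  have h1 : Real.log (1 + 16 * x) ≤ (1 + 16 * x) ^ (1 / 4 : ℝ) / (1 / 4) :=
    Real.log_le_rpow_div hY0.le (by norm_num)
  have h2 : 128 / c ≤ (1 + 16 * x) ^ (1 / 4 : ℝ) := by
    have h3 : (128 / c) = ((128 / c) ^ 4) ^ (1 / 4 : ℝ) := by
      rw [← Real.rpow_natCast, ← Real.rpow_mul (by positivity)]
      norm_num
    rw [h3]
    exact Real.rpow_le_rpow (by positivity) (by linarith) (by norm_num)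
  obtain ⟨u, hu⟩ : ∃ u, u = (1 + 16 * x) ^ (1 / 4 : ℝ) := ⟨_, rfl⟩
  rw [← hu] at h1 h2
  have hu0 : 0 < u := lt_of_lt_of_le (by positivity) h2
  have hu4 : u ^ 4 = 1 + 16 * x := by
    rw [hu, ← Real.rpow_natCast, ← Real.rpow_mul hY0.le]
    norm_num
  have hz0 : 0 < z := by
    by_contra h
    have h5 : z * Real.log (1 + 16 * x) ≤ 0 := mul_nonpos_of_nonpos_of_nonneg (not_lt.1 h) hL.le
    have h6 : 0 < c * x := by positivity
    linarith
  have h5 : z * Real.log (1 + 16 * x) ≤ z * (u / (1 / 4)) := mul_le_mul_of_nonneg_left h1 hz0.le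
  have h6 : 128 ≤ u * c := by
    rw [div_le_iff₀ hc] at h2
    exact h2
  have h7 : u ^ 4 / 32 ≤ x := by rw [hu4]; linarith
  have h8 : c * (u ^ 4 / 32) ≤ c * x := mul_le_mul_of_nonneg_left h7 hc.le
  have h9 : 128 * (u ^ 3 / 32) ≤ (u * c) * (u ^ 3 / 32) :=
    mul_le_mul_of_nonneg_right h6 (by positivity)
  have h10 : u * (4 * u ^ 2) < u * (4 * z) := by
    have e1 : c * (u ^ 4 / 32) = (u * c) * (u ^ 3 / 32) := by ring
    have e2 : 128 * (u ^ 3 / 32) = u * (4 * u ^ 2) := by ring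
    have e3 : z * (u / (1 / 4)) = u * (4 * z) := by ring
    linarith
  have h11 : u ^ 2 < z := by
    have := lt_of_mul_lt_mul_left h10 hu0.le
    linarith
  have h12 : 1 < u := by
    have : 128 ≤ u := h128.trans h2
    linarith
  have h13 : 1 < z := by nlinarith
  refine ⟨h13, ?_⟩
  have h14 : Real.log (1 + 16 * x) = 2 * Real.log (u ^ 2) := by
    rw [← hu4, Real.log_pow, Real.log_pow]
    push_cast
    ring
  have h15 : Real.log (u ^ 2) ≤ Real.log z := Real.log_le_log (by positivity) h11.le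
  have h16 : c * x / 2 ≤ z * Real.log z := by
    have := mul_le_mul_of_nonneg_left h15 hz0.le
    rw [h14] at hz
    linarith
  have h17 : 0 < c * x / 2 := by positivity
  calc 8 * x / (z * Real.log z) ≤ 8 * x / (c * x / 2) :=
        div_le_div_of_nonneg_left (by positivity) h17 h16
    _ = 16 / c := by
        field_simp
        norm_num

theorem GB_c6 (ε : ℝ) (hε : 0 < ε) (hε1 : ε ≤ 1) : 0 < c6 ε ∧ c6 ε ≤ 1 := by
  unfold c6 cA
  constructor
  · positivity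
  · rw [div_le_one (by norm_num)]
    linarith

theorem gb (ε : ℝ) (hε : 0 < ε) (hε1 : ε ≤ 1) : ∃ K : ℝ, 1 ≤ K ∧ ∃ X0 : ℝ, 2 ≤ X0 ∧
    ∀ (X γ : ℝ) (B : ℕ) (A : ℤ) (ψ : ℕ → ℝ) (S : Finset ℕ), X0 ≤ X → Blk2 ε X γ B A ψ S →
    ∀ q ∈ S, ∀ r ∈ S, r < q →
    c6 ε * Real.log X < (zD ψ q r : ℝ) * Real.log (1 + 16 * Real.log X) → GD K γ B A ψ q r := by
  obtain ⟨hc, hc1⟩ := GB_c6 ε hε hε1
  refine ⟨16 / c6 ε + 1, ?_, max 2 (Real.exp ((128 / c6 ε) ^ 4)), le_max_left _ _, ?_⟩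
  · have : 0 < 16 / c6 ε := by positivity
    linarith
  intro X γ B A ψ S hX hS q hq r hr hrq hlev
  have hX2 : 2 ≤ X := (le_max_left _ _).trans hX
  have hX0 : 0 < X := by linarith
  have hx : (128 / c6 ε) ^ 4 ≤ Real.log X := by
    rw [Real.le_log_iff_exp_le hX0]
    exact (le_max_right _ _).trans hX
  obtain ⟨hz1, hzb⟩ := GB_an (c6 ε) (Real.log X) (zD ψ q r : ℝ) hc hc1 hx hlev
  have hlz : 0 < Real.log (zD ψ q r : ℝ) := Real.log_pos hz1
  have key : ∀ n : ℕ, 0 < n → (n : ℝ) ≤ X ^ 8 → sL (zD ψ q r) n ≤ 16 / c6 ε + 1 := by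
    intro n hn hnX
    have h1 := sL_big (zD ψ q r : ℝ) hz1 n hn
    have h2 : Real.log n ≤ 8 * Real.log X := by
      have h3 : Real.log n ≤ Real.log (X ^ 8) := Real.log_le_log (by exact_mod_cast hn) hnX
      rw [Real.log_pow] at h3
      exact_mod_cast h3
    have h4 : Real.log n / ((zD ψ q r : ℝ) * Real.log (zD ψ q r : ℝ)) ≤
        8 * Real.log X / ((zD ψ q r : ℝ) * Real.log (zD ψ q r : ℝ)) :=
      div_le_div_of_nonneg_right h2 (by positivity)
    linarith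
  have hq4 := hS.hi q hq
  have hr4 := hS.hi r hr
  have hqp : 0 < q := by
    have := hS.lo q hq
    have h : (0 : ℝ) < q := by linarith
    exact_mod_cast h
  have hrp : 0 < r := by
    have := hS.lo r hr
    have h : (0 : ℝ) < r := by linarith
    exact_mod_cast h
  have hg : 0 < Nat.gcd q r := Nat.gcd_pos_of_pos_left _ hqp
  have hq1p : 0 < q1 q r := Nat.div_pos (Nat.gcd_le_left _ hqp) hg
  have hr1p : 0 < r1 q r := Nat.div_pos (Nat.gcd_le_right _ hrp) hg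
  have hq1 : (q1 q r : ℝ) ≤ X ^ 4 := by
    refine le_trans ?_ hq4
    exact_mod_cast Nat.div_le_self _ _
  have hr1 : (r1 q r : ℝ) ≤ X ^ 4 := by
    refine le_trans ?_ hr4
    exact_mod_cast Nat.div_le_self _ _
  constructor
  · refine key _ (Nat.mul_pos hq1p hr1p) ?_
    push_cast
    calc (q1 q r : ℝ) * (r1 q r : ℝ) ≤ X ^ 4 * X ^ 4 :=
          mul_le_mul hq1 hr1 (by positivity) (by positivity)
      _ = X ^ 8 := by ring
  · intro t ht hnt
    refine key _ (Int.natAbs_pos.2 hnt) ?_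
    rw [Vale.Agent.P028EV.mem_Ts] at ht
    have e1 : (((nt B A q r t).natAbs : ℕ) : ℝ) = |((nt B A q r t : ℤ) : ℝ)| := by
      rw [Nat.cast_natAbs]
      push_cast
      rfl
    have e2 : ((nt B A q r t : ℤ) : ℝ) = -((hh q r : ℝ) * ((B : ℝ) * γ - A)) +
        (B : ℝ) * ((t : ℝ) + γ * (hh q r : ℝ)) := by
      unfold nt
      push_cast
      ring
    have hh1 : |(hh q r : ℝ)| ≤ X ^ 4 := by
      unfold hh
      push_cast
      rw [abs_le]
      have a1 : (0 : ℝ) ≤ (r1 q r : ℝ) := by positivity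
      have a2 : (0 : ℝ) ≤ (q1 q r : ℝ) := by positivity
      constructor <;> linarith
    have hXe : X ^ (-(ε / 8)) ≤ 1 := Real.rpow_le_one_of_one_le_of_nonpos (by linarith) (by linarith)
    have hXe' : X ^ (ε / 8) ≤ X := by
      calc X ^ (ε / 8) ≤ X ^ (1 : ℝ) :=
            Real.rpow_le_rpow_of_exponent_le (by linarith) (by linarith)
        _ = X := Real.rpow_one X
    have hap : |(B : ℝ) * γ - A| ≤ 2 := by
      have := hS.ap
      linarith
    have hDel : Del ψ q r ≤ X ^ 4 := by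
      unfold Del
      have b1 := hS.psih q hq
      have b2 := hS.psih r hr
      have c1 : (r1 q r : ℝ) * ψ q ≤ X ^ 4 * (1 / 2) :=
        mul_le_mul hr1 b1.le (hS.psi0 q) (by positivity)
      have c2 : (q1 q r : ℝ) * ψ r ≤ X ^ 4 * (1 / 2) :=
        mul_le_mul hq1 b2.le (hS.psi0 r) (by positivity)
      linarith
    have hBX : (B : ℝ) ≤ X := hS.hBX.trans hXe'
    rw [e1, e2]
    have t1 : |-((hh q r : ℝ) * ((B : ℝ) * γ - A))| ≤ X ^ 4 * 2 := by
      rw [abs_neg, abs_mul]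
      exact mul_le_mul hh1 hap (abs_nonneg _) (by positivity)
    have t2 : |(B : ℝ) * ((t : ℝ) + γ * (hh q r : ℝ))| ≤ X * X ^ 4 := by
      rw [abs_mul, Nat.abs_cast]
      exact mul_le_mul hBX (ht.le.trans hDel) (abs_nonneg _) (by positivity)
    have t3 : X ^ 4 * 2 + X * X ^ 4 ≤ X ^ 8 := by
      have p1 : X ^ 4 * 2 ≤ X ^ 4 * X := mul_le_mul_of_nonneg_left hX2 (by positivity)
      have p2 : X ^ 5 * 2 ≤ X ^ 5 * X := mul_le_mul_of_nonneg_left hX2 (by positivity)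
      have p3 : X ^ 6 ≤ X ^ 8 := pow_le_pow_right₀ (by linarith) (by norm_num)
      have p4 : X ^ 4 * X = X ^ 5 := by ring
      have p5 : X ^ 5 * X = X ^ 6 := by ring
      have p6 : X * X ^ 4 = X ^ 5 := by ring
      linarith
    exact (abs_add_le _ _).trans (by linarith)

/-- small level implies small `Dm` -/
theorem gb2 (ε : ℝ) (hε : 0 < ε) (hε1 : ε ≤ 1) : ∃ X0 : ℝ, 2 ≤ X0 ∧
    ∀ (X : ℝ) (ψ : ℕ → ℝ) (q r : ℕ), X0 ≤ X →
    (zD ψ q r : ℝ) * Real.log (1 + 16 * Real.log X) ≤ c6 ε * Real.log X →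
    Dm ψ q r ≤ X ^ (ε / 8) := by
  obtain ⟨hc, hc1⟩ := GB_c6 ε hε hε1
  refine ⟨Real.exp 1, by have := Real.exp_one_gt_d9; linarith, ?_⟩
  intro X ψ q r hX hlev
  have hX0 : 0 < X := (Real.exp_pos 1).trans_le hX
  have hlX : 1 ≤ Real.log X := by rw [Real.le_log_iff_exp_le hX0]; exact hX
  have hL : 1 ≤ Real.log (1 + 16 * Real.log X) := by
    rw [Real.le_log_iff_exp_le (by linarith)]
    have := Real.exp_one_lt_d9
    linarith
  have hz0 : (0 : ℝ) ≤ (zD ψ q r : ℝ) := by positivity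
  have h1 : (zD ψ q r : ℝ) ≤ c6 ε * Real.log X := by
    have := mul_le_mul_of_nonneg_left hL hz0
    linarith
  have hzD1 : 1 ≤ zD ψ q r := le_max_left _ _
  have h2 : Dm ψ q r < (4 : ℝ) ^ (2 * zD ψ q r) := by
    have a1 : Dm ψ q r < (⌊Dm ψ q r⌋₊ : ℝ) + 1 := Nat.lt_floor_add_one _
    have a2 : ⌊Dm ψ q r⌋₊ < 4 ^ (Nat.log 4 ⌊Dm ψ q r⌋₊ + 1) := Nat.lt_pow_succ_log_self (by norm_num) _
    have a3 : Nat.log 4 ⌊Dm ψ q r⌋₊ ≤ zD ψ q r := le_max_right _ _
    have a4 : (4 : ℕ) ^ (Nat.log 4 ⌊Dm ψ q r⌋₊ + 1) ≤ 4 ^ (2 * zD ψ q r) :=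
      Nat.pow_le_pow_right (by norm_num) (by omega)
    have a5 : ⌊Dm ψ q r⌋₊ + 1 ≤ 4 ^ (2 * zD ψ q r) := by omega
    have a6 : (⌊Dm ψ q r⌋₊ : ℝ) + 1 ≤ (4 : ℝ) ^ (2 * zD ψ q r) := by exact_mod_cast a5
    linarith
  refine h2.le.trans ?_
  have h3 : (4 : ℝ) ^ (2 * zD ψ q r) = Real.exp ((2 * zD ψ q r : ℝ) * Real.log 4) := by
    rw [← Real.rpow_natCast, Real.rpow_def_of_pos (by norm_num : (0 : ℝ) < 4)]
    push_cast
    congr 1
    ring
  have h4 : X ^ (ε / 8) = Real.exp (Real.log X * (ε / 8)) := Real.rpow_def_of_pos hX0 _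
  rw [h3, h4]
  apply Real.exp_le_exp.2
  have h5 : Real.log 4 ≤ 3 := by
    have := Real.log_le_sub_one_of_pos (show (0 : ℝ) < 4 by norm_num)
    linarith
  have h6 : 0 ≤ Real.log 4 := Real.log_nonneg (by norm_num)
  have h7 : (2 * zD ψ q r : ℝ) * Real.log 4 ≤ (2 * (c6 ε * Real.log X)) * 3 :=
    mul_le_mul (by linarith) h5 h6 (by positivity)
  have h8 : 2 * (c6 ε * Real.log X) * 3 = (6 * c6 ε) * Real.log X := by ring
  have h9 : 6 * c6 ε ≤ ε / 8 := by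
    unfold c6 cA
    linarith
  have h10 : (6 * c6 ε) * Real.log X ≤ (ε / 8) * Real.log X :=
    mul_le_mul_of_nonneg_right h9 (by linarith)
  linarith

end Vale.Agent.P028W
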