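import Vale.Agent.P028W.Defs3
import Vale.Agent.P028W.LVr

/-!
Module NDS: nondegenerate coincidences with `Dm ≥ X^(-cS)`: levels `δ = 2^(-j)`, `j ≥ 1`, `z = 1` (`Dm ≤ Del < 1/2`);
`EX 2 1 ≤ EX (4+8) 1`, `1/Dm ≤ 2/δ`: `∑_j 2^(j+1) C e^3 2^(-11j/10) (∑mu)^(6/5)`.
-/

namespace Vale.Agent.P028W

open Finset MeasureTheory
open Vale.Agent.P028EV (q1 r1 Del hh Ts Bd Ad Nd)
open Vale.Agent.P028KM (w mu Dm Bl FF MN Sb ex cl OK KO th Th MV MW)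

theorem nds_large (c : ℝ) (hc : 0 < c) :
    ∃ X1 : ℝ, 2 ≤ X1 ∧ ∀ X, X1 ≤ X → Real.log (1 + 16 * Real.log X) ≤ c * Real.log X := by
  have h1 : ∀ᶠ y : ℝ in Filter.atTop, ‖Real.log y‖ ≤ (c / 32) * ‖y‖ :=
    Real.isLittleO_log_id_atTop.bound (by positivity)
  have h2 : Filter.Tendsto (fun X : ℝ => 1 + 16 * Real.log X) Filter.atTop Filter.atTop :=
    Filter.tendsto_atTop_add_const_left _ _
      (Real.tendsto_log_atTop.const_mul_atTop (by norm_num))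
  have h3 : ∀ᶠ X : ℝ in Filter.atTop, 1 ≤ Real.log X :=
    Real.tendsto_log_atTop.eventually_ge_atTop 1
  obtain ⟨X1, hX1⟩ := Filter.eventually_atTop.mp ((h2.eventually h1).and h3)
  refine ⟨max 2 X1, le_max_left _ _, fun X hX => ?_⟩
  obtain ⟨a1, a2⟩ := hX1 X (le_trans (le_max_right _ _) hX)
  have a3 : 0 ≤ 1 + 16 * Real.log X := by linarith
  rw [Real.norm_of_nonneg a3] at a1
  have a4 := (le_abs_self (Real.log (1 + 16 * Real.log X))).trans a1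
  nlinarith

theorem nds_sL (z : ℝ) (n : ℕ) : 0 ≤ sL z n := by
  unfold sL
  exact sum_nonneg fun p _ => by positivity

theorem nds_EX0 (γ : ℝ) (B : ℕ) (A : ℤ) (ψ : ℕ → ℝ) (θ z : ℝ) (q r : ℕ) :
    0 ≤ EX γ B A ψ θ z q r := by
  unfold EX
  exact sum_nonneg fun t _ => (Real.exp_pos _).le

theorem nds_EX (γ : ℝ) (B : ℕ) (A : ℤ) (ψ : ℕ → ℝ) {θ θ' : ℝ} (h : θ ≤ θ') (z : ℝ) (q r : ℕ) :
    EX γ B A ψ θ z q r ≤ EX γ B A ψ θ' z q r := by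
  unfold EX
  refine sum_le_sum fun t _ => Real.exp_le_exp.mpr ?_
  exact mul_le_mul_of_nonneg_right h (add_nonneg (nds_sL _ _) (nds_sL _ _))

theorem nds_mu {ψ : ℕ → ℝ} (h : ∀ q, 0 ≤ ψ q) (q : ℕ) : 0 ≤ mu ψ q := by
  unfold mu w
  have := h q
  positivity

theorem nds_KL0 (γ : ℝ) (B : ℕ) (A : ℤ) {ψ : ℕ → ℝ} (h : ∀ q, 0 ≤ ψ q) (ε X δ z : ℝ) (q r : ℕ) :
    0 ≤ KL γ B A ψ ε X δ z q r := by
  unfold KL
  split_ifs
  · exact mul_nonneg (mul_nonneg (nds_mu h q) (nds_mu h r)) (nds_EX0 _ _ _ _ _ _ _ _)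
  · exact le_rfl

theorem nds_geom (n : ℕ) :
    (2 : ℝ) ^ n * ((1 / 2 : ℝ) ^ n) ^ (11 / 10 : ℝ) = ((1 / 2 : ℝ) ^ (1 / 10 : ℝ)) ^ n := by
  have h0 : (0 : ℝ) < (1 / 2) ^ n := by positivity
  have h1 : ((1 / 2 : ℝ) ^ n) ^ (11 / 10 : ℝ) = (1 / 2 : ℝ) ^ n * ((1 / 2 : ℝ) ^ n) ^ (1 / 10 : ℝ) := by
    rw [show (11 / 10 : ℝ) = 1 + 1 / 10 by norm_num, Real.rpow_add h0, Real.rpow_one]
  rw [h1, ← mul_assoc, ← mul_pow]
  norm_num
  rw [← Real.rpow_natCast, ← Real.rpow_natCast, ← Real.rpow_mul (by norm_num),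
    ← Real.rpow_mul (by norm_num), mul_comm]

open Classical in
theorem nds (ε : ℝ) (hε : 0 < ε) (hε1 : ε ≤ 1) : ∃ C : ℝ, 1 ≤ C ∧ ∃ X0 : ℝ, 2 ≤ X0 ∧
    ∀ (X γ : ℝ) (B : ℕ) (A : ℤ) (ψ : ℕ → ℝ) (S : Finset ℕ), X0 ≤ X → Blk2 ε X γ B A ψ S →
    ∑ q ∈ S, ∑ r ∈ S with r < q ∧ (q1 q r : ℝ) < (r1 q r : ℝ) * X ^ (ε / 4) ∧
        X ^ (-cS ε) ≤ Dm ψ q r ∧ Del ψ q r < 1 / 2,
      mu ψ q * mu ψ r / Dm ψ q r * EX γ B A ψ 2 1 q r ≤ C * (∑ q ∈ S, mu ψ q) ^ (6 / 5 : ℝ) := by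
  obtain ⟨C, hC, X0, hX0, H⟩ := lvr ε hε hε1
  have hc6 : 0 < c6 ε := by unfold c6 cA; positivity
  obtain ⟨X1, hX1, hlog⟩ := nds_large (c6 ε) hc6
  set ρ : ℝ := (1 / 2 : ℝ) ^ (1 / 10 : ℝ) with hρ
  have hρ0 : 0 ≤ ρ := by positivity
  have hρ1 : ρ < 1 := Real.rpow_lt_one (by norm_num) (by norm_num) (by norm_num)
  set G : ℝ := (1 - ρ)⁻¹ with hG
  have hG0 : 0 < G := inv_pos.mpr (by linarith)
  have hG1 : 1 ≤ G := by
    rw [hG]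
    exact (one_le_inv₀ (by linarith)).mpr (by linarith)
  refine ⟨2 * C * Real.exp 3 * G, ?_, max X0 X1, le_trans hX0 (le_max_left _ _), ?_⟩
  · have h1 : 1 ≤ Real.exp 3 := Real.one_le_exp (by norm_num)
    have h2 : 1 ≤ 2 * C := by linarith
    have h3 : 1 ≤ 2 * C * Real.exp 3 := one_le_mul_of_one_le_of_one_le h2 h1
    exact one_le_mul_of_one_le_of_one_le h3 hG1
  intro X γ B A ψ S hX hB
  have hXX0 : X0 ≤ X := le_trans (le_max_left _ _) hX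
  have hX2 : 2 ≤ X := le_trans hX0 hXX0
  have hψ := hB.psi0
  set M : ℝ := ∑ q ∈ S, mu ψ q with hM
  have hM0 : 0 ≤ M := sum_nonneg fun q _ => nds_mu hψ q
  set T : ℝ := X ^ (-cS ε) with hT
  have hT0 : 0 < T := Real.rpow_pos_of_pos (by linarith) _
  have hT1 : T ≤ 1 := Real.rpow_le_one_of_one_le_of_nonpos (by linarith)
    (by unfold cS; rw [neg_nonpos]; positivity)
  set J : ℕ := ⌈1 / T⌉₊ + 1 with hJ
  set I : Finset ℕ := (range J).filter (fun n => T ≤ (1 / 2 : ℝ) ^ n) with hI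
  -- pointwise bound
  have hpt : ∀ q r : ℕ, (r < q ∧ (q1 q r : ℝ) < (r1 q r : ℝ) * X ^ (ε / 4) ∧
        T ≤ Dm ψ q r ∧ Del ψ q r < 1 / 2) →
      mu ψ q * mu ψ r / Dm ψ q r * EX γ B A ψ 2 1 q r ≤
        ∑ n ∈ I, 2 * 2 ^ n * KL γ B A ψ ε X ((1 / 2 : ℝ) ^ n) ((1 : ℕ) : ℝ) q r := by
    intro q r ⟨h1, h2, h3, h4⟩
    have hD0 : 0 < Dm ψ q r := lt_of_lt_of_le hT0 h3
    have hDl : Dm ψ q r ≤ Del ψ q r := by
      unfold Dm Del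
      have a1 : 0 ≤ (r1 q r : ℝ) * ψ q := mul_nonneg (Nat.cast_nonneg _) (hψ q)
      have a2 : 0 ≤ (q1 q r : ℝ) * ψ r := mul_nonneg (Nat.cast_nonneg _) (hψ r)
      exact max_le (by linarith) (by linarith)
    have hx : 1 ≤ 1 / Dm ψ q r := by
      rw [le_div_iff₀ hD0]
      linarith
    obtain ⟨n, hn1, hn2⟩ := exists_nat_pow_near hx (by norm_num : (1 : ℝ) < 2)
    have hp : (0 : ℝ) < 2 ^ n := by positivity
    have hn3 : Dm ψ q r ≤ (1 / 2 : ℝ) ^ n := by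
      rw [one_div_pow, le_div_iff₀ hp]
      rw [le_div_iff₀ hD0] at hn1
      linarith
    have hn4 : (1 / 2 : ℝ) ^ n / 2 < Dm ψ q r := by
      rw [one_div_pow, div_div, div_lt_iff₀ (by positivity)]
      rw [div_lt_iff₀ hD0, pow_succ] at hn2
      linarith
    have hnI : n ∈ I := by
      rw [hI, mem_filter, mem_range]
      refine ⟨?_, h3.trans hn3⟩
      have b1 : (n : ℝ) < 2 ^ n := by exact_mod_cast Nat.lt_two_pow_self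
      have b2 : 1 / Dm ψ q r ≤ 1 / T := one_div_le_one_div_of_le hT0 h3
      have b3 : (n : ℝ) < ⌈1 / T⌉₊ :=
        lt_of_lt_of_le (lt_of_lt_of_le b1 (hn1.trans b2)) (Nat.le_ceil _)
      have b4 : n < ⌈1 / T⌉₊ := by exact_mod_cast b3
      omega
    refine le_trans ?_ (single_le_sum (f := fun n =>
      2 * 2 ^ n * KL γ B A ψ ε X ((1 / 2 : ℝ) ^ n) ((1 : ℕ) : ℝ) q r)
      (fun k _ => mul_nonneg (by positivity) (nds_KL0 γ B A hψ _ _ _ _ _ _)) hnI)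
    have hmm : 0 ≤ mu ψ q * mu ψ r := mul_nonneg (nds_mu hψ q) (nds_mu hψ r)
    have hE : EX γ B A ψ 2 1 q r ≤ EX γ B A ψ (4 + 8 * ((1 : ℕ) : ℝ)) ((1 : ℕ) : ℝ) q r := by
      rw [Nat.cast_one]
      exact nds_EX γ B A ψ (by norm_num) 1 q r
    have hinv : 1 / Dm ψ q r ≤ 2 * 2 ^ n := by
      rw [pow_succ] at hn2
      linarith
    have hK : KL γ B A ψ ε X ((1 / 2 : ℝ) ^ n) ((1 : ℕ) : ℝ) q r =
        mu ψ q * mu ψ r * EX γ B A ψ (4 + 8 * ((1 : ℕ) : ℝ)) ((1 : ℕ) : ℝ) q r := by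
      unfold KL
      rw [if_pos ⟨h1, h2, hn4, hn3⟩]
    change _ ≤ 2 * 2 ^ n * KL γ B A ψ ε X ((1 / 2 : ℝ) ^ n) ((1 : ℕ) : ℝ) q r
    rw [hK]
    calc mu ψ q * mu ψ r / Dm ψ q r * EX γ B A ψ 2 1 q r
        = (1 / Dm ψ q r) * (mu ψ q * mu ψ r * EX γ B A ψ 2 1 q r) := by ring
      _ ≤ (2 * 2 ^ n) * (mu ψ q * mu ψ r * EX γ B A ψ 2 1 q r) :=
          mul_le_mul_of_nonneg_right hinv (mul_nonneg hmm (nds_EX0 _ _ _ _ _ _ _ _))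
      _ ≤ _ := mul_le_mul_of_nonneg_left (mul_le_mul_of_nonneg_left hE hmm) (by positivity)
  -- one level
  have hlev : ∀ n ∈ I, FF (KL γ B A ψ ε X ((1 / 2 : ℝ) ^ n) ((1 : ℕ) : ℝ)) S S ≤
      C * ((1 / 2 : ℝ) ^ n) ^ (11 / 10 : ℝ) * Real.exp 3 * M ^ (6 / 5 : ℝ) := by
    intro n hn
    rw [hI, mem_filter] at hn
    have hn1 : (1 / 2 : ℝ) ^ n ≤ 1 := pow_le_one₀ (by norm_num) (by norm_num)
    have h := H X γ B A ψ S hXX0 hB ((1 / 2 : ℝ) ^ n) 1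
      { hz := le_rfl
        hz2 := by
          rw [Nat.cast_one, one_mul]
          exact hlog X (le_trans (le_max_right _ _) hX)
        hδ := hn.2
        hδ2 := by linarith }
    rw [min_eq_right hn1] at h
    rw [Nat.cast_one, mul_one] at h
    rw [Nat.cast_one]
    exact h
  calc ∑ q ∈ S, ∑ r ∈ S with r < q ∧ (q1 q r : ℝ) < (r1 q r : ℝ) * X ^ (ε / 4) ∧
        T ≤ Dm ψ q r ∧ Del ψ q r < 1 / 2,
      mu ψ q * mu ψ r / Dm ψ q r * EX γ B A ψ 2 1 q r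
      ≤ ∑ q ∈ S, ∑ r ∈ S, ∑ n ∈ I,
        2 * 2 ^ n * KL γ B A ψ ε X ((1 / 2 : ℝ) ^ n) ((1 : ℕ) : ℝ) q r := by
        refine sum_le_sum fun q _ => ?_
        refine le_trans (sum_le_sum fun r hr => hpt q r (mem_filter.mp hr).2) ?_
        exact sum_le_sum_of_subset_of_nonneg (filter_subset _ _) fun r _ _ =>
          sum_nonneg fun n _ => mul_nonneg (by positivity) (nds_KL0 γ B A hψ _ _ _ _ _ _)
    _ = ∑ n ∈ I, 2 * 2 ^ n * FF (KL γ B A ψ ε X ((1 / 2 : ℝ) ^ n) ((1 : ℕ) : ℝ)) S S := by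
        unfold FF
        simp only [mul_sum]
        refine (sum_congr rfl fun q _ => sum_comm).trans ?_
        exact sum_comm
    _ ≤ ∑ n ∈ I, 2 * 2 ^ n * (C * ((1 / 2 : ℝ) ^ n) ^ (11 / 10 : ℝ) * Real.exp 3 *
          M ^ (6 / 5 : ℝ)) :=
        sum_le_sum fun n hn => mul_le_mul_of_nonneg_left (hlev n hn) (by positivity)
    _ = 2 * C * Real.exp 3 * M ^ (6 / 5 : ℝ) * ∑ n ∈ I, ρ ^ n := by
        rw [mul_sum]
        refine sum_congr rfl fun n _ => ?_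
        rw [hρ, ← nds_geom]
        ring
    _ ≤ 2 * C * Real.exp 3 * M ^ (6 / 5 : ℝ) * G := by
        refine mul_le_mul_of_nonneg_left ?_ (by positivity)
        refine le_trans (sum_le_sum_of_subset_of_nonneg (filter_subset _ _)
          fun n _ _ => pow_nonneg hρ0 n) ?_
        rw [hG, ← tsum_geometric_of_lt_one hρ0 hρ1]
        exact (summable_geometric_of_lt_one hρ0 hρ1).sum_le_tsum _ fun n _ => pow_nonneg hρ0 n
    _ = _ := by ring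

end Vale.Agent.P028W
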