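import Vale.Agent.P028W.Defs
import Vale.Agent.P028W.A1
import Vale.Agent.P028KM.OVF

/-!
Module OVT: trivial overlap bounds for two sets of the same type, `r < q`. `AT ⊆ AF` and the count of P028KM/OVF.lean.
If `Del < 1/2` and every `t ∈ Ts` is degenerate (`nt = 0`) the intersection is empty: `t = v a - u b` gives
`v (B a + A) = u (B b + A)`; a prime `p ∣ u` (`u > 1` since `r < q` forces `u > v ≥ 1`) divides `B a + A`
and `q`, against `GT`. (Compare `ov_zero` in Vale/Agent/P028EV/Ov.lean.)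
-/

namespace Vale.Agent.P028W

open Finset MeasureTheory
open Vale.Agent.P028EV (q1 r1 Del hh Ts Bd Ad Nd)
open Vale.Agent.P028KM (w mu Dm Bl FF MN Sb ex cl OK KO th Th)

theorem OVT_empty (γ : ℝ) (B : ℕ) (A : ℤ) (ψ : ℕ → ℝ) (q r : ℕ) (hr : 0 < r) (hrq : r < q)
    (hD : Del ψ q r < 1 / 2) (hN : ¬ NDc γ B A ψ q r) :
    AT γ B A ψ q ∩ AT γ B A ψ r = ∅ := by
  rw [Set.eq_empty_iff_forall_notMem]
  rintro X ⟨⟨a, haG, haX⟩, ⟨b, hbG, hbX⟩⟩
  obtain ⟨g, u, v, hg, hu, hv, huv, hqe, hre, hge, hue, hve⟩ :=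
    Vale.Agent.P028EV.pair_cases (hr.trans hrq) hr
  have huR : (0 : ℝ) < u := by exact_mod_cast hu
  have hvR : (0 : ℝ) < v := by exact_mod_cast hv
  have hDel : Del ψ q r = (v : ℝ) * ψ q + (u : ℝ) * ψ r := by
    unfold Del; rw [← hue, ← hve]
  have hhe : hh q r = (v : ℤ) - (u : ℤ) := by unfold hh; rw [← hue, ← hve]
  have hqR : (q : ℝ) = g * u := by rw [hqe]; push_cast; ring
  have hrR : (r : ℝ) = g * v := by rw [hre]; push_cast; ring
  have hmem : ((v : ℤ) * a - u * b) ∈ Ts γ (hh q r) (Del ψ q r) := by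
    rw [Vale.Agent.P028EV.mem_Ts, hDel, hhe]
    have e3 : (((v : ℤ) * a - u * b : ℤ) : ℝ) + γ * (((v : ℤ) - (u : ℤ) : ℤ) : ℝ) =
        (u : ℝ) * (r * X - b - γ) - (v : ℝ) * (q * X - a - γ) := by
      rw [hqR, hrR]; push_cast; ring
    rw [e3]
    calc |(u : ℝ) * (r * X - b - γ) - (v : ℝ) * (q * X - a - γ)|
        ≤ |(u : ℝ) * (r * X - b - γ)| + |(v : ℝ) * (q * X - a - γ)| := abs_sub _ _
      _ = u * |r * X - b - γ| + v * |q * X - a - γ| := by
          rw [abs_mul, abs_mul, abs_of_pos huR, abs_of_pos hvR]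
      _ < u * ψ r + v * ψ q := by gcongr
      _ = v * ψ q + u * ψ r := by ring
  have hnt : nt B A q r ((v : ℤ) * a - u * b) = 0 := by
    by_contra hne
    exact hN ⟨hD, _, hmem, hne⟩
  unfold nt at hnt
  rw [hhe] at hnt
  have e1 : (v : ℤ) * ((B : ℤ) * a + A) = (u : ℤ) * ((B : ℤ) * b + A) := by
    linear_combination hnt
  have hu1 : u ≠ 1 := by
    rintro rfl
    rw [hqe, hre] at hrq
    have : v < 1 := lt_of_mul_lt_mul_left hrq (Nat.zero_le g)
    omega
  obtain ⟨p, hp, hpu⟩ := Nat.exists_prime_and_dvd hu1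
  refine haG p hp ?_ ?_
  · rw [hqe]; exact Dvd.dvd.mul_left hpu g
  · have h1 : (p : ℤ) ∣ (v : ℤ) * ((B : ℤ) * a + A) := by
      rw [e1]
      exact Dvd.dvd.mul_right (Int.natCast_dvd_natCast.mpr hpu) _
    rcases (Nat.prime_iff_prime_int.1 hp).dvd_or_dvd h1 with h2 | h2
    · exfalso
      have h3 : p ∣ v := Int.natCast_dvd_natCast.1 h2
      have h4 : p ∣ Nat.gcd u v := Nat.dvd_gcd hpu h3
      rw [Nat.Coprime.gcd_eq_one huv] at h4
      exact hp.one_lt.ne' (Nat.dvd_one.1 h4)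
    · exact h2

open Classical in
theorem ovt (γ : ℝ) (B : ℕ) (A : ℤ) (ψ : ℕ → ℝ) (q r : ℕ) (hr : 0 < r) (hrq : r < q)
    (h0 : 0 ≤ ψ q) (h1 : 0 ≤ ψ r) (h2 : ψ q < 1 / 2) (h3 : ψ r < 1 / 2) (x0 ℓ : ℝ) (hℓ : 0 < ℓ)
    (hℓ1 : ℓ ≤ 1) :
    (volume (AT γ B A ψ q ∩ AT γ B A ψ r ∩ Set.Ico x0 (x0 + ℓ))).toReal
      ≤ if Del ψ q r < 1 / 2 then (if NDc γ B A ψ q r then 20 * ψ q * ψ r / Dm ψ q r else 0)
        else 16 * ψ q * ψ r := by
  have hmono : (volume (AT γ B A ψ q ∩ AT γ B A ψ r ∩ Set.Ico x0 (x0 + ℓ))).toReal ≤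
      (volume (Vale.Agent.P028KM.AF γ ψ q ∩ Vale.Agent.P028KM.AF γ ψ r ∩
        Set.Ico x0 (x0 + ℓ))).toReal := by
    refine ENNReal.toReal_mono ?_ (measure_mono ?_)
    · exact ne_top_of_le_ne_top (by rw [Real.volume_Ico]; exact ENNReal.ofReal_ne_top)
        (measure_mono Set.inter_subset_right)
    · exact Set.inter_subset_inter_left _
        (Set.inter_subset_inter (AT_sub γ B A ψ q) (AT_sub γ B A ψ r))
  have hov := Vale.Agent.P028KM.ovf γ ψ q r (hr.trans hrq) hr h0 h1 h2 h3 x0 ℓ hℓ hℓ1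
  by_cases hD : Del ψ q r < 1 / 2
  · rw [if_pos hD]
    by_cases hN : NDc γ B A ψ q r
    · rw [if_pos hN]
      refine (hmono.trans hov).trans ?_
      have ha : 0 ≤ (r1 q r : ℝ) * ψ q := mul_nonneg (Nat.cast_nonneg _) h0
      have hb : 0 ≤ (q1 q r : ℝ) * ψ r := mul_nonneg (Nat.cast_nonneg _) h1
      have hDm0 : 0 ≤ Dm ψ q r := le_max_of_le_left ha
      have hDm1 : Dm ψ q r ≤ 1 := by
        have h4 : Dm ψ q r ≤ Del ψ q r := by
          unfold Vale.Agent.P028KM.Dm Del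
          exact max_le (by linarith) (by linarith)
        linarith
      have hψψ : 0 ≤ ψ q * ψ r := mul_nonneg h0 h1
      have h5 : (if Vale.Agent.P028KM.CO γ ψ q r then 4 * ψ q * ψ r / Dm ψ q r else 0) ≤
          4 * ψ q * ψ r / Dm ψ q r := by
        split_ifs
        · exact le_rfl
        · refine div_nonneg ?_ hDm0
          nlinarith
      have h6 : 16 * ψ q * ψ r ≤ 16 * ψ q * ψ r / Dm ψ q r := by
        rcases hDm0.eq_or_lt with hz | hpos
        · have h7 : (r1 q r : ℝ) * ψ q = 0 := by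
            refine le_antisymm ?_ ha
            rw [hz]
            exact le_max_left _ _
          have h8 : ψ q = 0 := by
            rcases mul_eq_zero.1 h7 with h9 | h9
            · exfalso
              obtain ⟨g, u, v, hg, hu, hv, huv, hqe, hre, hge, hue, hve⟩ :=
                Vale.Agent.P028EV.pair_cases (hr.trans hrq) hr
              rw [← hve] at h9
              have : v = 0 := by exact_mod_cast h9
              omega
            · exact h9
          rw [h8]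
          simp
        · rw [le_div_iff₀ hpos]
          have : 0 ≤ 16 * ψ q * ψ r := by nlinarith
          nlinarith
      have h10 : 20 * ψ q * ψ r / Dm ψ q r =
          16 * ψ q * ψ r / Dm ψ q r + 4 * ψ q * ψ r / Dm ψ q r := by ring
      rw [h10]
      linarith
    · rw [if_neg hN, OVT_empty γ B A ψ q r hr hrq hD hN]
      simp
  · rw [if_neg hD]
    refine (hmono.trans hov).trans ?_
    rw [if_neg (fun h : Vale.Agent.P028KM.CO γ ψ q r => hD h.1), add_zero]

end Vale.Agent.P028W
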