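import Vale.Agent.P028W.Defs3
import Vale.Agent.P028W.A1
import Vale.Agent.P028W.F2
import Vale.Agent.P028W.TY

/-!
Module SM2: second moment: diagonal (`AT_bounds`, `vt ≤ 1`), different blocks (`f2`, `vt WT = w`), same block (kept).
Compare Vale/Agent/P028KM/SM.lean.
-/

namespace Vale.Agent.P028W

open Finset MeasureTheory
open Vale.Agent.P028EV (q1 r1 Del hh Ts Bd Ad Nd)
open Vale.Agent.P028KM (w mu Dm Bl FF MN Sb ex cl OK KO th Th MV MW)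

theorem SM2_split (S : Finset ℕ) (T : ℕ → ℕ → ℝ) (hT : ∀ q r, T q r = T r q) :
    ∑ q ∈ S, ∑ r ∈ S, T q r = ∑ q ∈ S, T q q + 2 * ∑ q ∈ S, ∑ r ∈ S, (if r < q then T q r else 0) := by
  have h1 : ∀ q ∈ S, ∑ r ∈ S, T q r = T q q + ∑ r ∈ S, (if r < q then T q r else 0) +
      ∑ r ∈ S, (if q < r then T q r else 0) := by
    intro q hq
    have h2 : T q q = ∑ r ∈ S, (if r = q then T q r else 0) := by
      rw [Finset.sum_ite_eq' S q, if_pos hq]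
    rw [h2, ← Finset.sum_add_distrib, ← Finset.sum_add_distrib]
    refine Finset.sum_congr rfl fun r _ => ?_
    rcases lt_trichotomy r q with h | h | h
    · rw [if_neg h.ne, if_pos h, if_neg h.not_gt]; ring
    · rw [if_pos h, if_neg (by omega), if_neg (by omega)]; ring
    · rw [if_neg h.ne', if_neg h.not_gt, if_pos h]; ring
  rw [Finset.sum_congr rfl h1, Finset.sum_add_distrib, Finset.sum_add_distrib]
  have h3 : ∑ q ∈ S, ∑ r ∈ S, (if q < r then T q r else 0) =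
      ∑ q ∈ S, ∑ r ∈ S, (if r < q then T q r else 0) := by
    rw [Finset.sum_comm]
    refine Finset.sum_congr rfl fun q _ => Finset.sum_congr rfl fun r _ => ?_
    rw [hT r q]
  rw [h3]
  ring

theorem SM2_mu (B : ℕ) (ψ : ℕ → ℝ) (q : ℕ) : vt B q * (WT B q * ψ q) = mu ψ q := by
  rw [← mul_assoc, vt_mul]
  rfl

theorem sm2 (ℓ : ℝ) (hℓ : 0 < ℓ) (hℓ1 : ℓ ≤ 1) : ∃ Q : ℕ, 0 < Q ∧
    ∀ (γ ε : ℝ) (ψ : ℕ → ℝ) (S : Finset ℕ) (x0 : ℝ), (∀ q, 0 ≤ ψ q) →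
    (∀ q ∈ S, Q ≤ q ∧ (q : ℝ) ^ (-(5 / 4) : ℝ) ≤ ψ q ∧ ψ q < 1 / 2) →
    (∀ q ∈ S, ∀ r ∈ S, r < q → bk q ≠ bk r → r ^ 4 ≤ q) →
    ∑ q ∈ S, ∑ r ∈ S, vt (Bt γ ε q) q * vt (Bt γ ε r) r *
      (volume (AT γ (Bt γ ε q) (At γ ε q) ψ q ∩ AT γ (Bt γ ε r) (At γ ε r) ψ r ∩
        Set.Ico x0 (x0 + ℓ))).toReal
      ≤ 4 * ℓ * (∑ q ∈ S, mu ψ q) + 128 * ℓ * (∑ q ∈ S, mu ψ q) ^ 2
        + 2 * (∑ q ∈ S, ∑ r ∈ S with r < q ∧ bk q = bk r,
          vt (Bt γ ε q) q * vt (Bt γ ε r) r *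
          (volume (AT γ (Bt γ ε q) (At γ ε q) ψ q ∩ AT γ (Bt γ ε r) (At γ ε r) ψ r ∩
            Set.Ico x0 (x0 + ℓ))).toReal) := by
  obtain ⟨Q1, hQ1, hb⟩ := AT_bounds ℓ hℓ
  obtain ⟨Q2, hQ2, hf⟩ := f2 ℓ hℓ
  refine ⟨max Q1 Q2, lt_of_lt_of_le hQ1 (le_max_left _ _), fun γ ε ψ S x0 hψ hS hfar => ?_⟩
  have hmu : ∀ q, 0 ≤ mu ψ q := fun q => by
    rw [← SM2_mu (Bt γ ε q) ψ q]
    exact mul_nonneg (vt_nonneg _ _) (mul_nonneg (WT_pos _ _).le (hψ q))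
  obtain ⟨T, hTdef⟩ : ∃ T : ℕ → ℕ → ℝ, T = fun q r => vt (Bt γ ε q) q * vt (Bt γ ε r) r *
      (volume (AT γ (Bt γ ε q) (At γ ε q) ψ q ∩ AT γ (Bt γ ε r) (At γ ε r) ψ r ∩
        Set.Ico x0 (x0 + ℓ))).toReal := ⟨_, rfl⟩
  have hT : ∀ q r, vt (Bt γ ε q) q * vt (Bt γ ε r) r *
      (volume (AT γ (Bt γ ε q) (At γ ε q) ψ q ∩ AT γ (Bt γ ε r) (At γ ε r) ψ r ∩
        Set.Ico x0 (x0 + ℓ))).toReal = T q r := fun q r => by rw [hTdef]
  simp only [hT]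
  have hTs : ∀ q r, T q r = T r q := fun q r => by
    rw [hTdef]
    beta_reduce
    rw [mul_comm (vt (Bt γ ε q) q) (vt (Bt γ ε r) r),
      Set.inter_comm (AT γ (Bt γ ε q) (At γ ε q) ψ q) (AT γ (Bt γ ε r) (At γ ε r) ψ r)]
  have hT0 : ∀ q r, 0 ≤ T q r := fun q r => by
    rw [hTdef]
    exact mul_nonneg (mul_nonneg (vt_nonneg _ _) (vt_nonneg _ _)) ENNReal.toReal_nonneg
  rw [SM2_split S T hTs]
  have hdiag : ∑ q ∈ S, T q q ≤ 4 * ℓ * (∑ q ∈ S, mu ψ q) := by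
    rw [Finset.mul_sum]
    refine Finset.sum_le_sum fun q hq => ?_
    obtain ⟨h1, _, h3⟩ := hS q hq
    rw [hTdef]
    beta_reduce
    rw [Set.inter_self]
    have h4 := (hb q ((le_max_left _ _).trans h1) γ (Bt γ ε q) (At γ ε q) ψ x0 (Bt_pos γ ε q)
      (Bt_cop γ ε q) (hψ q) h3).2
    have hv0 := vt_nonneg (Bt γ ε q) q
    have hv1 := vt_le_one (Bt γ ε q) q
    have hx : 0 ≤ 4 * ℓ * (WT (Bt γ ε q) q * ψ q) := by
      have := mul_nonneg (WT_pos (Bt γ ε q) q).le (hψ q)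
      positivity
    calc vt (Bt γ ε q) q * vt (Bt γ ε q) q *
          (volume (AT γ (Bt γ ε q) (At γ ε q) ψ q ∩ Set.Ico x0 (x0 + ℓ))).toReal
        ≤ vt (Bt γ ε q) q * vt (Bt γ ε q) q * (4 * ℓ * (WT (Bt γ ε q) q * ψ q)) :=
          mul_le_mul_of_nonneg_left h4 (mul_nonneg hv0 hv0)
      _ ≤ vt (Bt γ ε q) q * 1 * (4 * ℓ * (WT (Bt γ ε q) q * ψ q)) :=
          mul_le_mul_of_nonneg_right (mul_le_mul_of_nonneg_left hv1 hv0) hx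
      _ = 4 * ℓ * (vt (Bt γ ε q) q * (WT (Bt γ ε q) q * ψ q)) := by ring
      _ = 4 * ℓ * mu ψ q := by rw [SM2_mu]
  have hoff : ∑ q ∈ S, ∑ r ∈ S, (if r < q then T q r else 0) ≤
      64 * ℓ * (∑ q ∈ S, mu ψ q) ^ 2 + ∑ q ∈ S, ∑ r ∈ S with r < q ∧ bk q = bk r, T q r := by
    rw [pow_two, Finset.sum_mul_sum, Finset.mul_sum, ← Finset.sum_add_distrib]
    refine Finset.sum_le_sum fun q hq => ?_
    rw [Finset.sum_filter, Finset.mul_sum, ← Finset.sum_add_distrib]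
    refine Finset.sum_le_sum fun r hr => ?_
    obtain ⟨hq1, hq2, hq3⟩ := hS q hq
    obtain ⟨hr1, hr2, hr3⟩ := hS r hr
    have hmm : 0 ≤ 64 * ℓ * (mu ψ q * mu ψ r) := by
      have := mul_nonneg (hmu q) (hmu r)
      positivity
    by_cases hrq : r < q
    · rw [if_pos hrq]
      by_cases hbk : bk q = bk r
      · rw [if_pos ⟨hrq, hbk⟩]
        linarith
      · rw [if_neg (fun h => hbk h.2), add_zero]
        have h5 := hf q r ((le_max_right _ _).trans hr1) (hfar q hq r hr hrq hbk) γ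
          (Bt γ ε q) (At γ ε q) (Bt γ ε r) (At γ ε r) ψ x0 (Bt_pos γ ε q) (Bt_cop γ ε q)
          (Bt_pos γ ε r) (Bt_cop γ ε r) (hψ q) hq3 hr2 hr3
        rw [hTdef]
        beta_reduce
        calc vt (Bt γ ε q) q * vt (Bt γ ε r) r *
              (volume (AT γ (Bt γ ε q) (At γ ε q) ψ q ∩ AT γ (Bt γ ε r) (At γ ε r) ψ r ∩
                Set.Ico x0 (x0 + ℓ))).toReal
            ≤ vt (Bt γ ε q) q * vt (Bt γ ε r) r *
              (64 * ℓ * (WT (Bt γ ε q) q * ψ q) * (WT (Bt γ ε r) r * ψ r)) :=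
              mul_le_mul_of_nonneg_left h5 (mul_nonneg (vt_nonneg _ _) (vt_nonneg _ _))
          _ = 64 * ℓ * ((vt (Bt γ ε q) q * (WT (Bt γ ε q) q * ψ q)) *
              (vt (Bt γ ε r) r * (WT (Bt γ ε r) r * ψ r))) := by ring
          _ = 64 * ℓ * (mu ψ q * mu ψ r) := by rw [SM2_mu, SM2_mu]
    · rw [if_neg hrq, if_neg (fun h => hrq h.1), add_zero]
      exact hmm
  linarith

end Vale.Agent.P028W
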