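import Vale.Agent.P028W.Defs3
import Vale.Agent.P028KM.DV

/-!
Module U1: unbalanced pairs. For fixed `q` group `r` by `u = q1 q r ∣ q`, `r = (q/u) v`, `v = r1 q r ≤ u X^(-ε/4)`.
`ψ r ≤ Dm/u ≤ X^(ε/8)/u` and `ψ r/Dm ≤ 1/u`: the sum over `r` of `ψ r (16 + 20/Dm)` is
`≤ 40 X^(ε/8) ∑_{u ∣ q} (1/u) u X^(-ε/4) ≤ 40 τ(q) X^(-ε/8)`; `dv` (P028KM) and `w q ≥ 1/(1+log q/log 2)`
(`mu ≥ ψ/(C log X)`).
-/

namespace Vale.Agent.P028W

open Finset MeasureTheory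
open Vale.Agent.P028EV (q1 r1 Del hh Ts Bd Ad Nd)
open Vale.Agent.P028KM (w mu Dm Bl FF MN Sb ex cl OK KO th Th MV MW)

theorem U1_w (q : ℕ) (hq : 0 < q) : 1 ≤ w q * (q.divisors.card : ℝ) := by
  have h1 : q ≤ q.divisors.card * Nat.totient q := by
    conv_lhs => rw [← Nat.sum_totient q]
    rw [← smul_eq_mul]
    apply Finset.sum_le_card_nsmul
    intro d hd
    exact Nat.le_of_dvd (Nat.totient_pos.mpr hq)
      (Nat.totient_dvd_of_dvd (Nat.dvd_of_mem_divisors hd))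
  have h2 : (q : ℝ) ≤ (q.divisors.card : ℝ) * (Nat.totient q : ℝ) := by exact_mod_cast h1
  have hq' : (0 : ℝ) < q := by exact_mod_cast hq
  rw [w, div_mul_eq_mul_div, le_div_iff₀ hq', one_mul, mul_comm]
  exact h2

theorem U1_pos {q r : ℕ} (hq : 0 < q) : (0 : ℝ) < q1 q r := by
  have : 0 < q1 q r := Nat.div_pos (Nat.le_of_dvd hq (Nat.gcd_dvd_left q r))
    (Nat.gcd_pos_of_pos_left _ hq)
  exact_mod_cast this

theorem U1_term {ψ : ℕ → ℝ} {q r : ℕ} (hψ : ∀ q, 0 ≤ ψ q) (hq : 0 < q) {E : ℝ} (hE : 1 ≤ E)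
    (hD : Dm ψ q r ≤ E) : ψ r * (16 + 20 / Dm ψ q r) ≤ 36 * E * (1 / (q1 q r : ℝ)) := by
  have hu : (0 : ℝ) < q1 q r := U1_pos hq
  have h1 : (q1 q r : ℝ) * ψ r ≤ Dm ψ q r := le_max_right _ _
  have h0 : 0 ≤ (q1 q r : ℝ) * ψ r := mul_nonneg hu.le (hψ r)
  rcases (h0.trans h1).eq_or_lt with h | h
  · have h2 : (q1 q r : ℝ) * ψ r = 0 := le_antisymm (by rw [h]; exact h1) h0
    have h3 : ψ r = 0 := by
      rcases mul_eq_zero.mp h2 with h4 | h4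
      · exact absurd h4 hu.ne'
      · exact h4
    rw [h3, zero_mul]
    positivity
  · have h2 : ψ r ≤ Dm ψ q r / q1 q r := by
      rw [le_div_iff₀ hu, mul_comm]
      exact h1
    calc ψ r * (16 + 20 / Dm ψ q r) ≤ (Dm ψ q r / q1 q r) * (16 + 20 / Dm ψ q r) :=
          mul_le_mul_of_nonneg_right h2 (by positivity)
      _ = (16 * Dm ψ q r + 20) * (1 / q1 q r) := by field_simp
      _ ≤ 36 * E * (1 / q1 q r) := by
          apply mul_le_mul_of_nonneg_right _ (by positivity)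
          linarith

theorem U1_fib {q : ℕ} (F : Finset ℕ) {Y : ℝ} {u : ℕ} (hu0 : 0 < u) (hY : 0 ≤ Y)
    (hF : ∀ r ∈ F, 0 < r ∧ (r1 q r : ℝ) ≤ (q1 q r : ℝ) * Y) :
    ((F.filter (fun r => q1 q r = u)).card : ℝ) ≤ u * Y := by
  have h1 : (F.filter (fun r => q1 q r = u)).card ≤ (Finset.Ioc 0 ⌊(u : ℝ) * Y⌋₊).card := by
    apply Finset.card_le_card_of_injOn (fun r => r1 q r)
    · intro r hr
      rw [Finset.mem_coe, Finset.mem_filter] at hr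
      obtain ⟨h1, h2⟩ := hr
      obtain ⟨h3, h4⟩ := hF r h1
      rw [h2] at h4
      rw [Finset.mem_coe, Finset.mem_Ioc]
      exact ⟨Nat.div_pos (Nat.le_of_dvd h3 (Nat.gcd_dvd_right q r))
        (Nat.gcd_pos_of_pos_right _ h3), Nat.le_floor h4⟩
    · intro r hr r' hr' h
      rw [Finset.mem_coe, Finset.mem_filter] at hr hr'
      simp only at h
      have e1 := Vale.Agent.P028EV.q1_mul q r
      have e2 := Vale.Agent.P028EV.q1_mul q r'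
      rw [hr.2] at e1
      rw [hr'.2] at e2
      have e3 : Nat.gcd q r = Nat.gcd q r' := Nat.eq_of_mul_eq_mul_left hu0 (e1.trans e2.symm)
      have e4 := Vale.Agent.P028EV.r1_mul q r
      have e5 := Vale.Agent.P028EV.r1_mul q r'
      rw [← e4, ← e5, h, e3]
  rw [Nat.card_Ioc, Nat.sub_zero] at h1
  calc ((F.filter (fun r => q1 q r = u)).card : ℝ) ≤ (⌊(u : ℝ) * Y⌋₊ : ℝ) := by exact_mod_cast h1
    _ ≤ u * Y := Nat.floor_le (mul_nonneg (Nat.cast_nonneg _) hY)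

theorem U1_count {q : ℕ} (hq : 0 < q) (F : Finset ℕ) {Y : ℝ} (hY : 0 ≤ Y)
    (hF : ∀ r ∈ F, 0 < r ∧ (r1 q r : ℝ) ≤ (q1 q r : ℝ) * Y) :
    ∑ r ∈ F, 1 / (q1 q r : ℝ) ≤ (q.divisors.card : ℝ) * Y := by
  have hmap : ∀ r ∈ F, q1 q r ∈ q.divisors := by
    intro r _
    rw [Nat.mem_divisors]
    exact ⟨⟨Nat.gcd q r, (Vale.Agent.P028EV.q1_mul q r).symm⟩, hq.ne'⟩
  rw [← Finset.sum_fiberwise_of_maps_to hmap, ← nsmul_eq_mul]
  apply Finset.sum_le_card_nsmul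
  intro u hu
  have hu0 : 0 < u := Nat.pos_of_mem_divisors hu
  have hu1 : (0 : ℝ) < u := by exact_mod_cast hu0
  have h1 : ∑ r ∈ F.filter (fun r => q1 q r = u), 1 / (q1 q r : ℝ) =
      ((F.filter (fun r => q1 q r = u)).card : ℝ) * (1 / (u : ℝ)) := by
    rw [← nsmul_eq_mul, ← Finset.sum_const]
    refine Finset.sum_congr rfl fun r hr => ?_
    rw [(Finset.mem_filter.mp hr).2]
  rw [h1]
  calc ((F.filter (fun r => q1 q r = u)).card : ℝ) * (1 / (u : ℝ))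
      ≤ (u * Y) * (1 / (u : ℝ)) :=
        mul_le_mul_of_nonneg_right (U1_fib F hu0 hY hF) (by positivity)
    _ = Y := by field_simp

theorem U1_num {ε C : ℝ} (hε : 0 < ε) (hC : 0 < C) {X : ℝ} (hX : 2 ≤ X)
    (hX0 : (36 * C ^ 2) ^ (16 / ε) ≤ X) {t W : ℝ} (ht : 0 ≤ t) (htC : t ≤ C * X ^ (ε / 64))
    (hW : 1 ≤ W * t) : 36 * X ^ (ε / 8) * (t * X ^ (-(ε / 4))) ≤ X ^ (-(ε / 32)) * W := by
  have hX1 : 0 < X := by linarith
  have h36 : 36 * C ^ 2 ≤ X ^ (ε / 16) := by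
    have h1 : 36 * C ^ 2 = ((36 * C ^ 2) ^ (16 / ε)) ^ (ε / 16) := by
      rw [← Real.rpow_mul (by positivity), show 16 / ε * (ε / 16) = 1 by field_simp,
        Real.rpow_one]
    rw [h1]
    exact Real.rpow_le_rpow (by positivity) hX0 (by positivity)
  have ht2 : t * t ≤ C ^ 2 * X ^ (ε / 32) := by
    calc t * t ≤ (C * X ^ (ε / 64)) * (C * X ^ (ε / 64)) := mul_le_mul htC htC ht (ht.trans htC)
      _ = C ^ 2 * (X ^ (ε / 64) * X ^ (ε / 64)) := by ring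
      _ = C ^ 2 * X ^ (ε / 32) := by
          rw [← Real.rpow_add hX1]
          congr 2
          ring
  have hW0 : 0 ≤ W := by
    by_contra h
    push Not at h
    have := mul_nonpos_of_nonpos_of_nonneg h.le ht
    linarith
  have htp : t ≤ t * t * W := by
    have := mul_le_mul_of_nonneg_left hW ht
    nlinarith
  have h5 : t ≤ C ^ 2 * X ^ (ε / 32) * W := htp.trans (mul_le_mul_of_nonneg_right ht2 hW0)
  calc 36 * X ^ (ε / 8) * (t * X ^ (-(ε / 4)))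
      ≤ 36 * X ^ (ε / 8) * ((C ^ 2 * X ^ (ε / 32) * W) * X ^ (-(ε / 4))) :=
        mul_le_mul_of_nonneg_left (mul_le_mul_of_nonneg_right h5 (by positivity)) (by positivity)
    _ = (36 * C ^ 2) * (X ^ (ε / 8) * X ^ (ε / 32) * X ^ (-(ε / 4))) * W := by ring
    _ ≤ X ^ (ε / 16) * (X ^ (ε / 8) * X ^ (ε / 32) * X ^ (-(ε / 4))) * W :=
        mul_le_mul_of_nonneg_right (mul_le_mul_of_nonneg_right h36 (by positivity)) hW0
    _ = X ^ (-(ε / 32)) * W := by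
        rw [← Real.rpow_add hX1, ← Real.rpow_add hX1, ← Real.rpow_add hX1]
        congr 2
        ring

open Classical in
theorem u1 (ε : ℝ) (hε : 0 < ε) (hε1 : ε ≤ 1) : ∃ c : ℝ, 0 < c ∧ ∃ X0 : ℝ, 2 ≤ X0 ∧
    ∀ (X γ : ℝ) (B : ℕ) (A : ℤ) (ψ : ℕ → ℝ) (S : Finset ℕ), X0 ≤ X → Blk2 ε X γ B A ψ S →
    ∑ q ∈ S, ∑ r ∈ S with r < q ∧ (r1 q r : ℝ) * X ^ (ε / 4) ≤ (q1 q r : ℝ) ∧
        Dm ψ q r ≤ X ^ (ε / 8),
      ψ q * ψ r * (16 + 20 / Dm ψ q r) ≤ X ^ (-c) * (∑ q ∈ S, mu ψ q) := by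
  obtain ⟨C, hC, hdv⟩ := Vale.Agent.P028KM.dv (ε / 256) (by positivity)
  refine ⟨ε / 32, by positivity, max 2 ((36 * C ^ 2) ^ (16 / ε)), le_max_left _ _, ?_⟩
  intro X γ B A ψ S hX hb
  have hX2 : 2 ≤ X := (le_max_left _ _).trans hX
  have hX3 : (36 * C ^ 2) ^ (16 / ε) ≤ X := (le_max_right _ _).trans hX
  have hX1 : 0 < X := by linarith
  rw [Finset.mul_sum]
  refine Finset.sum_le_sum fun q hq => ?_
  have hqX := hb.lo q hq
  have hq0 : 0 < q := by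
    have : (0 : ℝ) < q := by linarith
    exact_mod_cast this
  have hE : 1 ≤ X ^ (ε / 8) := Real.one_le_rpow (by linarith) (by positivity)
  have hY : 0 ≤ X ^ (-(ε / 4)) := by positivity
  have ht : (q.divisors.card : ℝ) ≤ C * X ^ (ε / 64) := by
    refine (hdv q hq0).trans (mul_le_mul_of_nonneg_left ?_ hC.le)
    calc (q : ℝ) ^ (ε / 256) ≤ (X ^ (4 : ℕ)) ^ (ε / 256) := by
          apply Real.rpow_le_rpow (Nat.cast_nonneg _) _ (by positivity)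
          exact hb.hi q hq
      _ = X ^ (ε / 64) := by
          rw [← Real.rpow_natCast, ← Real.rpow_mul hX1.le]
          congr 1
          push_cast
          ring
  have hnum := U1_num hε hC hX2 hX3 (Nat.cast_nonneg _) ht (U1_w q hq0)
  have h1 : ∑ r ∈ S with r < q ∧ (r1 q r : ℝ) * X ^ (ε / 4) ≤ (q1 q r : ℝ) ∧
        Dm ψ q r ≤ X ^ (ε / 8), ψ q * ψ r * (16 + 20 / Dm ψ q r) ≤
      ∑ r ∈ S with r < q ∧ (r1 q r : ℝ) * X ^ (ε / 4) ≤ (q1 q r : ℝ) ∧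
        Dm ψ q r ≤ X ^ (ε / 8), ψ q * (36 * X ^ (ε / 8)) * (1 / (q1 q r : ℝ)) := by
    refine Finset.sum_le_sum fun r hr => ?_
    rw [Finset.mem_filter] at hr
    rw [mul_assoc (ψ q), mul_assoc (ψ q)]
    exact mul_le_mul_of_nonneg_left (U1_term hb.psi0 hq0 hE hr.2.2.2) (hb.psi0 q)
  have h2 : ∑ r ∈ S with r < q ∧ (r1 q r : ℝ) * X ^ (ε / 4) ≤ (q1 q r : ℝ) ∧
        Dm ψ q r ≤ X ^ (ε / 8), 1 / (q1 q r : ℝ) ≤
      (q.divisors.card : ℝ) * X ^ (-(ε / 4)) := by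
    apply U1_count hq0 _ hY
    intro r hr
    rw [Finset.mem_filter] at hr
    constructor
    · have : (0 : ℝ) < r := by linarith [hb.lo r hr.1]
      exact_mod_cast this
    · have h3 := mul_le_mul_of_nonneg_right hr.2.2.1 hY
      rw [mul_assoc, ← Real.rpow_add hX1, add_neg_cancel, Real.rpow_zero, mul_one] at h3
      exact h3
  rw [← Finset.mul_sum] at h1
  refine h1.trans ?_
  have hcoef : 0 ≤ ψ q * (36 * X ^ (ε / 8)) := mul_nonneg (hb.psi0 q) (by positivity)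
  refine (mul_le_mul_of_nonneg_left h2 hcoef).trans ?_
  rw [mu, mul_assoc (ψ q)]
  have h4 := mul_le_mul_of_nonneg_left hnum (hb.psi0 q)
  refine h4.trans (le_of_eq ?_)
  ring

end Vale.Agent.P028W
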