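import Vale.Agent.P028W.Defs3
import Vale.Agent.P028KM.DV

/-!
Module U2: nondegenerate coincidences with very small `Dm < X^(-cS)`. For fixed `q`, `u = q1 q r ∣ q`, `v = r1 < u`,
`h = u - v ∈ [1,u)`, `ψ r/Dm ≤ 1/u`. There is `t` with `|t - γh| < Del < 2X^(-cS) =: δ`, `n = tB - hA ≠ 0`,
`n = B(t-γh) + (Bγ-A)h`, `θ0 = |Bγ-A| ≤ 2X^(-ε/8)`. From `1 ≤ |n| ≤ B Del + θ0 u`, `B ≤ X^(ε/8)`, `Del ≤ 2 u X^(-ε)`:
`u ≥ X^(ε/8)/8`. Number of `h`: `n` determines `h mod B`. If `θ0 u ≤ Bδ`: `≤ 4Bδ` values of `n`, each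
`≤ u/B+1` values of `h`: `≤ 4δu + 4Bδ ≤ 40 δ u`. If `θ0 u > Bδ`: `≤ 4θ0 u` values of `n`, for each `h` lies in an
interval of length `2Bδ/θ0`: `≤ 2δ/θ0 + 1` values: `≤ 8δu + 4θ0 u`. So the sum over `r` of `ψ r 20/Dm` is
`≤ 20 τ(q) (40 δ + 8 X^(-ε/8))`; conclude as in U1.
-/

namespace Vale.Agent.P028W

open Finset MeasureTheory
open Vale.Agent.P028EV (q1 r1 Del hh Ts Bd Ad Nd)
open Vale.Agent.P028KM (w mu Dm Bl FF MN Sb ex cl OK KO th Th MV MW)

theorem U2_fiber (F : Finset ℕ) (B : ℕ) (hB : 0 < B) (L : ℝ) (hL : 0 ≤ L)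
    (h1 : ∀ x ∈ F, ∀ y ∈ F, (B : ℤ) ∣ (x : ℤ) - y) (h2 : ∀ x ∈ F, ∀ y ∈ F, (x : ℝ) - y ≤ L) :
    (F.card : ℝ) ≤ L / B + 1 := by
  have hBr : (0 : ℝ) < B := by exact_mod_cast hB
  rcases F.eq_empty_or_nonempty with rfl | hne
  · rw [card_empty]
    push_cast
    positivity
  have hm := F.min'_mem hne
  set m := F.min' hne with hmdef
  have hle : ∀ x ∈ F, m ≤ x := fun x hx => F.min'_le x hx
  have hdvd : ∀ x ∈ F, B ∣ x - m := by
    intro x hx
    have := h1 x hx m hm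
    rw [← Nat.cast_sub (hle x hx)] at this
    exact_mod_cast this
  have hinj : Set.InjOn (fun x => (x - m) / B) (F : Set ℕ) := by
    intro x hx y hy hxy
    simp only at hxy
    have a1 := Nat.div_mul_cancel (hdvd x (Finset.mem_coe.1 hx))
    have a2 := Nat.div_mul_cancel (hdvd y (Finset.mem_coe.1 hy))
    rw [hxy, a2] at a1
    have a3 := hle x (Finset.mem_coe.1 hx)
    have a4 := hle y (Finset.mem_coe.1 hy)
    omega
  have hsub : F.image (fun x => (x - m) / B) ⊆ Finset.range (⌊L / B⌋₊ + 1) := by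
    intro k hk
    obtain ⟨x, hx, rfl⟩ := Finset.mem_image.1 hk
    rw [Finset.mem_range, Nat.lt_succ_iff]
    apply Nat.le_floor
    have a1 : (((x - m) / B : ℕ) : ℝ) ≤ ((x - m : ℕ) : ℝ) / B := Nat.cast_div_le
    refine a1.trans (div_le_div_of_nonneg_right ?_ hBr.le)
    rw [Nat.cast_sub (hle x hx)]
    exact h2 x hx m hm
  have hc := Finset.card_le_card hsub
  rw [Finset.card_image_of_injOn hinj, Finset.card_range] at hc
  have hc' : (F.card : ℝ) ≤ (⌊L / B⌋₊ : ℝ) + 1 := by exact_mod_cast hc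
  have := Nat.floor_le (show 0 ≤ L / B by positivity)
  linarith

/-- number of nonzero integers of absolute value at most `M` -/
theorem U2_ints (N : Finset ℤ) (M : ℝ) (hM : 0 ≤ M) (h0 : ∀ n ∈ N, n ≠ 0)
    (h : ∀ n ∈ N, |(n : ℝ)| ≤ M) : (N.card : ℝ) ≤ 2 * M := by
  have hsub : N ⊆ (Finset.Icc (-(⌊M⌋₊ : ℤ)) (⌊M⌋₊ : ℤ)).erase 0 := by
    intro n hn
    rw [Finset.mem_erase, Finset.mem_Icc]
    refine ⟨h0 n hn, ?_⟩
    have h1 := h n hn
    have h2 : n.natAbs ≤ ⌊M⌋₊ := by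
      apply Nat.le_floor
      rw [Nat.cast_natAbs, Int.cast_abs]
      exact h1
    omega
  have hc := Finset.card_le_card hsub
  rw [Finset.card_erase_of_mem (by simp), Int.card_Icc] at hc
  have h3 : N.card ≤ 2 * ⌊M⌋₊ := by omega
  have h4 : (N.card : ℝ) ≤ 2 * (⌊M⌋₊ : ℝ) := by exact_mod_cast h3
  have := Nat.floor_le hM
  linarith

open Classical in
theorem U2_count (γ : ℝ) (B : ℕ) (A : ℤ) (hB : 0 < B) (co : IsCoprime A (B : ℤ)) (δ : ℝ)
    (hδ : 0 < δ) (u : ℕ) (F : Finset ℕ)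
    (hF : ∀ h ∈ F, h < u ∧ ∃ t : ℤ, |(t : ℝ) - γ * h| < δ ∧ t * B - h * A ≠ 0) :
    (F.card : ℝ) ≤ 6 * δ * u + 2 * B * δ + 2 * |(B : ℝ) * γ - A| * u := by
  have hBr : (0 : ℝ) < B := by exact_mod_cast hB
  set θ : ℝ := (B : ℝ) * γ - A with hθ
  choose! tt htt using fun h (hh : h ∈ F) => (hF h hh).2
  set f : ℕ → ℤ := fun h => tt h * B - h * A with hf
  have hreal : ∀ h ∈ F, ((f h : ℤ) : ℝ) - θ * h = B * ((tt h : ℝ) - γ * h) := by
    intro h _
    rw [hf, hθ]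
    push_cast
    ring
  have hdist : ∀ h ∈ F, |((f h : ℤ) : ℝ) - θ * h| < B * δ := by
    intro h hh
    rw [hreal h hh, abs_mul, abs_of_pos hBr]
    exact mul_lt_mul_of_pos_left (htt h hh).1 hBr
  set M : ℝ := B * δ + |θ| * u with hM
  have hM0 : 0 < M := by positivity
  have hbound : ∀ n ∈ F.image f, |((n : ℤ) : ℝ)| ≤ M := by
    intro n hn
    obtain ⟨h, hh, rfl⟩ := Finset.mem_image.1 hn
    have h1 := hdist h hh
    have h2 : |θ * h| ≤ |θ| * u := by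
      rw [abs_mul, abs_of_nonneg (Nat.cast_nonneg h : (0 : ℝ) ≤ h)]
      exact mul_le_mul_of_nonneg_left (by exact_mod_cast (hF h hh).1.le) (abs_nonneg _)
    have h3 : |((f h : ℤ) : ℝ)| ≤ |((f h : ℤ) : ℝ) - θ * h| + |θ * h| := by
      have := abs_add_le (((f h : ℤ) : ℝ) - θ * h) (θ * h)
      rwa [sub_add_cancel] at this
    linarith
  have hcard : ((F.image f).card : ℝ) ≤ 2 * M := by
    refine U2_ints _ M hM0.le ?_ hbound
    intro n hn
    obtain ⟨h, hh, rfl⟩ := Finset.mem_image.1 hn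
    exact (htt h hh).2
  set R : ℝ := 6 * δ * u + 2 * B * δ + 2 * |θ| * u with hR
  have hR0 : 0 ≤ R := by positivity
  have hfib : ∀ n ∈ F.image f, (2 * M) * ((F.filter (fun h => f h = n)).card : ℝ) ≤ R := by
    intro n hn
    have hdvd : ∀ x ∈ F.filter (fun h => f h = n), ∀ y ∈ F.filter (fun h => f h = n),
        (B : ℤ) ∣ (x : ℤ) - y := by
      intro x hx y hy
      have hx' := (Finset.mem_filter.1 hx).2
      have hy' := (Finset.mem_filter.1 hy).2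
      have h1 : (B : ℤ) ∣ ((x : ℤ) - y) * A := by
        refine ⟨tt x - tt y, ?_⟩
        have : tt x * B - x * A = tt y * B - y * A := hx'.trans hy'.symm
        linear_combination -this
      exact co.symm.dvd_of_dvd_mul_right h1
    have c1 : ((F.filter (fun h => f h = n)).card : ℝ) ≤ (u : ℝ) / B + 1 := by
      refine U2_fiber _ B hB u (Nat.cast_nonneg _) hdvd ?_
      intro x hx y hy
      have h1 : (x : ℝ) ≤ u := by exact_mod_cast (hF x (Finset.mem_filter.1 hx).1).1.le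
      have h2 : (0 : ℝ) ≤ y := Nat.cast_nonneg _
      linarith
    have c2 : |θ| * ((F.filter (fun h => f h = n)).card : ℝ) ≤ 2 * δ + |θ| := by
      rcases eq_or_ne θ 0 with h0 | h0
      · rw [h0, abs_zero, zero_mul]
        linarith
      · have hθ0 : 0 < |θ| := abs_pos.2 h0
        have c3 : ((F.filter (fun h => f h = n)).card : ℝ) ≤ (2 * (B * δ) / |θ|) / B + 1 := by
          refine U2_fiber _ B hB _ (by positivity) hdvd ?_
          intro x hx y hy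
          have hx' := Finset.mem_filter.1 hx
          have hy' := Finset.mem_filter.1 hy
          have d1 := hdist x hx'.1
          have d2 := hdist y hy'.1
          rw [hx'.2] at d1
          rw [hy'.2] at d2
          have d3 : |θ| * |(x : ℝ) - y| < 2 * (B * δ) := by
            rw [← abs_mul]
            have d4 : θ * ((x : ℝ) - y) = ((n : ℝ) - θ * y) - ((n : ℝ) - θ * x) := by ring
            rw [d4]
            have := abs_sub ((n : ℝ) - θ * y) ((n : ℝ) - θ * x)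
            linarith
          have d5 : (x : ℝ) - y ≤ |(x : ℝ) - y| := le_abs_self _
          rw [le_div_iff₀ hθ0]
          nlinarith
        have c4 := mul_le_mul_of_nonneg_left c3 hθ0.le
        have c5 : |θ| * ((2 * (B * δ) / |θ|) / B + 1) = 2 * δ + |θ| := by
          field_simp
        linarith
    have c6 : (B * δ) * ((F.filter (fun h => f h = n)).card : ℝ) ≤ δ * u + B * δ := by
      have := mul_le_mul_of_nonneg_left c1 (show 0 ≤ B * δ by positivity)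
      have e : B * δ * ((u : ℝ) / B + 1) = δ * u + B * δ := by field_simp
      linarith
    have hu0 : (0 : ℝ) ≤ u := Nat.cast_nonneg _
    have c7 := mul_le_mul_of_nonneg_right c2 hu0
    rw [hM, hR]
    nlinarith
  have hsum : (F.card : ℝ) = ∑ n ∈ F.image f, ((F.filter (fun h => f h = n)).card : ℝ) := by
    rw [Finset.card_eq_sum_card_image f F]
    push_cast
    rfl
  have h5 : (2 * M) * (F.card : ℝ) ≤ (2 * M) * R := by
    rw [hsum, Finset.mul_sum]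
    calc ∑ n ∈ F.image f, 2 * M * ((F.filter (fun h => f h = n)).card : ℝ)
        ≤ ∑ _n ∈ F.image f, R := Finset.sum_le_sum hfib
      _ = ((F.image f).card : ℝ) * R := by rw [Finset.sum_const, nsmul_eq_mul]
      _ ≤ (2 * M) * R := mul_le_mul_of_nonneg_right hcard hR0
  exact le_of_mul_le_mul_left h5 (by positivity)

theorem U2_q1_pos (q r : ℕ) (hq : 0 < q) : 0 < q1 q r := by
  have h := Vale.Agent.P028EV.q1_mul q r
  rcases Nat.eq_zero_or_pos (q1 q r) with h0 | h0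
  · rw [h0, zero_mul] at h
    omega
  · exact h0

theorem U2_term (ψ : ℕ → ℝ) (hψ : ∀ q, 0 ≤ ψ q) (q r : ℕ) (hq : 0 < q) :
    ψ r / Dm ψ q r ≤ 1 / (q1 q r : ℝ) := by
  have hq1 : (0 : ℝ) < q1 q r := by exact_mod_cast U2_q1_pos q r hq
  rcases (hψ r).eq_or_lt with h | h
  · rw [← h, zero_div]
    positivity
  · have h2 : (q1 q r : ℝ) * ψ r ≤ Dm ψ q r := le_max_right _ _
    have h3 : 0 < (q1 q r : ℝ) * ψ r := mul_pos hq1 h
    calc ψ r / Dm ψ q r ≤ ψ r / ((q1 q r : ℝ) * ψ r) :=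
          div_le_div_of_nonneg_left h.le h3 h2
      _ = 1 / (q1 q r : ℝ) := by
          field_simp

/-- `w q τ(q) ≥ 1` -/
theorem U2_w (q : ℕ) (hq : 0 < q) : 1 ≤ w q * (q.divisors.card : ℝ) := by
  have h1 := Nat.totient_eq_mul_prod_factors q
  have h2 : (Nat.totient q : ℝ) = q * ∏ p ∈ q.primeFactors, (1 - (p : ℝ)⁻¹) := by
    have h3 : ((Nat.totient q : ℚ) : ℝ) =
        ((q * ∏ p ∈ q.primeFactors, (1 - ((p : ℚ))⁻¹) : ℚ) : ℝ) := by
      rw [h1]
    push_cast at h3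
    exact h3
  have hqr : (0 : ℝ) < q := by exact_mod_cast hq
  have hw : w q = ∏ p ∈ q.primeFactors, (1 - (p : ℝ)⁻¹) := by
    unfold Vale.Agent.P028KM.w
    rw [h2]
    field_simp
  rw [hw, Nat.card_divisors hq.ne']
  push_cast
  rw [← Finset.prod_mul_distrib]
  have : ∀ p ∈ q.primeFactors, (1 : ℝ) ≤ (1 - (p : ℝ)⁻¹) * ((q.factorization p : ℝ) + 1) := by
    intro p hp
    have hpp := Nat.prime_of_mem_primeFactors hp
    have hp2 : (2 : ℝ) ≤ p := by exact_mod_cast hpp.two_le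
    have h4 : (p : ℝ)⁻¹ ≤ 1 / 2 := by
      rw [inv_eq_one_div]
      exact one_div_le_one_div_of_le (by norm_num) hp2
    have h5 : 1 ≤ q.factorization p :=
      (hpp.dvd_iff_one_le_factorization hq.ne').1 (Nat.dvd_of_mem_primeFactors hp)
    have h6 : (1 : ℝ) ≤ q.factorization p := by exact_mod_cast h5
    nlinarith
  calc (1 : ℝ) = ∏ _p ∈ q.primeFactors, (1 : ℝ) := by rw [Finset.prod_const_one]
    _ ≤ _ := Finset.prod_le_prod (fun _ _ => zero_le_one) this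

open Classical in
theorem U2_card (ε X γ : ℝ) (B : ℕ) (A : ℤ) (ψ : ℕ → ℝ) (S : Finset ℕ) (hε : 0 < ε) (hX : 2 ≤ X)
    (hB : Blk2 ε X γ B A ψ S) (κ : ℝ) (hκ : 0 < κ) (hκ2 : X ^ (-(ε / 8)) ≤ κ) (q : ℕ) (hqS : q ∈ S)
    (u : ℕ) :
    (((S.filter (fun r => r < q ∧ NDc γ B A ψ q r ∧ Dm ψ q r < κ)).filter
      (fun r => q1 q r = u)).card : ℝ) ≤ u * (32 * κ) := by
  have hXpos : 0 < X := by linarith
  set T := (S.filter (fun r => r < q ∧ NDc γ B A ψ q r ∧ Dm ψ q r < κ)).filter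
    (fun r => q1 q r = u) with hT
  have hS : ∀ r ∈ S, 0 < r := by
    intro r hr
    have h1 := hB.lo r hr
    have h2 : (0 : ℝ) < r := by linarith
    exact_mod_cast h2
  have hq := hS q hqS
  have key : ∀ r ∈ T, r ∈ S ∧ 0 < r1 q r ∧ r1 q r < u ∧ q1 q r = u ∧ NDc γ B A ψ q r ∧
      Dm ψ q r < κ := by
    intro r hr
    rw [hT, mem_filter, mem_filter] at hr
    obtain ⟨⟨hrS, hrq, hco, hdm⟩, hu⟩ := hr
    have hr0 := hS r hrS
    have e1 := Vale.Agent.P028EV.q1_mul q r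
    have e2 := Vale.Agent.P028EV.r1_mul q r
    refine ⟨hrS, ?_, ?_, hu, hco, hdm⟩
    · rcases Nat.eq_zero_or_pos (r1 q r) with h0 | h0
      · rw [h0, zero_mul] at e2
        omega
      · exact h0
    · rw [← hu]
      refine lt_of_mul_lt_mul_right (a := Nat.gcd q r) ?_ (Nat.zero_le _)
      rw [e1, e2]
      exact hrq
  have hinj : Set.InjOn (fun r => u - r1 q r) (T : Set ℕ) := by
    intro r hr r' hr' h
    obtain ⟨-, a1, a2, a3, -, -⟩ := key r (Finset.mem_coe.1 hr)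
    obtain ⟨-, b1, b2, b3, -, -⟩ := key r' (Finset.mem_coe.1 hr')
    simp only at h
    have h1 : r1 q r = r1 q r' := by omega
    have e1 := Vale.Agent.P028EV.q1_mul q r
    have e1' := Vale.Agent.P028EV.q1_mul q r'
    have e2 := Vale.Agent.P028EV.r1_mul q r
    have e2' := Vale.Agent.P028EV.r1_mul q r'
    rw [a3] at e1
    rw [b3] at e1'
    have h2 : Nat.gcd q r = Nat.gcd q r' := by
      have hu0 : 0 < u := by omega
      exact Nat.eq_of_mul_eq_mul_left hu0 (e1.trans e1'.symm)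
    rw [← e2, ← e2', h1, h2]
  have hcard : (T.image (fun r => u - r1 q r)).card = T.card := Finset.card_image_of_injOn hinj
  have hur : (0 : ℝ) ≤ u := Nat.cast_nonneg _
  -- the data of one element
  have hel : ∀ r ∈ T, ∃ t : ℤ, |(t : ℝ) - γ * ((u - r1 q r : ℕ) : ℝ)| < Del ψ q r ∧
      t * B - ((u - r1 q r : ℕ) : ℤ) * A ≠ 0 := by
    intro r hr
    obtain ⟨-, a1, a2, a3, ⟨-, t, ht, hn⟩, a5⟩ := key r hr
    refine ⟨t, ?_, ?_⟩
    · have h1 := (Finset.mem_filter.1 ht).2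
      have hcast : ((u - r1 q r : ℕ) : ℝ) = -((hh q r : ℤ) : ℝ) := by
        rw [Nat.cast_sub a2.le]
        unfold Vale.Agent.P028EV.hh
        rw [a3]
        push_cast
        ring
      rw [hcast]
      have : (t : ℝ) - γ * -((hh q r : ℤ) : ℝ) = (t : ℝ) + γ * ((hh q r : ℤ) : ℝ) := by ring
      rw [this]
      exact h1
    · have hcast : ((u - r1 q r : ℕ) : ℤ) = -(hh q r) := by
        rw [Nat.cast_sub a2.le]
        unfold Vale.Agent.P028EV.hh
        rw [a3]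
        ring
      rw [hcast]
      intro h0
      apply hn
      unfold nt
      linear_combination h0
  have hdel : ∀ r ∈ T, Del ψ q r < 2 * κ := by
    intro r hr
    obtain ⟨-, -, -, -, -, a5⟩ := key r hr
    have h1 : (r1 q r : ℝ) * ψ q ≤ Dm ψ q r := le_max_left _ _
    have h2 : (q1 q r : ℝ) * ψ r ≤ Dm ψ q r := le_max_right _ _
    unfold Vale.Agent.P028EV.Del
    linarith
  rcases T.eq_empty_or_nonempty with hTe | ⟨r0, hr0⟩
  · rw [hTe, card_empty]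
    push_cast
    positivity
  -- lower bound for `u`
  have hpow : ∀ s ∈ S, ψ s ≤ X ^ (-ε) := by
    intro s hs
    refine (hB.psi1 s hs).trans ?_
    exact Real.rpow_le_rpow_of_nonpos hXpos (hB.lo s hs) (by linarith)
  have hu4 : X ^ (ε / 8) ≤ 4 * u := by
    obtain ⟨hrS, a1, a2, a3, -, -⟩ := key r0 hr0
    obtain ⟨t, ht, hn⟩ := hel r0 hr0
    set h : ℕ := u - r1 q r0 with hh0
    have hhu : (h : ℝ) ≤ u := by exact_mod_cast Nat.sub_le _ _
    have hh1 : (0 : ℝ) ≤ h := Nat.cast_nonneg _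
    have hBr : (0 : ℝ) < B := by exact_mod_cast hB.hB
    have hn1 : (1 : ℝ) ≤ |((t * B - (h : ℤ) * A : ℤ) : ℝ)| := by
      have := Int.one_le_abs hn
      exact_mod_cast this
    have e : ((t * B - (h : ℤ) * A : ℤ) : ℝ) = B * ((t : ℝ) - γ * h) + ((B : ℝ) * γ - A) * h := by
      push_cast
      ring
    rw [e] at hn1
    have h2 : |(B : ℝ) * ((t : ℝ) - γ * h) + ((B : ℝ) * γ - A) * h| ≤
        B * |(t : ℝ) - γ * h| + |(B : ℝ) * γ - A| * h := by
      refine (abs_add_le _ _).trans ?_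
      rw [abs_mul, abs_mul, abs_of_pos hBr, abs_of_nonneg hh1]
    have h3 : Del ψ q r0 ≤ 2 * u * X ^ (-ε) := by
      unfold Vale.Agent.P028EV.Del
      rw [a3]
      have b1 : (r1 q r0 : ℝ) ≤ u := by exact_mod_cast a2.le
      have b2 := hpow q hqS
      have b3 := hpow r0 hrS
      have b4 := hB.psi0 q
      have b5 : (r1 q r0 : ℝ) * ψ q ≤ u * X ^ (-ε) :=
        mul_le_mul b1 b2 b4 hur
      have b6 : (u : ℝ) * ψ r0 ≤ u * X ^ (-ε) := mul_le_mul_of_nonneg_left b3 hur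
      linarith
    have h4 : (B : ℝ) * |(t : ℝ) - γ * h| ≤ X ^ (ε / 8) * (2 * u * X ^ (-ε)) :=
      mul_le_mul hB.hBX (ht.le.trans h3) (abs_nonneg _) (by positivity)
    have h5 : |(B : ℝ) * γ - A| * h ≤ (2 * X ^ (-(ε / 8))) * u :=
      mul_le_mul hB.ap hhu hh1 (by positivity)
    have h6 : X ^ (ε / 8) * (2 * u * X ^ (-ε)) ≤ 2 * u * X ^ (-(ε / 8)) := by
      have : X ^ (ε / 8) * X ^ (-ε) ≤ X ^ (-(ε / 8)) := by
        rw [← Real.rpow_add hXpos]
        exact Real.rpow_le_rpow_of_exponent_le (by linarith) (by linarith)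
      calc X ^ (ε / 8) * (2 * u * X ^ (-ε)) = 2 * u * (X ^ (ε / 8) * X ^ (-ε)) := by ring
        _ ≤ 2 * u * X ^ (-(ε / 8)) := mul_le_mul_of_nonneg_left this (by positivity)
    have h7 : (1 : ℝ) ≤ 4 * u * X ^ (-(ε / 8)) := by linarith
    have h8 : 0 < X ^ (ε / 8) := by positivity
    have h9 : X ^ (ε / 8) * X ^ (-(ε / 8)) = 1 := by
      rw [← Real.rpow_add hXpos, add_neg_cancel, Real.rpow_zero]
    have h10 := mul_le_mul_of_nonneg_left h7 h8.le
    have h11 : X ^ (ε / 8) * (4 * u * X ^ (-(ε / 8))) = 4 * u := by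
      calc X ^ (ε / 8) * (4 * u * X ^ (-(ε / 8))) =
          4 * u * (X ^ (ε / 8) * X ^ (-(ε / 8))) := by ring
        _ = 4 * u := by rw [h9, mul_one]
    linarith
  have hmain := U2_count γ B A hB.hB hB.co (2 * κ) (by positivity) u
    (T.image (fun r => u - r1 q r)) (by
      intro h hh'
      obtain ⟨r, hr, rfl⟩ := Finset.mem_image.1 hh'
      obtain ⟨-, a1, a2, a3, -, -⟩ := key r hr
      obtain ⟨t, ht, hn⟩ := hel r hr
      exact ⟨by omega, t, ht.trans (hdel r hr), hn⟩)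
  rw [hcard] at hmain
  have g1 : 2 * (B : ℝ) * (2 * κ) ≤ 16 * κ * u := by
    have := hB.hBX.trans hu4
    nlinarith
  have g2 : 2 * |(B : ℝ) * γ - A| * u ≤ 4 * κ * u := by
    have : |(B : ℝ) * γ - A| ≤ 2 * κ := hB.ap.trans (by linarith)
    nlinarith
  nlinarith

open Classical in
theorem U2_sum (ε X γ : ℝ) (B : ℕ) (A : ℤ) (ψ : ℕ → ℝ) (S : Finset ℕ) (hε : 0 < ε) (hX : 2 ≤ X)
    (hB : Blk2 ε X γ B A ψ S) (κ : ℝ) (hκ : 0 < κ) (hκ2 : X ^ (-(ε / 8)) ≤ κ) (q : ℕ)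
    (hqS : q ∈ S) :
    ∑ r ∈ S with r < q ∧ NDc γ B A ψ q r ∧ Dm ψ q r < κ, ψ r / Dm ψ q r ≤
      (q.divisors.card : ℝ) * (32 * κ) := by
  have hq : 0 < q := by
    have h1 := hB.lo q hqS
    have h2 : (0 : ℝ) < q := by linarith
    exact_mod_cast h2
  set T := S.filter (fun r => r < q ∧ NDc γ B A ψ q r ∧ Dm ψ q r < κ) with hT
  have h1 : ∑ r ∈ T, ψ r / Dm ψ q r ≤ ∑ r ∈ T, 1 / (q1 q r : ℝ) :=
    Finset.sum_le_sum fun r _ => U2_term ψ hB.psi0 q r hq
  refine h1.trans ?_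
  have hmap : ∀ r ∈ T, q1 q r ∈ q.divisors := by
    intro r _
    rw [Nat.mem_divisors]
    exact ⟨⟨Nat.gcd q r, (Vale.Agent.P028EV.q1_mul q r).symm⟩, by omega⟩
  rw [← Finset.sum_fiberwise_of_maps_to hmap (fun r => 1 / (q1 q r : ℝ))]
  have h2 : ∀ u ∈ q.divisors, ∑ r ∈ T with q1 q r = u, 1 / (q1 q r : ℝ) ≤ 32 * κ := by
    intro u hu
    have hu0 : 0 < u := Nat.pos_of_mem_divisors hu
    have hur : (0 : ℝ) < u := by exact_mod_cast hu0
    have h3 : ∑ r ∈ T with q1 q r = u, 1 / (q1 q r : ℝ) =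
        ((T.filter (fun r => q1 q r = u)).card : ℝ) * (1 / (u : ℝ)) := by
      rw [← nsmul_eq_mul, ← Finset.sum_const]
      refine Finset.sum_congr rfl fun r hr => ?_
      rw [(Finset.mem_filter.1 hr).2]
    rw [h3]
    have h4 := U2_card ε X γ B A ψ S hε hX hB κ hκ hκ2 q hqS u
    rw [← hT] at h4
    rw [mul_one_div, div_le_iff₀ hur]
    linarith
  refine (Finset.sum_le_sum h2).trans ?_
  rw [Finset.sum_const, nsmul_eq_mul]

open Classical in
theorem u2 (ε : ℝ) (hε : 0 < ε) (hε1 : ε ≤ 1) : ∃ c : ℝ, 0 < c ∧ ∃ X0 : ℝ, 2 ≤ X0 ∧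
    ∀ (X γ : ℝ) (B : ℕ) (A : ℤ) (ψ : ℕ → ℝ) (S : Finset ℕ), X0 ≤ X → Blk2 ε X γ B A ψ S →
    ∑ q ∈ S, ∑ r ∈ S with r < q ∧ NDc γ B A ψ q r ∧ Dm ψ q r < X ^ (-cS ε),
      20 * ψ q * ψ r / Dm ψ q r ≤ X ^ (-c) * (∑ q ∈ S, mu ψ q) := by
  have ha : 0 < cS ε := by
    unfold cS
    positivity
  have ha8 : cS ε ≤ ε / 8 := by
    unfold cS
    linarith
  generalize cS ε = a at ha ha8
  obtain ⟨Cd, hCd, hdv⟩ := Vale.Agent.P028KM.dv (a / 32) (by positivity)
  have hlim := tendsto_rpow_atTop (show 0 < a / 2 by positivity)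
  obtain ⟨X1, hX1⟩ := Filter.eventually_atTop.1 (hlim.eventually_ge_atTop (640 * Cd ^ 2))
  refine ⟨a / 4, by positivity, max 2 X1, le_max_left _ _, ?_⟩
  intro X γ B A ψ S hX hB
  have hX2 : 2 ≤ X := (le_max_left _ _).trans hX
  have hXpos : 0 < X := by linarith
  have hXb := hX1 X ((le_max_right _ _).trans hX)
  have hκ0 : 0 < X ^ (-a) := by positivity
  have hκ2 : X ^ (-(ε / 8)) ≤ X ^ (-a) :=
    Real.rpow_le_rpow_of_exponent_le (by linarith) (by linarith)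
  rw [Finset.mul_sum]
  refine Finset.sum_le_sum fun q hq => ?_
  have hq0 : 0 < q := by
    have h1 := hB.lo q hq
    have h2 : (0 : ℝ) < q := by linarith
    exact_mod_cast h2
  have h5 := U2_sum ε X γ B A ψ S hε hX2 hB (X ^ (-a)) hκ0 hκ2 q hq
  have h6 : ∑ r ∈ S with r < q ∧ NDc γ B A ψ q r ∧ Dm ψ q r < X ^ (-a),
      20 * ψ q * ψ r / Dm ψ q r =
      20 * ψ q * ∑ r ∈ S with r < q ∧ NDc γ B A ψ q r ∧ Dm ψ q r < X ^ (-a), ψ r / Dm ψ q r := by
    rw [Finset.mul_sum]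
    exact Finset.sum_congr rfl fun r _ => mul_div_assoc _ _ _
  rw [h6]
  have hψq := hB.psi0 q
  refine (mul_le_mul_of_nonneg_left h5 (by positivity)).trans ?_
  have h7 := hdv q hq0
  have hq4 : (q : ℝ) ^ (a / 32) ≤ X ^ (a / 8) := by
    have h8 : (q : ℝ) ^ (a / 32) ≤ (X ^ 4) ^ (a / 32) :=
      Real.rpow_le_rpow (Nat.cast_nonneg q) (hB.hi q hq) (by positivity)
    refine h8.trans (le_of_eq ?_)
    rw [← Real.rpow_natCast, ← Real.rpow_mul hXpos.le]
    congr 1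
    push_cast
    ring
  set τ : ℝ := (q.divisors.card : ℝ) with hτ
  have hτ0 : 0 ≤ τ := Nat.cast_nonneg _
  have h9 : τ ≤ Cd * X ^ (a / 8) := h7.trans (mul_le_mul_of_nonneg_left hq4 hCd.le)
  have hw := U2_w q hq0
  rw [← hτ] at hw
  have hw0 : 0 ≤ w q := by
    unfold Vale.Agent.P028KM.w
    positivity
  have h10 : 640 * τ ^ 2 * X ^ (-a) ≤ X ^ (-(a / 4)) := by
    have e1 : τ ^ 2 ≤ (Cd * X ^ (a / 8)) ^ 2 := pow_le_pow_left₀ hτ0 h9 2
    have e2 : (Cd * X ^ (a / 8)) ^ 2 = Cd ^ 2 * X ^ (a / 4) := by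
      rw [mul_pow, ← Real.rpow_natCast (X ^ (a / 8)), ← Real.rpow_mul hXpos.le]
      congr 2
      push_cast
      ring
    rw [e2] at e1
    have e3 : X ^ (a / 4) * X ^ (-a) = X ^ (-(a / 4)) * X ^ (-(a / 2)) := by
      rw [← Real.rpow_add hXpos, ← Real.rpow_add hXpos]
      congr 1
      ring
    have e4 : (640 * Cd ^ 2) * X ^ (-(a / 2)) ≤ 1 := by
      have e5 : X ^ (a / 2) * X ^ (-(a / 2)) = 1 := by
        rw [← Real.rpow_add hXpos, add_neg_cancel, Real.rpow_zero]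
      calc (640 * Cd ^ 2) * X ^ (-(a / 2)) ≤ X ^ (a / 2) * X ^ (-(a / 2)) :=
            mul_le_mul_of_nonneg_right hXb (by positivity)
        _ = 1 := e5
    calc 640 * τ ^ 2 * X ^ (-a) ≤ 640 * (Cd ^ 2 * X ^ (a / 4)) * X ^ (-a) := by gcongr
      _ = (640 * Cd ^ 2) * (X ^ (a / 4) * X ^ (-a)) := by ring
      _ = X ^ (-(a / 4)) * ((640 * Cd ^ 2) * X ^ (-(a / 2))) := by rw [e3]; ring
      _ ≤ X ^ (-(a / 4)) * 1 := mul_le_mul_of_nonneg_left e4 (by positivity)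
      _ = X ^ (-(a / 4)) := mul_one _
  unfold Vale.Agent.P028KM.mu
  calc 20 * ψ q * (τ * (32 * X ^ (-a))) = ψ q * (640 * τ * X ^ (-a)) := by ring
    _ ≤ ψ q * ((640 * τ * X ^ (-a)) * (w q * τ)) := by
        refine mul_le_mul_of_nonneg_left ?_ hψq
        exact le_mul_of_one_le_right (by positivity) hw
    _ = ψ q * w q * (640 * τ ^ 2 * X ^ (-a)) := by ring
    _ ≤ ψ q * w q * X ^ (-(a / 4)) := mul_le_mul_of_nonneg_left h10 (by positivity)
    _ = X ^ (-(a / 4)) * (w q * ψ q) := by ring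

end Vale.Agent.P028W
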